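import Vale.Agent.P154.St

namespace Vale.Agent.P154

noncomputable def ze (x : V) : ℝ := ((x 0 - 1) ^ 2 + (x 1 - 1) ^ 2 + (x 2 - 1) ^ 2) / 6

noncomputable def en (x : V) : ℝ := ((x 0 - 1) ^ 3 + (x 1 - 1) ^ 3 + (x 2 - 1) ^ 3) / 6

theorem ze_cont : Continuous ze := by unfold ze; fun_prop
theorem en_cont : Continuous en := by unfold en; fun_prop
theorem bd_ze : Bd ze := Bd.of_cont ze_cont
theorem bd_en : Bd en := Bd.of_cont en_cont
theorem bd_zz : Bd fun x => ze x ^ 2 := Bd.of_cont (ze_cont.pow 2)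
theorem bd_zn : Bd fun x => ze x * en x := bd_ze.mul bd_en

theorem ze_nonneg (x : V) : 0 ≤ ze x := by unfold ze; positivity

theorem ze_le_one {x : V} (h : Dl x) : ze x ≤ 1 := by
  have a0 := h.1 0; have a1 := h.1 1; have a2 := h.1 2; have e := h.2
  have e2 : (x 0 + x 1 + x 2) ^ 2 = 9 := by rw [e]; norm_num
  unfold ze
  nlinarith [mul_nonneg a0 a1, mul_nonneg a0 a2, mul_nonneg a1 a2]

theorem en_sq_le {x : V} (h : Dl x) : en x ^ 2 ≤ ze x ^ 3 := by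
  have e : x 2 = 3 - x 0 - x 1 := by linarith [h.2]
  have : ze x ^ 3 - en x ^ 2 = ((x 0 - x 1) * (x 1 - x 2) * (x 0 - x 2)) ^ 2 / 108 := by
    unfold ze en; rw [e]; ring
  have h2 : 0 ≤ ((x 0 - x 1) * (x 1 - x 2) * (x 0 - x 2)) ^ 2 / 108 := by positivity
  linarith

theorem en_le_ze {x : V} (h : Dl x) : en x ≤ ze x := by
  have h1 := en_sq_le h
  have h2 := ze_nonneg x
  have h3 := ze_le_one h
  refine le_of_sq_le_sq_of_nonneg' ?_ h2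
  nlinarith [mul_nonneg (sq_nonneg (ze x)) (sub_nonneg.2 h3)]
where
  le_of_sq_le_sq_of_nonneg' {a b : ℝ} (h : a ^ 2 ≤ b ^ 2) (hb : 0 ≤ b) : a ≤ b :=
    (abs_le_of_sq_le_sq' h hb).2

theorem en_le_quad {x : V} (h : Dl x) : en x ≤ ze x ^ 2 + ze x / 4 := by
  have h1 := en_sq_le h
  have h2 := ze_nonneg x
  refine (abs_le_of_sq_le_sq' ?_ (by positivity)).2
  nlinarith [sq_nonneg (ze x ^ 2 - ze x / 4)]

noncomputable def Kv (a b c : ℝ) : ℝ :=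
  ((a ^ 2 + b ^ 2 + c ^ 2) / 3 - ((a + b + c) / 3) ^ 2) *
      (1 - ((a + b + c) / 3 - 1) + ((a + b + c) / 3 - 1) ^ 2 - ((a + b + c) / 3 - 1) ^ 3) / 2
    + ((a + b + c) / 3 - 1) ^ 4 * ((a + b + c) / 3)

theorem hom_ze_le {v : V} (hv : ∀ i, 0 ≤ v i) : hom ze v ≤ Kv (v 0) (v 1) (v 2) := by
  rcases eq_or_ne (av v) 0 with h0 | h0
  · simp [hom, h0, Kv, eq_zero_of_av hv h0]
  have h1 : hom ze v ≤ av v := by
    have := hom_mono (f := ze) (g := fun _ => 1) (fun x hx => ze_le_one hx) hv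
    rwa [hom_one] at this
  have e0 : (v 0 + v 1 + v 2) / 3 = av v := rfl
  have e1 : v 2 = 3 * av v - v 0 - v 1 := by unfold av; ring
  have h2 : hom ze v * av v = ((v 0 ^ 2 + v 1 ^ 2 + v 2 ^ 2) / 3 - av v ^ 2) / 2 := by
    simp only [hom, ze]
    rw [e1]
    generalize av v = D at h0
    field_simp
    ring
  unfold Kv
  rw [e0]
  generalize av v = D at h1 h2
  generalize hom ze v = R at h1 h2
  have h3 : (v 0 ^ 2 + v 1 ^ 2 + v 2 ^ 2) / 3 - D ^ 2 = 2 * (R * D) := by linarith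
  rw [h3]
  have h4 : 0 ≤ (D - 1) ^ 4 * (D - R) := mul_nonneg (by positivity) (by linarith)
  nlinarith

noncomputable def bil (z n zz zn z' n' zz' zn' : ℝ) : ℝ :=
  z * z' + 2 * z * n' + 2 * n * z' - 2 * z * zz' - 2 * zz * z' - 2 * n * n'
    - 2 * (n * zz' + zz * n') + 2 * (n * zn' + zn * n') - 2 * zz * zz'
    + 6 * (zz * zn' + zn * zz') - 8 * zn * zn'

set_option maxHeartbeats 1000000 in
theorem Kv_avg {x y : V} (hx : Dl x) (hy : Dl y) :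
    1 / 6 * (Kv (x 0 * y 0) (x 1 * y 1) (x 2 * y 2) + Kv (x 0 * y 1) (x 1 * y 0) (x 2 * y 2)
      + Kv (x 0 * y 0) (x 1 * y 2) (x 2 * y 1) + Kv (x 0 * y 2) (x 1 * y 1) (x 2 * y 0)
      + Kv (x 0 * y 1) (x 1 * y 2) (x 2 * y 0) + Kv (x 0 * y 2) (x 1 * y 0) (x 2 * y 1))
    = ze x + ze y - bil (ze x) (en x) (ze x ^ 2) (ze x * en x)
        (ze y) (en y) (ze y ^ 2) (ze y * en y) := by
  obtain ⟨a, ha⟩ : ∃ a, x 0 = 1 + a := ⟨x 0 - 1, by ring⟩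
  obtain ⟨b, hb⟩ : ∃ a, x 1 = 1 + a := ⟨x 1 - 1, by ring⟩
  obtain ⟨c, hc⟩ : ∃ a, y 0 = 1 + a := ⟨y 0 - 1, by ring⟩
  obtain ⟨d, hd⟩ : ∃ a, y 1 = 1 + a := ⟨y 1 - 1, by ring⟩
  have e : x 2 = 1 - a - b := by linarith [hx.2]
  have e' : y 2 = 1 - c - d := by linarith [hy.2]
  unfold Kv bil ze en
  rw [ha, hb, hc, hd, e, e']
  ring

theorem St.lin4 (S : St) (c0 c1 c2 c3 c4 : ℝ) :
    S.E (fun y => c0 + c1 * ze y + c2 * en y + c3 * ze y ^ 2 + c4 * (ze y * en y)) =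
      c0 + c1 * S.E ze + c2 * S.E en + c3 * S.E (fun y => ze y ^ 2)
        + c4 * S.E (fun y => ze y * en y) := by
  have b0 := Bd.const c0
  have b1 := bd_ze.cmul c1
  have b2 := bd_en.cmul c2
  have b3 := bd_zz.cmul c3
  have b4 := bd_zn.cmul c4
  rw [S.add _ _ (((b0.add b1).add b2).add b3) b4, S.add _ _ ((b0.add b1).add b2) b3,
    S.add _ _ (b0.add b1) b2, S.add _ _ b0 b1, S.const, S.cmul _ _ bd_ze, S.cmul _ _ bd_en,
    S.cmul _ _ bd_zz, S.cmul _ _ bd_zn]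

theorem bd_lin4 (c0 c1 c2 c3 c4 : ℝ) :
    Bd (fun y => c0 + c1 * ze y + c2 * en y + c3 * ze y ^ 2 + c4 * (ze y * en y)) :=
  ((((Bd.const c0).add (bd_ze.cmul c1)).add (bd_en.cmul c2)).add (bd_zz.cmul c3)).add
    (bd_zn.cmul c4)

theorem star_ze_le (S T : St) : (S.star T).E ze ≤ S.E ze + T.E ze -
    bil (S.E ze) (S.E en) (S.E fun y => ze y ^ 2) (S.E fun y => ze y * en y)
      (T.E ze) (T.E en) (T.E fun y => ze y ^ 2) (T.E fun y => ze y * en y) := by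
  set z' := T.E ze
  set n' := T.E en
  set zz' := T.E fun y => ze y ^ 2
  set zn' := T.E fun y => ze y * en y
  have key : ∀ x, Dl x → T.E (fun y => hom ze (x * y)) ≤
      z' + (1 - (z' + 2 * n' - 2 * zz')) * ze x + (-(2 * z' - 2 * n' - 2 * zz' + 2 * zn')) * en x
        + (-(-2 * z' - 2 * n' - 2 * zz' + 6 * zn')) * ze x ^ 2
        + (-(2 * n' + 6 * zz' - 8 * zn')) * (ze x * en x) := by
    intro x hx
    have hb : Bd fun y : V => Kv (x 0 * y 0) (x 1 * y 1) (x 2 * y 2) :=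
      Bd.of_cont (by unfold Kv; fun_prop)
    have h1 : T.E (fun y => hom ze (x * y)) ≤
        T.E (fun y => Kv (x 0 * y 0) (x 1 * y 1) (x 2 * y 2)) :=
      T.mono _ _ (bd_ze.homl hx) hb fun y hy => hom_ze_le (mul_nn hx.1 hy.1)
    have h2 := T.sym6 (fun a b c => Kv (x 0 * a) (x 1 * b) (x 2 * c)) hb
    have h3 := T.lin4 (ze x) (1 - (ze x + 2 * en x - 2 * ze x ^ 2))
      (-(2 * ze x - 2 * en x - 2 * ze x ^ 2 + 2 * (ze x * en x)))
      (-(-2 * ze x - 2 * en x - 2 * ze x ^ 2 + 6 * (ze x * en x)))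
      (-(2 * en x + 6 * ze x ^ 2 - 8 * (ze x * en x)))
    have h4 := T.congr (bd_lin4 (ze x) (1 - (ze x + 2 * en x - 2 * ze x ^ 2))
      (-(2 * ze x - 2 * en x - 2 * ze x ^ 2 + 2 * (ze x * en x)))
      (-(-2 * ze x - 2 * en x - 2 * ze x ^ 2 + 6 * (ze x * en x)))
      (-(2 * en x + 6 * ze x ^ 2 - 8 * (ze x * en x))))
      (fun y hy => ((Kv_avg hx hy).trans (by unfold bil; ring)).symm)
    rw [h2, ← h4, h3] at h1
    refine h1.trans_eq ?_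
    ring
  have h5 := S.mono _ _ (T.bd_inner bd_ze) (bd_lin4 _ _ _ _ _) key
  rw [S.lin4] at h5
  refine h5.trans_eq ?_
  unfold bil
  ring

theorem bil_ge {z n zz zn z' n' zz' zn' : ℝ}
    (h1 : 0 ≤ zz) (h2 : zz ≤ z) (h3 : zn ≤ zz) (h4 : n ≤ zz + z / 4)
    (h5 : 3 / 20 * (z - zz) + (zz - n) + 3 / 10 * (zz - zn) ≤ 7 / 20 * z)
    (h6 : zz - zn ≤ 11 / 50 * z)
    (k1 : 0 ≤ zz') (k2 : zz' ≤ z') (k3 : zn' ≤ zz') (k4 : n' ≤ zz' + z' / 4)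
    (k5 : 3 / 20 * (z' - zz') + (zz' - n') + 3 / 10 * (zz' - zn') ≤ 7 / 20 * z')
    (k6 : zz' - zn' ≤ 11 / 50 * z') :
    1 / 20 * (z * z') ≤ bil z n zz zn z' n' zz' zn' := by
  have a2 := sub_nonneg.2 h2; have a3 := sub_nonneg.2 h3; have a4 := sub_nonneg.2 h4
  have a5 := sub_nonneg.2 h5; have a6 := sub_nonneg.2 h6
  have b2 := sub_nonneg.2 k2; have b3 := sub_nonneg.2 k3; have b4 := sub_nonneg.2 k4
  have b5 := sub_nonneg.2 k5; have b6 := sub_nonneg.2 k6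
  unfold bil
  rcases le_total n zz with c7 | c7 <;> rcases le_total n' zz' with d7 | d7 <;>
  · have a7 := sub_nonneg.2 c7
    have b7 := sub_nonneg.2 d7
    linarith [mul_nonneg h1 k1, mul_nonneg h1 b2, mul_nonneg h1 b3, mul_nonneg h1 b4, mul_nonneg h1 b5, mul_nonneg h1 b6, mul_nonneg h1 b7,
      mul_nonneg a2 k1, mul_nonneg a2 b2, mul_nonneg a2 b3, mul_nonneg a2 b4, mul_nonneg a2 b5, mul_nonneg a2 b6, mul_nonneg a2 b7,
      mul_nonneg a3 k1, mul_nonneg a3 b2, mul_nonneg a3 b3, mul_nonneg a3 b4, mul_nonneg a3 b5, mul_nonneg a3 b6, mul_nonneg a3 b7,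
      mul_nonneg a4 k1, mul_nonneg a4 b2, mul_nonneg a4 b3, mul_nonneg a4 b4, mul_nonneg a4 b5, mul_nonneg a4 b6, mul_nonneg a4 b7,
      mul_nonneg a5 k1, mul_nonneg a5 b2, mul_nonneg a5 b3, mul_nonneg a5 b4, mul_nonneg a5 b5, mul_nonneg a5 b6, mul_nonneg a5 b7,
      mul_nonneg a6 k1, mul_nonneg a6 b2, mul_nonneg a6 b3, mul_nonneg a6 b4, mul_nonneg a6 b5, mul_nonneg a6 b6, mul_nonneg a6 b7,
      mul_nonneg a7 k1, mul_nonneg a7 b2, mul_nonneg a7 b3, mul_nonneg a7 b4, mul_nonneg a7 b5, mul_nonneg a7 b6, mul_nonneg a7 b7]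

end Vale.Agent.P154
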