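import Mathlib

namespace Vale.Agent.P154

def evG {α : Type} (φ : α → ℝ) : List α → ℝ → ℝ
  | [], _ => 0
  | c :: cs, x => φ c + x * evG φ cs x

def addP {α : Type} (add : α → α → α) : List α → List α → List α
  | [], q => q
  | c :: p, [] => c :: p
  | c :: p, d :: q => add c d :: addP add p q

def shiftP {α : Type} (add : α → α → α) : List α → List α
  | [] => []
  | c :: cs => addP add (c :: shiftP add cs) (shiftP add cs)

theorem evG_addP {α : Type} (φ : α → ℝ) (add : α → α → α)
    (h : ∀ a b, φ (add a b) = φ a + φ b) (x : ℝ) :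
    ∀ p q : List α, evG φ (addP add p q) x = evG φ p x + evG φ q x
  | [], q => by simp [addP, evG]
  | c :: p, [] => by simp [addP, evG]
  | c :: p, d :: q => by
      simp only [addP, evG, h, evG_addP φ add h x p q]; ring

theorem evG_shiftP {α : Type} (φ : α → ℝ) (add : α → α → α)
    (h : ∀ a b, φ (add a b) = φ a + φ b) (x : ℝ) :
    ∀ p : List α, evG φ (shiftP add p) x = evG φ p (x + 1)
  | [] => by simp [shiftP, evG]
  | c :: cs => by
      simp only [shiftP, evG_addP φ add h, evG, evG_shiftP φ add h x cs]; ring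

theorem evG_append {α : Type} (φ : α → ℝ) (x : ℝ) (q : List α) :
    ∀ p : List α, evG φ (p ++ q) x = evG φ p x + x ^ p.length * evG φ q x
  | [] => by simp [evG]
  | c :: p => by
      simp only [List.cons_append, evG, evG_append φ x q p, List.length_cons]; ring

theorem evG_reverse {α : Type} (φ : α → ℝ) (x : ℝ) (hx : x ≠ 0) :
    ∀ p : List α, x * evG φ p.reverse x = x ^ p.length * evG φ p x⁻¹
  | [] => by simp [evG]
  | c :: p => by
      have ih := evG_reverse φ x hx p
      simp only [List.reverse_cons, evG_append, evG, List.length_reverse, List.length_cons]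
      rw [mul_add, ih]
      field_simp
      ring

theorem evG_cont {α : Type} (φ : α → ℝ) : ∀ p : List α, Continuous (evG φ p)
  | [] => by
      have : evG φ [] = fun _ => (0 : ℝ) := by funext x; rfl
      rw [this]; exact continuous_const
  | c :: p => by
      have : evG φ (c :: p) = fun x => φ c + x * evG φ p x := by funext x; rfl
      rw [this]; exact continuous_const.add (continuous_id.mul (evG_cont φ p))

theorem evG_nonneg {α : Type} (φ : α → ℝ) (x : ℝ) (hx : 0 ≤ x) :
    ∀ p : List α, (∀ c ∈ p, 0 ≤ φ c) → 0 ≤ evG φ p x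
  | [], _ => le_rfl
  | c :: p, h => by
      have h1 := h c (by simp)
      have h2 := evG_nonneg φ x hx p (fun d hd => h d (by simp [hd]))
      simp only [evG]; positivity

def ev (p : List ℤ) (s : ℝ) : ℝ := evG (fun z : ℤ => (z : ℝ)) p s

def ev2 (M : List (List ℤ)) (u s : ℝ) : ℝ := evG (fun r => ev r s) M u

def addZ (a b : ℤ) : ℤ := a + b

def sU (M : List (List ℤ)) : List (List ℤ) := shiftP (addP addZ) M
def sS (M : List (List ℤ)) : List (List ℤ) := M.map (shiftP addZ)
def rS (M : List (List ℤ)) : List (List ℤ) := M.map List.reverse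

theorem addZ_cast (a b : ℤ) : ((addZ a b : ℤ) : ℝ) = (a : ℝ) + b := by simp [addZ]

theorem ev2_sU (M : List (List ℤ)) (u s : ℝ) : ev2 (sU M) u s = ev2 M (u + 1) s :=
  evG_shiftP _ _ (fun a b => evG_addP _ _ addZ_cast s a b) u M

theorem ev2_sS (u s : ℝ) : ∀ M : List (List ℤ), ev2 (sS M) u s = ev2 M u (s + 1)
  | [] => rfl
  | r :: M => by
      have ih := ev2_sS u s M
      simp only [ev2, sS, List.map_cons, evG] at ih ⊢
      rw [ih, ev, evG_shiftP _ _ addZ_cast]; rfl

theorem ev2_rS (u s : ℝ) (hs : s ≠ 0) (n : ℕ) : ∀ M : List (List ℤ), (∀ r ∈ M, r.length = n) →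
    s * ev2 (rS M) u s = s ^ n * ev2 M u s⁻¹
  | [], _ => by simp [ev2, rS, evG]
  | r :: M, h => by
      have ih := ev2_rS u s hs n M (fun d hd => h d (by simp [hd]))
      have h1 := evG_reverse (fun z : ℤ => (z : ℝ)) s hs r
      rw [h r (by simp)] at h1
      simp only [ev2, rS, List.map_cons, evG, ev] at ih ⊢
      rw [mul_add, h1, mul_left_comm, ih]; ring

theorem ev2_contS (u : ℝ) : ∀ M : List (List ℤ), Continuous (fun s => ev2 M u s)
  | [] => continuous_const
  | r :: M => by
      have ih := ev2_contS u M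
      simp only [ev2, evG] at ih ⊢
      exact (evG_cont _ r).add (continuous_const.mul ih)

theorem cont_nonneg {f : ℝ → ℝ} (hf : Continuous f) (h : ∀ x, 0 < x → x ≤ 1 → 0 ≤ f x) :
    0 ≤ f 0 := by
  have h1 : Filter.Tendsto f (nhdsWithin 0 (Set.Ioi 0)) (nhds (f 0)) :=
    (hf.tendsto 0).mono_left nhdsWithin_le_nhds
  refine ge_of_tendsto h1 ?_
  filter_upwards [Ioc_mem_nhdsGT (show (0 : ℝ) < 1 by norm_num)] with x hx using h x hx.1 hx.2

theorem unitU (M : List (List ℤ)) (s : ℝ) (h : ∀ u, 0 ≤ u → 0 ≤ ev2 (sU M.reverse) u s) :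
    ∀ u, 0 ≤ u → u ≤ 1 → 0 ≤ ev2 M u s := by
  have key : ∀ u, 0 < u → u ≤ 1 → 0 ≤ ev2 M u s := by
    intro u h0 h1
    have h2 : 1 ≤ u⁻¹ := (one_le_inv₀ h0).2 h1
    have h3 := h (u⁻¹ - 1) (by linarith)
    rw [ev2_sU, sub_add_cancel] at h3
    have h4 := evG_reverse (fun r => ev r s) u⁻¹ (inv_ne_zero h0.ne') M
    rw [inv_inv] at h4
    have h5 : 0 ≤ u⁻¹ ^ M.length * ev2 M u s := by
      unfold ev2 at h3 ⊢; rw [← h4]; positivity
    exact (mul_nonneg_iff_of_pos_left (by positivity)).1 h5
  intro u h0 h1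
  rcases h0.eq_or_lt with rfl | h0
  · exact cont_nonneg (f := fun u => ev2 M u s) (evG_cont _ M) key
  · exact key u h0 h1

theorem unitS (M : List (List ℤ)) (n : ℕ) (hn : ∀ r ∈ M, r.length = n) (u : ℝ)
    (h : ∀ s, 0 ≤ s → 0 ≤ ev2 (sS (rS M)) u s) :
    ∀ s, 0 ≤ s → s ≤ 1 → 0 ≤ ev2 M u s := by
  have key : ∀ s, 0 < s → s ≤ 1 → 0 ≤ ev2 M u s := by
    intro s h0 h1
    have h2 : 1 ≤ s⁻¹ := (one_le_inv₀ h0).2 h1
    have h3 := h (s⁻¹ - 1) (by linarith)
    rw [ev2_sS, sub_add_cancel] at h3
    have h4 := ev2_rS u s⁻¹ (inv_ne_zero h0.ne') n M hn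
    rw [inv_inv] at h4
    have h5 : 0 ≤ s⁻¹ ^ n * ev2 M u s := by rw [← h4]; positivity
    exact (mul_nonneg_iff_of_pos_left (by positivity)).1 h5
  intro s h0 h1
  rcases h0.eq_or_lt with rfl | h0
  · exact cont_nonneg (f := fun s => ev2 M u s) (ev2_contS u M) key
  · exact key s h0 h1

inductive Tr
  | L : Tr
  | U : Tr → Tr → Tr
  | S : Tr → Tr → Tr

def rect (n : ℕ) (M : List (List ℤ)) : Bool := M.all fun r => r.length == n

theorem rect_spec {n : ℕ} {M : List (List ℤ)} (h : rect n M = true) : ∀ r ∈ M, r.length = n := by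
  simpa [rect] using h

def check (n : ℕ) : Tr → List (List ℤ) → Bool
  | Tr.L, M => M.all fun r => r.all fun z => decide (0 ≤ z)
  | Tr.U a b, M => check n a (sU M) && check n b (sU M.reverse)
  | Tr.S a b, M => rect n M && (check n a (sS M) && check n b (sS (rS M)))

theorem check_sound (n : ℕ) : ∀ (t : Tr) (M : List (List ℤ)), check n t M = true →
    ∀ u s, 0 ≤ u → 0 ≤ s → 0 ≤ ev2 M u s
  | Tr.L, M, h => by
      intro u s hu hs
      simp only [check, List.all_eq_true, decide_eq_true_eq] at h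
      refine evG_nonneg _ u hu M fun r hr => evG_nonneg _ s hs r fun z hz => ?_
      exact_mod_cast h r hr z hz
  | Tr.U a b, M, h => by
      intro u s hu hs
      simp only [check, Bool.and_eq_true] at h
      rcases le_total u 1 with h1 | h1
      · exact unitU M s (fun v hv => check_sound n b _ h.2 v s hv hs) u hu h1
      · have := check_sound n a _ h.1 (u - 1) s (by linarith) hs
        rwa [ev2_sU, sub_add_cancel] at this
  | Tr.S a b, M, h => by
      intro u s hu hs
      simp only [check, Bool.and_eq_true] at h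
      rcases le_total s 1 with h1 | h1
      · exact unitS M n (rect_spec h.1) u (fun v hv => check_sound n b _ h.2.2 u v hu hv) s hs h1
      · have := check_sound n a _ h.2.1 u (s - 1) hu (by linarith)
        rwa [ev2_sS, sub_add_cancel] at this

def checkBox (n : ℕ) (t : Tr) (M : List (List ℤ)) : Bool :=
  rect n (sU M.reverse) && check n t (sS (rS (sU M.reverse)))

theorem checkBox_sound (n : ℕ) (t : Tr) (M : List (List ℤ)) (h : checkBox n t M = true)
    (u s : ℝ) (hu : 0 ≤ u) (hu1 : u ≤ 1) (hs : 0 ≤ s) (hs1 : s ≤ 1) : 0 ≤ ev2 M u s := by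
  simp only [checkBox, Bool.and_eq_true] at h
  refine unitU M s (fun v hv => ?_) u hu hu1
  exact unitS _ n (rect_spec h.1) v (fun w hw => check_sound n t _ h.2 v w hv hw) s hs hs1

end Vale.Agent.P154
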