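import Mathlib

namespace Vale.Agent.P154

/-- The Potts channel `P(j | i) = lam * 1[i = j] + (1 - lam) / q`. -/
noncomputable def pottsP (q : ℕ) (lam : ℝ) (i j : Fin q) : ℝ :=
  lam * (if i = j then 1 else 0) + (1 - lam) / q

/-- What the observer sees of a tree cut at depth `n`: at depth `0` the spin of the vertex,
at depth `n + 1` the list of the depth `n` observations of the subtrees of the children
(the shape of the tree down to level `n + 1` and the spins on that level only). -/
def Obs (q : ℕ) : ℕ → Type
  | 0 => Fin q
  | n + 1 => List (Obs q n)

/-- `lik q lam p n i o` is the probability of the observation `o` given that the root spin is `i`,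
when a vertex has `k` children with probability `p k` and every child independently
receives its spin from the parent through the Potts channel. -/
noncomputable def lik (q : ℕ) (lam : ℝ) (p : ℕ → ℝ) : (n : ℕ) → Fin q → Obs q n → ℝ
  | 0, i, o => if i = (show Fin q from o) then 1 else 0
  | n + 1, i, l => p (show List (Obs q n) from l).length *
      ((show List (Obs q n) from l).map fun o => ∑ j, pottsP q lam i j * lik q lam p n j o).prod

/-- Probability of the observation `o` when the root spin is uniform. -/
noncomputable def marg (q : ℕ) (lam : ℝ) (p : ℕ → ℝ) (n : ℕ) (o : Obs q n) : ℝ :=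
  ∑ j, (1 / q : ℝ) * lik q lam p n j o

/-- Posterior probability that the root spin is `i` given the observation `o`. -/
noncomputable def post (q : ℕ) (lam : ℝ) (p : ℕ → ℝ) (n : ℕ) (o : Obs q n) (i : Fin q) : ℝ :=
  (1 / q : ℝ) * lik q lam p n i o / marg q lam p n o

/-- The expected total variation distance `a_n` between the posterior of the root spin and
the uniform law. -/
noncomputable def adv (q : ℕ) (lam : ℝ) (p : ℕ → ℝ) (n : ℕ) : ℝ :=
  ∑' o : Obs q n, marg q lam p n o * ((1 / 2) * ∑ i, |post q lam p n o i - 1 / q|)

/-- Offspring law of the `d`-ary tree. -/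
noncomputable def regOff (d : ℕ) (k : ℕ) : ℝ := if k = d then 1 else 0

/-- Poisson offspring law of mean `d`. -/
noncomputable def poiOff (d : ℝ) (k : ℕ) : ℝ := Real.exp (-d) * d ^ k / (Nat.factorial k : ℝ)

end Vale.Agent.P154
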