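import Vale.Agent.P154.Psi

namespace Vale.Agent.P154

open Filter Topology

theorem class_moments (S : St) (h : 0 ≤ S.E psi) :
    0 ≤ S.E (fun y => ze y ^ 2) ∧ S.E (fun y => ze y ^ 2) ≤ S.E ze ∧
    S.E (fun y => ze y * en y) ≤ S.E (fun y => ze y ^ 2) ∧
    S.E en ≤ S.E (fun y => ze y ^ 2) + S.E ze / 4 ∧
    3 / 20 * (S.E ze - S.E (fun y => ze y ^ 2)) + (S.E (fun y => ze y ^ 2) - S.E en)
      + 3 / 10 * (S.E (fun y => ze y ^ 2) - S.E (fun y => ze y * en y)) ≤ 7 / 20 * S.E ze ∧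
    S.E (fun y => ze y ^ 2) - S.E (fun y => ze y * en y) ≤ 11 / 50 * S.E ze := by
  refine ⟨S.nonneg bd_zz fun x _ => sq_nonneg _, ?_, ?_, ?_, ?_, ?_⟩
  · exact S.mono _ _ bd_zz bd_ze fun x hx => by nlinarith [ze_nonneg x, ze_le_one hx]
  · exact S.mono _ _ bd_zn bd_zz fun x hx => by nlinarith [ze_nonneg x, en_le_ze hx]
  · have := S.nonneg (bd_lin4 0 (1 / 4) (-1) 1 0) fun x hx => by nlinarith [en_le_quad hx]
    rw [S.lin4] at this
    linarith
  · have := S.mono _ _ (bd_psi.cmul (23 / 4)) (bd_lin4 0 (1 / 5) 1 (-(23 / 20)) (3 / 10))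
      fun x hx => by nlinarith [facet_a hx]
    rw [S.lin4, S.cmul _ _ bd_psi] at this
    linarith
  · have := S.mono _ _ bd_psi (bd_lin4 0 (11 / 50) 0 (-1) 1)
      fun x hx => by nlinarith [facet_b hx]
    rw [S.lin4] at this
    linarith

theorem star_ze (S T : St) (hS : 0 ≤ S.E psi) (hT : 0 ≤ T.E psi) :
    (S.star T).E ze ≤ S.E ze + T.E ze - 1 / 20 * (S.E ze * T.E ze) := by
  obtain ⟨h1, h2, h3, h4, h5, h6⟩ := class_moments S hS
  obtain ⟨k1, k2, k3, k4, k5, k6⟩ := class_moments T hT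
  have := bil_ge h1 h2 h3 h4 h5 h6 k1 k2 k3 k4 k5 k6
  linarith [star_ze_le S T]

theorem psi_one : psi (fun _ => 1) = 0 := by
  simp [psi, Fa, Fb, fa, fb, rt_one]; norm_num

theorem pow_psi (T : St) (hT : 0 ≤ T.E psi) : ∀ k, 0 ≤ (T.pow k).E psi
  | 0 => psi_one.ge
  | k + 1 => star_psi T _ hT (pow_psi T hT k)

theorem E_ze_nonneg (S : St) : 0 ≤ S.E ze := S.nonneg bd_ze fun x _ => ze_nonneg x

theorem E_ze_le (S : St) : S.E ze ≤ 1 := S.le_const bd_ze fun _ hx => ze_le_one hx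

theorem pow_ze (T : St) (hT : 0 ≤ T.E psi) : ∀ k : ℕ, (T.pow k).E ze ≤ k * T.E ze
  | 0 => by simp [St.pow, St.triv, ze]
  | k + 1 => by
      have h1 := star_ze T _ hT (pow_psi T hT k)
      have h2 := pow_ze T hT k
      have h3 := mul_nonneg (E_ze_nonneg T) (E_ze_nonneg (T.pow k))
      simp only [St.pow]
      push_cast
      linarith

theorem pow_ze2 (T : St) (hT : 0 ≤ T.E psi) :
    ∀ k : ℕ, (T.pow (k + 2)).E ze ≤ (k + 2 : ℕ) * T.E ze - 1 / 20 * T.E ze ^ 2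
  | 0 => by
      have h1 := star_ze T _ hT (pow_psi T hT 1)
      have h2 := pow_ze T hT 1
      have h3 := E_ze_nonneg T
      have h4 := E_ze_le T
      change (T.star (T.pow 1)).E ze ≤ _
      push_cast at h2 ⊢
      nlinarith [mul_nonneg (sub_nonneg.2 h2) (sub_nonneg.2 h4)]
  | k + 1 => by
      have h1 := star_ze T _ hT (pow_psi T hT (k + 2))
      have h2 := pow_ze2 T hT k
      have h3 := mul_nonneg (E_ze_nonneg T) (E_ze_nonneg (T.pow (k + 2)))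
      change (T.star (T.pow (k + 2))).E ze ≤ _
      push_cast at h2 ⊢
      linarith

theorem chan_ze (S : St) {l : ℝ} (h0 : 0 ≤ l) (h1 : l ≤ 1) :
    (S.chan l h0 h1).E ze = l ^ 2 * S.E ze := by
  rw [← S.cmul _ _ bd_ze]
  exact S.congr (bd_ze.ch h0 h1) fun x _ => by simp only [ze, ch]; ring

theorem chan_psi (S : St) {l : ℝ} (h0 : 0 ≤ l) (h1 : l ≤ 1) (hS : 0 ≤ S.E psi) :
    0 ≤ (S.chan l h0 h1).E psi := by
  have := S.mono _ _ (bd_psi.cmul (l ^ 4)) (bd_psi.ch h0 h1) fun x hx => psi_ch h0 h1 hx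
  rw [S.cmul _ _ bd_psi] at this
  exact (mul_nonneg (pow_nonneg h0 4) hS).trans this

theorem init_psi : 0 ≤ St.init.E psi := by
  change 0 ≤ ∑ j, 1 / 3 * psi (St.vtx j)
  refine Finset.sum_nonneg fun j _ => mul_nonneg (by norm_num) ?_
  fin_cases j <;> simp [psi, Fa, Fb, fa, fb, St.vtx, rt_zero]

variable {l : ℝ} (h0 : 0 ≤ l) (h1 : l ≤ 1) {p : ℕ → ℝ} (hp : ∀ k, 0 ≤ p k) (hs : HasSum p 1)

theorem seq_psi : ∀ n, 0 ≤ (St.seq l h0 h1 p hp hs n).E psi
  | 0 => init_psi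
  | n + 1 => tsum_nonneg fun k =>
      mul_nonneg (hp k) (pow_psi _ (chan_psi _ h0 h1 (seq_psi n)) k)

theorem seq_step {d : ℝ} (hd : HasSum (fun k : ℕ => p k * k) d) (k0 : ℕ) (n : ℕ) :
    (St.seq l h0 h1 p hp hs (n + 1)).E ze ≤ d * l ^ 2 * (St.seq l h0 h1 p hp hs n).E ze
      - p (k0 + 2) / 20 * (l ^ 2 * (St.seq l h0 h1 p hp hs n).E ze) ^ 2 := by
  set T := (St.seq l h0 h1 p hp hs n).chan l h0 h1
  have hT : 0 ≤ T.E psi := chan_psi _ h0 h1 (seq_psi h0 h1 hp hs n)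
  have e : T.E ze = l ^ 2 * (St.seq l h0 h1 p hp hs n).E ze := chan_ze _ h0 h1
  rw [mul_assoc, ← e]
  have s1 := hd.mul_right (T.E ze)
  have s2 : HasSum (fun k : ℕ => if k = k0 + 2 then p (k0 + 2) / 20 * T.E ze ^ 2 else 0)
      (p (k0 + 2) / 20 * T.E ze ^ 2) := hasSum_ite_eq _ _
  refine hasSum_le (fun k => ?_) (St.summable_mix hp hs T.pow bd_ze).hasSum (s1.sub s2)
  split_ifs with hk
  · subst hk
    have := mul_le_mul_of_nonneg_left (pow_ze2 T hT k0) (hp (k0 + 2))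
    linarith
  · have := mul_le_mul_of_nonneg_left (pow_ze T hT k) (hp k)
    linarith

theorem tendsto_of_step {Z : ℕ → ℝ} {c : ℝ} (hc : 0 < c) (hZ : ∀ n, 0 ≤ Z n)
    (h : ∀ n, Z (n + 1) ≤ Z n - c * Z n ^ 2) : Tendsto Z atTop (𝓝 0) := by
  have ha : Antitone Z := antitone_nat_of_succ_le fun n => by
    nlinarith [h n, mul_nonneg hc.le (sq_nonneg (Z n))]
  have hb : BddBelow (Set.range Z) := ⟨0, by rintro _ ⟨n, rfl⟩; exact hZ n⟩
  have ht := tendsto_atTop_ciInf ha hb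
  set L := ⨅ n, Z n
  have h2 : Tendsto (fun n => Z (n + 1)) atTop (𝓝 L) := (tendsto_add_atTop_iff_nat 1).2 ht
  have h3 : Tendsto (fun n => Z n - c * Z n ^ 2) atTop (𝓝 (L - c * L ^ 2)) :=
    ht.sub ((ht.pow 2).const_mul c)
  have h4 := le_of_tendsto_of_tendsto' h2 h3 h
  have h5 : L ^ 2 ≤ 0 := by
    by_contra hh
    have := mul_pos hc (not_le.1 hh)
    linarith
  have h6 : L = 0 := pow_eq_zero_iff (two_ne_zero) |>.1 (le_antisymm h5 (sq_nonneg _))
  rwa [h6] at ht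

theorem seq_tendsto {d : ℝ} (hd : HasSum (fun k : ℕ => p k * k) d) (k0 : ℕ)
    (hk : 0 < p (k0 + 2)) (hKS : d * l ^ 2 ≤ 1) :
    Tendsto (fun n => (St.seq l h0 h1 p hp hs n).E ze) atTop (𝓝 0) := by
  rcases h0.eq_or_lt with rfl | hl
  · refine (tendsto_add_atTop_iff_nat 1).1 (tendsto_const_nhds.congr fun n => ?_)
    have := seq_step h0 h1 hp hs hd k0 n
    have h2 := E_ze_nonneg (St.seq 0 h0 h1 p hp hs (n + 1))
    simp only [ne_eq, OfNat.ofNat_ne_zero, not_false_eq_true, zero_pow, mul_zero, zero_mul,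
      sub_zero] at this
    linarith
  · refine tendsto_of_step (c := p (k0 + 2) / 20 * l ^ 4) (by positivity)
      (fun n => E_ze_nonneg _) fun n => ?_
    have := seq_step h0 h1 hp hs hd k0 n
    have h2 := mul_le_mul_of_nonneg_right hKS (E_ze_nonneg (St.seq l h0 h1 p hp hs n))
    nlinarith

noncomputable def tv (x : V) : ℝ := (1 / 2) * ∑ i, |x i / 3 - 1 / 3|

theorem bd_tv : Bd tv := Bd.of_cont (by unfold tv; fun_prop)

theorem tv_le (x : V) {e : ℝ} (he : 0 < e) : tv x ≤ e + 1 / e * ze x := by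
  have key : ∀ t : ℝ, |t / 3 - 1 / 3| ≤ e / 2 + 1 / e * ((t - 1) ^ 2 / 3) := by
    intro t
    have h1 : |t / 3 - 1 / 3| = |t - 1| / 3 := by
      rw [← sub_div, abs_div]; norm_num
    rw [h1, ← sq_abs (t - 1)]
    generalize |t - 1| = s
    have h2 : e / 2 + 1 / e * (s ^ 2 / 3) - s / 3 = ((s - e / 2) ^ 2 / 3 + 5 / 12 * e ^ 2) / e := by
      field_simp; ring
    have h3 : 0 ≤ ((s - e / 2) ^ 2 / 3 + 5 / 12 * e ^ 2) / e := by positivity
    linarith
  unfold tv ze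
  rw [Fin.sum_univ_three]
  have := key (x 0); have := key (x 1); have := key (x 2)
  linarith

theorem tv_tendsto {S : ℕ → St} (h : Tendsto (fun n => (S n).E ze) atTop (𝓝 0)) :
    Tendsto (fun n => (S n).E tv) atTop (𝓝 0) := by
  rw [Metric.tendsto_atTop] at h ⊢
  intro e he
  obtain ⟨N, hN⟩ := h ((e / 2) ^ 2) (by positivity)
  refine ⟨N, fun n hn => ?_⟩
  have h1 := hN n hn
  have h2 : 0 ≤ (S n).E tv := (S n).nonneg bd_tv fun x _ => by unfold tv; positivity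
  have h3 := (S n).mono _ _ bd_tv ((Bd.const (e / 2)).add (bd_ze.cmul (1 / (e / 2))))
    fun x _ => tv_le x (half_pos he)
  rw [(S n).add _ _ (Bd.const _) (bd_ze.cmul _), (S n).const, (S n).cmul _ _ bd_ze] at h3
  rw [Real.dist_eq, sub_zero, abs_of_nonneg (E_ze_nonneg _)] at h1
  rw [Real.dist_eq, sub_zero, abs_of_nonneg h2]
  have h4 : 1 / (e / 2) * (S n).E ze < e / 2 := by
    rw [one_div, inv_mul_lt_iff₀ (half_pos he)]; nlinarith
  linarith

end Vale.Agent.P154
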