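import Vale.Agent.P154.Fn4

namespace Vale.Agent.P154.Q4

open Filter Topology

theorem fa_nonneg (x : V) : 0 ≤ fa x := by unfold fa; positivity

theorem fp_nonneg (x : V) : 0 ≤ fp x := by unfold fp; positivity

theorem fm_le {x : V} (hx : Dl x) : fm x ≤ 3 * fa x := by
  have k : ∀ i, (x i - 1) ^ 3 ≤ 3 * (x i - 1) ^ 2 := fun i => by
    nlinarith [mul_nonneg (sub_nonneg.2 (hx.le3 i)) (sq_nonneg (x i - 1))]
  simp only [fm, fa, Fin.sum_univ_four]
  linarith [k 0, k 1, k 2, k 3]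

theorem fa_ch (l : ℝ) (x : V) : fa (ch l x) = l ^ 2 * fa x := by
  simp only [fa, ch, Fin.sum_univ_four]; ring

theorem psi_ch {l : ℝ} (h0 : 0 ≤ l) (h1 : l ≤ 1) {x : V} (hx : Dl x) :
    l ^ 3 * psi x ≤ psi (ch l x) := by
  have e1 : fm (ch l x) = l ^ 3 * fm x := by simp only [fm, ch, Fin.sum_univ_four]; ring
  have e2 : fp (ch l x) = l ^ 4 * fp x := by simp only [fp, ch, Fin.sum_univ_four]; ring
  have ha := fa_nonneg x
  have k1 : fa x * fm x ≤ 3 * fa x ^ 2 := by nlinarith [mul_le_mul_of_nonneg_left (fm_le hx) ha]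
  have k2 : (1 + l) * (fa x * fm x) ≤ 6 * fa x ^ 2 := by
    nlinarith [mul_le_mul_of_nonneg_left k1 h0, mul_nonneg (sub_nonneg.2 h1) (sq_nonneg (fa x))]
  have k3 : 0 ≤ 135 * fa x ^ 2 + 5 * fp x - 22 * ((1 + l) * (fa x * fm x)) := by
    nlinarith [fp_nonneg x, sq_nonneg (fa x)]
  have k4 := mul_nonneg (mul_nonneg (pow_nonneg h0 3) (sub_nonneg.2 h1)) k3
  simp only [psi, fa_ch, e1, e2]
  linarith

theorem E_fa_nonneg (S : St) : 0 ≤ S.E fa := S.nonneg bd_fa fun x _ => fa_nonneg x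

theorem E_faa_ge (S : St) : S.E fa ^ 2 ≤ S.E fun x => fa x ^ 2 := by
  have := S.mono _ _ ((bd_fa.cmul (2 * S.E fa)).add (Bd.const (-S.E fa ^ 2))) bd_faa
    fun x _ => by nlinarith [sq_nonneg (fa x - S.E fa)]
  rw [S.add _ _ (bd_fa.cmul _) (Bd.const _), S.cmul _ _ bd_fa, S.const] at this
  linarith

def Ky (c : ℝ) : Prop := ∀ S T : St, 0 ≤ S.E psi → 0 ≤ T.E psi →
  0 ≤ (S.star T).E psi ∧ (S.star T).E fa ≤ S.E fa + T.E fa - c * (S.E fa ^ 2 * T.E fa)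

theorem Key.ky (h : Key) : ∃ c : ℝ, 0 < c ∧ c ≤ 1 / 9 ∧ Ky c := by
  obtain ⟨c, hc, h⟩ := h
  refine ⟨min c (1 / 9), lt_min hc (by norm_num), min_le_right _ _, fun S T hS hT =>
    ⟨(h S T hS hT).1, (h S T hS hT).2.trans ?_⟩⟩
  have h1 := mul_le_mul_of_nonneg_right (E_faa_ge S) (E_fa_nonneg T)
  have h2 := mul_nonneg (E_fa_nonneg S) ((sq_nonneg _).trans (E_faa_ge T))
  have h3 := mul_nonneg (sq_nonneg (S.E fa)) (E_fa_nonneg T)
  have h4 := mul_le_mul_of_nonneg_right (min_le_left c (1 / 9)) h3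
  have h5 := mul_le_mul_of_nonneg_left (h1.trans (le_add_of_nonneg_right h2)) hc.le
  linarith

theorem psi_one : psi (fun _ => 1) = 0 := by simp [psi, fa, fm, fp]

theorem fa_le {x : V} (hx : Dl x) : fa x ≤ 3 := by
  have k : ∀ i, (x i - 1) ^ 2 ≤ 2 * x i + 1 := fun i => by
    nlinarith [mul_nonneg (sub_nonneg.2 (hx.le3 i)) (hx.1 i)]
  simp only [fa, Fin.sum_univ_four]
  linarith [k 0, k 1, k 2, k 3, hx.2]

theorem E_fa_le (S : St) : S.E fa ≤ 3 := S.le_const bd_fa fun _ hx => fa_le hx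

variable {c : ℝ} (hc : 0 < c) (hc' : c ≤ 1 / 9) (hK : Ky c)

include hK in
theorem pow_psi (T : St) (hT : 0 ≤ T.E psi) : ∀ k, 0 ≤ (T.pow k).E psi
  | 0 => psi_one.ge
  | k + 1 => (hK T _ hT (pow_psi T hT k)).1

include hc hK in
theorem pow_fa (T : St) (hT : 0 ≤ T.E psi) : ∀ k : ℕ, (T.pow k).E fa ≤ k * T.E fa
  | 0 => by simp [St.pow, St.triv, fa]
  | k + 1 => by
      have h1 := (hK T _ hT (pow_psi hK T hT k)).2
      have h2 := pow_fa T hT k
      have h3 := mul_nonneg hc.le (mul_nonneg (sq_nonneg (T.E fa)) (E_fa_nonneg (T.pow k)))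
      simp only [St.pow]
      push_cast
      linarith

include hc hc' hK in
theorem pow_fa2 (T : St) (hT : 0 ≤ T.E psi) :
    ∀ k : ℕ, (T.pow (k + 2)).E fa ≤ (k + 2 : ℕ) * T.E fa - c * T.E fa ^ 3
  | 0 => by
      have h1 := (hK T _ hT (pow_psi hK T hT 1)).2
      have h2 := pow_fa hc hK T hT 1
      have h3 := E_fa_nonneg T
      have h4 := E_fa_le T
      have h5 : T.E fa ^ 2 ≤ 9 := by nlinarith
      have h6 : c * T.E fa ^ 2 ≤ 1 := by nlinarith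
      change (T.star (T.pow 1)).E fa ≤ _
      push_cast at h2 ⊢
      nlinarith [mul_nonneg (sub_nonneg.2 h2) (sub_nonneg.2 h6)]
  | k + 1 => by
      have h1 := (hK T _ hT (pow_psi hK T hT (k + 2))).2
      have h2 := pow_fa2 T hT k
      have h3 := mul_nonneg hc.le (mul_nonneg (sq_nonneg (T.E fa)) (E_fa_nonneg (T.pow (k + 2))))
      change (T.star (T.pow (k + 2))).E fa ≤ _
      push_cast at h2 ⊢
      linarith

theorem chan_fa (S : St) {l : ℝ} (h0 : 0 ≤ l) (h1 : l ≤ 1) :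
    (S.chan l h0 h1).E fa = l ^ 2 * S.E fa := by
  rw [← S.cmul _ _ bd_fa]
  exact S.congr (bd_fa.ch h0 h1) fun x _ => fa_ch l x

theorem chan_psi (S : St) {l : ℝ} (h0 : 0 ≤ l) (h1 : l ≤ 1) (hS : 0 ≤ S.E psi) :
    0 ≤ (S.chan l h0 h1).E psi := by
  have := S.mono _ _ (bd_psi.cmul (l ^ 3)) (bd_psi.ch h0 h1) fun x hx => psi_ch h0 h1 hx
  rw [S.cmul _ _ bd_psi] at this
  exact (mul_nonneg (pow_nonneg h0 3) hS).trans this

theorem init_psi : 0 ≤ St.init.E psi := by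
  change 0 ≤ ∑ j, 1 / 4 * psi (St.vtx j)
  refine Finset.sum_nonneg fun j _ => mul_nonneg (by norm_num) ?_
  fin_cases j <;> simp [psi, fa, fm, fp, St.vtx, Fin.sum_univ_four] <;> norm_num

variable {l : ℝ} (h0 : 0 ≤ l) (h1 : l ≤ 1) {p : ℕ → ℝ} (hp : ∀ k, 0 ≤ p k) (hs : HasSum p 1)

include hK in
theorem seq_psi : ∀ n, 0 ≤ (St.seq l h0 h1 p hp hs n).E psi
  | 0 => init_psi
  | n + 1 => tsum_nonneg fun k =>
      mul_nonneg (hp k) (pow_psi hK _ (chan_psi _ h0 h1 (seq_psi n)) k)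

include hc hc' hK in
theorem seq_step {d : ℝ} (hd : HasSum (fun k : ℕ => p k * k) d) (k0 : ℕ) (n : ℕ) :
    (St.seq l h0 h1 p hp hs (n + 1)).E fa ≤ d * l ^ 2 * (St.seq l h0 h1 p hp hs n).E fa
      - p (k0 + 2) * c * (l ^ 2 * (St.seq l h0 h1 p hp hs n).E fa) ^ 3 := by
  set T := (St.seq l h0 h1 p hp hs n).chan l h0 h1
  have hT : 0 ≤ T.E psi := chan_psi _ h0 h1 (seq_psi hK h0 h1 hp hs n)
  have e : T.E fa = l ^ 2 * (St.seq l h0 h1 p hp hs n).E fa := chan_fa _ h0 h1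
  rw [mul_assoc, ← e]
  have s1 := hd.mul_right (T.E fa)
  have s2 : HasSum (fun k : ℕ => if k = k0 + 2 then p (k0 + 2) * c * T.E fa ^ 3 else 0)
      (p (k0 + 2) * c * T.E fa ^ 3) := hasSum_ite_eq _ _
  refine hasSum_le (fun k => ?_) (St.summable_mix hp hs T.pow bd_fa).hasSum (s1.sub s2)
  split_ifs with hk
  · subst hk
    have := mul_le_mul_of_nonneg_left (pow_fa2 hc hc' hK T hT k0) (hp (k0 + 2))
    linarith
  · have := mul_le_mul_of_nonneg_left (pow_fa hc hK T hT k) (hp k)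
    linarith

theorem tendsto_of_step {Z : ℕ → ℝ} {c : ℝ} (hc : 0 < c) (hZ : ∀ n, 0 ≤ Z n)
    (h : ∀ n, Z (n + 1) ≤ Z n - c * Z n ^ 3) : Tendsto Z atTop (𝓝 0) := by
  have ha : Antitone Z := antitone_nat_of_succ_le fun n => by
    nlinarith [h n, mul_nonneg hc.le (pow_nonneg (hZ n) 3)]
  have hb : BddBelow (Set.range Z) := ⟨0, by rintro _ ⟨n, rfl⟩; exact hZ n⟩
  have ht := tendsto_atTop_ciInf ha hb
  set L := ⨅ n, Z n
  have h2 : Tendsto (fun n => Z (n + 1)) atTop (𝓝 L) := (tendsto_add_atTop_iff_nat 1).2 ht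
  have h3 : Tendsto (fun n => Z n - c * Z n ^ 3) atTop (𝓝 (L - c * L ^ 3)) :=
    ht.sub ((ht.pow 3).const_mul c)
  have h4 := le_of_tendsto_of_tendsto' h2 h3 h
  have hL : 0 ≤ L := ge_of_tendsto' ht hZ
  have h5 : L ^ 3 ≤ 0 := by
    by_contra hh
    have := mul_pos hc (not_le.1 hh)
    linarith
  have h6 : L = 0 := pow_eq_zero_iff (three_ne_zero) |>.1 (le_antisymm h5 (pow_nonneg hL 3))
  rwa [h6] at ht

include hc hc' hK in
theorem seq_tendsto {d : ℝ} (hd : HasSum (fun k : ℕ => p k * k) d) (k0 : ℕ)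
    (hk : 0 < p (k0 + 2)) (hKS : d * l ^ 2 ≤ 1) :
    Tendsto (fun n => (St.seq l h0 h1 p hp hs n).E fa) atTop (𝓝 0) := by
  rcases h0.eq_or_lt with rfl | hl
  · refine (tendsto_add_atTop_iff_nat 1).1 (tendsto_const_nhds.congr fun n => ?_)
    have := seq_step hc hc' hK h0 h1 hp hs hd k0 n
    have h2 := E_fa_nonneg (St.seq 0 h0 h1 p hp hs (n + 1))
    simp only [ne_eq, OfNat.ofNat_ne_zero, not_false_eq_true, zero_pow, mul_zero, zero_mul,
      sub_zero] at this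
    linarith
  · refine tendsto_of_step (c := p (k0 + 2) * c * l ^ 6) (by positivity)
      (fun n => E_fa_nonneg _) fun n => ?_
    have := seq_step hc hc' hK h0 h1 hp hs hd k0 n
    have h2 := mul_le_mul_of_nonneg_right hKS (E_fa_nonneg (St.seq l h0 h1 p hp hs n))
    nlinarith

noncomputable def tv (x : V) : ℝ := (1 / 2) * ∑ i, |x i / 4 - 1 / 4|

theorem bd_tv : Bd tv := Bd.of_cont (by unfold tv; fun_prop)

theorem tv_le (x : V) {e : ℝ} (he : 0 < e) : tv x ≤ e + 1 / e * fa x := by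
  have key : ∀ t : ℝ, |t / 4 - 1 / 4| ≤ e / 2 + 1 / e * ((t - 1) ^ 2 / 4) := by
    intro t
    have h1 : |t / 4 - 1 / 4| = |t - 1| / 4 := by
      rw [← sub_div, abs_div]; norm_num
    rw [h1, ← sq_abs (t - 1)]
    generalize |t - 1| = s
    have h2 : e / 2 + 1 / e * (s ^ 2 / 4) - s / 4 = ((s - e / 2) ^ 2 / 4 + 7 / 16 * e ^ 2) / e := by
      field_simp; ring
    have h3 : 0 ≤ ((s - e / 2) ^ 2 / 4 + 7 / 16 * e ^ 2) / e := by positivity
    linarith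
  have hn : 0 ≤ 1 / e * fa x := mul_nonneg (by positivity) (fa_nonneg x)
  unfold tv
  unfold fa at hn ⊢
  rw [Fin.sum_univ_four] at hn
  rw [Fin.sum_univ_four, Fin.sum_univ_four]
  have := key (x 0); have := key (x 1); have := key (x 2); have := key (x 3)
  linarith

theorem tv_tendsto {S : ℕ → St} (h : Tendsto (fun n => (S n).E fa) atTop (𝓝 0)) :
    Tendsto (fun n => (S n).E tv) atTop (𝓝 0) := by
  rw [Metric.tendsto_atTop] at h ⊢
  intro e he
  obtain ⟨N, hN⟩ := h ((e / 2) ^ 2) (by positivity)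
  refine ⟨N, fun n hn => ?_⟩
  have h1 := hN n hn
  have h2 : 0 ≤ (S n).E tv := (S n).nonneg bd_tv fun x _ => by unfold tv; positivity
  have h3 := (S n).mono _ _ bd_tv ((Bd.const (e / 2)).add (bd_fa.cmul (1 / (e / 2))))
    fun x _ => tv_le x (half_pos he)
  rw [(S n).add _ _ (Bd.const _) (bd_fa.cmul _), (S n).const, (S n).cmul _ _ bd_fa] at h3
  rw [Real.dist_eq, sub_zero, abs_of_nonneg (E_fa_nonneg _)] at h1
  rw [Real.dist_eq, sub_zero, abs_of_nonneg h2]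
  have h4 : 1 / (e / 2) * (S n).E fa < e / 2 := by
    rw [one_div, inv_mul_lt_iff₀ (half_pos he)]; nlinarith
  linarith

end Vale.Agent.P154.Q4
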