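import Vale.Agent.P154.St4

namespace Vale.Agent.P154.Q4

noncomputable def fa (x : V) : ℝ := (∑ i, (x i - 1) ^ 2) / 4
noncomputable def fm (x : V) : ℝ := (∑ i, (x i - 1) ^ 3) / 4
noncomputable def fp (x : V) : ℝ := (∑ i, (x i - 1) ^ 4) / 4

noncomputable def psi (x : V) : ℝ := 200 * fm x - 135 * fa x ^ 2 - 5 * fp x + 22 * (fa x * fm x)

theorem fa_cont : Continuous fa := by unfold fa; fun_prop
theorem fm_cont : Continuous fm := by unfold fm; fun_prop
theorem fp_cont : Continuous fp := by unfold fp; fun_prop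
theorem psi_cont : Continuous psi := by
  have := fa_cont; have := fm_cont; have := fp_cont
  unfold psi; fun_prop

theorem bd_fa : Bd fa := Bd.of_cont fa_cont
theorem bd_faa : Bd fun x => fa x ^ 2 := Bd.of_cont (fa_cont.pow 2)
theorem bd_psi : Bd psi := Bd.of_cont psi_cont

/-- the two inequalities for the product of two states of the class `0 ≤ E psi` -/
def Key : Prop := ∃ c : ℝ, 0 < c ∧ ∀ S T : St, 0 ≤ S.E psi → 0 ≤ T.E psi →
  0 ≤ (S.star T).E psi ∧ (S.star T).E fa ≤ S.E fa + T.E fa -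
    c * (S.E (fun x => fa x ^ 2) * T.E fa + S.E fa * T.E (fun x => fa x ^ 2))

end Vale.Agent.P154.Q4
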