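import Vale.Agent.P154.GOrd

namespace Vale.Agent.P154.DE

open Vale.Agent.P154

theorem uu_nn {β : ℝ} (hβ : 0 < β) (p : Lt) : Nn (uu β p) := by
  intro i
  fin_cases i <;> simp [uu] <;> positivity
theorem uu_add {β : ℝ} (hβ : 0 < β) (p q : Lt) : uu β (p + q) = uu β p * uu β q := by
  funext i
  fin_cases i <;> simp [uu, ← zpow_add₀ hβ.ne'] <;> congr 1 <;> ring
theorem uu_zero (β : ℝ) : uu β 0 = 1 := by
  funext i
  fin_cases i <;> simp [uu]
theorem uu_s1 (β : ℝ) (p : Lt) : uu β (s1 p) = uu β p ∘ Equiv.swap 1 2 := by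
  funext i
  fin_cases i <;> simp [uu, s1, Equiv.swap_apply_def]
  congr 1; ring
theorem uu_s2 (β : ℝ) (p : Lt) : uu β (s2 p) = uu β p ∘ Equiv.swap 0 1 := by
  funext i
  fin_cases i <;> simp [uu, s2, Equiv.swap_apply_def] <;> congr 1 <;> ring
theorem zz_nn (t : Fin 3) : Nn (zz t) := by
  intro i
  unfold zz
  split_ifs <;> norm_num
theorem val_add (β : ℝ) (G : V → ℝ) (A B : Lt →₀ ℝ) :
    val β G (A + B) = val β G A + val β G B :=
  Finsupp.sum_add_index' (by simp) (fun _ _ _ => by ring)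
theorem val_single (β : ℝ) (G : V → ℝ) (p : Lt) (a : ℝ) :
    val β G (Finsupp.single p a) = a * G (uu β p) :=
  Finsupp.sum_single_index (by simp)
theorem ga_val_zero (β : ℝ) (G : V → ℝ) : val β G 0 = 0 := by simp [val]
theorem ga_val_smul (β : ℝ) (G : V → ℝ) (w : ℝ) (A : Lt →₀ ℝ) :
    val β G (w • A) = w * val β G A := by
  unfold val
  rw [Finsupp.sum_smul_index' (by simp), Finsupp.mul_sum]
  exact Finsupp.sum_congr fun p _ => by simp [mul_assoc]
theorem ga_val_sum (β : ℝ) (G : V → ℝ) {ι : Type} (s : Finset ι) (A : ι → Lt →₀ ℝ) :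
    val β G (∑ i ∈ s, A i) = ∑ i ∈ s, val β G (A i) := by
  classical
  induction s using Finset.induction_on with
  | empty => simp [ga_val_zero]
  | insert a s ha ih => rw [Finset.sum_insert ha, Finset.sum_insert ha, val_add, ih]
theorem val_conv {β : ℝ} (hβ : 0 < β) (G : V → ℝ) (W A : Lt →₀ ℝ) :
    val β G (conv W A) = W.sum fun a w => w * val β (fun v => G (uu β a * v)) A := by
  unfold conv
  rw [Finsupp.sum, Finsupp.sum, ga_val_sum]
  refine Finset.sum_congr rfl fun a _ => ?_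
  rw [ga_val_smul]
  congr 1
  unfold val
  rw [Finsupp.sum_mapDomain_index (by simp) (fun _ _ _ => by ring)]
  exact Finsupp.sum_congr fun p _ => by rw [uu_add hβ]
theorem conv_apply (W A : Lt →₀ ℝ) (p : Lt) :
    conv W A p = ∑ a ∈ W.support, W a * A (p - a) := by
  unfold conv
  rw [Finsupp.sum, Finsupp.finsetSum_apply]
  refine Finset.sum_congr rfl fun a _ => ?_
  rw [Finsupp.smul_apply, smul_eq_mul]
  congr 1
  have h := Finsupp.mapDomain_apply (f := fun q : Lt => a + q) (add_right_injective a) A (p - a)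
  simpa using h
theorem conv_single (a : Lt) (w : ℝ) (b : Lt) (c : ℝ) :
    conv (Finsupp.single a w) (Finsupp.single b c) = Finsupp.single (a + b) (w * c) := by
  unfold conv
  rw [Finsupp.sum_single_index (by simp), Finsupp.mapDomain_single, Finsupp.smul_single,
    smul_eq_mul]
theorem Po.add {A B : Lt →₀ ℝ} (h : Po A) (k : Po B) : Po (A + B) :=
  fun p => add_nonneg (h p) (k p)
theorem Po.single (p : Lt) {a : ℝ} (h : 0 ≤ a) : Po (Finsupp.single p a) := by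
  intro q
  rw [Finsupp.single_apply]
  split_ifs
  · exact h
  · exact le_rfl
theorem Po.conv {W A : Lt →₀ ℝ} (h : Po W) (k : Po A) : Po (conv W A) := by
  intro p
  rw [conv_apply]
  exact Finset.sum_nonneg fun a _ => mul_nonneg (h a) (k _)
theorem Po.sum {ι : Type} (s : Finset ι) {A : ι → Lt →₀ ℝ} (h : ∀ i ∈ s, Po (A i)) :
    Po (∑ i ∈ s, A i) := by
  intro p
  rw [Finsupp.finsetSum_apply]
  exact Finset.sum_nonneg fun i hi => h i hi p
theorem Po.proj {β : ℝ} (hβ : 0 < β) {W : Lt →₀ ℝ} (h : Po W) : Po (proj β W) :=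
  Po.sum _ fun p _ => Po.single _ (mul_nonneg (h p) (zpow_pos hβ _).le)
theorem ga_s1_inv (p : Lt) : s1 (s1 p) = p := rfl
theorem ga_s2_inv (p : Lt) : s2 (s2 p) = p := by
  obtain ⟨a, b⟩ := p
  simp [s2]
theorem ga_reindex {σ : Lt → Lt} (hσ : ∀ p, σ (σ p) = p) {A : Lt →₀ ℝ} (hA : ∀ p, A (σ p) = A p)
    (F : Lt → ℝ) : ∑ a ∈ A.support, F (σ a) = ∑ a ∈ A.support, F a :=
  Finset.sum_nbij' σ σ (fun a ha => by simpa [hA] using ha) (fun a ha => by simpa [hA] using ha)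
    (fun a _ => hσ a) (fun a _ => hσ a) (fun _ _ => rfl)
theorem Sy.conv {W A : Lt →₀ ℝ} (h : Sy W) (k : Sy A) : Sy (conv W A) := by
  intro p
  constructor
  · rw [conv_apply, conv_apply, ← ga_reindex ga_s1_inv (fun q => (h q).1)]
    refine Finset.sum_congr rfl fun a _ => ?_
    rw [(h a).1, ← (k (p - a)).1]
    rfl
  · rw [conv_apply, conv_apply, ← ga_reindex ga_s2_inv (fun q => (h q).2)]
    refine Finset.sum_congr rfl fun a _ => ?_
    rw [(h a).2, ← (k (p - a)).2]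
    congr 2
    simp only [s2, Prod.mk_sub_mk, Prod.fst_sub, Prod.snd_sub, Prod.mk.injEq]
    constructor <;> ring
theorem ga_single_s1 (u v : ℤ) (c : ℝ) (q : Lt) :
    Finsupp.single (u, v) c (s1 q) = Finsupp.single (v, u) c q := by
  rw [Finsupp.single_apply, Finsupp.single_apply]
  refine if_congr ?_ rfl rfl
  simp only [s1, Prod.ext_iff]
  omega
theorem ga_single_s2 (u v : ℤ) (c : ℝ) (q : Lt) :
    Finsupp.single (u, v) c (s2 q) = Finsupp.single (-u, v - u) c q := by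
  rw [Finsupp.single_apply, Finsupp.single_apply]
  refine if_congr ?_ rfl rfl
  simp only [s2, Prod.ext_iff]
  omega
theorem ga_sy_zero (c : ℝ) : Sy (Finsupp.single 0 c) := by
  intro q
  exact ⟨ga_single_s1 0 0 c q, ga_single_s2 0 0 c q⟩
theorem ga_sy_add {A B : Lt →₀ ℝ} (h : Sy A) (k : Sy B) : Sy (A + B) := by
  intro p
  simp only [Finsupp.add_apply, (h p).1, (h p).2, (k p).1, (k p).2, and_self]
theorem hA_po {W : Lt →₀ ℝ} (h : Po W) (ps : List ℝ) (hps : ∀ p ∈ ps, 0 ≤ p) :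
    Po (hA W ps) := by
  induction ps with
  | nil => exact fun _ => le_rfl
  | cons p ps ih =>
    exact (h.conv (ih fun q hq => hps q (List.mem_cons_of_mem _ hq))).add
      ((Po.single _ zero_le_one).conv (Po.single _ (hps p List.mem_cons_self)))
theorem hA_sy {W : Lt →₀ ℝ} (h : Sy W) (ps : List ℝ) : Sy (hA W ps) := by
  induction ps with
  | nil => exact fun _ => ⟨rfl, rfl⟩
  | cons p ps ih => exact ga_sy_add (h.conv ih) ((ga_sy_zero 1).conv (ga_sy_zero p))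
theorem hQ_po {W1 : Lt →₀ ℝ} (h : Po W1) {f : ℝ} (hf : 0 ≤ f) (ps : List ℝ)
    (hps : ∀ p ∈ ps, 0 ≤ p) : Po (hQ W1 f ps) := by
  induction ps with
  | nil => exact fun _ => le_rfl
  | cons p ps ih =>
    have h2 : ∀ q ∈ ps, 0 ≤ q := fun q hq => hps q (List.mem_cons_of_mem _ hq)
    exact (h.conv (ih h2)).add
      ((Po.single _ hf).conv (hA_po (h.add (Po.single _ hf)) ps h2))
theorem ga_le_supp {A : Lt →₀ ℝ} {F : Lt → ℝ} (h0 : ∀ p, 0 ≤ F p) (h1 : ∀ p, A p = 0 → F p = 0)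
    (s : Finset Lt) : ∑ p ∈ s, F p ≤ ∑ p ∈ A.support, F p := by
  classical
  calc ∑ p ∈ s, F p ≤ ∑ p ∈ s ∪ A.support, F p :=
        Finset.sum_le_sum_of_subset_of_nonneg Finset.subset_union_left fun p _ _ => h0 p
    _ = ∑ p ∈ A.support, F p := by
        refine (Finset.sum_subset Finset.subset_union_right fun p _ hp => h1 p ?_).symm
        simpa using hp
theorem val_ge {β : ℝ} (hβ : 0 < β) {G : V → ℝ} (h : Gc G) {A : Lt →₀ ℝ} (hA : Po A)
    (s : Finset Lt) : ∑ p ∈ s, A p * G (uu β p) ≤ val β G A :=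
  ga_le_supp (fun p => mul_nonneg (hA p) (h.nn _ (uu_nn hβ p))) (fun p hp => by simp [hp]) s
theorem ga_kap (a b : ℤ) : (kap (a, b) = 0 ∧ ¬(b ≤ a ∧ a ≤ 0)) ∨ (b ≤ a ∧ a ≤ 0 ∧
    ((kap (a, b) = 1 ∧ b = 0) ∨ (kap (a, b) = 3 ∧ b ≠ 0 ∧ (a = 0 ∨ a = b)) ∨
      (kap (a, b) = 6 ∧ b ≠ 0 ∧ a ≠ 0 ∧ a ≠ b))) := by
  unfold kap
  dsimp only
  split_ifs <;> omega
theorem ga_kap_sum (p : Lt) : kap p + kap (s1 p) + kap (s2 p) + kap (s1 (s2 p)) +
    kap (s2 (s1 p)) + kap (s1 (s2 (s1 p))) ≤ 6 := by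
  obtain ⟨a, b⟩ := p
  simp only [s1, s2]
  have h1 := ga_kap a b
  have h2 := ga_kap b a
  have h3 := ga_kap (-a) (b - a)
  have h4 := ga_kap (b - a) (-a)
  have h5 := ga_kap (-b) (a - b)
  have h6 := ga_kap (a - b) (-b)
  omega
theorem fold_le {β : ℝ} (hβ : 0 < β) {G : V → ℝ} (h : Gs G) {A : Lt →₀ ℝ} (hA : Po A)
    (hS : Sy A) (s : Finset Lt) :
    ∑ p ∈ s, (kap p : ℝ) * (A p * G (uu β p)) ≤ val β G A := by
  have h0 : ∀ p, 0 ≤ A p * G (uu β p) := fun p => mul_nonneg (hA p) (h.1.nn _ (uu_nn hβ p))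
  have r1 : ∀ k : Lt → ℝ, ∑ p ∈ A.support, k (s1 p) * (A p * G (uu β p)) =
      ∑ p ∈ A.support, k p * (A p * G (uu β p)) := by
    intro k
    rw [← ga_reindex ga_s1_inv (fun q => (hS q).1) (fun p => k p * (A p * G (uu β p)))]
    refine Finset.sum_congr rfl fun p _ => ?_
    rw [(hS p).1, uu_s1, h.2]
  have r2 : ∀ k : Lt → ℝ, ∑ p ∈ A.support, k (s2 p) * (A p * G (uu β p)) =
      ∑ p ∈ A.support, k p * (A p * G (uu β p)) := by
    intro k
    rw [← ga_reindex ga_s2_inv (fun q => (hS q).2) (fun p => k p * (A p * G (uu β p)))]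
    refine Finset.sum_congr rfl fun p _ => ?_
    rw [(hS p).2, uu_s2, h.2]
  have e1 := r1 fun p => (kap p : ℝ)
  have e2 := r2 fun p => (kap p : ℝ)
  have e3 := r2 fun p => (kap (s1 p) : ℝ)
  have e4 := r1 fun p => (kap (s2 p) : ℝ)
  have e5 := r1 fun p => (kap (s1 (s2 p)) : ℝ)
  have h1 := ga_le_supp (A := A) (F := fun p => (kap p : ℝ) * (A p * G (uu β p)))
    (fun p => mul_nonneg (Nat.cast_nonneg _) (h0 p)) (fun p hp => by simp [hp]) s
  have h2 : ∑ p ∈ A.support, ((kap p : ℝ) * (A p * G (uu β p)) +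
      (kap (s1 p) : ℝ) * (A p * G (uu β p)) + (kap (s2 p) : ℝ) * (A p * G (uu β p)) +
      (kap (s1 (s2 p)) : ℝ) * (A p * G (uu β p)) + (kap (s2 (s1 p)) : ℝ) * (A p * G (uu β p)) +
      (kap (s1 (s2 (s1 p))) : ℝ) * (A p * G (uu β p))) ≤
      ∑ p ∈ A.support, 6 * (A p * G (uu β p)) := by
    refine Finset.sum_le_sum fun p _ => ?_
    have h3 : ((kap p + kap (s1 p) + kap (s2 p) + kap (s1 (s2 p)) +
      kap (s2 (s1 p)) + kap (s1 (s2 (s1 p))) : ℕ) : ℝ) ≤ 6 := by exact_mod_cast ga_kap_sum p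
    push_cast at h3
    have := mul_le_mul_of_nonneg_right h3 (h0 p)
    linarith
  simp only [Finset.sum_add_distrib, ← Finset.mul_sum] at h2
  have h4 : val β G A = ∑ p ∈ A.support, A p * G (uu β p) := rfl
  linarith
theorem orbS_po (p : Lt) {c : ℝ} (h : 0 ≤ c) : Po (orbS p c) :=
  (((((Po.single _ h).add (Po.single _ h)).add (Po.single _ h)).add (Po.single _ h)).add
    (Po.single _ h)).add (Po.single _ h)
theorem orbS_sy (p : Lt) (c : ℝ) : Sy (orbS p c) := by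
  intro q
  obtain ⟨a, b⟩ := p
  constructor
  · simp only [orbS, Finsupp.add_apply, ga_single_s1]
    ring
  · have e1 : -a - (b - a) = -b := by ring
    have e2 : -b - (a - b) = -a := by ring
    simp only [orbS, Finsupp.add_apply, ga_single_s2, neg_neg, sub_neg_eq_add, sub_add_cancel,
      neg_sub, e1, e2]
    ring
theorem Sy.sum {ι : Type} (s : Finset ι) {A : ι → Lt →₀ ℝ} (h : ∀ i ∈ s, Sy (A i)) :
    Sy (∑ i ∈ s, A i) := by
  intro p
  simp only [Finsupp.finsetSum_apply]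
  exact ⟨Finset.sum_congr rfl fun i hi => (h i hi p).1,
    Finset.sum_congr rfl fun i hi => (h i hi p).2⟩
theorem proj_add (β : ℝ) (A B : Lt →₀ ℝ) : proj β (A + B) = proj β A + proj β B :=
  Finsupp.sum_add_index' (by simp) (fun _ _ _ => by rw [add_mul, Finsupp.single_add])
theorem proj_single (β : ℝ) (p : Lt) (a : ℝ) :
    proj β (Finsupp.single p a) = Finsupp.single (p.1, 0) (a * β ^ (-p.2)) :=
  Finsupp.sum_single_index (by simp)
theorem ga_perm3 (F : Equiv.Perm (Fin 3) → ℝ) : ∑ τ, F τ = F 1 + F (Equiv.swap 1 2) +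
    F (Equiv.swap 0 1) + F (Equiv.swap 0 1 * Equiv.swap 1 2) +
    F (Equiv.swap 1 2 * Equiv.swap 0 1) + F (Equiv.swap 1 2 * Equiv.swap 0 1 * Equiv.swap 1 2) := by
  have e : (Finset.univ : Finset (Equiv.Perm (Fin 3))) = {1, Equiv.swap 1 2, Equiv.swap 0 1,
      Equiv.swap 0 1 * Equiv.swap 1 2, Equiv.swap 1 2 * Equiv.swap 0 1,
      Equiv.swap 1 2 * Equiv.swap 0 1 * Equiv.swap 1 2} := by decide
  rw [e, Finset.sum_insert (by decide), Finset.sum_insert (by decide),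
    Finset.sum_insert (by decide), Finset.sum_insert (by decide), Finset.sum_insert (by decide),
    Finset.sum_singleton]
  ring
theorem ga_E_sum (T : St) {ι : Type} (s : Finset ι) {F : ι → V → ℝ} (h : ∀ i, Bd (F i)) :
    Bd (fun x => ∑ i ∈ s, F i x) ∧ T.E (fun x => ∑ i ∈ s, F i x) = ∑ i ∈ s, T.E (F i) := by
  classical
  induction s using Finset.induction_on with
  | empty => exact ⟨by simpa using Bd.const 0, by simpa using T.const 0⟩
  | insert a s ha ih =>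
    simp only [Finset.sum_insert ha]
    exact ⟨(h a).add ih.1, by rw [T.add _ _ (h a) ih.1, ih.2]⟩
theorem low_of_sym {β : ℝ} (T : St) (N : ℕ) (t : ℕ → Lt) (c : ℕ → ℝ) (f : ℝ)
    (h : ∀ G, Gs G → 3 * f * G (zz 0) + ∑ n ∈ Finset.range N, 6 * c n * G (uu β (t n)) ≤ T.E G) :
    LowT β T (∑ n ∈ Finset.range N, orbS (t n) (c n)) f := by
  intro G hG
  have hs : Gs fun v => 1 / 6 * ∑ τ : Equiv.Perm (Fin 3), G (v ∘ τ) := by
    refine ⟨⟨fun v hv => ?_, fun a v ha hv => ?_, fun v w hv hw => ?_⟩, fun σ v => ?_⟩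
    · exact mul_nonneg (by norm_num) (Finset.sum_nonneg fun τ _ => (hG.perm τ).nn v hv)
    · rw [Finset.sum_congr rfl fun τ _ => (hG.perm τ).smul a v ha hv, ← Finset.mul_sum]
      ring
    · rw [← mul_add, ← Finset.sum_add_distrib]
      exact mul_le_mul_of_nonneg_left
        (Finset.sum_le_sum fun τ _ => (hG.perm τ).sup v w hv hw) (by norm_num)
    · exact congrArg (fun x : ℝ => 1 / 6 * x)
        (Equiv.sum_comp (Equiv.mulLeft σ) fun τ : Equiv.Perm (Fin 3) => G (v ∘ τ))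
  have h1 := h _ hs
  have h2 := ga_E_sum T Finset.univ (F := fun (τ : Equiv.Perm (Fin 3)) v => G (v ∘ τ))
    fun τ => (hG.perm τ).bd
  rw [T.cmul _ _ h2.1, h2.2, Finset.sum_congr rfl fun τ _ => T.sym τ G hG.bd] at h1
  have h3 : ∑ τ : Equiv.Perm (Fin 3), G (zz 0 ∘ τ) = 2 * ∑ t, G (zz t) := by
    have z1 : zz 0 ∘ (1 : Equiv.Perm (Fin 3)) = zz 0 := rfl
    have z2 : zz 0 ∘ (Equiv.swap 1 2 : Equiv.Perm (Fin 3)) = zz 0 := by
      funext i; fin_cases i <;> simp [zz, Equiv.swap_apply_def]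
    have z3 : zz 0 ∘ (Equiv.swap 0 1 : Equiv.Perm (Fin 3)) = zz 1 := by
      funext i; fin_cases i <;> simp [zz, Equiv.swap_apply_def]
    have z4 : zz 0 ∘ (Equiv.swap 0 1 * Equiv.swap 1 2 : Equiv.Perm (Fin 3)) = zz 2 := by
      funext i; fin_cases i <;> simp [zz, Equiv.swap_apply_def]
    have z5 : zz 0 ∘ (Equiv.swap 1 2 * Equiv.swap 0 1 : Equiv.Perm (Fin 3)) = zz 1 := by
      funext i; fin_cases i <;> simp [zz, Equiv.swap_apply_def]
    have z6 : zz 0 ∘ (Equiv.swap 1 2 * Equiv.swap 0 1 * Equiv.swap 1 2 : Equiv.Perm (Fin 3)) =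
        zz 2 := by
      funext i; fin_cases i <;> simp [zz, Equiv.swap_apply_def]
    rw [ga_perm3 fun τ => G (zz 0 ∘ τ), z1, z2, z3, z4, z5, z6, Fin.sum_univ_three]
    ring
  have h4 : ∀ n, val β G (orbS (t n) (c n)) =
      6 * c n * (1 / 6 * ∑ τ : Equiv.Perm (Fin 3), G (uu β (t n) ∘ τ)) := by
    intro n
    have y1 := uu_s1 β (t n)
    have y2 := uu_s2 β (t n)
    have y3 : uu β (s1 (s2 (t n))) = uu β (t n) ∘ (Equiv.swap 0 1 * Equiv.swap 1 2 :
        Equiv.Perm (Fin 3)) := by rw [uu_s1, uu_s2]; rfl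
    have y4 : uu β (s2 (s1 (t n))) = uu β (t n) ∘ (Equiv.swap 1 2 * Equiv.swap 0 1 :
        Equiv.Perm (Fin 3)) := by rw [uu_s2, uu_s1]; rfl
    have y5 : uu β (s1 (s2 (s1 (t n)))) = uu β (t n) ∘
        (Equiv.swap 1 2 * Equiv.swap 0 1 * Equiv.swap 1 2 : Equiv.Perm (Fin 3)) := by
      rw [uu_s1, uu_s2, uu_s1]; rfl
    rw [ga_perm3 fun τ => G (uu β (t n) ∘ τ), ← y1, ← y2, ← y3, ← y4, ← y5]
    simp only [orbS, val_add, val_single, s1, s2, Equiv.Perm.coe_one, Function.comp_id]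
    ring
  rw [ga_val_sum, Finset.sum_congr rfl fun n _ => h4 n]
  rw [h3] at h1
  simp only [Finset.sum_const, Finset.card_univ, Fintype.card_perm, Fintype.card_fin,
    nsmul_eq_mul] at h1
  norm_num [Nat.factorial] at h1 ⊢
  linarith

end Vale.Agent.P154.DE
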