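import Vale.Agent.P154.GDig
import Vale.Agent.P154.GArr

namespace Vale.Agent.P154.DE

theorem gdom_md {L x : ℕ} (h : x < L) (y : ℕ) : (x + L * y) % L = x ∧ (x + L * y) / L = y := by
  refine ⟨by rw [Nat.add_mul_mod_self_left, Nat.mod_eq_of_lt h], ?_⟩
  rw [Nat.add_mul_div_left _ _ (by omega), Nat.div_eq_of_lt h, zero_add]

theorem gdom_add {L i j : ℕ} (h : i % L + j % L < L) :
    (i + j) % L = i % L + j % L ∧ (i + j) / L = i / L + j / L := by
  have := gdom_md h (i / L + j / L)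
  rwa [show i % L + j % L + L * (i / L + j / L) = i + j by
    have := Nat.mod_add_div i L
    have := Nat.mod_add_div j L
    rw [mul_add]; omega] at this

theorem gdom_inj (L c1 c2 : ℕ) : Function.Injective (pos L c1 c2) := fun i j h => by
  have h1 : ((i % L : ℕ) : ℤ) - c1 = ((j % L : ℕ) : ℤ) - c1 := congrArg Prod.fst h
  have h2 : ((i / L : ℕ) : ℤ) - c2 = ((j / L : ℕ) : ℤ) - c2 := congrArg Prod.snd h
  have a1 : i % L = j % L := by exact_mod_cast sub_left_injective h1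
  have a2 : i / L = j / L := by exact_mod_cast sub_left_injective h2
  rw [← Nat.mod_add_div i L, a1, a2, Nat.mod_add_div]

theorem dom_zero (L c1 c2 : ℕ) {A : Lt →₀ ℝ} (h : Po A) : Dom L c1 c2 0 A := by
  have e : ∀ n, dig 96 0 n = 0 := fun n => by rw [dig, Nat.zero_div, Nat.zero_mod]
  refine ⟨fun n _ _ => ?_, fun n => ?_⟩
  · rw [e, Nat.cast_zero]
    exact mul_nonneg (by positivity) (h _)
  · rw [e]
    exact ⟨by positivity, fun h => absurd rfl h⟩

theorem dom_ctr {L c1 c2 a : ℕ} (hL : 2 * c1 < L) (ha : a < 2 ^ 40) {x : ℝ}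
    (hx : (a : ℝ) ≤ 2 ^ 38 * x) : Dom L c1 c2 (ctr L c1 c2 a) (Finsupp.single 0 x) := by
  have e : ∀ n, dig 96 (ctr L c1 c2 a) n = if n = c1 + L * c2 then a else 0 := fun n => by
    have : ctr L c1 c2 a = a * 2 ^ (96 * (c1 + L * c2)) := Nat.shiftLeft_eq _ _
    rw [this]
    exact dig_atom (ha.trans (by norm_num)) _ _
  have x0 : 0 ≤ x := by
    have : (0 : ℝ) ≤ 2 ^ 38 * x := (Nat.cast_nonneg a).trans hx
    exact nonneg_of_mul_nonneg_right (by rwa [mul_comm] at this) (by positivity) |> fun h => h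
  obtain ⟨m1, m2⟩ := gdom_md (show c1 < L by omega) c2
  refine ⟨fun n _ _ => ?_, fun n => ?_⟩
  · rw [e]
    split_ifs with h
    · have : pos L c1 c2 n = 0 := by
        rw [h, pos, m1, m2, sub_self, sub_self]; rfl
      rw [this, Finsupp.single_eq_same]
      exact hx
    · rw [Nat.cast_zero]
      exact mul_nonneg (by positivity) (Po.single _ x0 _)
  · rw [e]
    split_ifs with h
    · refine ⟨ha, fun _ => ?_⟩
      rw [h, m1, m2]
      omega
    · exact ⟨by positivity, fun h => absurd rfl h⟩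

theorem dom_trunc {L c1 c2 e1 e2 t N : ℕ} (hL : 2 * (c1 + e1) < L) (ht : t ≤ 56)
    {A : Lt →₀ ℝ} (hA : Po A) (h : Raw L (c1 + e1) (c2 + e2) (2 ^ 38 * 2 ^ t) N A) :
    Dom L c1 c2 (trunc (mask L c1 c2) (t + 96 * (e1 + L * e2)) N) A := by
  have hm := dig_mask (L := L) (c1 := c1) (c2 := c2) (by omega)
  have hM : ∀ n, dig 96 (mask L c1 c2) n < 2 ^ 40 := fun n => by
    rw [hm]; split_ifs <;> norm_num
  have hd := dig_trunc (N := N) (m := e1 + L * e2) ht hM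
  obtain ⟨m1, m2⟩ := gdom_md (show e1 < L by omega) e2
  refine ⟨fun n n1 n2 => ?_, fun n => ⟨(hd n).1.trans_lt (hM n), fun h0 => ?_⟩⟩
  · obtain ⟨b1, b2⟩ := gdom_add (L := L) (i := n) (j := e1 + L * e2) (by rw [m1]; omega)
    rw [m1] at b1
    rw [m2] at b2
    have c := h (n + (e1 + L * e2)) (by rw [b1]; omega) (by rw [b2]; omega)
    have e : pos L (c1 + e1) (c2 + e2) (n + (e1 + L * e2)) = pos L c1 c2 n := by
      rw [pos, pos, b1, b2]
      refine Prod.ext ?_ ?_ <;> simp only [Nat.cast_add] <;> ring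
    rw [e] at c
    have d : ((dig 96 (trunc (mask L c1 c2) (t + 96 * (e1 + L * e2)) N) n : ℕ) : ℝ) * 2 ^ t ≤
        (dig 96 N (n + (e1 + L * e2)) : ℝ) := by exact_mod_cast (hd n).2
    refine le_of_mul_le_mul_right (d.trans (c.trans_eq (by ring))) (by positivity : (0 : ℝ) < 2 ^ t)
  · by_contra h1
    have := (hd n).1
    rw [hm, if_neg h1] at this
    exact h0 (Nat.le_zero.1 this)

theorem gdom_bd {L c1 c2 e1 e2 X Y : ℕ} (hL : 0 < L) (hM : L * (2 * e2 + 1) ≤ 2 ^ 14)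
    {A W : Lt →₀ ℝ} (h : Dom L c1 c2 X A) (k : Dom L e1 e2 Y W) (n : ℕ) :
    ∑ i ∈ Finset.range (n + 1), dig 96 Y i * dig 96 X (n - i) ≤ 2 ^ 94 := by
  have a : ∑ i ∈ Finset.range (n + 1), dig 96 Y i * dig 96 X (n - i) ≤
      ∑ i ∈ Finset.range (2 ^ 14), dig 96 Y i * dig 96 X (n - i) := by
    refine Finset.sum_le_sum_of_ne_zero fun i _ hi => Finset.mem_range.2 ?_
    have b := ((k.2 i).2 (left_ne_zero_of_mul hi)).2
    have c : i < L * (2 * e2 + 1) := by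
      rw [mul_comm]
      exact (Nat.div_lt_iff_lt_mul hL).1 (by omega)
    exact c.trans_le hM
  refine a.trans ((Finset.sum_le_card_nsmul _ _ (2 ^ 40 * 2 ^ 40) fun i _ =>
    Nat.mul_le_mul (k.2 i).1.le (h.2 _).1.le).trans ?_)
  rw [Finset.card_range, smul_eq_mul]
  norm_num

theorem gdom_cv {L c1 c2 e1 e2 X Y : ℕ} (hL : 2 * (c1 + e1) < L) {A W : Lt →₀ ℝ} (a1 : Po A)
    (w1 : Po W) (h : Dom L c1 c2 X A) (k : Dom L e1 e2 Y W) (n : ℕ) :
    ((∑ i ∈ Finset.range (n + 1), dig 96 Y i * dig 96 X (n - i) : ℕ) : ℝ) ≤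
      2 ^ 38 * 2 ^ 38 * conv W A (pos L (c1 + e1) (c2 + e2) n) := by
  classical
  set p := pos L (c1 + e1) (c2 + e2) n with hp
  set s := Finset.range (n + 1) with hs
  have g0 : ∀ a, 0 ≤ W a * A (p - a) := fun a => mul_nonneg (w1 a) (a1 _)
  have b1 : ∑ i ∈ s, W (pos L e1 e2 i) * A (p - pos L e1 e2 i) ≤ conv W A p := by
    rw [conv_apply, ← Finset.sum_image (f := fun a => W a * A (p - a))
      (fun i _ j _ hij => gdom_inj L e1 e2 hij)]
    refine (Finset.sum_le_sum_of_subset_of_nonneg (Finset.subset_union_left (s₂ := W.support))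
      fun a _ _ => g0 a).trans_eq (Finset.sum_subset Finset.subset_union_right fun a _ ha => ?_).symm
    rw [Finsupp.notMem_support_iff.1 ha, zero_mul]
  refine le_trans ?_ (mul_le_mul_of_nonneg_left b1 (by positivity))
  rw [Nat.cast_sum, Finset.mul_sum]
  refine Finset.sum_le_sum fun i hi => ?_
  by_cases h0 : dig 96 Y i * dig 96 X (n - i) = 0
  · rw [h0, Nat.cast_zero]
    exact mul_nonneg (by positivity) (g0 _)
  obtain ⟨y1, y2⟩ := (k.2 i).2 (left_ne_zero_of_mul h0)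
  obtain ⟨x1, x2⟩ := (h.2 _).2 (right_ne_zero_of_mul h0)
  have hi' : i + (n - i) = n := by have := Finset.mem_range.1 hi; omega
  obtain ⟨c1', c2'⟩ := gdom_add (L := L) (i := i) (j := n - i) (by omega)
  rw [hi'] at c1' c2'
  have e : p - pos L e1 e2 i = pos L c1 c2 (n - i) := by
    rw [hp, pos, pos, pos, c1', c2']
    refine Prod.ext ?_ ?_ <;> simp only [Nat.cast_add, Prod.fst_sub, Prod.snd_sub] <;> ring
  rw [e, Nat.cast_mul]
  exact (mul_le_mul (k.1 i y1 y2) (h.1 _ x1 x2) (Nat.cast_nonneg _)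
    (mul_nonneg (by positivity) (w1 _))).trans_eq (by ring)

theorem raw_mul2 {L c1 c2 e1 e2 X1 Y1 X2 Y2 : ℕ} (hL : 2 * (c1 + e1) < L)
    (hM : L * (2 * e2 + 1) ≤ 2 ^ 14) {A1 W1 A2 W2 : Lt →₀ ℝ} (a1 : Po A1) (w1 : Po W1)
    (a2 : Po A2) (w2 : Po W2) (h1 : Dom L c1 c2 X1 A1) (k1 : Dom L e1 e2 Y1 W1)
    (h2 : Dom L c1 c2 X2 A2) (k2 : Dom L e1 e2 Y2 W2) :
    Raw L (c1 + e1) (c2 + e2) (2 ^ 38 * 2 ^ 38) (X1 * Y1 + X2 * Y2)
      (conv W1 A1 + conv W2 A2) := by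
  have b1 := gdom_bd (by omega) hM h1 k1
  have b2 := gdom_bd (by omega) hM h2 k2
  have d1 := dig_mul fun n => (b1 n).trans_lt (by norm_num)
  have d2 := dig_mul fun n => (b2 n).trans_lt (by norm_num)
  intro n _ _
  rw [mul_comm X1, mul_comm X2, dig_add (fun n => by
    rw [d1, d2]; exact (add_le_add (b1 n) (b2 n)).trans_lt (by norm_num)), d1, d2, Nat.cast_add,
    Finsupp.add_apply, mul_add]
  exact add_le_add (gdom_cv hL a1 w1 h1 k1 n) (gdom_cv hL a2 w2 h2 k2 n)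

theorem raw_atoms {ι : Type} (s : Finset ι) {L c1 c2 : ℕ} (hL : 2 * c1 < L) (c x y : ι → ℕ)
    (a : ι → ℝ) {sc : ℝ} (hsc : 0 ≤ sc) (hx : ∀ i ∈ s, x i ≤ 2 * c1)
    (hc : ∀ i ∈ s, (c i : ℝ) ≤ sc * a i) (ha : ∀ i ∈ s, 0 ≤ a i)
    (hb : ∑ i ∈ s, c i < 2 ^ 96) :
    Raw L c1 c2 sc (∑ i ∈ s, c i * 2 ^ (96 * (x i + L * y i)))
      (∑ i ∈ s, Finsupp.single (((x i : ℕ) : ℤ) - c1, ((y i : ℕ) : ℤ) - c2) (a i)) := by
  have e : ∀ m n, dig 96 (2 ^ (96 * m)) n = if n = m then 1 else 0 := fun m n => by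
    rw [← dig_atom (B := 96) (c := 1) (by norm_num) m n, one_mul]
  intro n _ _
  rw [dig_sum s c (fun i => 2 ^ (96 * (x i + L * y i))) (fun n => lt_of_le_of_lt
    (Finset.sum_le_sum fun i _ => by rw [e]; split_ifs <;> omega) hb), Nat.cast_sum,
    Finsupp.finset_sum_apply, Finset.mul_sum]
  refine Finset.sum_le_sum fun i hi => ?_
  rw [e]
  split_ifs with h
  · obtain ⟨m1, m2⟩ := gdom_md (show x i < L by have := hx i hi; omega) (y i)
    rw [h, pos, m1, m2, Finsupp.single_eq_same, mul_one]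
    exact hc i hi
  · rw [mul_zero, Nat.cast_zero]
    exact mul_nonneg hsc (Po.single _ (ha i hi) _)

theorem Raw.mono {L c1 c2 N : ℕ} {sc : ℝ} (hsc : 0 ≤ sc) {A A' : Lt →₀ ℝ} (h : Raw L c1 c2 sc N A)
    (hA : ∀ p, A p ≤ A' p) : Raw L c1 c2 sc N A' := fun n n1 n2 =>
  (h n n1 n2).trans (mul_le_mul_of_nonneg_left (hA _) hsc)

end Vale.Agent.P154.DE
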