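import Vale.Agent.P154.GEnt
import Vale.Agent.P154.GDom

namespace Vale.Agent.P154.DE

open Vale.Agent.P154

noncomputable def tW (c : Cfg) (acc : ℕ) : Lt →₀ ℝ :=
  ∑ n ∈ Finset.range c.N, orbS (tgt c.D n) ((cN acc n : ℝ) / 2 ^ 38)

theorem tW_po (c : Cfg) (acc : ℕ) : Po (tW c acc) :=
  Po.sum _ fun _ _ => orbS_po _ (by positivity)

theorem tW_sy (c : Cfg) (acc : ℕ) : Sy (tW c acc) := Sy.sum _ fun _ _ => orbS_sy _ _

theorem fN_lt {c : Cfg} (h : c.ok = true) (acc : ℕ) : fN c acc < 2 ^ 38 := by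
  have hu := (Cfg.ok_spec h).2.2.2.2.2.2
  refine lt_of_le_of_lt ?_
    (Nat.mod_lt (Nat.shiftRight acc 110 % 2 ^ 110 / (3 * 2 ^ 38)) (by norm_num : 0 < 2 ^ 38))
  exact (Nat.mul_le_mul_right _ hu).trans (Nat.one_mul _).le

theorem gb_cN_lt (acc n : ℕ) : cN acc n < 2 ^ 38 := Nat.mod_lt _ (by norm_num)

theorem gb_cN (acc n : ℕ) : cN acc n * (6 * 2 ^ 38) ≤ dig 110 acc (n + 2) := by
  have e : cN acc n = dig 110 acc (n + 2) / (6 * 2 ^ 38) % 2 ^ 38 := by
    unfold dig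
    rw [← Nat.shiftRight_eq_div_pow]
    rfl
  rw [e]
  exact (Nat.mul_le_mul_right _ (Nat.mod_le _ _)).trans (Nat.div_mul_le_self _ _)

theorem gb_fN {c : Cfg} (h : c.ok = true) (acc : ℕ) :
    fN c acc * (3 * 2 ^ 38) ≤ dig 110 acc 1 := by
  have hu := (Cfg.ok_spec h).2.2.2.2.2.2
  have e : fN c acc = c.uq * (dig 110 acc 1 / (3 * 2 ^ 38) % 2 ^ 38) := by
    unfold dig
    rw [← Nat.shiftRight_eq_div_pow]
    rfl
  rw [e]
  refine le_trans (Nat.mul_le_mul_right _ ?_) (Nat.div_mul_le_self _ (3 * 2 ^ 38))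
  exact ((Nat.mul_le_mul_right _ hu).trans (Nat.one_mul _).le).trans (Nat.mod_le _ _)

theorem tW_low {c : Cfg} (h : c.ok = true) {acc : ℕ} {T : St} (hI : Inv c acc T) :
    LowT c.β T (tW c acc) ((fN c acc : ℝ) / 2 ^ 38) := by
  refine low_of_sym T c.N (tgt c.D) (fun n => (cN acc n : ℝ) / 2 ^ 38) _ fun G hG => ?_
  refine le_of_mul_le_mul_left (le_trans ?_ (hI G hG)) (by positivity)
  rw [mul_add, Finset.mul_sum]
  refine add_le_add ?_ (Finset.sum_le_sum fun n _ => ?_)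
  · have a : (fN c acc : ℝ) * (3 * 2 ^ 38) ≤ dig 110 acc 1 := by exact_mod_cast gb_fN h acc
    rw [← mul_assoc]
    exact mul_le_mul_of_nonneg_right (by linarith) (hG.1.nn _ (zz_nn 0))
  · have a : (cN acc n : ℝ) * (6 * 2 ^ 38) ≤ dig 110 acc (n + 2) := by exact_mod_cast gb_cN acc n
    rw [← mul_assoc]
    exact mul_le_mul_of_nonneg_right (by linarith) (hG.1.nn _ (uu_nn (Cfg.β_pos h) _))

def gbX (c : Cfg) (q : ℕ × Fin 6) : ℕ :=
  ![c.e + q.1 / c.D, c.e + (q.1 / c.D + q.1 % c.D), c.e - q.1 / c.D, c.e + q.1 % c.D,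
    c.e - (q.1 / c.D + q.1 % c.D), c.e - q.1 % c.D] q.2

def gbY (c : Cfg) (q : ℕ × Fin 6) : ℕ :=
  ![c.e + (q.1 / c.D + q.1 % c.D), c.e + q.1 / c.D, c.e + q.1 % c.D, c.e - q.1 / c.D,
    c.e - q.1 % c.D, c.e - (q.1 / c.D + q.1 % c.D)] q.2

def gbF (c : Cfg) : Finset ℕ := (Finset.range c.N).filter fun n => n / c.D + n % c.D ≤ c.e

def gbS (c : Cfg) : Finset (ℕ × Fin 6) := gbF c ×ˢ Finset.univ

theorem gb_x {c : Cfg} {q : ℕ × Fin 6} (hq : q ∈ gbS c) : gbX c q ≤ 2 * c.e := by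
  obtain ⟨n, τ⟩ := q
  have a : n / c.D + n % c.D ≤ c.e := (Finset.mem_filter.1 (Finset.mem_product.1 hq).1).2
  generalize hi : n / c.D = i at a
  generalize hk : n % c.D = k at a
  fin_cases τ <;> simp [gbX, hi, hk] <;> omega

theorem gb_card {c : Cfg} (h : c.ok = true) : (gbS c).card ≤ 3600 := by
  have hN := (Cfg.ok_spec h).2.2.2.1
  have a := Finset.card_filter_le (Finset.range c.N) fun n => n / c.D + n % c.D ≤ c.e
  rw [Finset.card_range] at a
  rw [gbS, Finset.card_product, Finset.card_univ, Fintype.card_fin, gbF]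
  omega

theorem gb_lpc (c : Cfg) (acc : ℕ) (O : ℕ → ℕ) (A : ℕ → ℕ → ℕ)
    (hO : ∀ n, O n = cond (Nat.ble (n / c.D + n % c.D) c.e)
      (∑ τ, A (gbX c (n, τ)) (gbY c (n, τ))) 0) :
    lpc c.N (cN acc) O = ∑ q ∈ gbS c, cN acc q.1 * A (gbX c q) (gbY c q) := by
  rw [lpc_eq, gbS, Finset.sum_product, gbF, Finset.sum_filter]
  refine Finset.sum_congr rfl fun n _ => ?_
  rw [hO]
  split_ifs with a
  · rw [Nat.ble_eq_true_of_le a, cond_true, Finset.mul_sum]
  · rw [Bool.eq_false_iff.2 fun k => a (Nat.le_of_ble_eq_true k), cond_false, mul_zero]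

theorem gb_orb {c : Cfg} {n : ℕ} (hn : n ∈ gbF c) (a : ℝ) :
    ∑ τ, Finsupp.single (((gbX c (n, τ) : ℕ) : ℤ) - c.e, ((gbY c (n, τ) : ℕ) : ℤ) - c.e) a =
      orbS (tgt c.D n) a := by
  have h : n / c.D + n % c.D ≤ c.e := (Finset.mem_filter.1 hn).2
  simp only [Fin.sum_univ_six, gbX, gbY, orbS, tgt, Matrix.cons_val]
  generalize n / c.D = i at h ⊢
  generalize n % c.D = k at h ⊢
  congr 1
  · congr 1
    · congr 1
      · congr 1
        · congr 1 <;> congr 2 <;> omega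
        · congr 2 <;> omega
      · congr 2 <;> omega
    · congr 2 <;> omega
  · congr 2 <;> omega

theorem gb_split (c : Cfg) (acc : ℕ) : ∃ B, Po B ∧ tW c acc = (∑ q ∈ gbS c, Finsupp.single
    (((gbX c q : ℕ) : ℤ) - c.e, ((gbY c q : ℕ) : ℤ) - c.e) ((cN acc q.1 : ℝ) / 2 ^ 38)) + B := by
  refine ⟨∑ n ∈ (Finset.range c.N).filter fun n => ¬ n / c.D + n % c.D ≤ c.e,
    orbS (tgt c.D n) ((cN acc n : ℝ) / 2 ^ 38), Po.sum _ fun _ _ => orbS_po _ (by positivity), ?_⟩
  rw [gbS, Finset.sum_product, tW, ← Finset.sum_filter_add_sum_filter_not (Finset.range c.N)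
    fun n => n / c.D + n % c.D ≤ c.e]
  congr 1
  exact Finset.sum_congr rfl fun n hn => (gb_orb hn _).symm

theorem gb_proj {ι : Type} (β : ℝ) (s : Finset ι) (A : ι → Lt →₀ ℝ) :
    proj β (∑ i ∈ s, A i) = ∑ i ∈ s, proj β (A i) := by
  classical
  induction s using Finset.induction_on with
  | empty => simp [proj]
  | insert a s ha ih => rw [Finset.sum_insert ha, Finset.sum_insert ha, proj_add, ih]

theorem bW_dom {c : Cfg} (h : c.ok = true) (acc : ℕ) :
    Dom c.L c.e c.e (bW c acc) (tW c acc) := by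
  have hL : 2 * c.e < c.L := by unfold Cfg.L; omega
  have e := gb_lpc c acc (orb2 c) (at2 c.L) fun n => by
    simp only [orb2, frc_eq, Fin.sum_univ_six, gbX, gbY, Matrix.cons_val]
  have r := raw_atoms (gbS c) (c2 := c.e) hL (fun q => cN acc q.1) (gbX c) (gbY c)
    (fun q => (cN acc q.1 : ℝ) / 2 ^ 38) (sc := 2 ^ 38 * 2 ^ 0) (by positivity)
    (fun _ => gb_x) (fun q _ => le_of_eq (by ring)) (fun q _ => by positivity) (by
      have a := Finset.sum_le_card_nsmul (gbS c) (fun q => cN acc q.1) (2 ^ 38)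
        fun q _ => (gb_cN_lt acc q.1).le
      have b := gb_card h
      rw [smul_eq_mul] at a
      omega)
  obtain ⟨B, hB, hW⟩ := gb_split c acc
  have r' := r.mono (by positivity) (A' := tW c acc) fun p => by
    rw [hW, Finsupp.add_apply]
    exact le_add_of_nonneg_right (hB p)
  have d := dom_trunc (e1 := 0) (e2 := 0) (t := 0) hL (by norm_num) (tW_po c acc) r'
  rw [bW, e, msk_eq]
  exact d

theorem bW1_dom {c : Cfg} (h : c.ok = true) (acc : ℕ) {f : ℕ} (hf : f < 2 ^ 38) :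
    Dom c.L c.e 0 (bW1 c acc f)
      (proj c.β (tW c acc) + Finsupp.single 0 ((f : ℝ) / 2 ^ 38)) := by
  have hL : 2 * c.e < c.L := by unfold Cfg.L; omega
  have hβ := Cfg.β_pos h
  have e := gb_lpc c acc (orb1 c) (at1 c) fun n => by
    simp only [orb1, frc_eq, Fin.sum_univ_six, gbX, gbY, Matrix.cons_val]
  have r := raw_atoms (Finset.insertNone (gbS c)) (c2 := 0) hL
    (fun o => o.elim (f * 2 ^ 36) fun q => cN acc q.1 * (plo c c.e (gbY c q) 36 % 2 ^ 44))
    (fun o => o.elim c.e (gbX c)) (fun _ => 0)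
    (fun o => o.elim ((f : ℝ) / 2 ^ 38) fun q =>
      (cN acc q.1 : ℝ) / 2 ^ 38 * c.β ^ (-(((gbY c q : ℕ) : ℤ) - c.e)))
    (sc := 2 ^ 38 * 2 ^ 36) (by positivity)
    (by
      rintro (_ | q) hq
      · show c.e ≤ 2 * c.e
        omega
      · exact gb_x (Finset.some_mem_insertNone.1 hq))
    (by
      rintro (_ | q) _
      · simp only [Option.elim]
        push_cast
        exact le_of_eq (by ring)
      · simp only [Option.elim]
        have a := plo_le h c.e (gbY c q) 36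
        have b : ((plo c c.e (gbY c q) 36 % 2 ^ 44 : ℕ) : ℝ) ≤ plo c c.e (gbY c q) 36 := by
          exact_mod_cast Nat.mod_le _ _
        rw [Nat.cast_mul, neg_sub]
        refine (mul_le_mul_of_nonneg_left (b.trans a) (by positivity)).trans (le_of_eq ?_)
        ring)
    (by
      rintro (_ | q) _ <;> simp only [Option.elim] <;> positivity)
    (by
      rw [Finset.sum_insertNone]
      simp only [Option.elim]
      have a := Finset.sum_le_card_nsmul (gbS c)
        (fun q => cN acc q.1 * (plo c c.e (gbY c q) 36 % 2 ^ 44)) (2 ^ 38 * 2 ^ 44)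
        fun q _ => Nat.mul_le_mul (gb_cN_lt acc q.1).le (Nat.mod_lt _ (by norm_num)).le
      have b := gb_card h
      rw [smul_eq_mul] at a
      omega)
  rw [Finset.sum_insertNone, Finset.sum_insertNone] at r
  simp only [Option.elim] at r
  obtain ⟨B, hB, hW⟩ := gb_split c acc
  have r' := r.mono (by positivity)
    (A' := proj c.β (tW c acc) + Finsupp.single 0 ((f : ℝ) / 2 ^ 38)) fun p => by
    rw [hW, proj_add, gb_proj]
    simp only [proj_single, Finsupp.add_apply, Nat.cast_zero, sub_self]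
    have := hB.proj hβ p
    have z : ((0 : ℤ), (0 : ℤ)) = (0 : Lt) := rfl
    rw [z]
    linarith
  have d := dom_trunc (e1 := 0) (e2 := 0) (t := 36) hL (by norm_num)
    (((tW_po c acc).proj hβ).add (Po.single _ (by positivity))) r'
  rw [bW1, e, msk_eq, add_comm]
  simpa only [at1, mul_assoc, mul_zero, add_zero] using d

end Vale.Agent.P154.DE
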