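import Vale.Agent.P154.GDef

namespace Vale.Agent.P154.DE

theorem dig_lt (B N n : ℕ) : dig B N n < 2 ^ B := Nat.mod_lt _ (by positivity)

theorem dig_eq_mod (B N n : ℕ) : dig B N n = N % 2 ^ (B * (n + 1)) / 2 ^ (B * n) := by
  rw [dig, Nat.mul_succ, pow_add, Nat.mod_mul_right_div_self]

theorem dig_congr {B X Y n : ℕ} (h : X ≡ Y [MOD 2 ^ (B * (n + 1))]) :
    dig B X n = dig B Y n := by
  rw [dig_eq_mod, dig_eq_mod, h]

theorem mod_expand (B N m : ℕ) :
    N % 2 ^ (B * m) = ∑ i ∈ Finset.range m, dig B N i * 2 ^ (B * i) := by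
  induction m with
  | zero => simp [Nat.mod_one]
  | succ m ih =>
    rw [Finset.sum_range_succ, ← ih, Nat.mul_succ, pow_add, Nat.mod_mul, dig,
      mul_comm (2 ^ (B * m))]

theorem dig_succ (B N n : ℕ) : dig B N (n + 1) = dig B (N / 2 ^ B) n := by
  rw [dig, dig, Nat.div_div_eq_div_mul, ← pow_add, Nat.mul_succ, add_comm]

theorem dig_of_sum (B m : ℕ) (c : ℕ → ℕ) (h : ∀ i, c i < 2 ^ B) (n : ℕ) :
    dig B (∑ i ∈ Finset.range m, c i * 2 ^ (B * i)) n = if n < m then c n else 0 := by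
  induction m generalizing c n with
  | zero => simp [dig]
  | succ m ih =>
    have e : ∑ i ∈ Finset.range (m + 1), c i * 2 ^ (B * i) =
        c 0 + 2 ^ B * ∑ i ∈ Finset.range m, c (i + 1) * 2 ^ (B * i) := by
      rw [Finset.sum_range_succ', Finset.mul_sum, add_comm]
      congr 1
      · simp
      · refine Finset.sum_congr rfl fun i _ => ?_
        rw [Nat.mul_succ, pow_add]; ring
    rw [e]
    cases n with
    | zero =>
      simp only [dig, Nat.mul_zero, pow_zero, Nat.div_one, Nat.add_mul_mod_self_left]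
      rw [Nat.mod_eq_of_lt (h 0), if_pos (Nat.succ_pos m)]
    | succ n =>
      rw [dig_succ, Nat.add_mul_div_left _ _ (by positivity), Nat.div_eq_of_lt (h 0), zero_add,
        ih (fun i => c (i + 1)) (fun i => h (i + 1))]
      simp

theorem dig_sum {ι : Type} {B : ℕ} (s : Finset ι) (c X : ι → ℕ)
    (h : ∀ n, ∑ i ∈ s, c i * dig B (X i) n < 2 ^ B) (n : ℕ) :
    dig B (∑ i ∈ s, c i * X i) n = ∑ i ∈ s, c i * dig B (X i) n := by
  have e := dig_of_sum B (n + 1) (fun j => ∑ i ∈ s, c i * dig B (X i) j) h n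
  rw [if_pos (Nat.lt_succ_self n)] at e
  rw [← e]
  apply dig_congr
  have e2 : ∑ j ∈ Finset.range (n + 1), (∑ i ∈ s, c i * dig B (X i) j) * 2 ^ (B * j) =
      ∑ i ∈ s, c i * (X i % 2 ^ (B * (n + 1))) := by
    simp only [Finset.sum_mul, mod_expand, Finset.mul_sum]
    rw [Finset.sum_comm]
    refine Finset.sum_congr rfl fun i _ => Finset.sum_congr rfl fun j _ => by ring
  rw [e2]
  exact Nat.ModEq.sum fun i _ => (Nat.mod_modEq _ _).symm.mul_left _

theorem dig_add {B X Y : ℕ} (h : ∀ n, dig B X n + dig B Y n < 2 ^ B) (n : ℕ) :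
    dig B (X + Y) n = dig B X n + dig B Y n := by
  have e := dig_sum (B := B) (Finset.univ : Finset Bool) (fun _ => 1)
    (fun b => if b then X else Y) (fun n => by simpa using h n) n
  simpa using e

theorem dig_cmul {B c X : ℕ} (h : ∀ n, c * dig B X n < 2 ^ B) (n : ℕ) :
    dig B (c * X) n = c * dig B X n := by
  have e := dig_sum (B := B) (Finset.univ : Finset Unit) (fun _ => c)
    (fun _ => X) (fun n => by simpa using h n) n
  simpa using e

theorem dig_atom {B c : ℕ} (h : c < 2 ^ B) (m n : ℕ) :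
    dig B (c * 2 ^ (B * m)) n = if n = m then c else 0 := by
  have e := dig_of_sum B (m + 1) (fun i => if i = m then c else 0)
    (fun i => by
      split_ifs
      · exact h
      · positivity) n
  have e2 : ∑ i ∈ Finset.range (m + 1), (if i = m then c else 0) * 2 ^ (B * i) =
      c * 2 ^ (B * m) := by
    rw [Finset.sum_eq_single m]
    · simp
    · intro b _ hb; simp [hb]
    · intro hm; simp at hm
  rw [e2] at e
  rw [e]
  by_cases hn : n = m
  · simp [hn]
  · simp [hn]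

theorem dig_mul {B X Y : ℕ}
    (h : ∀ k, ∑ i ∈ Finset.range (k + 1), dig B X i * dig B Y (k - i) < 2 ^ B) (k : ℕ) :
    dig B (X * Y) k = ∑ i ∈ Finset.range (k + 1), dig B X i * dig B Y (k - i) := by
  have e := dig_of_sum B (k + 1)
    (fun s => ∑ i ∈ Finset.range (s + 1), dig B X i * dig B Y (s - i)) h k
  rw [if_pos (Nat.lt_succ_self k)] at e
  rw [← e]
  apply dig_congr
  have e2 : ∑ s ∈ Finset.range (k + 1),
      (∑ i ∈ Finset.range (s + 1), dig B X i * dig B Y (s - i)) * 2 ^ (B * s) =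
      ∑ i ∈ Finset.range (k + 1), dig B X i * 2 ^ (B * i) * (Y % 2 ^ (B * (k + 1 - i))) := by
    have e3 := Finset.sum_range_diag_flip (k + 1)
      (fun i j => dig B X i * dig B Y j * 2 ^ (B * (i + j)))
    have e4 : ∑ s ∈ Finset.range (k + 1),
        (∑ i ∈ Finset.range (s + 1), dig B X i * dig B Y (s - i)) * 2 ^ (B * s) =
        ∑ s ∈ Finset.range (k + 1), ∑ i ∈ Finset.range (s + 1),
          dig B X i * dig B Y (s - i) * 2 ^ (B * (i + (s - i))) := by
      refine Finset.sum_congr rfl fun s _ => ?_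
      rw [Finset.sum_mul]
      refine Finset.sum_congr rfl fun i hi => ?_
      have : i + (s - i) = s := by
        have := Finset.mem_range.1 hi
        omega
      rw [this]
    rw [e4, e3]
    refine Finset.sum_congr rfl fun i _ => ?_
    rw [mod_expand, Finset.mul_sum]
    refine Finset.sum_congr rfl fun j _ => ?_
    rw [mul_add, pow_add]; ring
  rw [e2]
  have e5 : X * Y ≡ ∑ i ∈ Finset.range (k + 1), dig B X i * 2 ^ (B * i) * Y
      [MOD 2 ^ (B * (k + 1))] := by
    rw [← Finset.sum_mul, ← mod_expand]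
    exact (Nat.mod_modEq _ _).symm.mul_right _
  refine e5.trans (Nat.ModEq.sum fun i hi => ?_)
  have hi' : i ≤ k + 1 := (Finset.mem_range.1 hi).le
  have e6 : 2 ^ (B * (k + 1)) = 2 ^ (B * i) * 2 ^ (B * (k + 1 - i)) := by
    rw [← pow_add, ← mul_add, Nat.add_sub_cancel' hi']
  rw [e6, mul_assoc, mul_assoc]
  exact ((Nat.mod_modEq _ _).symm.mul_left' _).mul_left _

theorem dig_row (B N m w x : ℕ) (h : x < w) :
    dig B (N / 2 ^ (B * m) % 2 ^ (B * w)) x = dig B N (x + m) := by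
  have e : dig B (N / 2 ^ (B * m) % 2 ^ (B * w)) x = dig B (N / 2 ^ (B * m)) x :=
    dig_congr ((Nat.mod_modEq _ _).of_dvd (pow_dvd_pow 2 (Nat.mul_le_mul_left B h)))
  rw [e, dig, dig, Nat.div_div_eq_div_mul, ← pow_add, mul_add, add_comm]

theorem dig_mask {L c1 c2 : ℕ} (hL : 2 * c1 < L) (n : ℕ) :
    dig 96 (mask L c1 c2) n = if n % L ≤ 2 * c1 ∧ n / L ≤ 2 * c2 then 2 ^ 40 - 1 else 0 := by
  have hL0 : 0 < L := by omega
  obtain ⟨K, hK⟩ : ∃ K : ℕ, K = 2 ^ 40 - 1 := ⟨_, rfl⟩
  have key : ∀ n, ∑ p ∈ Finset.range (2 * c2 + 1) ×ˢ Finset.range (2 * c1 + 1),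
      K * dig 96 (1 * 2 ^ (96 * (p.2 + L * p.1))) n =
      if n % L ≤ 2 * c1 ∧ n / L ≤ 2 * c2 then K else 0 := by
    intro n
    have hu : ∀ p : ℕ × ℕ, p.2 < 2 * c1 + 1 → n = p.2 + L * p.1 → p = (n / L, n % L) := by
      intro p hp hn
      have h2 : p.2 < L := by omega
      ext
      · simp only
        rw [hn, Nat.add_mul_div_left _ _ hL0, Nat.div_eq_of_lt h2, zero_add]
      · simp only
        rw [hn, Nat.add_mul_mod_self_left, Nat.mod_eq_of_lt h2]
    simp only [dig_atom (show 1 < 2 ^ 96 by norm_num)]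
    split_ifs with hc
    · rw [Finset.sum_eq_single (n / L, n % L)]
      · rw [if_pos (Nat.mod_add_div n L).symm, mul_one]
      · intro p hp hne
        rw [if_neg, mul_zero]
        intro hn
        exact hne (hu p (Finset.mem_range.1 (Finset.mem_product.1 hp).2) hn)
      · intro hm
        exfalso
        apply hm
        simp only [Finset.mem_product, Finset.mem_range]
        omega
    · refine Finset.sum_eq_zero fun p hp => ?_
      rw [if_neg, mul_zero]
      intro hn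
      have h1 := Finset.mem_range.1 (Finset.mem_product.1 hp).1
      have h2 := Finset.mem_range.1 (Finset.mem_product.1 hp).2
      have h3 := hu p h2 hn
      apply hc
      rw [h3] at h1 h2
      simp only at h1 h2
      omega
  have e : mask L c1 c2 = ∑ p ∈ Finset.range (2 * c2 + 1) ×ˢ Finset.range (2 * c1 + 1),
      K * (1 * 2 ^ (96 * (p.2 + L * p.1))) := by
    rw [mask, loop_eq, loop_eq, ← hK, Finset.sum_mul_sum, Finset.sum_product, Finset.sum_mul]
    refine Finset.sum_congr rfl fun y _ => ?_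
    rw [Finset.sum_mul]
    refine Finset.sum_congr rfl fun x _ => ?_
    rw [mul_add, pow_add]; ring
  rw [e, dig_sum _ _ _ _ n, key, hK]
  intro m
  rw [key, hK]
  split_ifs
  · norm_num
  · positivity

theorem dig_land (B X Y n : ℕ) : dig B (X &&& Y) n = dig B X n &&& dig B Y n := by
  rw [dig, dig, dig, Nat.and_div_two_pow, Nat.and_mod_two_pow]

theorem dig_trunc {M N t m : ℕ} (ht : t ≤ 56) (hM : ∀ n, dig 96 M n < 2 ^ 40) (n : ℕ) :
    dig 96 (trunc M (t + 96 * m) N) n ≤ dig 96 M n ∧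
      dig 96 (trunc M (t + 96 * m) N) n * 2 ^ t ≤ dig 96 N (n + m) := by
  have e : trunc M (t + 96 * m) N = (N / 2 ^ (t + 96 * m)) &&& M := by
    rw [← Nat.shiftRight_eq_div_pow]; rfl
  rw [e, dig_land]
  refine ⟨Nat.and_le_right, ?_⟩
  have h1 : dig 96 (N / 2 ^ (t + 96 * m)) n &&& dig 96 M n ≤
      dig 96 (N / 2 ^ (t + 96 * m)) n % 2 ^ 40 := by
    have h2 : dig 96 (N / 2 ^ (t + 96 * m)) n &&& dig 96 M n < 2 ^ 40 :=
      lt_of_le_of_lt Nat.and_le_right (hM n)
    rw [← Nat.mod_eq_of_lt h2, Nat.and_mod_two_pow]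
    exact Nat.and_le_left
  refine (Nat.mul_le_mul_right _ h1).trans ?_
  obtain ⟨Z, hZ⟩ : ∃ Z, Z = N / 2 ^ (96 * (n + m)) := ⟨_, rfl⟩
  have h3 : dig 96 (N / 2 ^ (t + 96 * m)) n % 2 ^ 40 = Z % 2 ^ (t + 40) / 2 ^ t := by
    rw [pow_add 2 t 40, Nat.mod_mul_right_div_self, dig,
      Nat.mod_mod_of_dvd _ (pow_dvd_pow 2 (by norm_num : 40 ≤ 96)), hZ, Nat.div_div_eq_div_mul,
      Nat.div_div_eq_div_mul, ← pow_add, ← pow_add]
    congr 3
    ring
  rw [h3, dig, ← hZ]
  refine (Nat.div_mul_le_self _ _).trans ?_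
  rw [← Nat.mod_mod_of_dvd Z (pow_dvd_pow 2 (show t + 40 ≤ 96 by omega))]
  exact Nat.mod_le _ _

end Vale.Agent.P154.DE
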