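import Vale.Agent.P154.GDef

namespace Vale.Agent.P154.DE

open Vale.Agent.P154 Filter Topology

theorem Gc.mono {G : V → ℝ} (h : Gc G) {v w : V} (hv : Nn v) (hvw : ∀ i, v i ≤ w i) :
    G v ≤ G w := by
  have h1 : Nn (w - v) := fun i => sub_nonneg.2 (hvw i)
  have h2 := h.sup v (w - v) hv h1
  rw [add_sub_cancel] at h2
  linarith [h.nn _ h1]
theorem Gc.zero {G : V → ℝ} (h : Gc G) : G 0 = 0 := by
  have := h.smul 0 0 le_rfl fun _ => le_rfl
  simpa using this
theorem Gc.bd {G : V → ℝ} (h : Gc G) : Bd G :=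
  ⟨G fun _ => 3, fun x hx => by
    rw [abs_of_nonneg (h.nn x hx.1)]
    exact h.mono hx.1 hx.le3⟩
theorem Gc.hom_eq {G : V → ℝ} (h : Gc G) {v : V} (hv : Nn v) : hom G v = G v := by
  rcases eq_or_ne (av v) 0 with h0 | h0
  · have : v = 0 := funext fun i => eq_zero_of_av hv h0 i
    rw [this, hom_zero, h.zero]
  rw [hom, ← h.smul _ _ (av_nonneg hv) (Dl_norm hv h0).1]
  congr 1
  funext i
  simp only [Pi.smul_apply, smul_eq_mul]
  field_simp
theorem Gc.mulL {G : V → ℝ} (h : Gc G) {x : V} (hx : Nn x) : Gc fun y => G (x * y) :=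
  ⟨fun _ hv => h.nn _ (mul_nn hx hv),
    fun c v hc hv => by rw [mul_smul_comm, h.smul c _ hc (mul_nn hx hv)],
    fun v w hv hw => by rw [mul_add]; exact h.sup _ _ (mul_nn hx hv) (mul_nn hx hw)⟩
theorem Gc.perm {G : V → ℝ} (h : Gc G) (τ : Equiv.Perm (Fin 3)) : Gc fun y => G (y ∘ τ) :=
  ⟨fun _ hv => h.nn _ fun _ => hv _, fun c v hc hv => h.smul c (v ∘ τ) hc fun _ => hv _,
    fun v w hv hw => h.sup (v ∘ τ) (w ∘ τ) (fun _ => hv _) fun _ => hw _⟩
theorem Nn.chv {l : ℝ} (h0 : -1 / 2 ≤ l) (h1 : l ≤ 1) {v : V} (hv : Nn v) : Nn (chv l v) := by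
  intro i
  have a := hv i
  have b := av_nonneg hv
  have c : v i ≤ 3 * av v := by
    have a0 := hv 0; have a1 := hv 1; have a2 := hv 2
    unfold av
    fin_cases i <;> simp <;> linarith
  simp only [P154.chv]
  rcases le_total 0 l with k | k
  · nlinarith [mul_nonneg k a, mul_nonneg (sub_nonneg.2 h1) b]
  · nlinarith [mul_nonneg (neg_nonneg.2 k) (sub_nonneg.2 c), mul_nonneg (sub_nonneg.2 h0) b]
theorem chv_smul (l c : ℝ) (v : V) : chv l (c • v) = c • chv l v := by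
  funext i; simp only [chv, av, Pi.smul_apply, smul_eq_mul]; ring
theorem chv_add (l : ℝ) (v w : V) : chv l (v + w) = chv l v + chv l w := by
  funext i; simp only [chv, av, Pi.add_apply]; ring
theorem chv_perm (l : ℝ) (v : V) (τ : Equiv.Perm (Fin 3)) : chv l (v ∘ τ) = chv l v ∘ τ := by
  funext i; simp only [chv, av_perm, Function.comp]
theorem ch_eq_chv (l : ℝ) {x : V} (hx : Dl x) : ch l x = chv l x := by
  funext i; simp only [ch, chv, hx.av]; ring
theorem Nn.add {v w : V} (hv : Nn v) (hw : Nn w) : Nn (v + w) := fun i => add_nonneg (hv i) (hw i)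
theorem Nn.smul {c : ℝ} {v : V} (hc : 0 ≤ c) (hv : Nn v) : Nn (c • v) :=
  fun i => mul_nonneg hc (hv i)
theorem Gc.comb3 {G : V → ℝ} (h : Gc G) {a b c : ℝ} {u v w : V} (ha : 0 ≤ a) (hb : 0 ≤ b)
    (hc : 0 ≤ c) (hu : Nn u) (hv : Nn v) (hw : Nn w) :
    a * G u + b * G v + c * G w ≤ G (a • u + b • v + c • w) := by
  have h1 := h.sup _ _ (hu.smul ha) (hv.smul hb)
  have h2 := h.sup _ _ ((hu.smul ha).add (hv.smul hb)) (hw.smul hc)
  rw [h.smul _ _ ha hu, h.smul _ _ hb hv] at h1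
  rw [h.smul _ _ hc hw] at h2
  linarith
theorem Gc.chv {G : V → ℝ} (h : Gc G) {l : ℝ} (h0 : -1 / 2 ≤ l) (h1 : l ≤ 1) :
    Gc fun v => G (chv l v) :=
  ⟨fun _ hv => h.nn _ (hv.chv h0 h1),
    fun c v hc hv => by rw [chv_smul, h.smul c _ hc (hv.chv h0 h1)],
    fun v w hv hw => by rw [chv_add]; exact h.sup _ _ (hv.chv h0 h1) (hw.chv h0 h1)⟩
theorem Gc.inner {G : V → ℝ} (h : Gc G) (T : St) : Gc fun x => T.E fun y => G (x * y) := by
  refine ⟨fun v hv => T.nonneg (h.mulL hv).bd fun y hy => h.nn _ (mul_nn hv hy.1),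
    fun c v hc hv => ?_, fun v w hv hw => ?_⟩
  · rw [← T.cmul _ _ (h.mulL hv).bd]
    refine T.congr (h.mulL (hv.smul hc)).bd fun y hy => ?_
    rw [smul_mul_assoc, h.smul c _ hc (mul_nn hv hy.1)]
  · rw [← T.add _ _ (h.mulL hv).bd (h.mulL hw).bd]
    refine T.mono _ _ ((h.mulL hv).bd.add (h.mulL hw).bd) (h.mulL (hv.add hw)).bd fun y hy => ?_
    rw [add_mul]
    exact h.sup _ _ (mul_nn hv hy.1) (mul_nn hw hy.1)
theorem Gc.E_nonneg {G : V → ℝ} (h : Gc G) (S : St) : 0 ≤ S.E G :=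
  S.nonneg h.bd fun x hx => h.nn x hx.1
theorem Gc.E_le {G : V → ℝ} (h : Gc G) (S : St) : S.E G ≤ G 1 := by
  let σ : Equiv.Perm (Fin 3) := (Equiv.swap 0 1).trans (Equiv.swap 0 2)
  let τ : Equiv.Perm (Fin 3) := (Equiv.swap 0 2).trans (Equiv.swap 0 1)
  have e1 := S.sym σ G h.bd
  have e2 := S.sym τ G h.bd
  have b1 := (h.perm σ).bd
  have b2 := (h.perm τ).bd
  have h1 : S.E (fun x => G x + G (x ∘ σ) + G (x ∘ τ)) ≤ 3 * G 1 := by
    refine S.le_const ((h.bd.add b1).add b2) fun x hx => ?_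
    have h2 := h.comb3 (u := x) (v := x ∘ σ) (w := x ∘ τ) zero_le_one zero_le_one zero_le_one hx.1
      (fun _ => hx.1 _) fun _ => hx.1 _
    have e : (1 : ℝ) • x + (1 : ℝ) • (x ∘ σ) + (1 : ℝ) • (x ∘ τ) = (3 : ℝ) • (1 : V) := by
      have := hx.2
      funext i
      fin_cases i
      · change 1 * x 0 + 1 * x 1 + 1 * x 2 = 3 * 1
        linarith
      · change 1 * x 1 + 1 * x 2 + 1 * x 0 = 3 * 1
        linarith
      · change 1 * x 2 + 1 * x 0 + 1 * x 1 = 3 * 1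
        linarith
    rw [e, h.smul 3 1 (by norm_num) fun _ => zero_le_one] at h2
    linarith
  rw [S.add _ _ (h.bd.add b1) b2, S.add _ _ h.bd b1, e1, e2] at h1
  linarith
theorem star_E (S T : St) {G : V → ℝ} (h : Gc G) :
    (S.star T).E G = S.E fun x => T.E fun y => G (x * y) :=
  S.congr (T.bd_inner h.bd) fun _ hx =>
    T.congr (h.bd.homl hx) fun _ hy => h.hom_eq (mul_nn hx.1 hy.1)
theorem chanN_E (S : St) {l : ℝ} (h0 : -1 / 2 ≤ l) (h1 : l ≤ 1) {G : V → ℝ} (h : Gc G) :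
    (S.chanN l h0 h1).E G = S.E fun v => G (chv l v) :=
  S.congr (h.bd.chN h0 h1) fun x hx => by rw [ch_eq_chv l hx]
theorem Gs.gp {G : V → ℝ} (h : Gs G) {l : ℝ} (h0 : -1 / 2 ≤ l) (h1 : l ≤ 1) : Gs (Gp l G) := by
  have k := h.1.chv h0 h1
  have n0 : Nn e0 := fun i => by fin_cases i <;> simp [e0]
  refine ⟨⟨fun v hv => ?_, fun c v hc hv => ?_, fun v w hv hw => ?_⟩, fun τ v => ?_⟩
  · have h2 := k.comb3 (u := e0) (v := e0 ∘ Equiv.swap 0 1) (w := e0 ∘ Equiv.swap 0 2)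
      (hv 0) (hv 1) (hv 2) n0 (fun _ => n0 _) fun _ => n0 _
    have e : v 0 • e0 + v 1 • (e0 ∘ Equiv.swap 0 1) + v 2 • (e0 ∘ Equiv.swap 0 2) = v := by
      funext i
      fin_cases i
      · change v 0 * 1 + v 1 * 0 + v 2 * 0 = v 0
        ring
      · change v 0 * 0 + v 1 * 1 + v 2 * 0 = v 1
        ring
      · change v 0 * 0 + v 1 * 0 + v 2 * 1 = v 2
        ring
    simp only [e, chv_perm, h.2] at h2
    unfold Gp
    linarith
  · have := k.smul c v hc hv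
    simp only [Gp, this, Pi.smul_apply, smul_eq_mul]
    ring
  · have := k.sup v w hv hw
    simp only [Gp, Pi.add_apply]
    linarith
  · have := Equiv.sum_comp τ v
    simp only [Fin.sum_univ_three] at this
    simp only [Gp, chv_perm, h.2, Function.comp, this]
theorem chanN_gp (S : St) {l : ℝ} (h0 : -1 / 2 ≤ l) (h1 : l ≤ 1) {G : V → ℝ} (h : Gs G) :
    (S.chanN l h0 h1).E G = S.E (Gp l G) + 3 * G (chv l e0) := by
  rw [chanN_E S h0 h1 h.1, ← S.const (3 * G (chv l e0)),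
    ← S.add _ _ (h.gp h0 h1).1.bd (Bd.const _)]
  refine S.congr (h.1.chv h0 h1).bd fun x hx => ?_
  simp only [Gp, hx.2]
  ring
theorem Mi.star {S S' T T' : St} (h : Mi S S') (k : Mi T T') : Mi (S.star T) (S'.star T') := by
  intro G hG
  rw [star_E _ _ hG, star_E _ _ hG]
  exact (h _ (hG.inner T)).trans
    (S'.mono _ _ (hG.inner T).bd (hG.inner T').bd fun x hx => k _ (hG.mulL hx.1))
theorem Mi.chanN {S S' : St} (h : Mi S S') {l : ℝ} (h0 : -1 / 2 ≤ l) (h1 : l ≤ 1) :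
    Mi (S.chanN l h0 h1) (S'.chanN l h0 h1) := by
  intro G hG
  rw [chanN_E _ h0 h1 hG, chanN_E _ h0 h1 hG]
  exact h _ (hG.chv h0 h1)
theorem Mi.pow {T T' : St} (h : Mi T T') (k : ℕ) : Mi (T.pow k) (T'.pow k) := by
  induction k with
  | zero => exact fun _ _ => le_rfl
  | succ k ih => exact h.star ih
theorem E_coord (S : St) (j : Fin 3) : S.E (fun y => y j) = 1 := by
  rw [← S.av_mul (St.Dl_vtx j)]
  congr 1
  funext y
  fin_cases j <;> simp [av, St.vtx]
theorem mi_init (S : St) : Mi St.init S := by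
  intro G hG
  have b : ∀ j, Bd fun y : V => G (St.vtx j) / 3 * y j := fun j => Bd.of_cont (by fun_prop)
  have e : ∀ j, S.E (fun y : V => G (St.vtx j) / 3 * y j) = G (St.vtx j) / 3 := fun j => by
    rw [S.cmul _ _ (Bd.of_cont (by fun_prop)), E_coord, mul_one]
  have h1 := S.mono _ _ (((b 0).add (b 1)).add (b 2)) hG.bd fun x hx => by
    have h2 := hG.comb3 (a := x 0 / 3) (b := x 1 / 3) (c := x 2 / 3)
      (div_nonneg (hx.1 0) (by norm_num)) (div_nonneg (hx.1 1) (by norm_num))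
      (div_nonneg (hx.1 2) (by norm_num)) (St.Dl_vtx 0).1 (St.Dl_vtx 1).1 (St.Dl_vtx 2).1
    have e : (x 0 / 3) • St.vtx 0 + (x 1 / 3) • St.vtx 1 + (x 2 / 3) • St.vtx 2 = x := by
      funext i
      fin_cases i <;> simp [St.vtx]
    rw [e] at h2
    linarith
  rw [S.add _ _ ((b 0).add (b 1)) (b 2), S.add _ _ (b 0) (b 1), e, e, e] at h1
  change ∑ j, 1 / 3 * G (St.vtx j) ≤ _
  rw [Fin.sum_univ_three]
  linarith
theorem pow_anti (T : St) {G : V → ℝ} (h : Gc G) : Antitone fun k => (T.pow k).E G := by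
  refine antitone_nat_of_succ_le fun k => ?_
  change (T.star (T.pow k)).E G ≤ _
  rw [star_E _ _ h]
  refine ((h.inner _).E_le T).trans (le_of_eq ?_)
  simp only [one_mul]
theorem chan_deg (S : St) {r l : ℝ} (h : -1 / 2 ≤ -r) (h' : -r ≤ 1) (h0 : -1 / 2 ≤ l) (h1 : l ≤ 1)
    (hl0 : -r ≤ l) (hl1 : l ≤ 0) : Mi (S.chanN (-r) h h') (S.chanN l h0 h1) := by
  intro G hG
  rcases (show 0 ≤ r by linarith).eq_or_lt with hr | hr
  · have e : l = -r := by linarith
    subst e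
    exact le_rfl
  have m0 : 0 ≤ -l / r := div_nonneg (by linarith) hr.le
  have m1 : -l / r ≤ 1 := (div_le_one hr).2 (by linarith)
  have e : (S.chanN l h0 h1).E G = (S.chanN (-r) h h').E fun y => G (ch (-l / r) y) := by
    change S.E (fun x => G (ch l x)) = S.E (fun x => G (ch (-l / r) (ch (-r) x)))
    congr 1
    funext x
    congr 1
    funext i
    simp only [ch]
    field_simp
    ring
  rw [e]
  generalize -l / r = m at m0 m1
  set T := S.chanN (-r) h h'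
  have h2 := T.mono _ _ ((hG.bd.cmul m).add (Bd.const ((1 - m) * G 1))) (hG.bd.ch m0 m1)
    fun y hy => by
      have n1 : Nn (1 : V) := fun _ => zero_le_one
      have h3 := hG.sup _ _ (Nn.smul m0 hy.1) (n1.smul (sub_nonneg.2 m1))
      rw [hG.smul _ _ m0 hy.1, hG.smul _ _ (sub_nonneg.2 m1) n1] at h3
      refine h3.trans_eq (congrArg G (funext fun i => ?_))
      simp only [ch, Pi.add_apply, Pi.smul_apply, smul_eq_mul, Pi.one_apply]
      ring
  rw [T.add _ _ (hG.bd.cmul m) (Bd.const _), T.cmul _ _ hG.bd, T.const] at h2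
  have h4 := mul_le_mul_of_nonneg_left (hG.E_le T) (sub_nonneg.2 m1)
  linarith
theorem Mi.mix {T T' : St} (h : Mi T T') {p : ℕ → ℝ} (hp : ∀ k, 0 ≤ p k) (hs : HasSum p 1) :
    Mi (St.mix p hp hs T.pow) (St.mix p hp hs T'.pow) := fun G hG =>
  (St.summable_mix hp hs _ hG.bd).tsum_le_tsum
    (fun k => mul_le_mul_of_nonneg_left (h.pow k G hG) (hp k)) (St.summable_mix hp hs _ hG.bd)
theorem seq_mi {l : ℝ} (h0 : -1 / 2 ≤ l) (h1 : l ≤ 1) {p : ℕ → ℝ} (hp : ∀ k, 0 ≤ p k)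
    (hs : HasSum p 1) {m n : ℕ} (hmn : m ≤ n) :
    Mi (St.seqN l h0 h1 p hp hs m) (St.seqN l h0 h1 p hp hs n) := by
  have key : ∀ n, Mi (St.seqN l h0 h1 p hp hs n) (St.seqN l h0 h1 p hp hs (n + 1)) := by
    intro n
    induction n with
    | zero => exact mi_init _
    | succ n ih => exact (ih.chanN h0 h1).mix hp hs
  induction hmn with
  | refl => exact fun _ _ => le_rfl
  | step _ ih => exact fun G hG => (ih G hG).trans (key _ G hG)
theorem seq_cmp {r l : ℝ} (h : -1 / 2 ≤ -r) (h' : -r ≤ 1) (h0 : -1 / 2 ≤ l) (h1 : l ≤ 1)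
    (hl0 : -r ≤ l) (hl1 : l ≤ 0) {p q : ℕ → ℝ} (hp : ∀ k, 0 ≤ p k) (hs : HasSum p 1)
    (hq : ∀ k, 0 ≤ q k) (hqs : HasSum q 1)
    (hpq : ∀ x : ℕ → ℝ, Antitone x → (∀ k, 0 ≤ x k) → ∑' k, q k * x k ≤ ∑' k, p k * x k)
    (n : ℕ) : Mi (St.seqN (-r) h h' q hq hqs n) (St.seqN l h0 h1 p hp hs n) := by
  induction n with
  | zero => exact fun _ _ => le_rfl
  | succ n ih =>
    intro G hG
    have h2 : Mi ((St.seqN (-r) h h' q hq hqs n).chanN (-r) h h')
        ((St.seqN l h0 h1 p hp hs n).chanN l h0 h1) := fun G hG =>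
      (ih.chanN h h' G hG).trans (chan_deg _ h h' h0 h1 hl0 hl1 G hG)
    exact (h2.mix hq hqs G hG).trans (hpq _ (pow_anti _ hG) fun k => hG.E_nonneg _)
theorem adv_cmp {r l : ℝ} (h : -1 / 2 ≤ -r) (h' : -r ≤ 1) (hl0 : -r ≤ l) (hl1 : l ≤ 0)
    {p q : ℕ → ℝ} (hp : ∀ k, 0 ≤ p k) (hs : HasSum p 1) (hq : ∀ k, 0 ≤ q k) (hqs : HasSum q 1)
    (hpq : ∀ x : ℕ → ℝ, Antitone x → (∀ k, 0 ≤ x k) → ∑' k, q k * x k ≤ ∑' k, p k * x k)
    (H : Tendsto (adv 3 (-r) q) atTop (𝓝 0)) : Tendsto (adv 3 l p) atTop (𝓝 0) := by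
  have h0 : -1 / 2 ≤ l := h.trans hl0
  have h1 : l ≤ 1 := hl1.trans zero_le_one
  let G : V → ℝ := fun v => av v - (|v 0 - av v| + |v 1 - av v| + |v 2 - av v|) / 6
  have hG : Gc G := by
    refine ⟨fun v hv => ?_, fun c v hc hv => ?_, fun v w hv hw => ?_⟩
    · have k : ∀ i, |v i - av v| ≤ v i + av v := fun i =>
        abs_le.2 ⟨by linarith [hv i], by linarith [av_nonneg hv]⟩
      have e : v 0 + v 1 + v 2 = 3 * av v := by unfold av; ring
      simp only [G]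
      linarith [k 0, k 1, k 2]
    · have e : av (c • v) = c * av v := by simp only [av, Pi.smul_apply, smul_eq_mul]; ring
      simp only [G, e, Pi.smul_apply, smul_eq_mul, ← mul_sub, abs_mul, abs_of_nonneg hc]
      ring
    · have e : av (v + w) = av v + av w := by simp only [av, Pi.add_apply]; ring
      have k : ∀ i, |v i + w i - (av v + av w)| ≤ |v i - av v| + |w i - av w| := fun i => by
        rw [add_sub_add_comm]; exact abs_add_le _ _
      simp only [G, e, Pi.add_apply]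
      linarith [k 0, k 1, k 2]
  have eG : ∀ S : St, S.E G = 1 - S.E tv := fun S => by
    have := S.add _ _ (Bd.const 1) (bd_tv.cmul (-1))
    rw [S.const, S.cmul _ _ bd_tv] at this
    refine (S.congr hG.bd fun x hx => ?_).trans (this.trans (by ring))
    have k : ∀ t : ℝ, |t / 3 - 1 / 3| = |t - 1| / 3 := fun t => by
      rw [← sub_div, abs_div]; norm_num
    simp only [G, tv, hx.av, Fin.sum_univ_three, k]
    ring
  refine squeeze_zero (fun n => ?_) (fun n => ?_) H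
  · rw [← advN h0 h1 hp hs n]
    exact St.nonneg _ bd_tv fun x _ => by unfold tv; positivity
  · have := seq_cmp h h' h0 h1 hl0 hl1 hp hs hq hqs hpq n G hG
    rw [eG, eG, advN, advN] at this
    linarith

end Vale.Agent.P154.DE
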