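import Vale.Agent.P154.GEn2
import Vale.Agent.P154.GOrd
import Vale.Agent.P154.GDig

namespace Vale.Agent.P154.DE

open Vale.Agent.P154

theorem GCvx_conc (S : St) {G : V → ℝ} (h : Gc G) {a b c t : ℝ} (a0 : -1 / 2 ≤ a) (a1 : a ≤ 1)
    (b0 : -1 / 2 ≤ b) (b1 : b ≤ 1) (c0 : -1 / 2 ≤ c) (c1 : c ≤ 1) (t0 : 0 ≤ t) (t1 : t ≤ 1)
    (hc : c = t * a + (1 - t) * b) :
    t * S.E (fun x => G (ch a x)) + (1 - t) * S.E (fun x => G (ch b x)) ≤
      S.E fun x => G (ch c x) := by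
  have ha := h.bd.chN a0 a1
  have hb := h.bd.chN b0 b1
  rw [← S.cmul _ _ ha, ← S.cmul _ _ hb, ← S.add _ _ (ha.cmul _) (hb.cmul _)]
  refine S.mono _ _ ((ha.cmul _).add (hb.cmul _)) (h.bd.chN c0 c1) fun x hx => ?_
  have na : Nn (ch a x) := (hx.chN a0 a1).1
  have nb : Nn (ch b x) := (hx.chN b0 b1).1
  have e : ch c x = t • ch a x + (1 - t) • ch b x := by
    funext i
    simp only [ch, hc, Pi.add_apply, Pi.smul_apply, smul_eq_mul]
    ring
  rw [← h.smul t _ t0 na, ← h.smul _ _ (sub_nonneg.2 t1) nb, e]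
  exact h.sup _ _ (fun i => mul_nonneg t0 (na i)) fun i => mul_nonneg (sub_nonneg.2 t1) (nb i)

theorem mix_mi (S : St) {r r' l θ η : ℝ} (hr' : r' = r / 2) (a0 : -1 / 2 ≤ -r) (a1 : -r ≤ 1)
    (b0 : -1 / 2 ≤ -r') (b1 : -r' ≤ 1) (h0 : -1 / 2 ≤ l) (h1 : l ≤ 1) (hl0 : -r ≤ l) (hl1 : l ≤ 0)
    (t0 : 0 ≤ θ) (t1 : θ ≤ 1) (e0 : 0 ≤ η) (e1 : η ≤ 1) (h : η * l ^ 2 ≤ θ * r ^ 2) :
    Mi (mix2 θ t0 t1 (S.chanN (-r) a0 a1) (S.chanN (-r') b0 b1))
      (mix2 η e0 e1 (S.chanN l h0 h1) St.triv) := by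
  intro G hG
  have hA : S.E (fun x => G (ch (-r) x)) ≤ G fun _ => 1 := hG.E_le (S.chanN (-r) a0 a1)
  have hB : S.E (fun x => G (ch (-r') x)) ≤ G fun _ => 1 := hG.E_le (S.chanN (-r') b0 b1)
  have hz : S.E (fun x => G (ch 0 x)) = G fun _ => 1 := by
    rw [← S.const (G fun _ => 1)]
    congr 1
    funext x
    congr 1
    funext i
    simp [ch]
  have z0 : (-1 / 2 : ℝ) ≤ 0 := by norm_num
  have hAB := GCvx_conc S hG (t := 1 / 2) a0 a1 z0 zero_le_one b0 b1 (by norm_num) (by norm_num)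
    (by rw [hr']; ring)
  change θ * S.E (fun x => G (ch (-r) x)) + (1 - θ) * S.E (fun x => G (ch (-r') x)) ≤
    η * S.E (fun x => G (ch l x)) + (1 - η) * G fun _ => 1
  obtain ⟨μ, m0, m1, hm, hl⟩ : ∃ μ : ℝ, 0 ≤ μ ∧ μ ≤ 1 ∧ η * μ ^ 2 ≤ θ ∧ l = -(μ * r) := by
    rcases (show 0 ≤ r by linarith).eq_or_lt with hr | hr
    · exact ⟨0, le_rfl, zero_le_one, by simpa using t0, by linarith⟩
    · refine ⟨-l / r, div_nonneg (by linarith) hr.le, (div_le_one hr).2 (by linarith), ?_,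
        by field_simp⟩
      rw [div_pow, neg_sq, ← mul_div_assoc, div_le_iff₀ (by positivity)]
      exact h
  have k1 : η * (2 * μ - 1) ≤ θ := by nlinarith [mul_nonneg e0 (sq_nonneg (μ - 1))]
  have k2 : η * (2 * μ) ≤ 1 + θ := by nlinarith [mul_nonneg e0 (sq_nonneg (μ - 1))]
  rw [hz] at hAB
  rcases le_total μ (1 / 2) with hc | hc
  · have k := GCvx_conc S hG (t := 2 * μ) b0 b1 z0 zero_le_one h0 h1 (by linarith) (by linarith)
      (by rw [hl, hr']; ring)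
    rw [hz] at k
    nlinarith [mul_le_mul_of_nonneg_left k e0, mul_le_mul_of_nonneg_right k2 (sub_nonneg.2 hB),
      mul_le_mul_of_nonneg_left hAB t0]
  · have k := GCvx_conc S hG (t := 2 * μ - 1) a0 a1 b0 b1 h0 h1 (by linarith) (by linarith)
      (by rw [hl, hr']; ring)
    nlinarith [mul_le_mul_of_nonneg_left k e0, mul_le_mul_of_nonneg_right k2 (sub_nonneg.2 hB),
      mul_le_mul_of_nonneg_left hAB (sub_nonneg.2 k1)]

theorem GCvx_dg (X n : ℕ) : dg X n = dig 110 X n := by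
  rw [dig, ← Nat.shiftRight_eq_div_pow]
  rfl

theorem GCvx_dig {N w a b n : ℕ} (hw : w ≤ 256) (hn : n < N + 2) :
    (dig 110 (mixA N w a b) n : ℝ) ≤
      (w : ℝ) / 256 * dig 110 a n + (1 - (w : ℝ) / 256) * dig 110 b n := by
  have e : mixA N w a b = ∑ i ∈ Finset.range (N + 2),
      (w * dig 110 a i + (256 - w) * dig 110 b i) / 256 * 2 ^ (110 * i) := by
    rw [mixA, frc_eq, frc_eq, lp_eq]
    refine Finset.sum_congr rfl fun i _ => ?_
    rw [GCvx_dg, GCvx_dg, ← Nat.shiftLeft_eq]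
    rfl
  rw [e, dig_of_sum 110 (N + 2) (fun i => (w * dig 110 a i + (256 - w) * dig 110 b i) / 256)
    fun i => ?_, if_pos hn]
  · refine Nat.cast_div_le.trans_eq ?_
    push_cast [hw]
    ring
  · have ha := dig_lt 110 a i
    have hb := dig_lt 110 b i
    generalize 2 ^ 110 = P at ha hb
    obtain ⟨u, hu⟩ := Nat.exists_eq_add_of_le hw
    rw [Nat.div_lt_iff_lt_mul (by norm_num), show 256 - w = u by omega, hu]
    rcases Nat.eq_zero_or_pos w with h | h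
    · subst h
      nlinarith
    · nlinarith

theorem mixA_ok {c : Cfg} {w a b : ℕ} (hw : w ≤ 256) (t0 : 0 ≤ (w : ℝ) / 256)
    (t1 : (w : ℝ) / 256 ≤ 1) {S T : St} (ha : Inv c a S) (hb : Inv c b T) :
    Inv c (mixA c.N w a b) (mix2 ((w : ℝ) / 256) t0 t1 S T) := by
  intro G hG
  have h1 := mul_le_mul_of_nonneg_left (ha G hG) t0
  have h2 := mul_le_mul_of_nonneg_left (hb G hG) (sub_nonneg.2 t1)
  have h3 := mul_le_mul_of_nonneg_right (GCvx_dig (N := c.N) (a := a) (b := b) (n := 1) hw (by omega))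
    (hG.1.nn (zz 0) fun i => by unfold zz; split_ifs <;> norm_num)
  have hβ : 0 ≤ c.β := by unfold Cfg.β; positivity
  have h4 := Finset.sum_le_sum fun n (hn : n ∈ Finset.range c.N) => mul_le_mul_of_nonneg_right
    (GCvx_dig (N := c.N) (a := a) (b := b) (n := n + 2) hw (by simpa using hn))
    (hG.1.nn (uu c.β (tgt c.D n)) fun i => by fin_cases i <;> exact zpow_nonneg hβ _)
  simp only [add_mul, mul_assoc, Finset.sum_add_distrib, ← Finset.mul_sum] at h4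
  change _ ≤ 2 ^ 76 * ((w : ℝ) / 256 * S.E G + (1 - (w : ℝ) / 256) * T.E G)
  linarith

theorem GCvx_iter (F : ℕ → ℕ) (n a : ℕ) : iter F n a = F^[n] a := by
  induction n generalizing a with
  | zero => rfl
  | succ n ih => exact (frc_eq (F a) (iter F n)).trans (ih _)

theorem phase2_eq (c : Cfg) (rn rd w : ℕ) (ps : List ℕ) (n acc : ℕ) :
    phase2 c rn rd w ps n acc = (trans2 c c rn rd w ps)^[n] acc := by
  have e : step2 c w (tabA c (ent c rn rd)) (tabQ c (ent c rn rd)) (ent c rn rd (2 ^ 64) 0 0 1)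
      (tabA c (ent c rn (2 * rd))) (tabQ c (ent c rn (2 * rd))) (ent c rn (2 * rd) (2 ^ 64) 0 0 1)
      ps = trans2 c c rn rd w ps := by
    funext x
    simp only [step2, trans2, trans, step, frc_eq, frcL_eq]
  rw [phase2, frcT_eq, frcL_eq, frc_eq, frcT_eq, frcL_eq, frc_eq, frcL_eq, GCvx_iter, e]

end Vale.Agent.P154.DE
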