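import Vale.Agent.P154.Pen

namespace Vale.Agent.P154.DE

open Vale.Agent.P154

def Nn (v : V) : Prop := ∀ i, 0 ≤ v i

structure Gc (G : V → ℝ) : Prop where
  nn : ∀ v, Nn v → 0 ≤ G v
  smul : ∀ (c : ℝ) (v : V), 0 ≤ c → Nn v → G (c • v) = c * G v
  sup : ∀ v w, Nn v → Nn w → G v + G w ≤ G (v + w)

def Gs (G : V → ℝ) : Prop := Gc G ∧ ∀ (τ : Equiv.Perm (Fin 3)) (v : V), G (v ∘ τ) = G v

def Mi (S T : St) : Prop := ∀ G, Gc G → S.E G ≤ T.E G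

abbrev Lt := ℤ × ℤ

noncomputable def uu (β : ℝ) (p : Lt) : V :=
  ![β ^ (-p.1 - p.2), β ^ (2 * p.1 - p.2), β ^ (2 * p.2 - p.1)]

def zz (t : Fin 3) : V := fun i => if i = t then 0 else 1

def e0 : V := ![1, 0, 0]

noncomputable def val (β : ℝ) (G : V → ℝ) (A : Lt →₀ ℝ) : ℝ := A.sum fun p a => a * G (uu β p)

noncomputable def conv (W A : Lt →₀ ℝ) : Lt →₀ ℝ :=
  W.sum fun a w => w • A.mapDomain fun q => a + q

def s1 (p : Lt) : Lt := (p.2, p.1)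
def s2 (p : Lt) : Lt := (-p.1, p.2 - p.1)

def Sy (A : Lt →₀ ℝ) : Prop := ∀ p, A (s1 p) = A p ∧ A (s2 p) = A p
def Po (A : Lt →₀ ℝ) : Prop := ∀ p, 0 ≤ A p

noncomputable def proj (β : ℝ) (W : Lt →₀ ℝ) : Lt →₀ ℝ :=
  W.sum fun p a => Finsupp.single (p.1, 0) (a * β ^ (-p.2))

noncomputable def orbS (p : Lt) (c : ℝ) : Lt →₀ ℝ :=
  Finsupp.single (p.1, p.2) c + Finsupp.single (p.2, p.1) c + Finsupp.single (-p.1, p.2 - p.1) c +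
    Finsupp.single (p.2 - p.1, -p.1) c + Finsupp.single (-p.2, p.1 - p.2) c +
    Finsupp.single (p.1 - p.2, -p.2) c

def LowT (β : ℝ) (T : St) (W : Lt →₀ ℝ) (f : ℝ) : Prop :=
  ∀ G, Gc G → val β G W + f * ∑ t, G (zz t) ≤ T.E G

noncomputable def hF (T : St) : List ℝ → (V → ℝ) → ℝ
  | [], _ => 0
  | p :: ps, G => p * G 1 + T.E fun x => hF T ps fun y => G (x * y)

noncomputable def hA (W : Lt →₀ ℝ) : List ℝ → Lt →₀ ℝ
  | [] => 0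
  | p :: ps => conv W (hA W ps) + conv (Finsupp.single 0 1) (Finsupp.single 0 p)

noncomputable def hQ (W1 : Lt →₀ ℝ) (f : ℝ) : List ℝ → Lt →₀ ℝ
  | [] => 0
  | _ :: ps => conv W1 (hQ W1 f ps) +
      conv (Finsupp.single 0 f) (hA (W1 + Finsupp.single 0 f) ps)

def kap (p : Lt) : ℕ :=
  if p.2 ≤ p.1 ∧ p.1 ≤ 0 then (if p.2 = 0 then 1 else if p.1 = 0 ∨ p.1 = p.2 then 3 else 6) else 0

noncomputable def Gp (l : ℝ) (G : V → ℝ) (v : V) : ℝ :=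
  G (chv l v) - (v 0 + v 1 + v 2) * G (chv l e0)

noncomputable def phi (x : V) : ℝ := (∑ i, (2 - x i) ^ 10) / 3 - 1

noncomputable def HH (v : V) : ℝ := hom (fun x => 682 - phi x) v

/-- the offspring law `p` is dominated by the finite weights `ps` with mean bound `d2` -/
def Law (p : ℕ → ℝ) (d2 : ℝ) (ps : List ℝ) : Prop :=
  (∀ x : ℕ → ℝ, Antitone x → (∀ k, 0 ≤ x k) →
    ∑ k ∈ Finset.range ps.length, ps.getD k 0 * x k ≤ ∑' k, p k * x k) ∧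
  ∀ (h : ℕ → ℝ) (C : ℝ), Antitone h → (∀ k, 0 ≤ h k) → (∀ k, h k ≤ C) →
    ∑' k, p k * ∑ j ∈ Finset.range k, (C - h j) ≤
      C * d2 - ∑ k ∈ Finset.range ps.length, ps.getD k 0 * ∑ j ∈ Finset.range k, h j

def dig (B N n : ℕ) : ℕ := N / 2 ^ (B * n) % 2 ^ B

def pos (L c1 c2 n : ℕ) : Lt := (((n % L : ℕ) : ℤ) - c1, ((n / L : ℕ) : ℤ) - c2)

def Raw (L c1 c2 : ℕ) (sc : ℝ) (N : ℕ) (A : Lt →₀ ℝ) : Prop :=
  ∀ n, n % L ≤ 2 * c1 → n / L ≤ 2 * c2 → (dig 96 N n : ℝ) ≤ sc * A (pos L c1 c2 n)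

def Dom (L c1 c2 N : ℕ) (A : Lt →₀ ℝ) : Prop :=
  Raw L c1 c2 (2 ^ 38) N A ∧
    ∀ n, dig 96 N n < 2 ^ 40 ∧ (dig 96 N n ≠ 0 → n % L ≤ 2 * c1 ∧ n / L ≤ 2 * c2)

noncomputable def force {α : Type} (n : ℕ) (k : ℕ → α) : α :=
  Nat.rec (motive := fun _ => α) (k 0) (fun m _ => k (Nat.succ m)) n

theorem force_eq {α : Type} (n : ℕ) (k : ℕ → α) : force n k = k n := by cases n <;> rfl

noncomputable def loop (n : ℕ) (F : ℕ → ℕ) : ℕ :=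
  Nat.rec (motive := fun _ => ℕ) 0 (fun i ih => Nat.add (F i) ih) n

theorem loop_eq (n : ℕ) (F : ℕ → ℕ) : loop n F = ∑ i ∈ Finset.range n, F i := by
  induction n with
  | zero => rfl
  | succ n ih => rw [Finset.sum_range_succ, ← ih]; exact Nat.add_comm _ _

noncomputable def mask (L c1 c2 : ℕ) : ℕ :=
  loop (2 * c2 + 1) (fun y => 2 ^ (96 * (L * y))) * loop (2 * c1 + 1) (fun x => 2 ^ (96 * x)) *
    (2 ^ 40 - 1)

def trunc (M sh N : ℕ) : ℕ := Nat.land (Nat.shiftRight N sh) M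

def ctr (L c1 c2 a : ℕ) : ℕ := Nat.shiftLeft a (96 * (c1 + L * c2))

end Vale.Agent.P154.DE
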