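import Vale.Agent.P154.GEng

namespace Vale.Agent.P154.DE

open Vale.Agent.P154

noncomputable def mix2 (θ : ℝ) (h0 : 0 ≤ θ) (h1 : θ ≤ 1) (S T : St) : St where
  E g := θ * S.E g + (1 - θ) * T.E g
  mono f g hf hg h := add_le_add (mul_le_mul_of_nonneg_left (S.mono f g hf hg h) h0)
    (mul_le_mul_of_nonneg_left (T.mono f g hf hg h) (sub_nonneg.2 h1))
  add f g hf hg := by rw [S.add f g hf hg, T.add f g hf hg]; ring
  cmul c f hf := by rw [S.cmul c f hf, T.cmul c f hf]; ring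
  one := by rw [S.one, T.one]; ring
  sym τ f hf := by rw [S.sym τ f hf, T.sym τ f hf]

def dg (X n : ℕ) : ℕ := Nat.mod (Nat.shiftRight X (Nat.mul 110 n)) 1298074214633706907132624082305024

def mixA (N w a b : ℕ) : ℕ :=
  frc a fun a => frc b fun b => lp (Nat.add N 2) fun n =>
    Nat.shiftLeft (Nat.div (Nat.add (Nat.mul w (dg a n)) (Nat.mul (Nat.sub 256 w) (dg b n))) 256)
      (Nat.mul 110 n)

def start2 (c : Cfg) (rn rd w : ℕ) : ℕ := mixA c.N w (start c rn rd) (start c rn (2 * rd))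

def trans2 (c c' : Cfg) (rn rd w : ℕ) (ps : List ℕ) (acc : ℕ) : ℕ :=
  mixA c'.N w (trans c c' rn rd ps acc) (trans c c' rn (2 * rd) ps acc)

def step2 (c : Cfg) (w : ℕ) (tA : List (List ℕ)) (tQ : List ℕ) (q0 : ℕ) (tA' : List (List ℕ))
    (tQ' : List ℕ) (q0' : ℕ) (ps : List ℕ) (acc : ℕ) : ℕ :=
  frc (arrA c ps acc) fun A => frc (arrQ c ps acc) fun Q =>
    mixA c.N w (fin q0 (scan c tA tQ acc A Q)) (fin q0' (scan c tA' tQ' acc A Q))

def phase2 (c : Cfg) (rn rd w : ℕ) (ps : List ℕ) (n acc : ℕ) : ℕ :=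
  frcT (tabA c (ent c rn rd)) fun tA => frcL (tabQ c (ent c rn rd)) fun tQ =>
  frc (ent c rn rd (2 ^ 64) 0 0 1) fun q0 =>
  frcT (tabA c (ent c rn (2 * rd))) fun tA' => frcL (tabQ c (ent c rn (2 * rd))) fun tQ' =>
  frc (ent c rn (2 * rd) (2 ^ 64) 0 0 1) fun q0' => frcL ps fun ps =>
    iter (step2 c w tA tQ q0 tA' tQ' q0' ps) n acc

end Vale.Agent.P154.DE
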