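import Vale.Agent.P154.GDef

namespace Vale.Agent.P154.DE

def frc {α : Type} (n : ℕ) (k : ℕ → α) : α :=
  Nat.rec (motive := fun _ => α) (k 0) (fun m _ => k (Nat.succ m)) n

theorem frc_eq {α : Type} (n : ℕ) (k : ℕ → α) : frc n k = k n := by cases n <;> rfl

def lp (n : ℕ) (F : ℕ → ℕ) : ℕ :=
  Nat.rec (motive := fun _ => ℕ) 0 (fun i ih => Nat.add (F i) ih) n

theorem lp_eq (n : ℕ) (F : ℕ → ℕ) : lp n F = ∑ i ∈ Finset.range n, F i := loop_eq n F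

def frcL {α : Type} (l : List ℕ) : (List ℕ → α) → α :=
  List.rec (motive := fun _ => (List ℕ → α) → α) (fun k => k [])
    (fun x _ ih k => frc x fun y => ih fun t => k (y :: t)) l

theorem frcL_eq {α : Type} (l : List ℕ) (k : List ℕ → α) : frcL l k = k l := by
  induction l generalizing k with
  | nil => rfl
  | cons x l ih => exact (frc_eq x fun y => frcL l fun t => k (y :: t)).trans (ih _)

def frcT {α : Type} (l : List (List ℕ)) : (List (List ℕ) → α) → α :=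
  List.rec (motive := fun _ => (List (List ℕ) → α) → α) (fun k => k [])
    (fun x _ ih k => frcL x fun y => ih fun t => k (y :: t)) l

theorem frcT_eq {α : Type} (l : List (List ℕ)) (k : List (List ℕ) → α) : frcT l k = k l := by
  induction l generalizing k with
  | nil => rfl
  | cons x l ih => exact (frcL_eq x fun y => frcT l fun t => k (y :: t)).trans (ih _)

/-- `[F 0, ..., F (n-1)]` -/
def tabu {α : Type} (n : ℕ) (F : ℕ → α) : List α :=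
  Nat.rec (motive := fun _ => List α → List α) (fun t => t) (fun i ih t => ih (F i :: t)) n []

theorem tabu_eq {α : Type} (n : ℕ) (F : ℕ → α) : tabu n F = (List.range n).map F := by
  have : ∀ (n : ℕ) (t : List α), Nat.rec (motive := fun _ => List α → List α) (fun t => t)
      (fun i ih t => ih (F i :: t)) n t = (List.range n).map F ++ t := by
    intro n
    induction n with
    | zero => intro t; rfl
    | succ n ih => intro t; simp [List.range_succ, ih]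
  simpa [tabu] using this n []

structure Cfg where
  bp : ℕ
  bq : ℕ
  o : ℕ
  D : ℕ
  e : ℕ
  R : ℕ
  R1 : ℕ
  uq : ℕ

def Cfg.N (c : Cfg) : ℕ := Nat.mul (Nat.add c.o 1) c.D
def Cfg.L (c : Cfg) : ℕ := 2 * (c.R + c.e) + 1
noncomputable def Cfg.β (c : Cfg) : ℝ := (c.bp : ℝ) / c.bq
def Cfg.ok (c : Cfg) : Bool :=
  Nat.blt 0 c.bp && Nat.blt 0 c.bq && Nat.ble (c.L * (2 * c.e + 1)) (2 ^ 14) &&
    Nat.ble c.N 600 && Nat.ble c.R 100 && Nat.ble c.R1 c.R && Nat.ble c.uq 1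

def plo (c : Cfg) (a b t : ℕ) : ℕ := (Nat.div (Nat.shiftLeft (Nat.mul (Nat.pow c.bp a) (Nat.pow c.bq b)) t) (Nat.mul (Nat.pow c.bq a) (Nat.pow c.bp b)))

def tgt (D n : ℕ) : Lt := (((n / D : ℕ) : ℤ), ((n / D + n % D : ℕ) : ℤ))

def hi0 (c : Cfg) (n : ℕ) : ℕ := (Nat.add (plo c 0 (Nat.add (Nat.div n c.D) (Nat.add (Nat.div n c.D) (Nat.mod n c.D))) 64) 1)
def hi1 (c : Cfg) (n : ℕ) : ℕ := (Nat.add (plo c (Nat.mul 2 (Nat.div n c.D)) (Nat.add (Nat.div n c.D) (Nat.mod n c.D)) 64) 1)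
def hi2 (c : Cfg) (n : ℕ) : ℕ := (Nat.add (plo c (Nat.mul 2 (Nat.add (Nat.div n c.D) (Nat.mod n c.D))) (Nat.div n c.D) 64) 1)

def mm (rn rd S a κ : ℕ) : ℕ := (Nat.mul (Nat.sub (Nat.mul (Nat.add rd rn) S) (Nat.mul (Nat.mul 3 rn) a)) κ)

def chk (c : Cfg) (rd M0 M1 M2 μ nA nB nC αA αB αC γ : ℕ) : Bool :=
  and (Nat.ble (Nat.add (Nat.add (Nat.add (Nat.add (Nat.add μ γ) αA) αB) αC) 1) 72057594037927936)
   (and (Nat.ble (Nat.add nA 1) c.N) (and (Nat.ble (Nat.add nB 1) c.N) (and (Nat.ble (Nat.add nC 1) c.N)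
    (and (Nat.ble (Nat.mul (Nat.mul 3 rd) (Nat.add (Nat.add (Nat.mul αA (hi0 c nA)) (Nat.mul αB (hi0 c nB))) (Nat.mul αC (hi0 c nC))))
      (Nat.mul 274877906944 M0))
    (and (Nat.ble (Nat.mul (Nat.mul 3 rd) (Nat.add (Nat.add (Nat.add (Nat.mul αA (hi1 c nA)) (Nat.mul αB (hi1 c nB))) (Nat.mul αC (hi1 c nC))) (Nat.mul γ 18446744073709551616)))
      (Nat.mul 274877906944 M1))
     (Nat.ble (Nat.mul (Nat.mul 3 rd) (Nat.add (Nat.add (Nat.add (Nat.mul αA (hi2 c nA)) (Nat.mul αB (hi2 c nB))) (Nat.mul αC (hi2 c nC))) (Nat.mul γ 18446744073709551616)))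
      (Nat.mul 274877906944 M2)))))))

def pack (c : Cfg) (rd M0 M1 M2 μ nA nB nC αA αB αC γ : ℕ) : ℕ :=
  cond (chk c rd M0 M1 M2 μ nA nB nC αA αB αC γ)
    (Nat.add (Nat.add (Nat.add (Nat.add μ (Nat.shiftLeft γ 110)) (Nat.shiftLeft αA (Nat.mul 110 (Nat.add nA 2)))) (Nat.shiftLeft αB (Nat.mul 110 (Nat.add nB 2)))) (Nat.shiftLeft αC (Nat.mul 110 (Nat.add nC 2)))) 0

def pb (c : Cfg) (k : ℕ) : ℕ := (Nat.pow c.bp (Nat.mul 3 k))
def qb (c : Cfg) (k : ℕ) : ℕ := (Nat.pow c.bq (Nat.mul 3 k))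

def bs (c : Cfg) (M0 M w i : ℕ) : ℕ :=
  cond (Nat.ble (Nat.mul M0 (pb c (Nat.add i w))) (Nat.mul M (qb c (Nat.add i w)))) (Nat.add i w) i

def lg (c : Cfg) (M0 M mx : ℕ) : ℕ :=
  frc (bs c M0 M 16 0) fun i => frc (bs c M0 M 8 i) fun i => frc (bs c M0 M 4 i) fun i =>
    frc (bs c M0 M 2 i) fun i => frc (bs c M0 M 1 i) fun j => cond (Nat.ble j mx) j mx

def dn (c : Cfg) (rd : ℕ) : ℕ := (Nat.shiftLeft (Nat.mul (Nat.sub (Nat.pow c.bp 3) (Nat.pow c.bq 3)) (Nat.mul 3 rd)) 118)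
def nu (c : Cfg) (k : ℕ) : ℕ := (Nat.mul (Nat.mul (Nat.pow c.bq 3) (plo c k 0 64)) 268435455)
def alp (c : Cfg) (rd A k : ℕ) : ℕ := (Nat.div (Nat.mul A (nu c k)) (dn c rd))

def ent3 (c : Cfg) (rd M0 M1 M2 μ γ i j x1 x2 bM : ℕ) : ℕ :=
  cond (Nat.ble x1 x2)
    (frc (alp c rd (Nat.sub bM x2) (Nat.add i j)) fun αA => frc (alp c rd (Nat.sub x2 x1) (Nat.add (Nat.add i j) 1)) fun αB =>
      frc (alp c rd (Nat.sub x1 M0) (Nat.add (Nat.add i j) 2)) fun αC => frc (Nat.add (Nat.mul i c.D) (Nat.sub j i)) fun n =>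
      pack c rd M0 M1 M2 μ n (Nat.add n 1) (Nat.add n c.D) αA αB αC γ)
    (frc (alp c rd (Nat.sub bM x1) (Nat.add i j)) fun αA => frc (alp c rd (Nat.sub x1 x2) (Nat.add (Nat.add i j) 1)) fun αB =>
      frc (alp c rd (Nat.sub x2 M0) (Nat.add (Nat.add i j) 2)) fun αC => frc (Nat.add (Nat.mul i c.D) (Nat.sub j i)) fun n =>
      pack c rd M0 M1 M2 μ n (Nat.sub (Nat.add n c.D) 1) (Nat.add n c.D) αA αB αC γ)

def ent2 (c : Cfg) (rd M0 M1 M2 μ g : ℕ) : ℕ :=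
  frc (lg c M0 (Nat.sub M1 g) (Nat.sub c.o 1)) fun i => frc (lg c M0 (Nat.sub M2 g) (Nat.sub c.e 1)) fun j =>
  frc (Nat.div (Nat.mul (Nat.sub M1 g) (qb c i)) (pb c i)) fun x1 => frc (Nat.div (Nat.mul (Nat.sub M2 g) (qb c j)) (pb c j)) fun x2 =>
  frc (Nat.div (Nat.mul M0 (pb c 1)) (qb c 1)) fun bM => frc (Nat.div (Nat.mul g 268435455) (Nat.shiftLeft (Nat.mul 3 rd) 54)) fun γ =>
  ent3 c rd M0 M1 M2 μ γ i j x1 x2 bM

def ent1 (c : Cfg) (rn rd a0 a1 a2 κ S : ℕ) : ℕ :=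
  frc (mm rn rd S a0 κ) fun M0 => frc (mm rn rd S a1 κ) fun M1 => frc (mm rn rd S a2 κ) fun M2 =>
  frc (Nat.add (Nat.div (Nat.mul κ S) 67108864) 1) fun μ => frc (Nat.sub M1 (Nat.div (Nat.mul M0 (pb c c.o)) (qb c c.o))) fun g =>
  ent2 c rd M0 M1 M2 μ g

def ent (c : Cfg) (rn rd a0 a1 a2 κ : ℕ) : ℕ :=
  frc a0 fun a0 => frc a1 fun a1 => frc a2 fun a2 => frc (Nat.add (Nat.add a0 a1) a2) fun S =>
    ent1 c rn rd a0 a1 a2 κ S

def dst (a b : ℕ) : ℕ := (Nat.add (Nat.sub a b) (Nat.sub b a))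

def hent (a0 a1 a2 κ : ℕ) : ℕ :=
  frc a0 fun a0 => frc a1 fun a1 => frc a2 fun a2 => frc (Nat.add (Nat.add a0 a1) a2) fun S =>
    (Nat.div (Nat.mul κ (Nat.sub (Nat.mul 2049 (Nat.pow S 10)) (Nat.add (Nat.add (Nat.pow (dst (Nat.mul 2 S) (Nat.mul 3 a0)) 10) (Nat.pow (dst (Nat.mul 2 S) (Nat.mul 3 a1)) 10)) (Nat.pow (dst (Nat.mul 2 S) (Nat.mul 3 a2)) 10)))) (Nat.mul (Nat.mul 9 (Nat.pow S 9)) 67108864))

def kapN (I J : ℕ) : ℕ := cond (Nat.beq J 0) 1 (cond (Nat.beq I 0 || Nat.beq I J) 3 6)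

/-- row `y` (so `J = R - y`) lists the sources with `x = R - R1 + k`, `I = R1 - k` -/
def tabA (c : Cfg) (E : ℕ → ℕ → ℕ → ℕ → ℕ) : List (List ℕ) :=
  tabu (Nat.add c.R 1) fun y => frc (Nat.sub c.R y) fun J => tabu (Nat.add c.R1 1) fun k => frc (Nat.sub c.R1 k) fun I =>
    cond (Nat.ble I J)
      (E (plo c (Nat.add I J) 0 64) (plo c J (Nat.mul 2 I) 64) (plo c I (Nat.mul 2 J) 64) (kapN I J)) 0

def tabQ (c : Cfg) (E : ℕ → ℕ → ℕ → ℕ → ℕ) : List ℕ :=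
  tabu (Nat.mul c.uq (Nat.add (Nat.mul 2 c.R) 1)) fun x =>
    cond (Nat.ble x c.R) (E (plo c c.R x 64) (plo c (Nat.mul 2 x) (Nat.mul 2 c.R) 64) 0 3)
      (E (plo c (Nat.mul 2 x) (Nat.mul 2 c.R) 64) (plo c c.R x 64) 0 3)

def scanO (row : ℕ) (l : List ℕ) : ℕ → ℕ :=
  List.rec (motive := fun _ => ℕ → ℕ) (fun _ => 0)
    (fun q _ ih off => Nat.add (Nat.mul (Nat.mod (Nat.shiftRight row off) 79228162514264337593543950336) q) (frc (Nat.add off 96) ih)) l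

def scanR (s : ℕ) (l : List ℕ) (row : ℕ) : ℕ :=
  frc (Nat.add (Nat.shiftLeft row 64) (Nat.mod s 18446744073709551616)) fun r => scanO r l 64

def scanT (pL Lb sh : ℕ) (t : List (List ℕ)) : ℕ → ℕ → ℕ :=
  List.rec (motive := fun _ => ℕ → ℕ → ℕ) (fun _ _ => 0)
    (fun l _ ih s A => Nat.add (scanR s l (Nat.shiftRight (Nat.mod A pL) sh))
      (frc (Nat.add s 1) fun s => frc (Nat.shiftRight A Lb) (ih s))) t

def scan (c : Cfg) (tA : List (List ℕ)) (tQ : List ℕ) (s A Q : ℕ) : ℕ :=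
  frc (2 ^ (96 * c.L)) fun pL => frc (96 * c.L) fun Lb => frc (96 * (c.R - c.R1)) fun sh =>
    frc (s % 2 ^ 60) fun s =>
    frc (A % 2 ^ (96 * (c.L * (c.R + 1)))) (scanT pL Lb sh tA (s + 1)) + scanR s tQ Q

def lpc (n : ℕ) (a G : ℕ → ℕ) : ℕ :=
  Nat.rec (motive := fun _ => ℕ) 0
    (fun i ih => frc (a i) fun v => cond (Nat.beq v 0) ih (Nat.add (Nat.mul v (G i)) ih)) n

theorem lpc_eq (n : ℕ) (a G : ℕ → ℕ) : lpc n a G = ∑ i ∈ Finset.range n, a i * G i := by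
  induction n with
  | zero => rfl
  | succ n ih =>
    rw [Finset.sum_range_succ, ← ih]
    change frc (a n) (fun v => cond (Nat.beq v 0) (lpc n a G) (v * G n + lpc n a G)) = _
    rw [frc_eq]
    cases h : Nat.beq (a n) 0
    · exact Nat.add_comm _ _
    · simp [Nat.eq_of_beq_eq_true h]

def msk (L c1 c2 : ℕ) : ℕ :=
  lp (2 * c2 + 1) (fun y => 2 ^ (96 * (L * y))) * lp (2 * c1 + 1) (fun x => 2 ^ (96 * x)) *
    (2 ^ 40 - 1)

theorem msk_eq (L c1 c2 : ℕ) : msk L c1 c2 = mask L c1 c2 := rfl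

def cN (acc n : ℕ) : ℕ := (Nat.mod (Nat.div (Nat.mod (Nat.shiftRight acc (Nat.mul 110 (Nat.add n 2))) 1298074214633706907132624082305024) 1649267441664) 274877906944)

def fN (c : Cfg) (acc : ℕ) : ℕ := c.uq * (Nat.shiftRight acc 110 % 2 ^ 110 / (3 * 2 ^ 38) % 2 ^ 38)

def at2 (L x y : ℕ) : ℕ := 2 ^ (96 * (x + L * y))

def orb2 (c : Cfg) (n : ℕ) : ℕ :=
  frc (n / c.D) fun i => frc (n % c.D) fun k =>
    cond (Nat.ble (i + k) c.e)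
      (at2 c.L (c.e + i) (c.e + (i + k)) + at2 c.L (c.e + (i + k)) (c.e + i) +
        at2 c.L (c.e - i) (c.e + k) + at2 c.L (c.e + k) (c.e - i) +
        at2 c.L (c.e - (i + k)) (c.e - k) + at2 c.L (c.e - k) (c.e - (i + k))) 0

def at1 (c : Cfg) (x y : ℕ) : ℕ := plo c c.e y 36 % 2 ^ 44 * 2 ^ (96 * x)

def orb1 (c : Cfg) (n : ℕ) : ℕ :=
  frc (n / c.D) fun i => frc (n % c.D) fun k =>
    cond (Nat.ble (i + k) c.e)
      (at1 c (c.e + i) (c.e + (i + k)) + at1 c (c.e + (i + k)) (c.e + i) +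
        at1 c (c.e - i) (c.e + k) + at1 c (c.e + k) (c.e - i) +
        at1 c (c.e - (i + k)) (c.e - k) + at1 c (c.e - k) (c.e - (i + k))) 0

def bW (c : Cfg) (acc : ℕ) : ℕ := trunc (msk c.L c.e c.e) 0 (lpc c.N (cN acc) (orb2 c))
def bW1 (c : Cfg) (acc f : ℕ) : ℕ :=
  trunc (msk c.L c.e 0) 36 (lpc c.N (cN acc) (orb1 c) + f * 2 ^ 36 * 2 ^ (96 * c.e))

def nA (M sh cp W : ℕ) (ps : List ℕ) : ℕ :=
  List.rec (motive := fun _ => ℕ) 0
    (fun p _ ih => frc ih fun X => trunc M sh (X * W + Nat.shiftLeft (p * 2 ^ 38) cp)) ps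

def nQ (M sh cp W1 Wf F : ℕ) (ps : List ℕ) : ℕ :=
  List.rec (motive := fun _ => ℕ) 0
    (fun _ t ih => frc ih fun X => trunc M sh (X * W1 + nA M sh cp Wf t * F)) ps

def arrA (c : Cfg) (ps : List ℕ) (acc : ℕ) : ℕ :=
  frc (bW c acc) fun W => frc (msk c.L c.R c.R) fun M =>
    frc (38 + 96 * (c.e + c.L * c.e)) fun sh =>
    frc (96 * (c.R + c.e + c.L * (c.R + c.e))) fun cp => nA M sh cp W ps

def arrQ (c : Cfg) (ps : List ℕ) (acc : ℕ) : ℕ :=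
  cond (Nat.beq c.uq 0) 0
    (frc (fN c acc) fun f => frc (bW1 c acc 0) fun W1 => frc (bW1 c acc f) fun Wf =>
      frc (msk c.L c.R 0) fun M => frc (38 + 96 * c.e) fun sh => frc (96 * (c.R + c.e)) fun cp =>
      frc (ctr c.L c.e 0 f) fun F => nQ M sh cp W1 Wf F ps)

def fin (q0 a : ℕ) : ℕ :=
  frc a fun a => frc (a + (3 * 2 ^ 76 - a % 2 ^ 110) / (q0 % 2 ^ 110) % 2 ^ 40 * q0) fun b =>
    cond (Nat.ble (b % 2 ^ 110) (3 * 2 ^ 76)) b 0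

def step (c : Cfg) (tA : List (List ℕ)) (tQ : List ℕ) (q0 : ℕ) (ps : List ℕ) (acc : ℕ) : ℕ :=
  fin q0 (frc (arrA c ps acc) fun A => frc (arrQ c ps acc) fun Q => scan c tA tQ acc A Q)

def iter (F : ℕ → ℕ) (n : ℕ) : ℕ → ℕ :=
  Nat.rec (motive := fun _ => ℕ → ℕ) (fun a => a) (fun _ ih a => frc (F a) ih) n

def start (c : Cfg) (rn rd : ℕ) : ℕ := fin (ent c rn rd (2 ^ 64) 0 0 1) 0

def trans (c c' : Cfg) (rn rd : ℕ) (ps : List ℕ) (acc : ℕ) : ℕ :=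
  frcL ps fun ps => step c (tabA c (ent c' rn rd)) (tabQ c (ent c' rn rd))
    (ent c' rn rd (2 ^ 64) 0 0 1) ps acc

def phase (c : Cfg) (rn rd : ℕ) (ps : List ℕ) (n acc : ℕ) : ℕ :=
  frcT (tabA c (ent c rn rd)) fun tA => frcL (tabQ c (ent c rn rd)) fun tQ =>
    frc (ent c rn rd (2 ^ 64) 0 0 1) fun q0 => frcL ps fun ps => iter (step c tA tQ q0 ps) n acc

def final (c : Cfg) (ws : List ℕ) (acc : ℕ) : ℕ :=
  frcL ws fun ws => frc (arrA c ws acc) fun A => frc (arrQ c ws acc) fun Q =>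
    scan c (tabA c hent) (tabQ c hent) acc A Q

noncomputable def Phi (c : Cfg) (l : ℝ) (G : V → ℝ) (X : ℕ) : ℝ :=
  -(dig 110 X 0 : ℝ) * G (chv l e0) + (dig 110 X 1 * G (zz 0) +
    ∑ n ∈ Finset.range c.N, (dig 110 X (n + 2) : ℝ) * G (uu c.β (tgt c.D n)))

def Inv (c : Cfg) (acc : ℕ) (T : St) : Prop :=
  ∀ G, Gs G → dig 110 acc 1 * G (zz 0) +
    ∑ n ∈ Finset.range c.N, (dig 110 acc (n + 2) : ℝ) * G (uu c.β (tgt c.D n)) ≤ 2 ^ 76 * T.E G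

noncomputable def rl (ps : List ℕ) : List ℝ := ps.map fun n : ℕ => (n : ℝ) / 2 ^ 38

def Under (a0 a1 a2 : ℕ) (v : V) : Prop :=
  (a0 : ℝ) ≤ 2 ^ 64 * v 0 ∧ (a1 : ℝ) ≤ 2 ^ 64 * v 1 ∧ (a2 : ℝ) ≤ 2 ^ 64 * v 2

end Vale.Agent.P154.DE
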