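import Vale.Agent.P154.GDef

namespace Vale.Agent.P154.DE

open Vale.Agent.P154

theorem pow10_cvx (x y a b : ℝ) (ha : 0 ≤ a) (hb : 0 ≤ b) (hab : a + b = 1) :
    (a * x + b * y) ^ 10 ≤ a * x ^ 10 + b * y ^ 10 := by
  have h := (Even.convexOn_pow (𝕜 := ℝ) (n := 10) (by decide)).2 (Set.mem_univ x)
    (Set.mem_univ y) ha hb hab
  simpa only [smul_eq_mul] using h

theorem pow10_chord {t : ℝ} (h0 : 0 ≤ t) (h3 : t ≤ 3) : (2 - t) ^ 10 ≤ 1024 - 341 * t := by
  have h := pow10_cvx 2 (-1) (1 - t / 3) (t / 3) (by linarith) (by linarith) (by ring)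
  have e : (1 - t / 3) * 2 + t / 3 * (-1) = 2 - t := by ring
  rw [e] at h
  norm_num at h
  linarith

theorem phi_le {x : V} (hx : Dl x) : phi x ≤ 682 := by
  have h0 := pow10_chord (hx.1 0) (hx.le3 0)
  have h1 := pow10_chord (hx.1 1) (hx.le3 1)
  have h2 := pow10_chord (hx.1 2) (hx.le3 2)
  have h3 := hx.2
  simp only [phi, Fin.sum_univ_three]
  linarith

theorem phi_nn {x : V} (hx : Dl x) : 0 ≤ phi x := by
  have key : ∀ t : ℝ, 0 ≤ t → t ≤ 3 → 1 + 10 * (1 - t) ≤ (2 - t) ^ 10 := by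
    intro t h0 h3
    have h := one_add_mul_le_pow (a := 1 - t) (by linarith) 10
    have e : 1 + (1 - t) = 2 - t := by ring
    rw [e] at h
    exact_mod_cast h
  have h0 := key _ (hx.1 0) (hx.le3 0)
  have h1 := key _ (hx.1 1) (hx.le3 1)
  have h2 := key _ (hx.1 2) (hx.le3 2)
  have h3 := hx.2
  simp only [phi, Fin.sum_univ_three]
  linarith

theorem persp (a b p q : ℝ) (ha : 0 < a) (hb : 0 < b) :
    (a + b) * (2 - (p + q) / (a + b)) ^ 10 ≤ a * (2 - p / a) ^ 10 + b * (2 - q / b) ^ 10 := by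
  have hab : 0 < a + b := by linarith
  have h := pow10_cvx (2 - p / a) (2 - q / b) (a / (a + b)) (b / (a + b)) (by positivity)
    (by positivity) (by field_simp)
  have e : a / (a + b) * (2 - p / a) + b / (a + b) * (2 - q / b) = 2 - (p + q) / (a + b) := by
    field_simp; ring
  rw [e] at h
  have h2 := mul_le_mul_of_nonneg_left h hab.le
  have e2 : ∀ X Y : ℝ, (a + b) * (a / (a + b) * X + b / (a + b) * Y) = a * X + b * Y := by
    intro X Y; field_simp
  rwa [e2] at h2

theorem bd_phi : Bd phi := Bd.of_cont (by unfold phi; fun_prop)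

theorem HH_gs : Gs HH := by
  refine ⟨⟨fun v hv => ?_, fun c v _ _ => ?_, fun v w hv hw => ?_⟩, fun τ v => ?_⟩
  · rcases eq_or_ne (av v) 0 with h0 | h0
    · simp [HH, hom, h0]
    · exact mul_nonneg (av_nonneg hv) (sub_nonneg.2 (phi_le (Dl_norm hv h0)))
  · exact hom_smul _ c v
  · rcases eq_or_ne (av v) 0 with h0 | h0
    · have : v = 0 := funext fun i => eq_zero_of_av hv h0 i
      subst this
      simp [HH, hom_zero]
    rcases eq_or_ne (av w) 0 with h1 | h1
    · have : w = 0 := funext fun i => eq_zero_of_av hw h1 i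
      subst this
      simp [HH, hom_zero]
    have ha : 0 < av v := lt_of_le_of_ne (av_nonneg hv) h0.symm
    have hb : 0 < av w := lt_of_le_of_ne (av_nonneg hw) h1.symm
    have e : av (v + w) = av v + av w := by simp only [av, Pi.add_apply]; ring
    have k0 := persp _ _ (v 0) (w 0) ha hb
    have k1 := persp _ _ (v 1) (w 1) ha hb
    have k2 := persp _ _ (v 2) (w 2) ha hb
    simp only [HH, hom, phi, e, Fin.sum_univ_three, Pi.add_apply]
    nlinarith [k0, k1, k2]
  · unfold HH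
    rw [← hom_perm]
    congr 1
    funext x
    simp only [phi, Function.comp]
    rw [Equiv.sum_comp τ (fun i => (2 - x i) ^ 10)]

theorem HH_Dl {x : V} (hx : Dl x) : HH x = 682 - phi x := hom_of_Dl _ hx

theorem bd_HH : Bd HH := ⟨682, fun x hx => by
  rw [HH_Dl hx, abs_le]
  have := phi_le hx
  have := phi_nn hx
  constructor <;> linarith⟩

theorem E_phi (S : St) : S.E phi = 682 - S.E HH := by
  have e := S.congr bd_HH (g := fun x => 682 + -1 * phi x)
    fun x hx => (HH_Dl hx).trans (by ring)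
  rw [S.add _ _ (Bd.const _) (bd_phi.cmul _), S.const, S.cmul _ _ bd_phi] at e
  linarith

theorem E_HH_le (S : St) : S.E HH ≤ 682 :=
  S.le_const bd_HH fun x hx => by
    rw [HH_Dl hx]
    have := phi_nn hx
    linarith

theorem HH_eq {v : V} (hv : Nn v) (h : 0 < v 0 + v 1 + v 2) :
    HH v = (2049 * (v 0 + v 1 + v 2) ^ 10 - ∑ i, (2 * (v 0 + v 1 + v 2) - 3 * v i) ^ 10) /
      (9 * (v 0 + v 1 + v 2) ^ 9) := by
  have _ := hv
  simp only [HH, hom, phi, av, Fin.sum_univ_three]
  generalize v 0 + v 1 + v 2 = s at h ⊢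
  have e : ∀ t : ℝ, 2 - t / (s / 3) = (2 * s - 3 * t) / s := by
    intro t; field_simp
  simp only [e, div_pow]
  generalize (2 * s - 3 * v 0) ^ 10 = A
  generalize (2 * s - 3 * v 1) ^ 10 = B
  generalize (2 * s - 3 * v 2) ^ 10 = C
  field_simp
  ring

end Vale.Agent.P154.DE
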