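import Vale.Agent.P154.GEng
import Vale.Agent.P154.GOrd
import Vale.Agent.P154.GArr
import Vale.Agent.P154.GDig
import Vale.Agent.P154.GHc

namespace Vale.Agent.P154.DE

open Vale.Agent.P154

theorem Cfg.ok_spec {c : Cfg} (h : c.ok = true) : 0 < c.bp ∧ 0 < c.bq ∧
    c.L * (2 * c.e + 1) ≤ 2 ^ 14 ∧ c.N ≤ 600 ∧ c.R ≤ 100 ∧ c.R1 ≤ c.R ∧ c.uq ≤ 1 := by
  simp only [Cfg.ok, Bool.and_eq_true, Nat.blt_eq, Nat.ble_eq] at h
  obtain ⟨⟨⟨⟨⟨⟨h1, h2⟩, h3⟩, h4⟩, h5⟩, h6⟩, h7⟩ := h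
  exact ⟨h1, h2, h3, h4, h5, h6, h7⟩

theorem Cfg.β_pos {c : Cfg} (h : c.ok = true) : 0 < c.β := by
  obtain ⟨h1, h2, -⟩ := Cfg.ok_spec h
  unfold Cfg.β
  positivity

theorem ent_div_ge (x y : ℕ) (hy : 0 < y) : (x : ℝ) / y ≤ ((x / y : ℕ) : ℝ) + 1 := by
  have h1 : x < y * (x / y + 1) := Nat.lt_mul_div_succ x hy
  have h2 : (0 : ℝ) < y := by exact_mod_cast hy
  rw [div_le_iff₀ h2]
  have h3 : (x : ℝ) ≤ ((y * (x / y + 1) : ℕ) : ℝ) := by exact_mod_cast h1.le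
  rw [Nat.cast_mul, Nat.cast_add, Nat.cast_one, mul_comm] at h3
  exact h3

theorem plo_eq (c : Cfg) (a b t : ℕ) :
    plo c a b t = (c.bp ^ a * c.bq ^ b * 2 ^ t) / (c.bq ^ a * c.bp ^ b) := by
  rw [← Nat.shiftLeft_eq]; rfl

theorem plo_real {c : Cfg} (h : c.ok = true) (a b t : ℕ) :
    2 ^ t * c.β ^ ((a : ℤ) - b) =
      ((c.bp ^ a * c.bq ^ b * 2 ^ t : ℕ) : ℝ) / ((c.bq ^ a * c.bp ^ b : ℕ) : ℝ) := by
  obtain ⟨h1, h2, -⟩ := Cfg.ok_spec h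
  have h3 : (0 : ℝ) < c.bp := by exact_mod_cast h1
  have h4 : (0 : ℝ) < c.bq := by exact_mod_cast h2
  rw [zpow_sub₀ (Cfg.β_pos h).ne', zpow_natCast, zpow_natCast, Cfg.β, div_pow, div_pow]
  push_cast
  field_simp

theorem plo_le {c : Cfg} (h : c.ok = true) (a b t : ℕ) :
    (plo c a b t : ℝ) ≤ 2 ^ t * c.β ^ ((a : ℤ) - b) := by
  rw [plo_real h, plo_eq]
  exact Nat.cast_div_le

theorem plo_ge {c : Cfg} (h : c.ok = true) (a b t : ℕ) :
    2 ^ t * c.β ^ ((a : ℤ) - b) ≤ (plo c a b t : ℝ) + 1 := by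
  obtain ⟨h1, h2, -⟩ := Cfg.ok_spec h
  rw [plo_real h, plo_eq]
  exact ent_div_ge _ _ (by positivity)

theorem ent_dig_zero (B n : ℕ) : dig B 0 n = 0 := by simp [dig]

theorem Phi_zero (c : Cfg) (l : ℝ) (G : V → ℝ) : Phi c l G 0 = 0 := by
  simp [Phi, ent_dig_zero]

theorem cond_P (P : ℕ → Prop) (b : Bool) {x y : ℕ} (hx : P x) (hy : P y) : P (cond b x y) := by
  cases b <;> assumption

theorem frc_P (P : ℕ → Prop) (n : ℕ) (k : ℕ → ℕ) (h : ∀ m, P (k m)) : P (frc n k) := by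
  rw [frc_eq]; exact h n

theorem frc_P' (P : ℕ → Prop) (n : ℕ) (k : ℕ → ℕ) (h : P (k n)) : P (frc n k) := by
  rw [frc_eq]; exact h

def IsPk (c : Cfg) (rd M0 M1 M2 μ X : ℕ) : Prop :=
  ∃ nA nB nC αA αB αC γ, X = pack c rd M0 M1 M2 μ nA nB nC αA αB αC γ

theorem ent3_pack (c : Cfg) (rd M0 M1 M2 μ γ i j x1 x2 bM : ℕ) :
    IsPk c rd M0 M1 M2 μ (ent3 c rd M0 M1 M2 μ γ i j x1 x2 bM) := by
  rw [ent3]
  refine cond_P _ _ ?_ ?_
  · refine frc_P _ _ _ fun αA => frc_P _ _ _ fun αB => frc_P _ _ _ fun αC =>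
      frc_P _ _ _ fun n => ?_
    exact ⟨_, _, _, _, _, _, _, rfl⟩
  · refine frc_P _ _ _ fun αA => frc_P _ _ _ fun αB => frc_P _ _ _ fun αC =>
      frc_P _ _ _ fun n => ?_
    exact ⟨_, _, _, _, _, _, _, rfl⟩

theorem ent2_pack (c : Cfg) (rd M0 M1 M2 μ g : ℕ) :
    IsPk c rd M0 M1 M2 μ (ent2 c rd M0 M1 M2 μ g) := by
  rw [ent2]
  exact frc_P _ _ _ fun i => frc_P _ _ _ fun j => frc_P _ _ _ fun x1 => frc_P _ _ _ fun x2 =>
    frc_P _ _ _ fun bM => frc_P _ _ _ fun γ => ent3_pack c rd M0 M1 M2 μ γ i j x1 x2 bM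

theorem ent1_pack (c : Cfg) (rn rd a0 a1 a2 κ S : ℕ) :
    IsPk c rd (mm rn rd S a0 κ) (mm rn rd S a1 κ) (mm rn rd S a2 κ)
      (Nat.add (Nat.div (Nat.mul κ S) 67108864) 1) (ent1 c rn rd a0 a1 a2 κ S) := by
  rw [ent1]
  refine frc_P' _ _ _ (frc_P' _ _ _ (frc_P' _ _ _ (frc_P' _ _ _ (frc_P _ _ _ fun g => ?_))))
  exact ent2_pack _ _ _ _ _ _ g

theorem ent_pack (c : Cfg) (rn rd a0 a1 a2 κ : ℕ) :
    ∃ nA nB nC αA αB αC γ, ent c rn rd a0 a1 a2 κ =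
      pack c rd (mm rn rd (a0 + a1 + a2) a0 κ) (mm rn rd (a0 + a1 + a2) a1 κ)
        (mm rn rd (a0 + a1 + a2) a2 κ) (κ * (a0 + a1 + a2) / 67108864 + 1)
        nA nB nC αA αB αC γ := by
  have e : ent c rn rd a0 a1 a2 κ = ent1 c rn rd a0 a1 a2 κ (a0 + a1 + a2) := by
    rw [ent, frc_eq, frc_eq, frc_eq, frc_eq, Nat.add_eq, Nat.add_eq]
  have e2 : κ * (a0 + a1 + a2) / 67108864 + 1 =
      Nat.add (Nat.div (Nat.mul κ (a0 + a1 + a2)) 67108864) 1 := rfl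
  rw [e, e2]
  exact ent1_pack c rn rd a0 a1 a2 κ (a0 + a1 + a2)

theorem chk_spec {c : Cfg} {rd M0 M1 M2 μ nA nB nC αA αB αC γ : ℕ}
    (h : chk c rd M0 M1 M2 μ nA nB nC αA αB αC γ = true) :
    μ + γ + αA + αB + αC + 1 ≤ 72057594037927936 ∧ nA + 1 ≤ c.N ∧ nB + 1 ≤ c.N ∧ nC + 1 ≤ c.N ∧
      3 * rd * (αA * hi0 c nA + αB * hi0 c nB + αC * hi0 c nC) ≤ 274877906944 * M0 ∧
      3 * rd * (αA * hi1 c nA + αB * hi1 c nB + αC * hi1 c nC + γ * 18446744073709551616) ≤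
        274877906944 * M1 ∧
      3 * rd * (αA * hi2 c nA + αB * hi2 c nB + αC * hi2 c nC + γ * 18446744073709551616) ≤
        274877906944 * M2 := by
  simp only [chk, Bool.and_eq_true, Nat.ble_eq] at h
  exact h

theorem dig_five {μ γ αA αB αC : ℕ} (nA nB nC : ℕ)
    (h : μ + γ + αA + αB + αC + 1 ≤ 72057594037927936) (n : ℕ) :
    dig 110 (μ * 2 ^ (110 * 0) + γ * 2 ^ (110 * 1) + αA * 2 ^ (110 * (nA + 2)) +
      αB * 2 ^ (110 * (nB + 2)) + αC * 2 ^ (110 * (nC + 2))) n =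
      (if n = 0 then μ else 0) + (if n = 1 then γ else 0) + (if n = nA + 2 then αA else 0) +
        (if n = nB + 2 then αB else 0) + (if n = nC + 2 then αC else 0) := by
  obtain ⟨K, hK⟩ : ∃ K : ℕ, K = 2 ^ 110 := ⟨_, rfl⟩
  have hK2 : 72057594037927936 ≤ K := by rw [hK]; norm_num
  have d0 := dig_atom (B := 110) (c := μ) (by omega) 0
  have d1 := dig_atom (B := 110) (c := γ) (by omega) 1
  have dA := dig_atom (B := 110) (c := αA) (by omega) (nA + 2)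
  have dB := dig_atom (B := 110) (c := αB) (by omega) (nB + 2)
  have dC := dig_atom (B := 110) (c := αC) (by omega) (nC + 2)
  generalize μ * 2 ^ (110 * 0) = X0 at *
  generalize γ * 2 ^ (110 * 1) = X1 at *
  generalize αA * 2 ^ (110 * (nA + 2)) = XA at *
  generalize αB * 2 ^ (110 * (nB + 2)) = XB at *
  generalize αC * 2 ^ (110 * (nC + 2)) = XC at *
  have b0 : ∀ m, dig 110 X0 m ≤ μ := fun m => by rw [d0]; split_ifs <;> omega
  have b1 : ∀ m, dig 110 X1 m ≤ γ := fun m => by rw [d1]; split_ifs <;> omega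
  have bA : ∀ m, dig 110 XA m ≤ αA := fun m => by rw [dA]; split_ifs <;> omega
  have bB : ∀ m, dig 110 XB m ≤ αB := fun m => by rw [dB]; split_ifs <;> omega
  have bC : ∀ m, dig 110 XC m ≤ αC := fun m => by rw [dC]; split_ifs <;> omega
  have e1 := dig_add (B := 110) (X := X0) (Y := X1) fun m => by
    have := b0 m; have := b1 m; rw [← hK]; omega
  have e2 := dig_add (B := 110) (X := X0 + X1) (Y := XA) fun m => by
    have := b0 m; have := b1 m; have := bA m; rw [e1, ← hK]; omega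
  have e3 := dig_add (B := 110) (X := X0 + X1 + XA) (Y := XB) fun m => by
    have := b0 m; have := b1 m; have := bA m; have := bB m; rw [e2, e1, ← hK]; omega
  have e4 := dig_add (B := 110) (X := X0 + X1 + XA + XB) (Y := XC) fun m => by
    have := b0 m; have := b1 m; have := bA m; have := bB m; have := bC m
    rw [e3, e2, e1, ← hK]; omega
  rw [e4, e3, e2, e1, d0, d1, dA, dB, dC]

theorem pack_spec (c : Cfg) (rd M0 M1 M2 μ nA nB nC αA αB αC γ : ℕ) :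
    pack c rd M0 M1 M2 μ nA nB nC αA αB αC γ = 0 ∨
      (chk c rd M0 M1 M2 μ nA nB nC αA αB αC γ = true ∧ ∀ n,
        dig 110 (pack c rd M0 M1 M2 μ nA nB nC αA αB αC γ) n =
          (if n = 0 then μ else 0) + (if n = 1 then γ else 0) + (if n = nA + 2 then αA else 0) +
            (if n = nB + 2 then αB else 0) + (if n = nC + 2 then αC else 0)) := by
  unfold pack
  cases h : chk c rd M0 M1 M2 μ nA nB nC αA αB αC γ
  · left; rfl
  · right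
    refine ⟨rfl, fun n => ?_⟩
    rw [← dig_five nA nB nC (chk_spec h).1 n, cond_true]
    simp only [Nat.add_eq, Nat.mul_eq, Nat.shiftLeft_eq', Nat.shiftLeft_eq, mul_zero, pow_zero,
      mul_one]

theorem ent_dig (c : Cfg) (rn rd a0 a1 a2 κ n : ℕ) :
    dig 110 (ent c rn rd a0 a1 a2 κ) n < 2 ^ 56 := by
  obtain ⟨nA, nB, nC, αA, αB, αC, γ, e⟩ := ent_pack c rn rd a0 a1 a2 κ
  rw [e]
  generalize κ * (a0 + a1 + a2) / 67108864 + 1 = μ
  rcases pack_spec c rd _ _ _ μ nA nB nC αA αB αC γ with h | ⟨h, hd⟩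
  · rw [h, ent_dig_zero]; positivity
  · rw [hd]
    have := (chk_spec h).1
    have e2 : 2 ^ 56 = 72057594037927936 := by norm_num
    rw [e2]
    split_ifs <;> omega

theorem hi0_ge {c : Cfg} (h : c.ok = true) (n : ℕ) :
    2 ^ 64 * uu c.β (tgt c.D n) 0 ≤ hi0 c n := by
  have := plo_ge h 0 (n / c.D + (n / c.D + n % c.D)) 64
  have e : ((0 : ℕ) : ℤ) - ((n / c.D + (n / c.D + n % c.D) : ℕ) : ℤ) =
      -((n / c.D : ℕ) : ℤ) - ((n / c.D + n % c.D : ℕ) : ℤ) := by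
    generalize n / c.D = i; generalize n % c.D = k; push_cast; ring
  rw [e] at this
  have e2 : hi0 c n = plo c 0 (n / c.D + (n / c.D + n % c.D)) 64 + 1 := rfl
  rw [e2, Nat.cast_add, Nat.cast_one]
  exact this

theorem hi1_ge {c : Cfg} (h : c.ok = true) (n : ℕ) :
    2 ^ 64 * uu c.β (tgt c.D n) 1 ≤ hi1 c n := by
  have := plo_ge h (2 * (n / c.D)) (n / c.D + n % c.D) 64
  have e : ((2 * (n / c.D) : ℕ) : ℤ) = 2 * ((n / c.D : ℕ) : ℤ) := by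
    generalize n / c.D = i; push_cast; ring
  rw [e] at this
  have e2 : hi1 c n = plo c (2 * (n / c.D)) (n / c.D + n % c.D) 64 + 1 := rfl
  rw [e2, Nat.cast_add, Nat.cast_one]
  exact this

theorem hi2_ge {c : Cfg} (h : c.ok = true) (n : ℕ) :
    2 ^ 64 * uu c.β (tgt c.D n) 2 ≤ hi2 c n := by
  have := plo_ge h (2 * (n / c.D + n % c.D)) (n / c.D) 64
  have e : ((2 * (n / c.D + n % c.D) : ℕ) : ℤ) = 2 * ((n / c.D + n % c.D : ℕ) : ℤ) := by
    generalize n / c.D + n % c.D = i; push_cast; ring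
  rw [e] at this
  have e2 : hi2 c n = plo c (2 * (n / c.D + n % c.D)) (n / c.D) 64 + 1 := rfl
  rw [e2, Nat.cast_add, Nat.cast_one]
  exact this

theorem mm_real {rn rd S a : ℕ} (κ : ℕ) (hr : 2 * rn ≤ rd) (ha : a ≤ S) :
    (mm rn rd S a κ : ℝ) = (((rd : ℝ) + rn) * S - 3 * rn * a) * κ := by
  have e : mm rn rd S a κ = ((rd + rn) * S - 3 * rn * a) * κ := rfl
  have h1 : 3 * rn * a ≤ (rd + rn) * S := Nat.mul_le_mul (by omega) ha
  rw [e, Nat.cast_mul, Nat.cast_sub h1]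
  push_cast; ring

theorem ent_coord {rn rd M S a κ x g αA αB αC uA uB uC hA hB hC z : ℝ} (hrd : 0 < rd)
    (hM : M = ((rd + rn) * S - 3 * rn * a) * κ)
    (h0A : 0 ≤ αA) (h0B : 0 ≤ αB) (h0C : 0 ≤ αC)
    (hA' : 2 ^ 64 * uA ≤ hA) (hB' : 2 ^ 64 * uB ≤ hB) (hC' : 2 ^ 64 * uC ≤ hC)
    (hx : x = αA * hA + αB * hB + αC * hC + g * z * 18446744073709551616)
    (h : 3 * rd * x ≤ 274877906944 * M) :
    g * z + αA * uA + αB * uB + αC * uC ≤
      2 ^ 38 * κ * (-(rn / rd) * (a / 2 ^ 64) + (1 - -(rn / rd)) * (S / 2 ^ 64 / 3)) := by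
  have e : 2 ^ 38 * κ * (-(rn / rd) * (a / 2 ^ 64) + (1 - -(rn / rd)) * (S / 2 ^ 64 / 3)) =
      274877906944 * M / (3 * rd) / 2 ^ 64 := by
    rw [hM]; field_simp; ring
  have h1 : x ≤ 274877906944 * M / (3 * rd) := by
    rw [le_div_iff₀ (by positivity)]; linarith
  rw [e, le_div_iff₀ (by positivity)]
  have kA := mul_le_mul_of_nonneg_left hA' h0A
  have kB := mul_le_mul_of_nonneg_left hB' h0B
  have kC := mul_le_mul_of_nonneg_left hC' h0C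
  refine le_trans ?_ h1
  rw [hx]
  nlinarith

theorem under_le {a0 a1 a2 : ℕ} {v : V} (hv : Under a0 a1 a2 v) (i : Fin 3) :
    (![(a0 : ℝ) / 2 ^ 64, (a1 : ℝ) / 2 ^ 64, (a2 : ℝ) / 2 ^ 64] : V) i ≤ v i := by
  obtain ⟨h0, h1, h2⟩ := hv
  fin_cases i
  · show (a0 : ℝ) / 2 ^ 64 ≤ v 0
    rw [div_le_iff₀ (by positivity)]; linarith
  · show (a1 : ℝ) / 2 ^ 64 ≤ v 1
    rw [div_le_iff₀ (by positivity)]; linarith
  · show (a2 : ℝ) / 2 ^ 64 ≤ v 2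
    rw [div_le_iff₀ (by positivity)]; linarith

theorem under_nn (a0 a1 a2 : ℕ) :
    Nn (![(a0 : ℝ) / 2 ^ 64, (a1 : ℝ) / 2 ^ 64, (a2 : ℝ) / 2 ^ 64] : V) := by
  intro i
  fin_cases i
  · show 0 ≤ (a0 : ℝ) / 2 ^ 64
    positivity
  · show 0 ≤ (a1 : ℝ) / 2 ^ 64
    positivity
  · show 0 ≤ (a2 : ℝ) / 2 ^ 64
    positivity

theorem ent_uu_nn {β : ℝ} (h : 0 < β) (p : Lt) : Nn (uu β p) := by
  intro i
  fin_cases i
  · exact (zpow_pos h _).le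
  · exact (zpow_pos h _).le
  · exact (zpow_pos h _).le

theorem ent_zz_nn (t : Fin 3) : Nn (zz t) := fun i => by
  unfold zz; split_ifs <;> norm_num

theorem ent_nn_smul {c : ℝ} (hc : 0 ≤ c) {v : V} (hv : Nn v) : Nn (c • v) := fun i =>
  mul_nonneg hc (hv i)

theorem ent_nn_add {v w : V} (hv : Nn v) (hw : Nn w) : Nn (v + w) := fun i =>
  add_nonneg (hv i) (hw i)

theorem ent_sum_ite (N m : ℕ) (hm : m + 1 ≤ N) (α : ℕ) (f : ℕ → ℝ) :
    ∑ n ∈ Finset.range N, ((if n + 2 = m + 2 then α else 0 : ℕ) : ℝ) * f n = α * f m := by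
  rw [Finset.sum_eq_single m]
  · simp
  · intro b _ hb
    rw [if_neg (by omega)]; simp
  · intro h; exact absurd (Finset.mem_range.2 (by omega)) h

theorem ent_ok {c : Cfg} (h : c.ok = true) {rn rd : ℕ} (hrd : 0 < rd) (hr : 2 * rn ≤ rd)
    (a0 a1 a2 κ : ℕ) {v : V} (hv : Under a0 a1 a2 v) {G : V → ℝ} (hG : Gs G) :
    Phi c (-((rn : ℝ) / rd)) G (ent c rn rd a0 a1 a2 κ) ≤
      2 ^ 38 * (κ * Gp (-((rn : ℝ) / rd)) G v) := by
  have hrd' : (0 : ℝ) < rd := by exact_mod_cast hrd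
  have hr' : 2 * (rn : ℝ) ≤ rd := by exact_mod_cast hr
  have l0 : -1 / 2 ≤ -((rn : ℝ) / rd) := by
    have : (rn : ℝ) / rd ≤ 1 / 2 := by rw [div_le_iff₀ hrd']; linarith
    linarith
  have l1 : -((rn : ℝ) / rd) ≤ 1 := by
    have : 0 ≤ (rn : ℝ) / rd := by positivity
    linarith
  have hgp := (hG.gp l0 l1).1
  have hle := under_le hv
  have hnn := under_nn a0 a1 a2
  have hmono := hgp.mono hnn hle
  have h0 := hgp.nn _ hnn
  obtain ⟨nA, nB, nC, αA, αB, αC, γ, e⟩ := ent_pack c rn rd a0 a1 a2 κ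
  rw [e]
  have hμ := ent_div_ge (κ * (a0 + a1 + a2)) 67108864 (by norm_num)
  rw [← Nat.cast_succ] at hμ
  change _ ≤ ((κ * (a0 + a1 + a2) / 67108864 + 1 : ℕ) : ℝ) at hμ
  generalize κ * (a0 + a1 + a2) / 67108864 + 1 = μ at hμ ⊢
  refine le_trans ?_ (mul_le_mul_of_nonneg_left
    (mul_le_mul_of_nonneg_left hmono (Nat.cast_nonneg κ)) (by positivity))
  rcases pack_spec c rd _ _ _ μ nA nB nC αA αB αC γ with hp | ⟨hp, hd⟩
  · rw [hp, Phi_zero]; positivity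
  obtain ⟨-, kA, kB, kC, k0, k1, k2⟩ := chk_spec hp
  have hβ := Cfg.β_pos h
  have hPhi : Phi c (-((rn : ℝ) / rd)) G (pack c rd (mm rn rd (a0 + a1 + a2) a0 κ)
      (mm rn rd (a0 + a1 + a2) a1 κ) (mm rn rd (a0 + a1 + a2) a2 κ) μ nA nB nC αA αB αC γ) =
      -(μ : ℝ) * G (chv (-((rn : ℝ) / rd)) e0) + (γ * G (zz 0) + αA * G (uu c.β (tgt c.D nA)) +
        αB * G (uu c.β (tgt c.D nB)) + αC * G (uu c.β (tgt c.D nC))) := by
    unfold Phi
    simp only [hd]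
    have z0 : ∀ n : ℕ, ¬ (n + 2 = 0) := fun n => by omega
    have z1 : ∀ n : ℕ, ¬ (n + 2 = 1) := fun n => by omega
    have z2 : ∀ n : ℕ, ¬ (0 = n + 2) := fun n => by omega
    have z3 : ∀ n : ℕ, ¬ (1 = n + 2) := fun n => by omega
    simp only [z0, z1, z2, z3, if_false, if_true, zero_add, add_zero, Nat.cast_add, add_mul,
      Finset.sum_add_distrib, ent_sum_ite _ _ kA, ent_sum_ite _ _ kB, ent_sum_ite _ _ kC,
      one_ne_zero, zero_ne_one]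
    ring
  rw [hPhi]
  set a : V := ![(a0 : ℝ) / 2 ^ 64, (a1 : ℝ) / 2 ^ 64, (a2 : ℝ) / 2 ^ 64] with ha
  have n0 := ent_nn_smul (Nat.cast_nonneg γ) (ent_zz_nn 0)
  have n1 := ent_nn_smul (Nat.cast_nonneg αA) (ent_uu_nn hβ (tgt c.D nA))
  have n2 := ent_nn_smul (Nat.cast_nonneg αB) (ent_uu_nn hβ (tgt c.D nB))
  have n3 := ent_nn_smul (Nat.cast_nonneg αC) (ent_uu_nn hβ (tgt c.D nC))
  have s1 := hG.1.sup _ _ n0 n1
  have s2 := hG.1.sup _ _ (ent_nn_add n0 n1) n2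
  have s3 := hG.1.sup _ _ (ent_nn_add (ent_nn_add n0 n1) n2) n3
  rw [hG.1.smul _ _ (Nat.cast_nonneg _) (ent_uu_nn hβ _)] at s1 s2 s3
  rw [hG.1.smul _ _ (Nat.cast_nonneg _) (ent_zz_nn 0)] at s1
  have hav : av a = ((a0 + a1 + a2 : ℕ) : ℝ) / 2 ^ 64 / 3 := by
    simp only [av, ha, Matrix.cons_val_zero, Matrix.cons_val_one, Matrix.cons_val]
    push_cast; ring
  have hco : ∀ i, ((γ : ℝ) • zz 0 + (αA : ℝ) • uu c.β (tgt c.D nA) +
      (αB : ℝ) • uu c.β (tgt c.D nB) + (αC : ℝ) • uu c.β (tgt c.D nC)) i ≤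
      (((2 : ℝ) ^ 38 * κ) • chv (-((rn : ℝ) / rd)) a) i := by
    intro i
    simp only [Pi.add_apply, Pi.smul_apply, smul_eq_mul, chv, hav]
    fin_cases i
    · refine ent_coord (a := a0) hrd' (mm_real κ hr (by omega)) (Nat.cast_nonneg _)
        (Nat.cast_nonneg _) (Nat.cast_nonneg _) (hi0_ge h nA) (hi0_ge h nB) (hi0_ge h nC)
        (x := ((αA * hi0 c nA + αB * hi0 c nB + αC * hi0 c nC : ℕ) : ℝ)) ?_ ?_
      · simp [zz]
      · exact_mod_cast k0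
    · refine ent_coord (a := a1) hrd' (mm_real κ hr (by omega)) (Nat.cast_nonneg _)
        (Nat.cast_nonneg _) (Nat.cast_nonneg _) (hi1_ge h nA) (hi1_ge h nB) (hi1_ge h nC)
        (x := ((αA * hi1 c nA + αB * hi1 c nB + αC * hi1 c nC + γ * 18446744073709551616 : ℕ) : ℝ))
        ?_ ?_
      · simp [zz]
      · exact_mod_cast k1
    · refine ent_coord (a := a2) hrd' (mm_real κ hr (by omega)) (Nat.cast_nonneg _)
        (Nat.cast_nonneg _) (Nat.cast_nonneg _) (hi2_ge h nA) (hi2_ge h nB) (hi2_ge h nC)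
        (x := ((αA * hi2 c nA + αB * hi2 c nB + αC * hi2 c nC + γ * 18446744073709551616 : ℕ) : ℝ))
        ?_ ?_
      · simp [zz]
      · exact_mod_cast k2
  have s4 := hG.1.mono (ent_nn_add (ent_nn_add (ent_nn_add n0 n1) n2) n3) hco
  rw [hG.1.smul _ _ (by positivity) (hnn.chv l0 l1)] at s4
  have he0 : Nn e0 := fun i => by fin_cases i <;> simp [e0]
  have g0 := hG.1.nn _ (he0.chv l0 l1)
  have hs : a 0 + a 1 + a 2 = ((a0 : ℝ) + a1 + a2) / 2 ^ 64 := by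
    simp only [ha, Matrix.cons_val_zero, Matrix.cons_val_one, Matrix.cons_val]
    ring
  have hμ2 : 2 ^ 38 * (κ * (((a0 : ℝ) + a1 + a2) / 2 ^ 64)) ≤ μ := by
    refine le_trans (le_of_eq ?_) hμ
    push_cast; ring
  have s5 := mul_le_mul_of_nonneg_right hμ2 g0
  rw [Gp, hs]
  nlinarith

theorem dst_pow (a b : ℕ) : ((dst a b : ℕ) : ℝ) ^ 10 = ((a : ℝ) - b) ^ 10 := by
  have e : dst a b = (a - b) + (b - a) := rfl
  rw [e]
  rcases le_total a b with h | h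
  · rw [Nat.sub_eq_zero_of_le h, zero_add, Nat.cast_sub h]; ring
  · rw [Nat.sub_eq_zero_of_le h, add_zero, Nat.cast_sub h]

theorem hent_ok (a0 a1 a2 κ : ℕ) {v : V} (hv : Under a0 a1 a2 v) :
    (hent a0 a1 a2 κ : ℝ) ≤ 2 ^ 38 * (κ * HH v) := by
  have hle := under_le hv
  have hnn := under_nn a0 a1 a2
  have hmono := HH_gs.1.mono hnn hle
  have h0 := HH_gs.1.nn _ hnn
  refine le_trans ?_ (mul_le_mul_of_nonneg_left
    (mul_le_mul_of_nonneg_left hmono (Nat.cast_nonneg κ)) (by positivity))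
  have e : hent a0 a1 a2 κ = κ * (2049 * (a0 + a1 + a2) ^ 10 -
      (dst (2 * (a0 + a1 + a2)) (3 * a0) ^ 10 + dst (2 * (a0 + a1 + a2)) (3 * a1) ^ 10 +
        dst (2 * (a0 + a1 + a2)) (3 * a2) ^ 10)) / (9 * (a0 + a1 + a2) ^ 9 * 67108864) := by
    simp only [hent, frc_eq]; rfl
  rw [e]
  rcases Nat.eq_zero_or_pos (a0 + a1 + a2) with hS | hS
  · rw [hS]
    simp only [ne_eq, OfNat.ofNat_ne_zero, not_false_eq_true, zero_pow, mul_zero, zero_mul,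
      Nat.div_zero, Nat.cast_zero]
    positivity
  rcases le_total (2049 * (a0 + a1 + a2) ^ 10)
    (dst (2 * (a0 + a1 + a2)) (3 * a0) ^ 10 + dst (2 * (a0 + a1 + a2)) (3 * a1) ^ 10 +
        dst (2 * (a0 + a1 + a2)) (3 * a2) ^ 10) with hc | hc
  · rw [Nat.sub_eq_zero_of_le hc, mul_zero, Nat.zero_div, Nat.cast_zero]
    positivity
  refine le_trans Nat.cast_div_le (le_of_eq ?_)
  have hw : Nn (![(a0 : ℝ), a1, a2] : V) := fun i => by fin_cases i <;> simp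
  have hS' : (0 : ℝ) < (a0 : ℝ) + a1 + a2 := by exact_mod_cast hS
  have e2 : (![(a0 : ℝ) / 2 ^ 64, (a1 : ℝ) / 2 ^ 64, (a2 : ℝ) / 2 ^ 64] : V) =
      ((2 : ℝ) ^ 64)⁻¹ • ![(a0 : ℝ), a1, a2] := by
    funext i; fin_cases i <;> simp [div_eq_inv_mul]
  rw [e2, HH_gs.1.smul _ _ (by positivity) hw, HH_eq hw (by simpa using hS'), Nat.cast_mul,
    Nat.cast_sub hc]
  simp only [Nat.cast_add, Nat.cast_pow, dst_pow, Fin.sum_univ_three, Matrix.cons_val_zero,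
    Matrix.cons_val_one, Matrix.cons_val, Nat.cast_mul, Nat.cast_ofNat]
  generalize (a0 : ℝ) + a1 + a2 = S at hS' ⊢
  generalize 2049 * S ^ 10 - ((2 * S - 3 * a0) ^ 10 + (2 * S - 3 * a1) ^ 10 +
    (2 * S - 3 * a2) ^ 10) = X
  field_simp
  norm_num

end Vale.Agent.P154.DE
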