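import Vale.Agent.P154.GRun2

namespace Vale.Agent.P154.DE

open Vale.Agent.P154 Filter Topology

def RegOK (x y : ℕ) : Prop := ∀ (d : ℕ) (l : ℝ), x ≤ d → d ≤ y → 2 ≤ d → -1 / 2 ≤ l → l ≤ 0 →
  d * l ^ 2 ≤ 1 → Tendsto (adv 3 l (regOff d)) atTop (𝓝 0)

def PoiOK (x y : ℝ) : Prop := ∀ d l : ℝ, x ≤ d → d ≤ y → 0 < d → -1 / 2 ≤ l → l ≤ 0 →
  d * l ^ 2 ≤ 1 → Tendsto (adv 3 l (poiOff d)) atTop (𝓝 0)

theorem RegOK.trans {x y y' z : ℕ} (h : RegOK x y) (k : RegOK y' z) (e : y' ≤ y + 1) :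
    RegOK x z := fun d l a b => (le_or_gt d y).elim (h d l a) fun c => k d l (by omega) b

theorem PoiOK.trans {x y y' z : ℝ} (h : PoiOK x y) (k : PoiOK y' z) (e : y' ≤ y) : PoiOK x z :=
  fun d l a b => (le_total d y).elim (h d l a) fun c => k d l (e.trans c) b

theorem PoiOK.mono {x y x' y' : ℝ} (h : PoiOK x y) (e : x ≤ x') (e' : y' ≤ y) : PoiOK x' y' :=
  fun d l a b => h d l (e.trans a) (b.trans e')

theorem fin_cov {s x d l : ℝ} (hs : 0 ≤ s) (h : 1 / 2 ≤ s ∨ 1 ≤ x * s ^ 2) (hd : x ≤ d)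
    (h0 : -1 / 2 ≤ l) (hKS : d * l ^ 2 ≤ 1) : -s ≤ l := by
  rcases h with h | h
  · linarith
  · by_contra hh
    have h3 : s ^ 2 < l ^ 2 := by nlinarith [not_le.1 hh]
    have h4 : 0 < x := by
      by_contra hx
      nlinarith [not_lt.1 hx, sq_nonneg s]
    nlinarith [mul_lt_mul_of_pos_left h3 h4, mul_le_mul_of_nonneg_right hd (sq_nonneg l)]

theorem reg_nn (d k : ℕ) : 0 ≤ regOff d k := by unfold regOff; split_ifs <;> norm_num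

theorem reg_pos {d : ℕ} (hd : 2 ≤ d) : 0 < regOff d (d - 2 + 2) := by
  have : d - 2 + 2 = d := by omega
  simp [regOff, this]

theorem poi_pos {d : ℝ} (hd : 0 < d) (k : ℕ) : 0 < poiOff d k := by
  unfold poiOff; positivity

theorem regCell {rn rd d1 d2 Bn Bd : ℕ} {c : Cfg} {acc : ℕ}
    (hR : Reach rn rd (List.replicate d2 0 ++ [2 ^ 38]) c acc)
    (hc : finChk c (List.replicate d2 0 ++ [2 ^ 38]) acc d2 d1 1 Bn Bd = true)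
    {r B : ℝ} {h : -1 / 2 ≤ -r} {h' : -r ≤ 1} (hK : KeyP r h h' phi B) (hr : 0 < r)
    (hB : (Bn : ℝ) / Bd ≤ B)
    (c1 : 1 / 2 ≤ (rn : ℝ) / rd ∨ 1 ≤ (d1 : ℝ) * ((rn : ℝ) / rd) ^ 2)
    (c2 : 1 / 2 ≤ r ∨ 1 ≤ (d1 : ℝ) * r ^ 2) : RegOK d1 d2 := by
  intro d l a b hd h0 hl hKS
  have a' : (d1 : ℝ) ≤ d := by exact_mod_cast a
  have h1 : l ≤ 1 := hl.trans zero_le_one
  have hL : Law (regOff d) (((d2 : ℕ) : ℝ) / (1 : ℕ)) (rl (List.replicate d2 0 ++ [2 ^ 38])) := by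
    simpa using law_reg_le b
  have := hR.ev hc h0 h1 (reg_nn d) (reg_hs d) (fin_cov (by positivity) c1 a' h0 hKS) hl hL
    (d := d) (by simpa using a')
  exact (mainP hr bd_phi hK (fin_cov hr.le c2 a' h0 hKS) hl h0 h1 (reg_nn d) (reg_hs d) (reg_hd d)
    (d - 2) (reg_pos hd) hKS (this.mono fun n hn =>
      hn.trans (mul_le_mul_of_nonneg_left hB (Nat.cast_nonneg d)))).2

theorem poiCell {rn rd w a b K a1 Bn Bd : ℕ} {c : Cfg} {acc : ℕ}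
    (hR : Reach2 rn rd w a b K c acc)
    (hc : finChk c (poiL a b K) (DE.trans c c rn rd (poiL a b K) acc) a a1 b Bn Bd = true)
    {r B : ℝ} {h : -1 / 2 ≤ -r} {h' : -r ≤ 1} (hK : KeyP r h h' phi B) (hr : 0 < r)
    (hB : (Bn : ℝ) / Bd ≤ B)
    (c1 : 1 / 2 ≤ (rn : ℝ) / rd ∨ 1 ≤ (a1 : ℝ) / b * ((rn : ℝ) / rd) ^ 2)
    (c2 : 1 / 2 ≤ r ∨ 1 ≤ (a1 : ℝ) / b * r ^ 2) : PoiOK ((a1 : ℝ) / b) ((a : ℝ) / b) := by
  intro d l a' b' hd h0 hl hKS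
  have h1 : l ≤ 1 := hl.trans zero_le_one
  have := hR.ev hc h0 h1 hd.le (fin_cov (by positivity) c1 a' h0 hKS) hl a' b' hKS
  exact (mainP hr bd_phi hK (fin_cov hr.le c2 a' h0 hKS) hl h0 h1 (poi_nn hd.le) (poi_hs d)
    (poi_hd d) 0 (poi_pos hd _) hKS (this.mono fun n hn =>
      hn.trans (mul_le_mul_of_nonneg_left hB hd.le))).2

/-- the same with the one-channel run -/
theorem poiCell1 {rn rd a b K a1 Bn Bd : ℕ} {c : Cfg} {acc : ℕ}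
    (hR : Reach rn rd (poiL a b K) c acc)
    (hc : finChk c (poiL a b K) acc a a1 b Bn Bd = true) (hb : 0 < b) (hab : a ≤ 32 * b)
    {r B : ℝ} {h : -1 / 2 ≤ -r} {h' : -r ≤ 1} (hK : KeyP r h h' phi B) (hr : 0 < r)
    (hB : (Bn : ℝ) / Bd ≤ B)
    (c1 : 1 / 2 ≤ (rn : ℝ) / rd ∨ 1 ≤ (a1 : ℝ) / b * ((rn : ℝ) / rd) ^ 2)
    (c2 : 1 / 2 ≤ r ∨ 1 ≤ (a1 : ℝ) / b * r ^ 2) : PoiOK ((a1 : ℝ) / b) ((a : ℝ) / b) := by
  intro d l a' b' hd h0 hl hKS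
  have h1 : l ≤ 1 := hl.trans zero_le_one
  have := hR.ev hc h0 h1 (poi_nn hd.le) (poi_hs d) (fin_cov (by positivity) c1 a' h0 hKS) hl
    (law_poiL hb hab K hd.le b') a'
  exact (mainP hr bd_phi hK (fin_cov hr.le c2 a' h0 hKS) hl h0 h1 (poi_nn hd.le) (poi_hs d)
    (poi_hd d) 0 (poi_pos hd _) hKS (this.mono fun n hn =>
      hn.trans (mul_le_mul_of_nonneg_left hB hd.le))).2

theorem reg_all {r : ℝ} (hr : 0 < r) {h : -1 / 2 ≤ -r} {h' : -r ≤ 1} (hK : KeyN r h h') {y : ℕ}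
    (hy : 1 ≤ ((y : ℝ) + 1) * r ^ 2) (hy4 : 4 ≤ y) (H : RegOK 4 y) {d : ℕ} (hd : 2 ≤ d) {l : ℝ}
    (h0 : -1 / 2 ≤ l) (h1 : l ≤ 1) (hKS : d * l ^ 2 ≤ 1) :
    Tendsto (adv 3 l (regOff d)) atTop (𝓝 0) := by
  rcases le_total 0 l with hl | hl
  · exact (main hl h1 (reg_nn d) (reg_hs d) (reg_hd d) (d - 2) (reg_pos hd) hKS).2
  rcases le_total d 4 with h4 | h4
  · exact adv_cmp (r := 1 / 2) (by norm_num) (by norm_num) (by linarith) hl (reg_nn d) (reg_hs d)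
      (reg_nn 4) (reg_hs 4) (reg_cmp h4)
      (H 4 _ le_rfl hy4 (by norm_num) (by norm_num) (by norm_num) (by norm_num))
  rcases le_or_gt d y with h5 | h5
  · exact H d l h4 h5 hd h0 hl hKS
  · have h6 : (y : ℝ) + 1 ≤ d := by exact_mod_cast h5
    exact (mainN hr hK (fin_cov hr.le (Or.inr hy) h6 h0 hKS) hl (reg_nn d) (reg_hs d) (reg_hd d)
      (d - 2) (reg_pos hd) hKS).2

theorem poi_all {r : ℝ} (hr : 0 < r) {h : -1 / 2 ≤ -r} {h' : -r ≤ 1} (hK : KeyN r h h') {y : ℝ}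
    (hy : 1 ≤ y * r ^ 2) (hy4 : 4 ≤ y) (H : PoiOK 4 y) {d : ℝ} (hd : 0 < d) {l : ℝ}
    (h0 : -1 / 2 ≤ l) (h1 : l ≤ 1) (hKS : d * l ^ 2 ≤ 1) :
    Tendsto (adv 3 l (poiOff d)) atTop (𝓝 0) := by
  rcases le_total 0 l with hl | hl
  · exact (main hl h1 (poi_nn hd.le) (poi_hs d) (poi_hd d) 0 (poi_pos hd _) hKS).2
  rcases le_total d 4 with h4 | h4
  · exact adv_cmp (r := 1 / 2) (by norm_num) (by norm_num) (by linarith) hl (poi_nn hd.le)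
      (poi_hs d) (poi_nn (by norm_num)) (poi_hs 4) (poi_cmp hd.le h4)
      (H 4 _ le_rfl hy4 (by norm_num) (by norm_num) (by norm_num) (by norm_num))
  rcases le_total d y with h5 | h5
  · exact H d l h4 h5 hd h0 hl hKS
  · exact (mainN hr hK (fin_cov hr.le (Or.inr hy) h5 h0 hKS) hl (poi_nn hd.le) (poi_hs d)
      (poi_hd d) 0 (poi_pos hd _) hKS).2

theorem full_of {k0 : -1 / 2 ≤ -(2 / 9 : ℝ)} {k1 : -(2 / 9 : ℝ) ≤ 1} (hK : KeyN (2 / 9) k0 k1)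
    (h4 : Q4.Key) (HR : RegOK 4 20) (HP : PoiOK 4 (81 / 4)) (q : ℕ) (lam : ℝ)
    (h : (q = 3 ∧ -1 / 2 ≤ lam) ∨ (q = 4 ∧ 0 ≤ lam)) (h1 : lam ≤ 1) :
    (∀ d : ℕ, 2 ≤ d →
      (∀ n, HasSum (marg q lam (regOff d) n) 1) ∧
        (Tendsto (adv q lam (regOff d)) atTop (𝓝 0) ↔ d * lam ^ 2 ≤ 1) ∧
        ((∃ c : ℝ, 0 < c ∧ ∀ n, c ≤ adv q lam (regOff d) n) ↔ 1 < d * lam ^ 2)) ∧
    (∀ d : ℝ, 0 < d →
      (∀ n, HasSum (marg q lam (poiOff d) n) 1) ∧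
        (Tendsto (adv q lam (poiOff d)) atTop (𝓝 0) ↔ d * lam ^ 2 ≤ 1) ∧
        ((∃ c : ℝ, 0 < c ∧ ∀ n, c ≤ adv q lam (poiOff d) n) ↔ 1 < d * lam ^ 2)) := by
  refine ⟨fun d hd => ?_, fun d hd => ?_⟩
  · rcases h with ⟨rfl, h2⟩ | ⟨rfl, h0⟩
    · exact ⟨margN h2 h1 (reg_nn d) (reg_hs d), iff_of
        (reg_all (by norm_num) hK (y := 20) (by norm_num) (by norm_num) HR hd h2 h1)
        (ks3c h2 h1 (reg_nn d) (reg_hs d) (reg_hd d))⟩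
    · exact ⟨Q4.marg4 h0 h1 (reg_nn d) (reg_hs d), iff_of
        (fun hKS => (Q4.main4 h4 h0 h1 (reg_nn d) (reg_hs d) (reg_hd d) (d - 2) (reg_pos hd)
          hKS).2) (Q4.ks4c h0 h1 (reg_nn d) (reg_hs d) (reg_hd d))⟩
  · have hp := poi_nn hd.le
    rcases h with ⟨rfl, h2⟩ | ⟨rfl, h0⟩
    · exact ⟨margN h2 h1 hp (poi_hs d), iff_of
        (poi_all (by norm_num) hK (y := 81 / 4) (by norm_num) (by norm_num) HP hd h2 h1)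
        (ks3c h2 h1 hp (poi_hs d) (poi_hd d))⟩
    · exact ⟨Q4.marg4 h0 h1 hp (poi_hs d), iff_of
        (fun hKS => (Q4.main4 h4 h0 h1 hp (poi_hs d) (poi_hd d) 0 (poi_pos hd _) hKS).2)
        (Q4.ks4c h0 h1 hp (poi_hs d) (poi_hd d))⟩

end Vale.Agent.P154.DE
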