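import Vale.Agent.P154.GOrd
import Vale.Agent.P154.GArr

namespace Vale.Agent.P154.DE

open Vale.Agent.P154

theorem GHor_sum (T : St) (s : Finset ℕ) (c : ℕ → ℝ) (F : ℕ → V → ℝ) (hF : ∀ k, Bd (F k)) :
    Bd (fun x => ∑ k ∈ s, c k * F k x) ∧
      T.E (fun x => ∑ k ∈ s, c k * F k x) = ∑ k ∈ s, c k * T.E (F k) := by
  induction s using Finset.induction_on with
  | empty =>
    simp only [Finset.sum_empty]
    exact ⟨Bd.const 0, T.const 0⟩
  | insert a s ha ih =>
    simp only [Finset.sum_insert ha]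
    refine ⟨((hF a).cmul _).add ih.1, ?_⟩
    rw [T.add _ _ ((hF a).cmul _) ih.1, T.cmul _ _ (hF a), ih.2]

theorem hF_eq (T : St) (ps : List ℝ) {G : V → ℝ} (h : Gc G) :
    hF T ps G = ∑ k ∈ Finset.range ps.length, ps.getD k 0 * (T.pow k).E G := by
  induction ps generalizing G with
  | nil => simp [hF]
  | cons p ps ih =>
    obtain ⟨h1, h2⟩ := GHor_sum T (Finset.range ps.length) (fun k => ps.getD k 0)
      (fun k x => (T.pow k).E fun y => G (x * y)) fun k => (h.inner _).bd
    rw [hF, List.length_cons, Finset.sum_range_succ', add_comm,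
      ← T.congr h1 fun x hx => (ih (h.mulL hx.1)).symm, h2]
    congr 1
    refine Finset.sum_congr rfl fun k _ => ?_
    rw [List.getD_cons_succ, St.pow, star_E _ _ h]

theorem GHor_gc (T : St) {ps : List ℝ} (hps : ∀ p ∈ ps, 0 ≤ p) {G : V → ℝ} (h : Gc G) :
    Gc fun x => hF T ps fun y => G (x * y) := by
  have h0 : ∀ k, 0 ≤ ps.getD k 0 := fun k => by
    rw [List.getD_eq_getElem?_getD]
    cases hk : ps[k]? with
    | none => exact le_rfl
    | some a => exact hps a (List.mem_of_getElem? hk)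
  refine ⟨fun v hv => ?_, fun c v hc hv => ?_, fun v w hv hw => ?_⟩
  · rw [hF_eq _ _ (h.mulL hv)]
    exact Finset.sum_nonneg fun k _ => mul_nonneg (h0 k) ((h.inner _).nn v hv)
  · rw [hF_eq _ _ (h.mulL hv), hF_eq _ _ (h.mulL (x := c • v) fun i => mul_nonneg hc (hv i)),
      Finset.mul_sum]
    refine Finset.sum_congr rfl fun k _ => ?_
    rw [(h.inner (T.pow k)).smul c v hc hv]
    ring
  · rw [hF_eq _ _ (h.mulL hv), hF_eq _ _ (h.mulL hw),
      hF_eq _ _ (h.mulL (x := v + w) fun i => add_nonneg (hv i) (hw i)), ← Finset.sum_add_distrib]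
    refine Finset.sum_le_sum fun k _ => ?_
    rw [← mul_add]
    exact mul_le_mul_of_nonneg_left ((h.inner (T.pow k)).sup v w hv hw) (h0 k)

theorem GHor_perm (T : St) (ps : List ℝ) {G : V → ℝ} (h : Gc G) (τ : Equiv.Perm (Fin 3)) :
    hF T ps (fun y => G (y ∘ τ)) = hF T ps G := by
  rw [hF_eq _ _ h, hF_eq _ _ (h.perm τ)]
  exact Finset.sum_congr rfl fun k _ => by rw [(T.pow k).sym τ G h.bd]

theorem GHor_zero (β : ℝ) (G : V → ℝ) : val β G 0 = 0 := Finsupp.sum_zero_index

theorem GHor_proj {β : ℝ} (hβ : 0 < β) (W : Lt →₀ ℝ) {K : V → ℝ}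
    (h1 : ∀ (c : ℝ) (x : V), 0 ≤ c → Nn x → K (c • x) = c * K x)
    (h2 : ∀ x y, zz 2 * x = zz 2 * y → K x = K y) : val β K (proj β W) = val β K W := by
  induction W using Finsupp.induction_linear with
  | zero => rw [proj, Finsupp.sum_zero_index]
  | add A B hA hB => rw [proj_add, val_add, val_add, hA, hB]
  | single p a =>
    rw [proj_single, val_single, val_single, mul_assoc,
      ← h1 _ _ (zpow_pos hβ _).le (uu_nn hβ _)]
    congr 1
    refine h2 _ _ ?_
    funext i
    fin_cases i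
    · simp [zz, uu, zpow_sub₀ hβ.ne', div_eq_mul_inv, mul_comm]
    · simp [zz, uu, zpow_sub₀ hβ.ne', div_eq_mul_inv, mul_comm]
    · simp [zz]

theorem GHor_inv (β : ℝ) {W : Lt →₀ ℝ} {s : Lt → Lt} (hs : ∀ p, s (s p) = p)
    (hW : ∀ p, W (s p) = W p) {τ : Equiv.Perm (Fin 3)} (hu : ∀ p, uu β (s p) = uu β p ∘ τ)
    (N : V → ℝ) : val β (fun x => N (x ∘ τ)) W = val β N W := by
  refine Finset.sum_nbij' s s (fun p hp => ?_) (fun p hp => ?_) (fun p _ => hs p)
    (fun p _ => hs p) fun p _ => ?_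
  · rwa [Finsupp.mem_support_iff, hW, ← Finsupp.mem_support_iff]
  · rwa [Finsupp.mem_support_iff, hW, ← Finsupp.mem_support_iff]
  · simp only [hW, hu]

theorem GHor_sym (β : ℝ) {W : Lt →₀ ℝ} (hS : Sy W) (t : Fin 3) (N : V → ℝ) :
    val β (fun x => N (x ∘ Equiv.swap t 2)) W = val β N W := by
  have a1 := GHor_inv β (W := W) (s := s1) (fun _ => rfl) (fun p => (hS p).1) (uu_s1 β)
  have a2 := GHor_inv β (W := W) (s := s2) (fun p => by simp [s2]) (fun p => (hS p).2) (uu_s2 β)
  fin_cases t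
  · have e : (fun x : V => N (x ∘ Equiv.swap 0 2)) = fun x => (fun y : V =>
        (fun z : V => N (z ∘ Equiv.swap 1 2)) (y ∘ Equiv.swap 0 1)) (x ∘ Equiv.swap 1 2) := by
      funext x
      congr 1
      funext i
      fin_cases i <;> rfl
    exact (congrArg (val β · W) e).trans ((a1 fun y : V =>
      (fun z : V => N (z ∘ Equiv.swap 1 2)) (y ∘ Equiv.swap 0 1)).trans
        ((a2 fun z : V => N (z ∘ Equiv.swap 1 2)).trans (a1 N)))
  · exact a1 N
  · simp

theorem GHor_mono {β : ℝ} {W : Lt →₀ ℝ} (hW : Po W) {F K : V → ℝ}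
    (h : ∀ a, F (uu β a) ≤ K (uu β a)) : val β F W ≤ val β K W :=
  Finset.sum_le_sum fun a _ => mul_le_mul_of_nonneg_left (h a) (hW a)

theorem GHor_two {β : ℝ} (hβ : 0 < β) {T : St} {W : Lt →₀ ℝ} {f : ℝ} (hW : Po W)
    (hf : 0 ≤ f) (hL : LowT β T W f) (ps : List ℝ) (hps : ∀ p ∈ ps, 0 ≤ p) {G : V → ℝ}
    (h : Gc G) : val β (fun v => G (zz 2 * v)) (hA (proj β W + Finsupp.single 0 f) ps) ≤
      hF T ps fun v => G (zz 2 * v) := by
  induction ps generalizing G with
  | nil => exact (GHor_zero _ _).le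
  | cons p ps ih =>
    have hps' : ∀ p ∈ ps, 0 ≤ p := fun q hq => hps q (List.mem_cons_of_mem _ hq)
    have hK := GHor_gc T hps' (h.mulL (zz_nn 2))
    rw [hA, hF, val_add, conv_single, val_single, add_zero, uu_zero, one_mul, add_comm,
      val_conv hβ]
    refine add_le_add le_rfl (le_trans ?_ (hL _ hK))
    refine (GHor_mono ((hW.proj hβ).add (Po.single 0 hf))
      (F := fun x => val β (fun v => G (zz 2 * (x * v))) (hA (proj β W + Finsupp.single 0 f) ps))
      (K := fun x => hF T ps fun y => G (zz 2 * (x * y))) fun a => ?_).trans ?_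
    · simp only [mul_left_comm (zz 2) (uu β a)]
      exact ih hps' (h.mulL (uu_nn hβ a))
    · have h2 : ∀ x y, zz 2 * x = zz 2 * y → (hF T ps fun v => G (zz 2 * (x * v))) =
          hF T ps fun v => G (zz 2 * (y * v)) := fun x y e => by
        simp only [← mul_assoc, e]
      rw [val_add, val_single, GHor_proj hβ W hK.smul h2, uu_zero,
        h2 1 (zz 2) (by funext i; fin_cases i <;> simp [zz])]
      refine add_le_add le_rfl (mul_le_mul_of_nonneg_left ?_ hf)
      exact Finset.single_le_sum (f := fun t => hF T ps fun v => G (zz 2 * (zz t * v)))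
        (fun t _ => hK.nn _ (zz_nn t)) (Finset.mem_univ 2)

theorem GHor_one {β : ℝ} (hβ : 0 < β) {T : St} {W : Lt →₀ ℝ} {f : ℝ} (hW : Po W) (hS : Sy W)
    (hf : 0 ≤ f) (hL : LowT β T W f) (ps : List ℝ) (hps : ∀ p ∈ ps, 0 ≤ p) {G : V → ℝ}
    (h : Gc G) : val β G (hA W ps) +
      ∑ t, val β (fun v => G ((zz 2 * v) ∘ Equiv.swap t 2)) (hQ (proj β W) f ps) ≤ hF T ps G := by
  induction ps generalizing G with
  | nil => simp [hA, hQ, hF, GHor_zero]
  | cons p ps ih =>
    have hps' : ∀ p ∈ ps, 0 ≤ p := fun q hq => hps q (List.mem_cons_of_mem _ hq)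
    have hK := hL _ (GHor_gc T hps' h)
    have hz : ∀ t : Fin 3, zz 2 ∘ Equiv.swap t 2 = zz t := fun t => by
      funext i
      fin_cases t <;> fin_cases i <;> simp [zz, Equiv.swap_apply_def]
    have e1 : ∀ t : Fin 3, val β (fun v => G ((zz 2 * v) ∘ Equiv.swap t 2))
        (conv (proj β W) (hQ (proj β W) f ps)) = val β (fun x => val β
          (fun v => G (x * (zz 2 * v) ∘ Equiv.swap t 2)) (hQ (proj β W) f ps)) W := fun t => by
      rw [val_conv hβ, ← GHor_sym β hS t]
      refine (GHor_proj hβ W (K := fun x => val β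
        (fun v => G ((zz 2 * (x * v)) ∘ Equiv.swap t 2)) (hQ (proj β W) f ps))
        (fun c x hc hx => ?_) fun x y e => by simp only [← mul_assoc, e]).trans ?_
      · simp only [val, Finsupp.sum, Finset.mul_sum]
        refine Finset.sum_congr rfl fun q _ => ?_
        rw [smul_mul_assoc, mul_smul_comm, (h.perm (Equiv.swap t 2)).smul c _ hc
          (mul_nn (zz_nn 2) (mul_nn hx (uu_nn hβ q)))]
        ring
      · simp only [mul_left_comm (zz 2)]
        rfl
    have e2 : ∀ t : Fin 3, val β (fun v => G ((zz 2 * v) ∘ Equiv.swap t 2))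
        (conv (Finsupp.single 0 f) (hA (proj β W + Finsupp.single 0 f) ps)) ≤
        f * hF T ps fun y => G (zz t * y) := fun t => by
      rw [val_conv hβ, Finsupp.sum_single_index (zero_mul _), uu_zero]
      refine mul_le_mul_of_nonneg_left ?_ hf
      simp only [one_mul]
      refine (GHor_two hβ hW hf hL ps hps' (h.perm (Equiv.swap t 2))).trans_eq ?_
      rw [← GHor_perm T ps (h.mulL (zz_nn t)) (Equiv.swap t 2), ← hz t]
      rfl
    have e3 := GHor_mono (β := β) hW
      (F := fun x => val β (fun v => G (x * v)) (hA W ps) + ∑ t, val β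
        (fun v => G (x * (zz 2 * v) ∘ Equiv.swap t 2)) (hQ (proj β W) f ps))
      (K := fun x => hF T ps fun y => G (x * y)) fun a => ih hps' (h.mulL (uu_nn hβ a))
    have e4 : ∀ (F : V → ℝ) (N : Fin 3 → V → ℝ), val β (fun x => F x + ∑ t, N t x) W =
        val β F W + ∑ t, val β (N t) W := fun F N => by
      simp only [val, Finsupp.sum, mul_add, Finset.mul_sum, Finset.sum_add_distrib]
      rw [Finset.sum_comm]
    rw [e4] at e3
    have e5 := Finset.sum_le_sum fun t (_ : t ∈ Finset.univ) => e2 t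
    rw [← Finset.mul_sum] at e5
    have e6 : val β G (conv W (hA W ps)) =
        val β (fun x => val β (fun v => G (x * v)) (hA W ps)) W := val_conv hβ _ _ _
    rw [hA, hQ, hF, val_add, conv_single, val_single, add_zero, uu_zero, one_mul, e6]
    simp only [val_add, Finset.sum_add_distrib, e1]
    linarith

theorem horner_low {β : ℝ} (hβ : 0 < β) {T : St} {W : Lt →₀ ℝ} {f : ℝ} (hW : Po W) (hS : Sy W)
    (hf : 0 ≤ f) (hL : LowT β T W f) (ps : List ℝ) (hps : ∀ p ∈ ps, 0 ≤ p) {G : V → ℝ}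
    (h : Gs G) :
    val β G (hA W ps) + 3 * val β (fun v => G (zz 2 * v)) (hQ (proj β W) f ps) ≤ hF T ps G := by
  have h1 := GHor_one hβ hW hS hf hL ps hps h.1
  simp only [h.2, Finset.sum_const, Finset.card_univ, Fintype.card_fin, nsmul_eq_mul] at h1
  exact_mod_cast h1

end Vale.Agent.P154.DE
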