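import Vale.Agent.P154.GBld

namespace Vale.Agent.P154.DE

open Vale.Agent.P154

theorem ghn_rl (ps : List ℕ) : ∀ p ∈ rl ps, 0 ≤ p := fun p hp => by
  obtain ⟨n, -, rfl⟩ := List.mem_map.1 hp
  positivity

theorem ghn_nA (M sh cp W p : ℕ) (ps : List ℕ) : nA M sh cp W (p :: ps) =
    trunc M sh (nA M sh cp W ps * W + Nat.shiftLeft (p * 2 ^ 38) cp) :=
  frc_eq (nA M sh cp W ps) fun X => trunc M sh (X * W + Nat.shiftLeft (p * 2 ^ 38) cp)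

theorem ghn_nQ (M sh cp W1 Wf F p : ℕ) (ps : List ℕ) : nQ M sh cp W1 Wf F (p :: ps) =
    trunc M sh (nQ M sh cp W1 Wf F ps * W1 + nA M sh cp Wf ps * F) :=
  frc_eq (nQ M sh cp W1 Wf F ps) fun X => trunc M sh (X * W1 + nA M sh cp Wf ps * F)

theorem ghn_ctr (L c1 c2 e1 e2 p q : ℕ) :
    Nat.shiftLeft (p * q) (96 * (c1 + e1 + L * (c2 + e2))) = ctr L c1 c2 p * ctr L e1 e2 q := by
  simp only [ctr, Nat.shiftLeft_eq', Nat.shiftLeft_eq]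
  rw [show 96 * (c1 + e1 + L * (c2 + e2)) = 96 * (c1 + L * c2) + 96 * (e1 + L * e2) by ring,
    pow_add, mul_mul_mul_comm]

theorem nA_dom {L c1 c2 e1 e2 W : ℕ} (hL : 2 * (c1 + e1) < L) (hM : L * (2 * e2 + 1) ≤ 2 ^ 14)
    {Wt : Lt →₀ ℝ} (pW : Po Wt) (hW : Dom L e1 e2 W Wt) (ps : List ℕ) (hps : ∀ p ∈ ps, p < 2 ^ 40) :
    Dom L c1 c2 (nA (msk L c1 c2) (38 + 96 * (e1 + L * e2)) (96 * (c1 + e1 + L * (c2 + e2))) W ps)
      (hA Wt (rl ps)) := by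
  induction ps with
  | nil => exact dom_zero L c1 c2 (hA_po pW _ (ghn_rl []))
  | cons p ps ih =>
    rw [ghn_nA, ghn_ctr, msk_eq]
    refine dom_trunc hL (by norm_num) (hA_po pW _ (ghn_rl (p :: ps))) ?_
    exact raw_mul2 hL hM (hA_po pW _ (ghn_rl ps)) pW
      (Po.single 0 (show (0 : ℝ) ≤ (p : ℝ) / 2 ^ 38 by positivity)) (Po.single 0 zero_le_one)
      (ih fun q hq => hps q (List.mem_cons_of_mem _ hq)) hW
      (dom_ctr (by omega) (hps p List.mem_cons_self) (le_of_eq (by field_simp)))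
      (dom_ctr (by omega) (by norm_num) (by norm_num))

theorem ghn_Q {L c1 c2 e1 e2 W1 Wf f : ℕ} (hL : 2 * (c1 + e1) < L)
    (hM : L * (2 * e2 + 1) ≤ 2 ^ 14) {Wt : Lt →₀ ℝ} (pW : Po Wt) (hf : f < 2 ^ 38)
    (hW : Dom L e1 e2 W1 Wt) (hW' : Dom L e1 e2 Wf (Wt + Finsupp.single 0 ((f : ℝ) / 2 ^ 38)))
    (ps : List ℕ) (hps : ∀ p ∈ ps, p < 2 ^ 40) :
    Dom L c1 c2 (nQ (msk L c1 c2) (38 + 96 * (e1 + L * e2)) (96 * (c1 + e1 + L * (c2 + e2)))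
      W1 Wf (ctr L e1 e2 f) ps) (hQ Wt ((f : ℝ) / 2 ^ 38) (rl ps)) := by
  have f0 : (0 : ℝ) ≤ (f : ℝ) / 2 ^ 38 := by positivity
  have pW' := pW.add (Po.single 0 f0)
  induction ps with
  | nil => exact dom_zero L c1 c2 (hQ_po pW f0 _ (ghn_rl []))
  | cons p ps ih =>
    have hps' : ∀ q ∈ ps, q < 2 ^ 40 := fun q hq => hps q (List.mem_cons_of_mem _ hq)
    have a := nA_dom (c1 := c1) (c2 := c2) hL hM pW' hW' ps hps'
    have b := ih hps'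
    rw [ghn_nQ]
    rw [msk_eq] at a b ⊢
    refine dom_trunc hL (by norm_num) (hQ_po pW f0 _ (ghn_rl (p :: ps))) ?_
    exact raw_mul2 hL hM (hQ_po pW f0 _ (ghn_rl ps)) pW (hA_po pW' _ (ghn_rl ps))
      (Po.single 0 f0) b hW a
      (dom_ctr (by omega) (hf.trans (by norm_num)) (le_of_eq (by field_simp)))

theorem ghn_ok {c : Cfg} (h : c.ok = true) :
    0 < c.β ∧ 2 * (c.R + c.e) < c.L ∧ c.L * (2 * c.e + 1) ≤ 2 ^ 14 ∧ c.uq ≤ 1 := by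
  simp only [Cfg.ok, Bool.and_eq_true, Nat.blt_eq, Nat.ble_eq] at h
  obtain ⟨⟨⟨⟨⟨⟨h1, h2⟩, h3⟩, -⟩, -⟩, -⟩, h4⟩ := h
  exact ⟨div_pos (by exact_mod_cast h1) (by exact_mod_cast h2), Nat.lt_succ_self _, h3, h4⟩

theorem arrA_dom {c : Cfg} (h : c.ok = true) (ps : List ℕ) (hps : ∀ p ∈ ps, p < 2 ^ 40) (acc : ℕ) :
    Dom c.L c.R c.R (arrA c ps acc) (hA (tW c acc) (rl ps)) := by
  obtain ⟨-, h1, h2, -⟩ := ghn_ok h
  simp only [arrA, frc_eq]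
  exact nA_dom h1 h2 (tW_po c acc) (bW_dom h acc) ps hps
theorem arrQ_dom {c : Cfg} (h : c.ok = true) (ps : List ℕ) (hps : ∀ p ∈ ps, p < 2 ^ 40) (acc : ℕ) :
    Dom c.L c.R 0 (arrQ c ps acc)
      (hQ (proj c.β (tW c acc)) ((fN c acc : ℝ) / 2 ^ 38) (rl ps)) := by
  obtain ⟨b0, h1, h2, -⟩ := ghn_ok h
  have pW := (tW_po c acc).proj b0
  simp only [arrQ, frc_eq]
  cases Nat.beq c.uq 0
  · have a := bW1_dom h acc (f := 0) (by norm_num)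
    rw [Nat.cast_zero, zero_div, Finsupp.single_zero, add_zero] at a
    have b := ghn_Q (c1 := c.R) (c2 := 0) h1 (le_trans (Nat.mul_le_mul_left _ (by omega)) h2) pW
      (fN_lt h acc) a (bW1_dom h acc (fN_lt h acc)) ps hps
    simp only [add_zero, mul_zero] at b
    exact b
  · exact dom_zero _ _ _ (hQ_po pW (by positivity) _ (ghn_rl ps))

end Vale.Agent.P154.DE
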