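import Vale.Agent.P154.GDef

namespace Vale.Agent.P154.DE

open Vale.Agent.P154

theorem gp_nn {d : ℝ} (hd : 0 ≤ d) (k : ℕ) : 0 ≤ poiOff d k := by
  unfold poiOff; positivity

theorem gp_add (d e : ℝ) (n : ℕ) :
    poiOff (d + e) n = ∑ ij ∈ Finset.HasAntidiagonal.antidiagonal n, poiOff d ij.1 * poiOff e ij.2 := by
  unfold poiOff
  rw [mul_div_assoc, (Commute.all d e).add_pow', Finset.sum_div, Finset.mul_sum]
  refine Finset.sum_congr rfl fun ij hij => ?_
  rw [Finset.HasAntidiagonal.mem_antidiagonal] at hij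
  have h := Nat.add_choose_mul_factorial_mul_factorial ij.1 ij.2
  rw [hij, ← Nat.choose_symm_of_eq_add (by omega : n = ij.1 + ij.2)] at h
  have h' : (n.choose ij.1 : ℝ) * ij.1.factorial * ij.2.factorial = n.factorial := by
    exact_mod_cast h
  have hc : (n.choose ij.1 : ℝ) ≠ 0 := by
    intro h0
    rw [h0, zero_mul, zero_mul] at h'
    exact (Nat.cast_ne_zero.2 n.factorial_ne_zero) h'.symm
  rw [← h', neg_add, Real.exp_add, nsmul_eq_mul]
  field_simp

theorem gp_conv (d : ℝ) {e : ℝ} (y : ℕ → ℝ) (hs : Summable fun k => poiOff d k * y k) :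
    HasSum (fun n => ∑ ij ∈ Finset.HasAntidiagonal.antidiagonal n, poiOff d ij.1 * y ij.1 * poiOff e ij.2)
      (∑' k, poiOff d k * y k) := by
  have h1 := (summable_norm_sum_mul_antidiagonal_of_summable_norm hs.norm
    (poi_hs e).summable.norm).of_norm.hasSum
  rwa [← tsum_mul_tsum_eq_tsum_sum_antidiagonal_of_summable_norm hs.norm
    (poi_hs e).summable.norm, (poi_hs e).tsum_eq, mul_one] at h1

theorem gp_sum {d : ℝ} (hd : 0 ≤ d) {x : ℕ → ℝ} (hx : Antitone x) (h0 : ∀ k, 0 ≤ x k) :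
    Summable fun k => poiOff d k * x k :=
  Summable.of_nonneg_of_le (fun k => mul_nonneg (gp_nn hd k) (h0 k))
    (fun k => mul_le_mul_of_nonneg_left (hx (Nat.zero_le k)) (gp_nn hd k))
    ((poi_hs d).summable.mul_right (x 0))

theorem gp_lin {d C : ℝ} (hd : 0 ≤ d) {y : ℕ → ℝ} (h0 : ∀ k, 0 ≤ y k) (h1 : ∀ k, y k ≤ k * C) :
    Summable fun k => poiOff d k * y k :=
  Summable.of_nonneg_of_le (fun k => mul_nonneg (gp_nn hd k) (h0 k))
    (fun k => (mul_le_mul_of_nonneg_left (h1 k) (gp_nn hd k)).trans_eq (mul_assoc _ _ _).symm)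
    ((poi_hd d).summable.mul_right C)

theorem gp_mono {d d2 : ℝ} (hd : 0 ≤ d) (h : d ≤ d2) {y : ℕ → ℝ} (hy : Monotone y)
    (s1 : Summable fun k => poiOff d k * y k) (s2 : Summable fun k => poiOff d2 k * y k) :
    ∑' k, poiOff d k * y k ≤ ∑' k, poiOff d2 k * y k := by
  obtain ⟨e, rfl⟩ : ∃ e, d2 = d + e := ⟨d2 - d, by ring⟩
  have he : 0 ≤ e := by linarith
  refine hasSum_le (fun n => ?_) (gp_conv d (e := e) y s1) s2.hasSum
  rw [gp_add, Finset.sum_mul]
  refine Finset.sum_le_sum fun ij hij => ?_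
  rw [Finset.HasAntidiagonal.mem_antidiagonal] at hij
  have := mul_le_mul_of_nonneg_left (hy (by omega : ij.1 ≤ n))
    (mul_nonneg (gp_nn hd ij.1) (gp_nn he ij.2))
  linarith

theorem gp_reg (d : ℕ) (F : ℕ → ℝ) : ∑' k, regOff d k * F k = F d := by
  rw [tsum_eq_single d fun k hk => by simp [regOff, hk]]
  simp [regOff]

theorem gp_rep (d : ℕ) (F : ℕ → ℝ) :
    ∑ k ∈ Finset.range (List.replicate d (0 : ℝ) ++ [1]).length,
      (List.replicate d (0 : ℝ) ++ [1]).getD k 0 * F k = F d := by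
  rw [List.length_append, List.length_replicate, List.length_singleton, Finset.sum_range_succ,
    Finset.sum_eq_zero]
  · simp
  · intro k hk
    rw [Finset.mem_range] at hk
    rw [List.getD_append _ _ _ _ (by simpa using hk)]
    simp [hk]

theorem poi_cmp {d d2 : ℝ} (hd : 0 ≤ d) (h : d ≤ d2) (x : ℕ → ℝ) (hx : Antitone x)
    (h0 : ∀ k, 0 ≤ x k) : ∑' k, poiOff d2 k * x k ≤ ∑' k, poiOff d k * x k := by
  have := gp_mono hd h (y := fun k => -x k) hx.neg
    (by simpa using (gp_sum hd hx h0).neg) (by simpa using (gp_sum (hd.trans h) hx h0).neg)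
  simp only [mul_neg, tsum_neg] at this
  linarith
theorem reg_cmp {d d2 : ℕ} (h : d ≤ d2) (x : ℕ → ℝ) (hx : Antitone x)
    (h0 : ∀ k, 0 ≤ x k) : ∑' k, regOff d2 k * x k ≤ ∑' k, regOff d k * x k := by
  rw [gp_reg, gp_reg]
  exact hx h
theorem law_poi {d d2 : ℝ} (hd : 0 ≤ d) (h : d ≤ d2) (ps : List ℝ) (h0 : ∀ p ∈ ps, 0 ≤ p)
    (hps : ∀ k < ps.length, ps.getD k 0 ≤ poiOff d2 k) : Law (poiOff d) d2 ps := by
  have hd2 := hd.trans h
  have key : ∀ F : ℕ → ℝ, (∀ k, 0 ≤ F k) → Summable (fun k => poiOff d2 k * F k) →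
      ∑ k ∈ Finset.range ps.length, ps.getD k 0 * F k ≤ ∑' k, poiOff d2 k * F k :=
    fun F hF hs => (Finset.sum_le_sum fun k hk =>
      mul_le_mul_of_nonneg_right (hps k (Finset.mem_range.1 hk)) (hF k)).trans
      (hs.sum_le_tsum _ fun k _ => mul_nonneg (gp_nn hd2 k) (hF k))
  refine ⟨fun x hx hx0 => (key x hx0 (gp_sum hd2 hx hx0)).trans (poi_cmp hd h x hx hx0),
    fun g C _ g0 gC => ?_⟩
  have y0 : ∀ k, 0 ≤ ∑ j ∈ Finset.range k, (C - g j) :=
    fun k => Finset.sum_nonneg fun j _ => sub_nonneg.2 (gC j)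
  have y1 : ∀ k : ℕ, ∑ j ∈ Finset.range k, (C - g j) ≤ k * C := fun k => by
    have := Finset.sum_le_card_nsmul (Finset.range k) (fun j => C - g j) C
      fun j _ => by linarith [g0 j]
    simpa using this
  have z0 : ∀ k, 0 ≤ ∑ j ∈ Finset.range k, g j := fun k => Finset.sum_nonneg fun j _ => g0 j
  have z1 : ∀ k : ℕ, ∑ j ∈ Finset.range k, g j ≤ k * C := fun k => by
    have := Finset.sum_le_card_nsmul (Finset.range k) g C fun j _ => gC j
    simpa using this
  have hm : Monotone fun k => ∑ j ∈ Finset.range k, (C - g j) :=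
    monotone_nat_of_le_succ fun k => by
      rw [Finset.sum_range_succ]
      linarith [gC k]
  have h1 := gp_mono hd h hm (gp_lin hd y0 y1) (gp_lin hd2 y0 y1)
  have h2 := key _ z0 (gp_lin hd2 z0 z1)
  have h3 := (((poi_hd d2).mul_left C).sub (gp_lin hd2 z0 z1).hasSum).tsum_eq
  have h4 : ∀ k : ℕ, poiOff d2 k * ∑ j ∈ Finset.range k, (C - g j) =
      C * (poiOff d2 k * k) - poiOff d2 k * ∑ j ∈ Finset.range k, g j := fun k => by
    rw [Finset.sum_sub_distrib, Finset.sum_const, Finset.card_range, nsmul_eq_mul]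
    ring
  simp only [h4] at h1
  linarith
theorem law_reg (d : ℕ) : Law (regOff d) d (List.replicate d 0 ++ [1]) := by
  refine ⟨fun x _ _ => ?_, fun g C _ _ _ => ?_⟩
  · rw [gp_rep, gp_reg]
  · rw [gp_rep d fun k => ∑ j ∈ Finset.range k, g j,
      gp_reg d fun k => ∑ j ∈ Finset.range k, (C - g j), Finset.sum_sub_distrib,
      Finset.sum_const, Finset.card_range, nsmul_eq_mul, mul_comm]

/-- numerator of an upper bound for `exp (a/b)`, denominator `expD b` (needs `a ≤ 32 b`) -/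
def expN (a b : ℕ) : ℕ :=
  (40320 * 8 * (32 * b) ^ 8 + 40320 * 8 * a * (32 * b) ^ 7 + 20160 * 8 * a ^ 2 * (32 * b) ^ 6 +
    6720 * 8 * a ^ 3 * (32 * b) ^ 5 + 1680 * 8 * a ^ 4 * (32 * b) ^ 4 +
    336 * 8 * a ^ 5 * (32 * b) ^ 3 + 56 * 8 * a ^ 6 * (32 * b) ^ 2 + 8 * 8 * a ^ 7 * (32 * b) +
    9 * a ^ 8) ^ 32
def expD (b : ℕ) : ℕ := (40320 * 8 * (32 * b) ^ 8) ^ 32
def poiL (a b K : ℕ) : List ℕ :=
  (List.range K).map fun k => 2 ^ 38 * a ^ k * expD b / (b ^ k * Nat.factorial k * expN a b)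

theorem exp_le {a b : ℕ} (hb : 0 < b) (h : a ≤ 32 * b) :
    Real.exp ((a : ℝ) / b) ≤ (expN a b : ℝ) / expD b := by
  have hb' : (0 : ℝ) < b := Nat.cast_pos.2 hb
  have h' : (a : ℝ) ≤ 32 * b := by exact_mod_cast h
  have h1 := Real.exp_bound' (x := (a : ℝ) / (32 * b)) (by positivity)
    ((div_le_one (by positivity)).2 h') (n := 8) (by norm_num)
  have h2 : (a : ℝ) / b = (32 : ℕ) * ((a : ℝ) / (32 * b)) := by
    push_cast
    field_simp
  rw [h2, Real.exp_nat_mul, expN, expD, Nat.cast_pow, Nat.cast_pow, ← div_pow]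
  refine pow_le_pow_left₀ (Real.exp_pos _).le (h1.trans_eq ?_) 32
  simp only [Finset.sum_range_succ, Finset.sum_range_zero, Nat.factorial]
  push_cast
  field_simp
  ring
theorem law_poiL {a b : ℕ} (hb : 0 < b) (h : a ≤ 32 * b) (K : ℕ) {d : ℝ} (hd : 0 ≤ d)
    (h2 : d ≤ (a : ℝ) / b) :
    Law (poiOff d) ((a : ℝ) / b) ((poiL a b K).map fun n : ℕ => (n : ℝ) / 2 ^ 38) := by
  refine law_poi hd h2 _ (fun p hp => ?_) fun k hk => ?_
  · obtain ⟨n, -, rfl⟩ := List.mem_map.1 hp
    positivity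
  · have hb' : (0 : ℝ) < b := Nat.cast_pos.2 hb
    have he := exp_le hb h
    have hD : (0 : ℝ) < expD b := by unfold expD; positivity
    have hN : (0 : ℝ) < expN a b := by
      have := (Real.exp_pos _).trans_le he
      exact (div_pos_iff_of_pos_right hD).1 this
    rw [List.getD_eq_getElem _ _ hk]
    simp only [poiL, List.getElem_map, List.getElem_range]
    have h3 := Nat.cast_div_le (α := ℝ) (m := 2 ^ 38 * a ^ k * expD b)
      (n := b ^ k * Nat.factorial k * expN a b)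
    rw [div_le_iff₀ (by positivity)]
    refine h3.trans ?_
    have h4 : (expD b : ℝ) / expN a b ≤ Real.exp (-((a : ℝ) / b)) := by
      rw [Real.exp_neg, ← inv_div]
      exact inv_anti₀ (Real.exp_pos _) he
    have h5 : ((2 ^ 38 * a ^ k * expD b : ℕ) : ℝ) / ((b ^ k * Nat.factorial k * expN a b : ℕ) : ℝ)
        = (expD b : ℝ) / expN a b * ((a : ℝ) / b) ^ k / (Nat.factorial k : ℝ) * 2 ^ 38 := by
      rw [div_pow]
      push_cast
      field_simp
      ring
    rw [h5, poiOff]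
    gcongr
theorem law_regL (d : ℕ) : Law (regOff d) d
    ((List.replicate d 0 ++ [2 ^ 38] : List ℕ).map fun n : ℕ => (n : ℝ) / 2 ^ 38) := by
  have : ((List.replicate d 0 ++ [2 ^ 38] : List ℕ).map fun n : ℕ => (n : ℝ) / 2 ^ 38) =
      List.replicate d 0 ++ [1] := by
    simp only [List.map_append, List.map_replicate, List.map_cons, List.map_nil]
    norm_num
  rw [this]
  exact law_reg d

/-- `tails ps` lists `(∑ k > j, ps k) / 32` -/
def tails : List ℕ → List ℕ
  | [] => []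
  | _ :: ps => ps.sum / 32 :: tails ps

theorem gp_len (ps : List ℕ) : (tails ps).length = ps.length := by
  induction ps with
  | nil => rfl
  | cons p ps ih => simp [tails, ih]

theorem gp_tot (ps : List ℕ) : ∑ k ∈ Finset.range ps.length, (ps.getD k 0 : ℝ) = ps.sum := by
  induction ps with
  | nil => simp
  | cons p ps ih =>
    rw [List.length_cons, Finset.sum_range_succ']
    simp only [List.getD_cons_succ, List.getD_cons_zero, ih, List.sum_cons, Nat.cast_add]
    ring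

theorem tails_le (ps : List ℕ) (h : ℕ → ℝ) (h0 : ∀ k, 0 ≤ h k) :
    32 * ∑ j ∈ Finset.range (tails ps).length, ((tails ps).getD j 0 : ℝ) * h j ≤
      ∑ k ∈ Finset.range ps.length, (ps.getD k 0 : ℝ) * ∑ j ∈ Finset.range k, h j := by
  induction ps generalizing h with
  | nil => simp [tails]
  | cons p ps ih =>
    have h1 := ih (fun j => h (j + 1)) fun k => h0 _
    have h2 : 32 * ((ps.sum / 32 : ℕ) : ℝ) ≤ ps.sum := by
      exact_mod_cast Nat.mul_div_le ps.sum 32
    have h3 := mul_le_mul_of_nonneg_right h2 (h0 0)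
    rw [tails, List.length_cons, List.length_cons, Finset.sum_range_succ', Finset.sum_range_succ']
    simp only [List.getD_cons_succ, List.getD_cons_zero, Finset.sum_range_succ', mul_add,
      Finset.sum_add_distrib, ← Finset.sum_mul, gp_tot, Finset.range_zero, Finset.sum_empty,
      mul_zero, add_zero]
    linarith

end Vale.Agent.P154.DE
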