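import Vale.Agent.P154.GStep
import Vale.Agent.P154.GPoi

namespace Vale.Agent.P154.DE

open Vale.Agent.P154 Filter

/-- `acc` is reached: for every law dominated by `ps` and every `l ∈ [-rn/rd, 0]`, from some level
on the messages sent through the channel `-rn/rd` are less informative than `acc` -/
def Reach (rn rd : ℕ) (ps : List ℕ) (c : Cfg) (acc : ℕ) : Prop :=
  c.ok = true ∧ 0 < rd ∧ 2 * rn ≤ rd ∧ (∀ p ∈ ps, p < 2 ^ 40) ∧
  ∀ (k0 : -1 / 2 ≤ -((rn : ℝ) / rd)) (k1 : -((rn : ℝ) / rd) ≤ 1) (l : ℝ) (h0 : -1 / 2 ≤ l)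
    (h1 : l ≤ 1) (p : ℕ → ℝ) (hp : ∀ k, 0 ≤ p k) (hs : HasSum p 1) (d2 : ℝ),
    -((rn : ℝ) / rd) ≤ l → l ≤ 0 → Law p d2 (rl ps) →
    ∃ n, Inv c acc ((St.seqN l h0 h1 p hp hs n).chanN _ k0 k1)

theorem grun_mi_trans {S T U : St} (h : Mi S T) (k : Mi T U) : Mi S U :=
  fun G hG => (h G hG).trans (k G hG)

theorem grun_len (ps : List ℕ) : (rl ps).length = ps.length := List.length_map _

theorem grun_getD (ps : List ℕ) (k : ℕ) : (rl ps).getD k 0 = (ps.getD k 0 : ℝ) / 2 ^ 38 := by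
  have := List.getD_map (l := ps) (f := fun n : ℕ => (n : ℝ) / 2 ^ 38) (n := k) (d := 0)
  simpa [rl] using this

theorem grun_trans {rn rd : ℕ} {ps : List ℕ} {c : Cfg} {acc : ℕ} (h : Reach rn rd ps c acc)
    {c' : Cfg} (h' : c'.ok = true) : Reach rn rd ps c' (DE.trans c c' rn rd ps acc) := by
  obtain ⟨hc, hrd, hr, hps, H⟩ := h
  refine ⟨h', hrd, hr, hps, fun k0 k1 l h0 h1 p hp hs d2 hl0 hl1 hL => ?_⟩
  obtain ⟨n, hI⟩ := H k0 k1 l h0 h1 p hp hs d2 hl0 hl1 hL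
  refine ⟨n + 1, trans_ok hc h' hrd hr k0 k1 ps hps hI fun G hG => ?_⟩
  rw [hF_eq _ _ hG]
  refine (hL.1 _ (pow_anti _ hG) fun k => hG.E_nonneg _).trans ?_
  exact (St.summable_mix hp hs _ hG.bd).tsum_le_tsum
    (fun k => mul_le_mul_of_nonneg_left
      ((chan_deg (St.seqN l h0 h1 p hp hs n) k0 k1 h0 h1 hl0 hl1).pow k G hG) (hp k))
    (St.summable_mix hp hs _ hG.bd)

theorem reach_start {rn rd : ℕ} {ps : List ℕ} {c : Cfg}
    (h : (c.ok && Nat.blt 0 rd && Nat.ble (2 * rn) rd && ps.all fun p => Nat.blt p (2 ^ 40)) = true) :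
    Reach rn rd ps c (start c rn rd) := by
  simp only [Bool.and_eq_true, Nat.blt_eq, Nat.ble_eq, List.all_eq_true] at h
  obtain ⟨⟨⟨hc, hrd⟩, hr⟩, hps⟩ := h
  exact ⟨hc, hrd, hr, hps, fun k0 k1 l h0 h1 p hp hs d2 _ _ _ =>
    ⟨0, start_ok hc hrd hr k0 k1 _⟩⟩
theorem Reach.phase {rn rd : ℕ} {ps : List ℕ} {c : Cfg} {acc : ℕ} (h : Reach rn rd ps c acc)
    (n : ℕ) : Reach rn rd ps c (phase c rn rd ps n acc) := by
  rw [phase_eq]
  induction n with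
  | zero => exact h
  | succ n ih =>
    rw [Function.iterate_succ_apply']
    exact grun_trans ih h.1
theorem Reach.trans {rn rd : ℕ} {ps : List ℕ} {c : Cfg} {acc : ℕ} (h : Reach rn rd ps c acc)
    {c' : Cfg} (h' : c'.ok = true) : Reach rn rd ps c' (trans c c' rn rd ps acc) :=
  grun_trans h h'

/-- the final check: `682 d2 - 32 * final / 2^76 ≤ d1 * B` with `d2 = a/b`, `d1 = a1/b`,
`B = Bn/Bd` -/
def finChk (c : Cfg) (ps : List ℕ) (acc a a1 b Bn Bd : ℕ) : Bool :=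
  Nat.blt 0 b && Nat.blt 0 Bd && ((tails ps).all fun p => Nat.blt p (2 ^ 40)) &&
    Nat.ble (682 * a * Bd * 2 ^ 76) (32 * final c (tails ps) acc * b * Bd + a1 * Bn * 2 ^ 76)

theorem Reach.ev {rn rd : ℕ} {ps : List ℕ} {c : Cfg} {acc : ℕ} (h : Reach rn rd ps c acc)
    {a a1 b Bn Bd : ℕ} (hc : finChk c ps acc a a1 b Bn Bd = true) {l : ℝ} (h0 : -1 / 2 ≤ l)
    (h1 : l ≤ 1) {p : ℕ → ℝ} (hp : ∀ k, 0 ≤ p k) (hs : HasSum p 1)
    (hl0 : -((rn : ℝ) / rd) ≤ l) (hl1 : l ≤ 0) (hL : Law p ((a : ℝ) / b) (rl ps)) {d : ℝ}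
    (hd : (a1 : ℝ) / b ≤ d) :
    ∀ᶠ n in atTop, ∑' k, p k * ∑ j ∈ Finset.range k,
      (((St.seqN l h0 h1 p hp hs n).chanN l h0 h1).pow j).E phi ≤ d * ((Bn : ℝ) / Bd) := by
  obtain ⟨hok, hrd, hr, hps, H⟩ := h
  simp only [finChk, Bool.and_eq_true, Nat.blt_eq, Nat.ble_eq, List.all_eq_true] at hc
  obtain ⟨⟨⟨hb, hBd⟩, ht⟩, hfin⟩ := hc
  have hrd' : (0 : ℝ) < rd := Nat.cast_pos.2 hrd
  have hr' : 2 * (rn : ℝ) ≤ rd := by exact_mod_cast hr
  have k0 : -1 / 2 ≤ -((rn : ℝ) / rd) := by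
    have : (rn : ℝ) / rd ≤ 1 / 2 := by
      rw [div_le_iff₀ hrd']; linarith
    linarith
  have k1 : -((rn : ℝ) / rd) ≤ 1 := by
    have : 0 ≤ (rn : ℝ) / rd := by positivity
    linarith
  obtain ⟨n0, hI⟩ := H k0 k1 l h0 h1 p hp hs _ hl0 hl1 hL
  refine eventually_atTop.2 ⟨n0, fun n hn => ?_⟩
  have hM : Mi ((St.seqN l h0 h1 p hp hs n0).chanN _ k0 k1)
      ((St.seqN l h0 h1 p hp hs n).chanN l h0 h1) :=
    grun_mi_trans (chan_deg _ k0 k1 h0 h1 hl0 hl1) ((seq_mi h0 h1 hp hs hn).chanN h0 h1)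
  generalize (St.seqN l h0 h1 p hp hs n).chanN l h0 h1 = T at hM ⊢
  generalize (St.seqN l h0 h1 p hp hs n0).chanN _ k0 k1 = T0 at hM hI
  have hG := HH_gs.1
  have g0 : ∀ j, 0 ≤ (T.pow j).E HH := fun j => hG.E_nonneg _
  have e1 := hL.2 (fun j => (T.pow j).E HH) 682 (pow_anti T hG) g0 fun j => E_HH_le _
  have e2 := tails_le ps (fun j => (T.pow j).E HH) g0
  have e3 := final_ok hok (tails ps) ht hI
  rw [hF_eq _ _ hG] at e3
  simp only [grun_len, grun_getD, div_mul_eq_mul_div, ← Finset.sum_div] at e1 e3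
  have e4 : ∑ j ∈ Finset.range (tails ps).length, ((tails ps).getD j 0 : ℝ) * (T0.pow j).E HH ≤
      ∑ j ∈ Finset.range (tails ps).length, ((tails ps).getD j 0 : ℝ) * (T.pow j).E HH :=
    Finset.sum_le_sum fun j _ =>
      mul_le_mul_of_nonneg_left (hM.pow j HH hG) (Nat.cast_nonneg _)
  simp only [E_phi]
  refine e1.trans ?_
  have hb' : (0 : ℝ) < b := Nat.cast_pos.2 hb
  have hBd' : (0 : ℝ) < Bd := Nat.cast_pos.2 hBd
  have e5 : (682 * a * Bd * 2 ^ 76 : ℝ) ≤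
      32 * final c (tails ps) acc * b * Bd + a1 * Bn * 2 ^ 76 := by exact_mod_cast hfin
  have e6 : 682 * ((a : ℝ) / b) - 32 * (final c (tails ps) acc : ℝ) / 2 ^ 76 ≤
      (a1 : ℝ) / b * ((Bn : ℝ) / Bd) := by
    have : 682 * ((a : ℝ) / b) - 32 * (final c (tails ps) acc : ℝ) / 2 ^ 76 -
        (a1 : ℝ) / b * ((Bn : ℝ) / Bd) = (682 * a * Bd * 2 ^ 76 -
          (32 * final c (tails ps) acc * b * Bd + a1 * Bn * 2 ^ 76)) / (b * Bd * 2 ^ 76) := by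
      field_simp
      ring
    have h2 : (682 * a * Bd * 2 ^ 76 -
          (32 * final c (tails ps) acc * b * Bd + a1 * Bn * 2 ^ 76) : ℝ) / (b * Bd * 2 ^ 76) ≤ 0 :=
      div_nonpos_of_nonpos_of_nonneg (by linarith) (by positivity)
    linarith
  have e7 : (a1 : ℝ) / b * ((Bn : ℝ) / Bd) ≤ d * ((Bn : ℝ) / Bd) :=
    mul_le_mul_of_nonneg_right hd (by positivity)
  generalize (∑ j ∈ Finset.range (tails ps).length,
    ((tails ps).getD j 0 : ℝ) * (T0.pow j).E HH) = X at e3 e4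
  generalize (∑ j ∈ Finset.range (tails ps).length,
    ((tails ps).getD j 0 : ℝ) * (T.pow j).E HH) = Y at e2 e4
  generalize (∑ k ∈ Finset.range ps.length,
    (ps.getD k 0 : ℝ) * ∑ j ∈ Finset.range k, (T.pow j).E HH) = Z at e2 ⊢
  generalize (final c (tails ps) acc : ℝ) = F at e3 e6
  linarith

theorem law_reg_le {d d2 : ℕ} (h : d ≤ d2) :
    Law (regOff d) d2 (rl (List.replicate d2 0 ++ [2 ^ 38])) := by
  have e : rl (List.replicate d2 0 ++ [2 ^ 38]) = List.replicate d2 0 ++ [1] := by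
    simp only [rl, List.map_append, List.map_replicate, List.map_cons, List.map_nil]
    norm_num
  rw [e]
  refine ⟨fun x hx _ => ?_, fun g C _ _ gC => ?_⟩
  · rw [gp_rep, gp_reg]
    exact hx h
  · rw [gp_rep d2 fun k => ∑ j ∈ Finset.range k, g j,
      gp_reg d fun k => ∑ j ∈ Finset.range k, (C - g j)]
    refine (Finset.sum_le_sum_of_subset_of_nonneg (Finset.range_mono h)
      fun j _ _ => sub_nonneg.2 (gC j)).trans_eq ?_
    rw [Finset.sum_sub_distrib, Finset.sum_const, Finset.card_range, nsmul_eq_mul, mul_comm]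

end Vale.Agent.P154.DE
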