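import Vale.Agent.P154.GEn2
import Vale.Agent.P154.GOrd
import Vale.Agent.P154.GPoi

namespace Vale.Agent.P154.DE

open Vale.Agent.P154

theorem GThin_sum {ι : Type} (T : St) (s : Finset ι) (c : ι → ℝ) (f : ι → V → ℝ)
    (hf : ∀ i, Bd (f i)) : (Bd fun x => ∑ i ∈ s, c i * f i x) ∧
      T.E (fun x => ∑ i ∈ s, c i * f i x) = ∑ i ∈ s, c i * T.E (f i) := by
  classical
  induction s using Finset.induction_on with
  | empty => simpa using ⟨Bd.const 0, T.const 0⟩
  | insert a s ha ih =>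
    have b : Bd fun x => c a * f a x := by
      obtain ⟨C, hC⟩ := hf a
      exact ⟨|c a| * C, fun x hx => by
        rw [abs_mul]
        exact mul_le_mul_of_nonneg_left (hC x hx) (abs_nonneg _)⟩
    simp only [Finset.sum_insert ha]
    exact ⟨b.add ih.1, by rw [T.add _ _ b ih.1, ih.2, T.cmul _ _ (hf a)]⟩

theorem GThin_pow (T : St) {θ : ℝ} (h0 : 0 ≤ θ) (h1 : θ ≤ 1) (k : ℕ) : ∀ G : V → ℝ, Gc G →
    ((mix2 θ h0 h1 T St.triv).pow k).E G = ∑ ij ∈ Finset.HasAntidiagonal.antidiagonal k,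
      (k.choose ij.1 : ℝ) * (θ ^ ij.1 * (1 - θ) ^ ij.2 * (T.pow ij.1).E G) := by
  induction k with
  | zero =>
    intro G _
    simp [St.pow]
  | succ k ih =>
    intro G hG
    change ((mix2 θ h0 h1 T St.triv).star ((mix2 θ h0 h1 T St.triv).pow k)).E G = _
    rw [star_E _ _ hG]
    change θ * T.E (fun x => ((mix2 θ h0 h1 T St.triv).pow k).E fun y => G (x * y)) +
      (1 - θ) * ((mix2 θ h0 h1 T St.triv).pow k).E (fun y => G ((1 : V) * y)) = _
    have e1 : T.E (fun x => ((mix2 θ h0 h1 T St.triv).pow k).E fun y => G (x * y)) =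
        ∑ ij ∈ Finset.HasAntidiagonal.antidiagonal k,
          (k.choose ij.1 : ℝ) * (θ ^ ij.1 * (1 - θ) ^ ij.2) * (T.pow (ij.1 + 1)).E G := by
      rw [T.congr (hG.inner _).bd (g := fun x => ∑ ij ∈ Finset.HasAntidiagonal.antidiagonal k,
        (k.choose ij.1 : ℝ) * (θ ^ ij.1 * (1 - θ) ^ ij.2) *
          (T.pow ij.1).E fun y => G (x * y)) fun x hx => by
          rw [ih _ (hG.mulL hx.1)]
          exact Finset.sum_congr rfl fun ij _ => by ring,
        (GThin_sum T _ _ (fun (ij : ℕ × ℕ) x => (T.pow ij.1).E fun y => G (x * y))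
          fun ij => (hG.inner _).bd).2]
      refine Finset.sum_congr rfl fun ij _ => ?_
      rw [← star_E _ _ hG]
      rfl
    simp only [one_mul]
    rw [e1, ih G hG, Finset.sum_antidiagonal_choose_succ_mul
      (fun i j => θ ^ i * (1 - θ) ^ j * (T.pow i).E G) k, add_comm, Finset.mul_sum,
      Finset.mul_sum]
    congr 1
    · exact Finset.sum_congr rfl fun ij _ => by ring
    · refine Finset.sum_congr rfl fun ij hij => ?_
      rw [Finset.HasAntidiagonal.mem_antidiagonal] at hij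
      rw [Nat.choose_symm_of_eq_add (by omega : k = ij.1 + ij.2)]
      ring

theorem thin_eq (T : St) {θ d2 : ℝ} (h0 : 0 ≤ θ) (h1 : θ ≤ 1) (hd : 0 ≤ d2) {G : V → ℝ}
    (hG : Gc G) :
    ∑' k, poiOff d2 k * ((mix2 θ h0 h1 T St.triv).pow k).E G =
      ∑' k, poiOff (θ * d2) k * (T.pow k).E G := by
  rw [← (gp_conv (θ * d2) (e := (1 - θ) * d2) _
    (gp_sum (mul_nonneg h0 hd) (pow_anti T hG) fun k => hG.E_nonneg _)).tsum_eq]
  refine tsum_congr fun n => ?_
  rw [GThin_pow T h0 h1 n G hG, Finset.mul_sum]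
  refine Finset.sum_congr rfl fun ij hij => ?_
  rw [Finset.HasAntidiagonal.mem_antidiagonal] at hij
  have h := Nat.add_choose_mul_factorial_mul_factorial ij.1 ij.2
  rw [hij, ← Nat.choose_symm_of_eq_add (by omega : n = ij.1 + ij.2)] at h
  have h' : (n.choose ij.1 : ℝ) * ij.1.factorial * ij.2.factorial = n.factorial := by
    exact_mod_cast h
  have hc : (n.choose ij.1 : ℝ) ≠ 0 := by
    intro h0
    rw [h0, zero_mul, zero_mul] at h'
    exact (Nat.cast_ne_zero.2 n.factorial_ne_zero) h'.symm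
  have he : Real.exp (-d2) = Real.exp (-(θ * d2)) * Real.exp (-((1 - θ) * d2)) := by
    rw [← Real.exp_add]
    congr 1
    ring
  have hp : d2 ^ n = d2 ^ ij.1 * d2 ^ ij.2 := by rw [← pow_add, hij]
  unfold poiOff
  rw [← h', he, hp, mul_pow, mul_pow]
  field_simp

end Vale.Agent.P154.DE
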