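import Vale.Agent.P154.GRun
import Vale.Agent.P154.GThin
import Vale.Agent.P154.GCvx

namespace Vale.Agent.P154.DE

open Vale.Agent.P154 Filter

theorem poi_nn {d : ℝ} (hd : 0 ≤ d) (k : ℕ) : 0 ≤ poiOff d k := gp_nn hd k

def Reach2 (rn rd w a b K : ℕ) (c : Cfg) (acc : ℕ) : Prop :=
  c.ok = true ∧ 0 < rd ∧ 2 * rn ≤ rd ∧ w ≤ 256 ∧ 0 < a ∧ 0 < b ∧ a ≤ 32 * b ∧
  rd ^ 2 * 256 * b ≤ rn ^ 2 * w * a ∧ (∀ p ∈ poiL a b K, p < 2 ^ 40) ∧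
  ∀ (k0 : -1 / 2 ≤ -((rn : ℝ) / rd)) (k1 : -((rn : ℝ) / rd) ≤ 1)
    (j0 : -1 / 2 ≤ -((rn : ℝ) / (2 * rd : ℕ))) (j1 : -((rn : ℝ) / (2 * rd : ℕ)) ≤ 1)
    (t0 : 0 ≤ (w : ℝ) / 256) (t1 : (w : ℝ) / 256 ≤ 1) (l : ℝ) (h0 : -1 / 2 ≤ l)
    (h1 : l ≤ 1) (d : ℝ) (hd : 0 ≤ d),
    -((rn : ℝ) / rd) ≤ l → l ≤ 0 → d ≤ (a : ℝ) / b → d * l ^ 2 ≤ 1 →
    ∃ n, Inv c acc (mix2 _ t0 t1
      ((St.seqN l h0 h1 (poiOff d) (poi_nn hd) (poi_hs d) n).chanN _ k0 k1)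
      ((St.seqN l h0 h1 (poiOff d) (poi_nn hd) (poi_hs d) n).chanN _ j0 j1))

theorem grun2_step {rn rd w a b : ℕ} (K : ℕ) (hrd : 0 < rd) (ha : 0 < a) (hb : 0 < b)
    (hab : a ≤ 32 * b) (hq : rd ^ 2 * 256 * b ≤ rn ^ 2 * w * a)
    (k0 : -1 / 2 ≤ -((rn : ℝ) / rd)) (k1 : -((rn : ℝ) / rd) ≤ 1)
    (j0 : -1 / 2 ≤ -((rn : ℝ) / (2 * rd : ℕ))) (j1 : -((rn : ℝ) / (2 * rd : ℕ)) ≤ 1)
    (t0 : 0 ≤ (w : ℝ) / 256) (t1 : (w : ℝ) / 256 ≤ 1) {l : ℝ} (h0 : -1 / 2 ≤ l)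
    (h1 : l ≤ 1) {d : ℝ} (hd : 0 ≤ d) (hl0 : -((rn : ℝ) / rd) ≤ l) (hl1 : l ≤ 0)
    (hd2 : d ≤ (a : ℝ) / b) (hKS : d * l ^ 2 ≤ 1) (n : ℕ) (G : V → ℝ) (hG : Gc G) :
    hF (mix2 _ t0 t1
      ((St.seqN l h0 h1 (poiOff d) (poi_nn hd) (poi_hs d) n).chanN _ k0 k1)
      ((St.seqN l h0 h1 (poiOff d) (poi_nn hd) (poi_hs d) n).chanN _ j0 j1))
      (rl (poiL a b K)) G ≤ (St.seqN l h0 h1 (poiOff d) (poi_nn hd) (poi_hs d) (n + 1)).E G := by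
  have ha' : (0 : ℝ) < a := Nat.cast_pos.2 ha
  have hb' : (0 : ℝ) < b := Nat.cast_pos.2 hb
  have hrd' : (0 : ℝ) < rd := Nat.cast_pos.2 hrd
  have hD : (0 : ℝ) < (a : ℝ) / b := div_pos ha' hb'
  have e0 : 0 ≤ d / ((a : ℝ) / b) := div_nonneg hd hD.le
  have e1 : d / ((a : ℝ) / b) ≤ 1 := (div_le_one hD).2 hd2
  have hq' : (rd : ℝ) ^ 2 * 256 * b ≤ (rn : ℝ) ^ 2 * w * a := by exact_mod_cast hq
  have hη : d / ((a : ℝ) / b) * l ^ 2 ≤ (w : ℝ) / 256 * ((rn : ℝ) / rd) ^ 2 := by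
    have a1 : d / ((a : ℝ) / b) * l ^ 2 = d * l ^ 2 * ((b : ℝ) / a) := by
      field_simp
    have a2 : (w : ℝ) / 256 * ((rn : ℝ) / rd) ^ 2 = (rn : ℝ) ^ 2 * w / (rd ^ 2 * 256) := by
      field_simp
    have a3 : (b : ℝ) / a ≤ (rn : ℝ) ^ 2 * w / (rd ^ 2 * 256) := by
      rw [div_le_div_iff₀ ha' (by positivity)]
      linarith
    rw [a1, a2]
    refine le_trans ?_ a3
    exact mul_le_of_le_one_left (by positivity) hKS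
  have hM := mix_mi (St.seqN l h0 h1 (poiOff d) (poi_nn hd) (poi_hs d) n)
    (r := (rn : ℝ) / rd) (r' := (rn : ℝ) / (2 * rd : ℕ)) (by push_cast; ring) k0 k1 j0 j1 h0 h1
    hl0 hl1 t0 t1 e0 e1 hη
  have hT := thin_eq ((St.seqN l h0 h1 (poiOff d) (poi_nn hd) (poi_hs d) n).chanN l h0 h1)
    e0 e1 hD.le hG
  rw [div_mul_cancel₀ _ hD.ne'] at hT
  rw [hF_eq _ _ hG]
  refine ((law_poiL hb hab K hD.le le_rfl).1 _ (pow_anti _ hG) fun k => hG.E_nonneg _).trans ?_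
  refine le_trans ?_ hT.le
  exact (St.summable_mix (poi_nn hD.le) (poi_hs _) _ hG.bd).tsum_le_tsum
    (fun k => mul_le_mul_of_nonneg_left (hM.pow k G hG) (poi_nn hD.le k))
    (St.summable_mix (poi_nn hD.le) (poi_hs _) _ hG.bd)

theorem ev_of_inv {rn rd : ℕ} {ps : List ℕ} {c : Cfg} {acc : ℕ} (hok : c.ok = true)
    {a a1 b Bn Bd : ℕ} (hc : finChk c ps acc a a1 b Bn Bd = true) {l : ℝ} (h0 : -1 / 2 ≤ l)
    (h1 : l ≤ 1) {p : ℕ → ℝ} (hp : ∀ k, 0 ≤ p k) (hs : HasSum p 1)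
    (k0 : -1 / 2 ≤ -((rn : ℝ) / rd)) (k1 : -((rn : ℝ) / rd) ≤ 1)
    (hl0 : -((rn : ℝ) / rd) ≤ l) (hl1 : l ≤ 0) (hL : Law p ((a : ℝ) / b) (rl ps)) {d : ℝ}
    (hd : (a1 : ℝ) / b ≤ d) {n0 : ℕ}
    (hI : Inv c acc ((St.seqN l h0 h1 p hp hs n0).chanN _ k0 k1)) :
    ∀ᶠ n in atTop, ∑' k, p k * ∑ j ∈ Finset.range k,
      (((St.seqN l h0 h1 p hp hs n).chanN l h0 h1).pow j).E phi ≤ d * ((Bn : ℝ) / Bd) := by
  simp only [finChk, Bool.and_eq_true, Nat.blt_eq, Nat.ble_eq, List.all_eq_true] at hc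
  obtain ⟨⟨⟨hb, hBd⟩, ht⟩, hfin⟩ := hc
  refine eventually_atTop.2 ⟨n0, fun n hn => ?_⟩
  have hM : Mi ((St.seqN l h0 h1 p hp hs n0).chanN _ k0 k1)
      ((St.seqN l h0 h1 p hp hs n).chanN l h0 h1) :=
    grun_mi_trans (chan_deg _ k0 k1 h0 h1 hl0 hl1) ((seq_mi h0 h1 hp hs hn).chanN h0 h1)
  generalize (St.seqN l h0 h1 p hp hs n).chanN l h0 h1 = T at hM ⊢
  generalize (St.seqN l h0 h1 p hp hs n0).chanN _ k0 k1 = T0 at hM hI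
  have hG := HH_gs.1
  have g0 : ∀ j, 0 ≤ (T.pow j).E HH := fun j => hG.E_nonneg _
  have e1 := hL.2 (fun j => (T.pow j).E HH) 682 (pow_anti T hG) g0 fun j => E_HH_le _
  have e2 := tails_le ps (fun j => (T.pow j).E HH) g0
  have e3 := final_ok hok (tails ps) ht hI
  rw [hF_eq _ _ hG] at e3
  simp only [grun_len, grun_getD, div_mul_eq_mul_div, ← Finset.sum_div] at e1 e3
  have e4 : ∑ j ∈ Finset.range (tails ps).length, ((tails ps).getD j 0 : ℝ) * (T0.pow j).E HH ≤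
      ∑ j ∈ Finset.range (tails ps).length, ((tails ps).getD j 0 : ℝ) * (T.pow j).E HH :=
    Finset.sum_le_sum fun j _ =>
      mul_le_mul_of_nonneg_left (hM.pow j HH hG) (Nat.cast_nonneg _)
  simp only [E_phi]
  refine e1.trans ?_
  have hb' : (0 : ℝ) < b := Nat.cast_pos.2 hb
  have hBd' : (0 : ℝ) < Bd := Nat.cast_pos.2 hBd
  have e5 : (682 * a * Bd * 2 ^ 76 : ℝ) ≤
      32 * final c (tails ps) acc * b * Bd + a1 * Bn * 2 ^ 76 := by exact_mod_cast hfin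
  have e6 : 682 * ((a : ℝ) / b) - 32 * (final c (tails ps) acc : ℝ) / 2 ^ 76 ≤
      (a1 : ℝ) / b * ((Bn : ℝ) / Bd) := by
    have : 682 * ((a : ℝ) / b) - 32 * (final c (tails ps) acc : ℝ) / 2 ^ 76 -
        (a1 : ℝ) / b * ((Bn : ℝ) / Bd) = (682 * a * Bd * 2 ^ 76 -
          (32 * final c (tails ps) acc * b * Bd + a1 * Bn * 2 ^ 76)) / (b * Bd * 2 ^ 76) := by
      field_simp
      ring
    have h2 : (682 * a * Bd * 2 ^ 76 -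
          (32 * final c (tails ps) acc * b * Bd + a1 * Bn * 2 ^ 76) : ℝ) / (b * Bd * 2 ^ 76) ≤ 0 :=
      div_nonpos_of_nonpos_of_nonneg (by linarith) (by positivity)
    linarith
  have e7 : (a1 : ℝ) / b * ((Bn : ℝ) / Bd) ≤ d * ((Bn : ℝ) / Bd) :=
    mul_le_mul_of_nonneg_right hd (by positivity)
  generalize (∑ j ∈ Finset.range (tails ps).length,
    ((tails ps).getD j 0 : ℝ) * (T0.pow j).E HH) = X at e3 e4
  generalize (∑ j ∈ Finset.range (tails ps).length,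
    ((tails ps).getD j 0 : ℝ) * (T.pow j).E HH) = Y at e2 e4
  generalize (∑ k ∈ Finset.range ps.length,
    (ps.getD k 0 : ℝ) * ∑ j ∈ Finset.range k, (T.pow j).E HH) = Z at e2 ⊢
  generalize (final c (tails ps) acc : ℝ) = F at e3 e6
  linarith

theorem reach2_start {rn rd w a b K : ℕ} {c : Cfg}
    (h : (c.ok && Nat.blt 0 rd && Nat.ble (2 * rn) rd && Nat.ble w 256 && Nat.blt 0 a &&
      Nat.blt 0 b && Nat.ble a (32 * b) && Nat.ble (rd ^ 2 * 256 * b) (rn ^ 2 * w * a) &&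
      (poiL a b K).all fun p => Nat.blt p (2 ^ 40)) = true) :
    Reach2 rn rd w a b K c (start2 c rn rd w) := by
  simp only [Bool.and_eq_true, Nat.blt_eq, Nat.ble_eq, List.all_eq_true] at h
  obtain ⟨⟨⟨⟨⟨⟨⟨⟨hc, hrd⟩, hr⟩, hw⟩, ha⟩, hb⟩, hab⟩, hq⟩, hps⟩ := h
  exact ⟨hc, hrd, hr, hw, ha, hb, hab, hq, hps,
    fun k0 k1 j0 j1 t0 t1 l h0 h1 d hd _ _ _ _ => ⟨0, mixA_ok hw t0 t1
      (start_ok hc hrd hr k0 k1 _) (start_ok hc (by omega) (by omega) j0 j1 _)⟩⟩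
theorem Reach2.trans {rn rd w a b K : ℕ} {c : Cfg} {acc : ℕ} (h : Reach2 rn rd w a b K c acc)
    {c' : Cfg} (h' : c'.ok = true) :
    Reach2 rn rd w a b K c' (trans2 c c' rn rd w (poiL a b K) acc) := by
  obtain ⟨hc, hrd, hr, hw, ha, hb, hab, hq, hps, H⟩ := h
  refine ⟨h', hrd, hr, hw, ha, hb, hab, hq, hps,
    fun k0 k1 j0 j1 t0 t1 l h0 h1 d hd hl0 hl1 hd2 hKS => ?_⟩
  obtain ⟨n, hI⟩ := H k0 k1 j0 j1 t0 t1 l h0 h1 d hd hl0 hl1 hd2 hKS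
  have key := grun2_step K hrd ha hb hab hq k0 k1 j0 j1 t0 t1 h0 h1 hd hl0 hl1 hd2 hKS n
  exact ⟨n + 1, mixA_ok hw t0 t1 (trans_ok hc h' hrd hr k0 k1 _ hps hI key)
    (trans_ok hc h' (by omega) (by omega) j0 j1 _ hps hI key)⟩
theorem Reach2.phase {rn rd w a b K : ℕ} {c : Cfg} {acc : ℕ} (h : Reach2 rn rd w a b K c acc)
    (n : ℕ) : Reach2 rn rd w a b K c (phase2 c rn rd w (poiL a b K) n acc) := by
  rw [phase2_eq]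
  induction n with
  | zero => exact h
  | succ n ih =>
    rw [Function.iterate_succ_apply']
    exact ih.trans h.1

theorem Reach2.ev {rn rd w a b K : ℕ} {c : Cfg} {acc : ℕ} (h : Reach2 rn rd w a b K c acc)
    {a1 Bn Bd : ℕ}
    (hc : finChk c (poiL a b K) (DE.trans c c rn rd (poiL a b K) acc) a a1 b Bn Bd = true)
    {l : ℝ} (h0 : -1 / 2 ≤ l) (h1 : l ≤ 1) {d : ℝ} (hd : 0 ≤ d)
    (hl0 : -((rn : ℝ) / rd) ≤ l) (hl1 : l ≤ 0) (hd1 : (a1 : ℝ) / b ≤ d) (hd2 : d ≤ (a : ℝ) / b)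
    (hKS : d * l ^ 2 ≤ 1) :
    ∀ᶠ n in atTop, ∑' k, poiOff d k * ∑ j ∈ Finset.range k,
      (((St.seqN l h0 h1 (poiOff d) (poi_nn hd) (poi_hs d) n).chanN l h0 h1).pow j).E phi ≤
        d * ((Bn : ℝ) / Bd) := by
  obtain ⟨hok, hrd, hr, hw, ha, hb, hab, hq, hps, H⟩ := h
  have hrd' : (0 : ℝ) < rd := Nat.cast_pos.2 hrd
  have hr' : 2 * (rn : ℝ) ≤ rd := by exact_mod_cast hr
  have hw' : (w : ℝ) ≤ 256 := by exact_mod_cast hw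
  have r0 : 0 ≤ (rn : ℝ) / rd := by positivity
  have r1 : (rn : ℝ) / rd ≤ 1 / 2 := by
    rw [div_le_iff₀ hrd']; linarith
  have r2 : (rn : ℝ) / (2 * rd : ℕ) = (rn : ℝ) / rd / 2 := by push_cast; ring
  have k0 : -1 / 2 ≤ -((rn : ℝ) / rd) := by linarith
  have k1 : -((rn : ℝ) / rd) ≤ 1 := by linarith
  have j0 : -1 / 2 ≤ -((rn : ℝ) / (2 * rd : ℕ)) := by linarith
  have j1 : -((rn : ℝ) / (2 * rd : ℕ)) ≤ 1 := by linarith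
  have t0 : 0 ≤ (w : ℝ) / 256 := by positivity
  have t1 : (w : ℝ) / 256 ≤ 1 := by linarith
  obtain ⟨n, hI⟩ := H k0 k1 j0 j1 t0 t1 l h0 h1 d hd hl0 hl1 hd2 hKS
  have key := grun2_step K hrd ha hb hab hq k0 k1 j0 j1 t0 t1 h0 h1 hd hl0 hl1 hd2 hKS n
  exact ev_of_inv hok hc h0 h1 (poi_nn hd) (poi_hs d) k0 k1 hl0 hl1
    (law_poiL hb hab K hd hd2) hd1 (trans_ok hok hok hrd hr k0 k1 _ hps hI key)

end Vale.Agent.P154.DE
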