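import Vale.Agent.P154.GEnt

namespace Vale.Agent.P154.DE

open Vale.Agent.P154

theorem gs_scanO (row : ℕ) (l : List ℕ) (off : ℕ) :
    scanO row l off =
      ∑ k ∈ Finset.range l.length, row / 2 ^ (off + 96 * k) % 2 ^ 96 * l.getD k 0 := by
  induction l generalizing off with
  | nil => rfl
  | cons q l ih =>
    have e : scanO row (q :: l) off =
        (row >>> off) % 79228162514264337593543950336 * q + frc (off + 96) (scanO row l) := rfl
    have e2 : (79228162514264337593543950336 : ℕ) = 2 ^ 96 := by norm_num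
    have e3 : ∑ k ∈ Finset.range l.length,
        row / 2 ^ (off + 96 * (k + 1)) % 2 ^ 96 * (q :: l).getD (k + 1) 0 =
        ∑ k ∈ Finset.range l.length, row / 2 ^ (off + 96 + 96 * k) % 2 ^ 96 * l.getD k 0 :=
      Finset.sum_congr rfl fun k _ => by
        rw [List.getD_cons_succ, show off + 96 + 96 * k = off + 96 * (k + 1) by ring]
    rw [e, frc_eq, ih, List.length_cons, Finset.sum_range_succ', e3, e2,
      Nat.shiftRight_eq_div_pow, List.getD_cons_zero, mul_zero, add_zero]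
    exact add_comm _ _

theorem gs_scanR (s : ℕ) (l : List ℕ) (row : ℕ) :
    scanR s l row = ∑ k ∈ Finset.range l.length, dig 96 row k * l.getD k 0 := by
  have e : scanR s l row =
      frc (row <<< 64 + s % 18446744073709551616) fun r => scanO r l 64 := rfl
  rw [e, frc_eq, gs_scanO]
  refine Finset.sum_congr rfl fun k _ => ?_
  congr 2
  rw [pow_add, ← Nat.div_div_eq_div_mul, Nat.shiftLeft_eq]
  congr 1
  omega

theorem gs_scanT (pL Lb sh : ℕ) (t : List (List ℕ)) (s A : ℕ) :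
    scanT pL Lb sh t s A = ∑ y ∈ Finset.range t.length,
      ∑ k ∈ Finset.range (t.getD y []).length,
        dig 96 (A / 2 ^ (Lb * y) % pL / 2 ^ sh) k * (t.getD y []).getD k 0 := by
  induction t generalizing s A with
  | nil => rfl
  | cons l t ih =>
    have e : scanT pL Lb sh (l :: t) s A = scanR s l ((A % pL) >>> sh) +
        frc (s + 1) fun s => frc (A >>> Lb) (scanT pL Lb sh t s) := rfl
    rw [e, frc_eq, frc_eq, ih, gs_scanR, List.length_cons, Finset.sum_range_succ', add_comm,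
      Nat.shiftRight_eq_div_pow, Nat.shiftRight_eq_div_pow]
    congr 1
    · refine Finset.sum_congr rfl fun y _ => ?_
      rw [List.getD_cons_succ, Nat.div_div_eq_div_mul, ← pow_add,
        show Lb + Lb * y = Lb * (y + 1) by ring]
    · simp only [List.getD_cons_zero, mul_zero, pow_zero, Nat.div_one]

theorem gs_dig_div (B N a k : ℕ) : dig B (N / 2 ^ (B * a)) k = dig B N (a + k) := by
  rw [dig, dig, Nat.div_div_eq_div_mul, ← pow_add, mul_add]

theorem gs_dig_mod (B N m k : ℕ) (h : k < m) : dig B (N % 2 ^ (B * m)) k = dig B N k := by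
  have := dig_row B N 0 m k h
  simpa using this

theorem gs_split {M : Type} [AddCommMonoid M] (f : ℕ → ℕ → M) (a b : ℕ) (hb : 0 < b) :
    ∑ i ∈ Finset.range (a * b), f (i / b) (i % b) =
      ∑ y ∈ Finset.range a, ∑ k ∈ Finset.range b, f y k := by
  induction a with
  | zero => simp
  | succ a ih =>
    rw [Nat.succ_mul, Finset.sum_range_add, ih, Finset.sum_range_succ]
    congr 1
    refine Finset.sum_congr rfl fun k hk => ?_
    have hk' := Finset.mem_range.1 hk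
    rw [mul_comm a b, Nat.mul_add_div hb, Nat.mul_add_mod, Nat.div_eq_of_lt hk',
      Nat.mod_eq_of_lt hk', add_zero]

theorem gs_split2 {M X : Type} [AddCommMonoid M] (φ : X → M) (f : ℕ → ℕ → X) (g : ℕ → X)
    (a b n : ℕ) (hb : 0 < b) :
    ∑ i ∈ Finset.range (a * b + n), φ (if i < a * b then f (i / b) (i % b) else g (i - a * b)) =
      ∑ y ∈ Finset.range a, ∑ k ∈ Finset.range b, φ (f y k) + ∑ x ∈ Finset.range n, φ (g x) := by
  rw [Finset.sum_range_add, ← gs_split (fun y k => φ (f y k)) a b hb]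
  congr 1
  · exact Finset.sum_congr rfl fun i hi => by rw [if_pos (Finset.mem_range.1 hi)]
  · exact Finset.sum_congr rfl fun i _ => by
      rw [if_neg (by omega), Nat.add_sub_cancel_left]

def gsA (c : Cfg) (E : ℕ → ℕ → ℕ → ℕ → ℕ) (y k : ℕ) : ℕ :=
  if c.R1 - k ≤ c.R - y then
    E (plo c (c.R1 - k + (c.R - y)) 0 64) (plo c (c.R - y) (2 * (c.R1 - k)) 64)
      (plo c (c.R1 - k) (2 * (c.R - y)) 64) (kapN (c.R1 - k) (c.R - y)) else 0

def gsQ (c : Cfg) (E : ℕ → ℕ → ℕ → ℕ → ℕ) (x : ℕ) : ℕ :=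
  if x ≤ c.R then E (plo c c.R x 64) (plo c (2 * x) (2 * c.R) 64) 0 3
  else E (plo c (2 * x) (2 * c.R) 64) (plo c c.R x 64) 0 3

theorem gs_cond {α : Type} (a b : ℕ) (x y : α) :
    cond (Nat.ble a b) x y = if a ≤ b then x else y := by
  by_cases h : a ≤ b
  · rw [if_pos h, Nat.ble_eq_true_of_le h]; rfl
  · rw [if_neg h]
    cases hb : Nat.ble a b
    · rfl
    · exact absurd (Nat.le_of_ble_eq_true hb) h

theorem gs_tabA (c : Cfg) (E : ℕ → ℕ → ℕ → ℕ → ℕ) :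
    tabA c E = (List.range (c.R + 1)).map fun y => (List.range (c.R1 + 1)).map (gsA c E y) := by
  simp only [tabA, tabu_eq, frc_eq, gs_cond]
  rfl

theorem gs_tabQ (c : Cfg) (E : ℕ → ℕ → ℕ → ℕ → ℕ) :
    tabQ c E = (List.range (c.uq * (2 * c.R + 1))).map (gsQ c E) := by
  simp only [tabQ, tabu_eq, gs_cond]
  rfl

theorem gs_getD {α : Type} (n : ℕ) (F : ℕ → α) (d : α) {i : ℕ} (h : i < n) :
    ((List.range n).map F).getD i d = F i := by
  simp [List.getD_eq_getElem?_getD, h]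

theorem gs_scan {c : Cfg} (h : c.R1 ≤ c.R) (E : ℕ → ℕ → ℕ → ℕ → ℕ) (s A Q : ℕ) :
    scan c (tabA c E) (tabQ c E) s A Q =
      ∑ y ∈ Finset.range (c.R + 1), ∑ k ∈ Finset.range (c.R1 + 1),
        dig 96 A (c.R - c.R1 + k + c.L * y) * gsA c E y k +
      ∑ x ∈ Finset.range (c.uq * (2 * c.R + 1)), dig 96 Q x * gsQ c E x := by
  simp only [scan, frc_eq]
  rw [gs_scanT, gs_scanR, gs_tabA, gs_tabQ]
  simp only [List.length_map, List.length_range]
  congr 1
  · refine Finset.sum_congr rfl fun y hy => ?_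
    have hy' := Finset.mem_range.1 hy
    rw [gs_getD _ _ _ hy']
    simp only [List.length_map, List.length_range]
    refine Finset.sum_congr rfl fun k hk => ?_
    have hk' := Finset.mem_range.1 hk
    have hL : c.R - c.R1 + k < c.L := by unfold Cfg.L; omega
    rw [gs_getD _ _ _ hk', gs_dig_div, mul_assoc, dig_row _ _ _ _ _ hL, gs_dig_mod]
    have : c.L * (y + 1) ≤ c.L * (c.R + 1) := Nat.mul_le_mul_left _ hy'
    rw [Nat.mul_succ] at this
    omega
  · exact Finset.sum_congr rfl fun x hx => by rw [gs_getD _ _ _ (Finset.mem_range.1 hx)]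

theorem gs_kap {I J : ℕ} (h : I ≤ J) : kapN I J = kap (-(I : ℤ), -(J : ℤ)) := by
  unfold kapN kap
  have h1 : -(J : ℤ) ≤ -(I : ℤ) ∧ -(I : ℤ) ≤ 0 := by omega
  simp only [h1, and_self, if_true, neg_eq_zero, Nat.cast_eq_zero, neg_inj, Nat.cast_inj]
  by_cases hJ : J = 0
  · simp [hJ]
  · by_cases h2 : I = 0 ∨ I = J
    · have e1 : Nat.beq J 0 = false := by
        cases hb : Nat.beq J 0
        · rfl
        · exact absurd (Nat.eq_of_beq_eq_true hb) hJ
      have e2 : (Nat.beq I 0 || Nat.beq I J) = true := by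
        rcases h2 with h2 | h2 <;> simp [h2]
      rw [e1, e2, if_neg hJ, if_pos h2]; rfl
    · have e : ∀ a b : ℕ, a ≠ b → Nat.beq a b = false := by
        intro a b hab
        cases hb : Nat.beq a b
        · rfl
        · exact absurd (Nat.eq_of_beq_eq_true hb) hab
      rw [e J 0 hJ, e I 0 fun h3 => h2 (Or.inl h3), e I J fun h3 => h2 (Or.inr h3), if_neg hJ,
        if_neg h2]; rfl

theorem gs_plo {c : Cfg} (h : c.ok = true) (a b : ℕ) (z : ℤ) (hz : (a : ℤ) - b = z) :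
    (plo c a b 64 : ℝ) ≤ 2 ^ 64 * c.β ^ z := hz ▸ plo_le h a b 64

theorem gs_termA {c : Cfg} (h : c.ok = true) (E : ℕ → ℕ → ℕ → ℕ → ℕ) {A : ℕ} {At : Lt →₀ ℝ}
    (pA : Po At) (hA : Dom c.L c.R c.R A At) {H : V → ℝ} {ψ : ℕ → ℝ} (hH : Gs H) (h0 : ψ 0 ≤ 0)
    (hψ : ∀ a0 a1 a2 κ v, Under a0 a1 a2 v → ψ (E a0 a1 a2 κ) ≤ 2 ^ 38 * (κ * H v))
    {y k : ℕ} (hy : y < c.R + 1) (hk : k < c.R1 + 1) :
    (dig 96 A (c.R - c.R1 + k + c.L * y) : ℝ) * ψ (gsA c E y k) ≤
      2 ^ 76 * ((kap ((k : ℤ) - c.R1, (y : ℤ) - c.R) : ℝ) *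
        (At ((k : ℤ) - c.R1, (y : ℤ) - c.R) * H (uu c.β ((k : ℤ) - c.R1, (y : ℤ) - c.R)))) := by
  obtain ⟨-, -, -, -, -, hR, -⟩ := Cfg.ok_spec h
  have hβ := Cfg.β_pos h
  have hL : c.R - c.R1 + k < c.L := by unfold Cfg.L; omega
  have hHn : 0 ≤ H (uu c.β ((k : ℤ) - c.R1, (y : ℤ) - c.R)) := hH.1.nn _ (uu_nn hβ _)
  have hAn := pA ((k : ℤ) - c.R1, (y : ℤ) - c.R)
  unfold gsA
  split_ifs with hIJ
  · have e1 : (c.R - c.R1 + k + c.L * y) % c.L = c.R - c.R1 + k := by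
      rw [Nat.add_mul_mod_self_left, Nat.mod_eq_of_lt hL]
    have e2 : (c.R - c.R1 + k + c.L * y) / c.L = y := by
      rw [Nat.add_mul_div_left _ _ (by omega), Nat.div_eq_of_lt hL, zero_add]
    have hw := hA.1 (c.R - c.R1 + k + c.L * y) (by omega) (by omega)
    have ep : pos c.L c.R c.R (c.R - c.R1 + k + c.L * y) =
        ((k : ℤ) - c.R1, (y : ℤ) - c.R) := by
      unfold pos
      rw [e1, e2]
      congr 1
      omega
    rw [ep] at hw
    have hU : Under (plo c (c.R1 - k + (c.R - y)) 0 64) (plo c (c.R - y) (2 * (c.R1 - k)) 64)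
        (plo c (c.R1 - k) (2 * (c.R - y)) 64) (uu c.β ((k : ℤ) - c.R1, (y : ℤ) - c.R)) :=
      ⟨gs_plo h _ _ _ (by dsimp only; omega), gs_plo h _ _ _ (by dsimp only; omega),
        gs_plo h _ _ _ (by dsimp only; omega)⟩
    have h1 := hψ _ _ _ (kapN (c.R1 - k) (c.R - y)) _ hU
    have ek : kapN (c.R1 - k) (c.R - y) = kap ((k : ℤ) - c.R1, (y : ℤ) - c.R) := by
      rw [gs_kap hIJ]
      congr 2 <;> omega
    rw [ek] at h1 ⊢
    refine (mul_le_mul_of_nonneg_left h1 (Nat.cast_nonneg _)).trans ?_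
    refine (mul_le_mul_of_nonneg_right hw (by positivity)).trans (le_of_eq ?_)
    ring
  · exact (mul_nonpos_of_nonneg_of_nonpos (Nat.cast_nonneg _) h0).trans (by positivity)

theorem gs_termQ {c : Cfg} (h : c.ok = true) (E : ℕ → ℕ → ℕ → ℕ → ℕ) {Q : ℕ} {Qt : Lt →₀ ℝ}
    (hQ : Dom c.L c.R 0 Q Qt) {H : V → ℝ} {ψ : ℕ → ℝ} (hH : Gs H)
    (hψ : ∀ a0 a1 a2 κ v, Under a0 a1 a2 v → ψ (E a0 a1 a2 κ) ≤ 2 ^ 38 * (κ * H v))
    {x : ℕ} (hx : x < 2 * c.R + 1) :
    (dig 96 Q x : ℝ) * ψ (gsQ c E x) ≤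
      2 ^ 76 * (3 * (Qt ((x : ℤ) - c.R, 0) * H (zz 2 * uu c.β ((x : ℤ) - c.R, 0)))) := by
  have hβ := Cfg.β_pos h
  have hL : x < c.L := by unfold Cfg.L; omega
  have hHn : 0 ≤ H (zz 2 * uu c.β ((x : ℤ) - c.R, 0)) :=
    (hH.1.mulL (zz_nn 2)).nn _ (uu_nn hβ _)
  have hw := hQ.1 x (by rw [Nat.mod_eq_of_lt hL]; omega) (by rw [Nat.div_eq_of_lt hL])
  have ep : pos c.L c.R 0 x = ((x : ℤ) - c.R, 0) := by
    unfold pos
    rw [Nat.mod_eq_of_lt hL, Nat.div_eq_of_lt hL]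
    simp
  rw [ep] at hw
  have v0 : (zz 2 * uu c.β ((x : ℤ) - c.R, 0)) 0 = c.β ^ ((c.R : ℤ) - x) := by
    simp [zz, uu]
  have v1 : (zz 2 * uu c.β ((x : ℤ) - c.R, 0)) 1 = c.β ^ (2 * ((x : ℤ) - c.R)) := by
    simp [zz, uu]
  have v2 : (zz 2 * uu c.β ((x : ℤ) - c.R, 0)) 2 = 0 := by simp [zz]
  have p0 := gs_plo h c.R x _ rfl
  have p1 := gs_plo h (2 * x) (2 * c.R) (2 * ((x : ℤ) - c.R)) (by omega)
  have h1 : ψ (gsQ c E x) ≤ 2 ^ 38 * (((3 : ℕ) : ℝ) * H (zz 2 * uu c.β ((x : ℤ) - c.R, 0))) := by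
    unfold gsQ
    split_ifs
    · exact hψ _ _ _ _ _ ⟨v0 ▸ p0, v1 ▸ p1, by rw [v2]; simp⟩
    · rw [← hH.2 (Equiv.swap 0 1)]
      refine hψ _ _ _ _ _ ⟨?_, ?_, ?_⟩
      · rw [Function.comp_apply, Equiv.swap_apply_left, v1]; exact p1
      · rw [Function.comp_apply, Equiv.swap_apply_right, v0]; exact p0
      · rw [Function.comp_apply, Equiv.swap_apply_of_ne_of_ne (by decide) (by decide), v2]; simp
  refine (mul_le_mul_of_nonneg_left h1 (Nat.cast_nonneg _)).trans ?_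
  refine (mul_le_mul_of_nonneg_right hw (by positivity)).trans (le_of_eq ?_)
  push_cast
  ring

/-- the scan is a sum of (digit) * (table entry) over at most `2^14` indices, and any evaluation
`ψ` of the entries that is below `H` at the sources sums to at most the value of the arrays -/
theorem scan_spec {c : Cfg} (h : c.ok = true) (E : ℕ → ℕ → ℕ → ℕ → ℕ) (s : ℕ) {A Q : ℕ}
    {At Qt : Lt →₀ ℝ} (pA : Po At) (sA : Sy At) (pQ : Po Qt) (hA : Dom c.L c.R c.R A At)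
    (hQ : Dom c.L c.R 0 Q Qt) :
    ∃ (m : ℕ) (w q : ℕ → ℕ), m < 2 ^ 14 ∧ (∀ i, w i < 2 ^ 40) ∧
      (∀ i, q i = 0 ∨ ∃ a0 a1 a2 κ, q i = E a0 a1 a2 κ) ∧
      scan c (tabA c E) (tabQ c E) s A Q = ∑ i ∈ Finset.range m, w i * q i ∧
      ∀ (H : V → ℝ) (ψ : ℕ → ℝ), Gs H → ψ 0 ≤ 0 →
        (∀ a0 a1 a2 κ v, Under a0 a1 a2 v → ψ (E a0 a1 a2 κ) ≤ 2 ^ 38 * (κ * H v)) →
        ∑ i ∈ Finset.range m, (w i : ℝ) * ψ (q i) ≤
          2 ^ 76 * (val c.β H At + 3 * val c.β (fun v => H (zz 2 * v)) Qt) := by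
  obtain ⟨-, -, -, -, hR, hR1, huq⟩ := Cfg.ok_spec h
  have hβ := Cfg.β_pos h
  let f : ℕ → ℕ → ℕ × ℕ := fun y k => (dig 96 A (c.R - c.R1 + k + c.L * y), gsA c E y k)
  let g : ℕ → ℕ × ℕ := fun x => (dig 96 Q x, gsQ c E x)
  let F : ℕ → ℕ × ℕ := fun i => if i < (c.R + 1) * (c.R1 + 1) then
    f (i / (c.R1 + 1)) (i % (c.R1 + 1)) else g (i - (c.R + 1) * (c.R1 + 1))
  have hn : c.uq * (2 * c.R + 1) ≤ 2 * c.R + 1 := by
    have := Nat.mul_le_mul_right (2 * c.R + 1) huq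
    omega
  refine ⟨(c.R + 1) * (c.R1 + 1) + c.uq * (2 * c.R + 1), fun i => (F i).1, fun i => (F i).2,
    ?_, fun i => ?_, fun i => ?_, ?_, fun H ψ hH h0 hψ => ?_⟩
  · have : (c.R + 1) * (c.R1 + 1) ≤ 101 * 101 := Nat.mul_le_mul (by omega) (by omega)
    omega
  · simp only [F]
    split_ifs
    · exact (hA.2 _).1
    · exact (hQ.2 _).1
  · simp only [F]
    split_ifs
    · simp only [f, gsA]
      split_ifs
      · exact Or.inr ⟨_, _, _, _, rfl⟩
      · exact Or.inl rfl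
    · simp only [g, gsQ]
      split_ifs <;> exact Or.inr ⟨_, _, _, _, rfl⟩
  · rw [gs_scan hR1]
    exact (gs_split2 (fun p : ℕ × ℕ => p.1 * p.2) f g _ _ _ (Nat.succ_pos _)).symm
  · refine (gs_split2 (fun p : ℕ × ℕ => (p.1 : ℝ) * ψ p.2) f g _ _ _ (Nat.succ_pos _)).trans_le ?_
    rw [mul_add ((2 : ℝ) ^ 76)]
    refine add_le_add ?_ ?_
    · have h1 := fold_le hβ hH pA sA ((Finset.range (c.R + 1) ×ˢ Finset.range (c.R1 + 1)).image
        fun p : ℕ × ℕ => ((p.2 : ℤ) - c.R1, (p.1 : ℤ) - c.R))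
      rw [Finset.sum_image (fun a _ b _ hab => by
        simp only [Prod.ext_iff] at hab ⊢
        omega), Finset.sum_product] at h1
      refine le_trans ?_ (mul_le_mul_of_nonneg_left h1 (by positivity))
      rw [Finset.mul_sum]
      refine Finset.sum_le_sum fun y hy => ?_
      rw [Finset.mul_sum]
      exact Finset.sum_le_sum fun k hk =>
        gs_termA h E pA hA hH h0 hψ (Finset.mem_range.1 hy) (Finset.mem_range.1 hk)
    · have h1 := val_ge hβ (hH.1.mulL (zz_nn 2)) pQ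
        ((Finset.range (c.uq * (2 * c.R + 1))).image fun x : ℕ => ((x : ℤ) - c.R, (0 : ℤ)))
      rw [Finset.sum_image (fun a _ b _ hab => by
        simp only [Prod.ext_iff] at hab
        omega)] at h1
      refine le_trans ?_ (mul_le_mul_of_nonneg_left
        (mul_le_mul_of_nonneg_left h1 (by norm_num)) (by positivity))
      rw [Finset.mul_sum, Finset.mul_sum]
      exact Finset.sum_le_sum fun x hx =>
        gs_termQ h E hQ hH hψ (lt_of_lt_of_le (Finset.mem_range.1 hx) hn)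

end Vale.Agent.P154.DE
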