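import Vale.Agent.P154.GHorN
import Vale.Agent.P154.GScan
import Vale.Agent.P154.GHor

namespace Vale.Agent.P154.DE

open Vale.Agent.P154

theorem Phi_sum (c : Cfg) (l : ℝ) (G : V → ℝ) (m : ℕ) (w q : ℕ → ℕ) (hm : m ≤ 2 ^ 14)
    (hw : ∀ i, w i < 2 ^ 40) (hq : ∀ i n, dig 110 (q i) n < 2 ^ 56) :
    Phi c l G (∑ i ∈ Finset.range m, w i * q i) =
      ∑ i ∈ Finset.range m, (w i : ℝ) * Phi c l G (q i) := by
  have hb : ∀ n, ∑ i ∈ Finset.range m, w i * dig 110 (q i) n < 2 ^ 110 := by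
    intro n
    calc ∑ i ∈ Finset.range m, w i * dig 110 (q i) n
        ≤ ∑ _i ∈ Finset.range m, (2 ^ 40 - 1) * (2 ^ 56 - 1) :=
          Finset.sum_le_sum fun i _ =>
            Nat.mul_le_mul (Nat.le_sub_one_of_lt (hw i)) (Nat.le_sub_one_of_lt (hq i n))
      _ = m * ((2 ^ 40 - 1) * (2 ^ 56 - 1)) := by rw [Finset.sum_const, Finset.card_range, smul_eq_mul]
      _ ≤ 2 ^ 14 * ((2 ^ 40 - 1) * (2 ^ 56 - 1)) := Nat.mul_le_mul_right _ hm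
      _ < 2 ^ 110 := by norm_num
  have hd := dig_sum (Finset.range m) w q hb
  unfold Phi
  simp only [hd, Nat.cast_sum, Nat.cast_mul, mul_add, Finset.sum_add_distrib, Finset.sum_mul,
    Finset.mul_sum, neg_mul, mul_neg, Finset.sum_neg_distrib, mul_assoc]
  rw [Finset.sum_comm]

theorem gstp_dig_zero (B n : ℕ) : dig B 0 n = 0 := by simp [dig]

theorem gstp_rl_nonneg (ps : List ℕ) : ∀ p ∈ rl ps, 0 ≤ p := by
  intro p hp
  obtain ⟨n, -, rfl⟩ := List.mem_map.1 hp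
  positivity

theorem gstp_cond (x y b : ℕ) :
    cond (Nat.ble x y) b 0 = 0 ∨ (cond (Nat.ble x y) b 0 = b ∧ x ≤ y) := by
  cases hc : Nat.ble x y
  · exact Or.inl rfl
  · exact Or.inr ⟨rfl, Nat.le_of_ble_eq_true hc⟩

theorem gstp_fin_eq (q0 a : ℕ) : fin q0 a =
    cond (Nat.ble ((a + (3 * 2 ^ 76 - a % 2 ^ 110) / (q0 % 2 ^ 110) % 2 ^ 40 * q0) % 2 ^ 110)
      (3 * 2 ^ 76)) (a + (3 * 2 ^ 76 - a % 2 ^ 110) / (q0 % 2 ^ 110) % 2 ^ 40 * q0) 0 :=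
  (frc_eq a _).trans (frc_eq _ _)

theorem gstp_fin_cases (q0 a : ℕ) : ∃ k, k < 2 ^ 40 ∧
    (fin q0 a = 0 ∨ (fin q0 a = a + k * q0 ∧ (a + k * q0) % 2 ^ 110 ≤ 3 * 2 ^ 76)) := by
  refine ⟨(3 * 2 ^ 76 - a % 2 ^ 110) / (q0 % 2 ^ 110) % 2 ^ 40,
    Nat.mod_lt _ (Nat.two_pow_pos 40), ?_⟩
  rw [gstp_fin_eq]
  exact gstp_cond _ _ _

theorem gstp_dig0 (B b : ℕ) : dig B b 0 = b % 2 ^ B := by simp [dig]

theorem gstp_Phi_add (c : Cfg) (l : ℝ) (G : V → ℝ) (m : ℕ) (w q : ℕ → ℕ) (k q0 : ℕ)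
    (hm : m < 2 ^ 14) (hw : ∀ i, w i < 2 ^ 40) (hq : ∀ i n, dig 110 (q i) n < 2 ^ 56)
    (hk : k < 2 ^ 40) (hq0 : ∀ n, dig 110 q0 n < 2 ^ 56) :
    Phi c l G (∑ i ∈ Finset.range m, w i * q i + k * q0) =
      ∑ i ∈ Finset.range m, (w i : ℝ) * Phi c l G (q i) + k * Phi c l G q0 := by
  have e2 := Phi_sum c l G (m + 1) (fun i => if i < m then w i else k)
    (fun i => if i < m then q i else q0) hm
    (fun i => by split_ifs; exacts [hw i, hk])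
    (fun i n => by split_ifs; exacts [hq i n, hq0 n])
  have e1 : ∑ i ∈ Finset.range m, (if i < m then w i else k) * (if i < m then q i else q0) =
      ∑ i ∈ Finset.range m, w i * q i := Finset.sum_congr rfl fun i hi => by
    rw [if_pos (Finset.mem_range.1 hi), if_pos (Finset.mem_range.1 hi)]
  have e3 : ∑ i ∈ Finset.range m, ((if i < m then w i else k : ℕ) : ℝ) *
      Phi c l G (if i < m then q i else q0) =
      ∑ i ∈ Finset.range m, (w i : ℝ) * Phi c l G (q i) := Finset.sum_congr rfl fun i hi => by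
    rw [if_pos (Finset.mem_range.1 hi), if_pos (Finset.mem_range.1 hi)]
  rw [Finset.sum_range_succ, Finset.sum_range_succ, e1, e3, if_neg (lt_irrefl m),
    if_neg (lt_irrefl m)] at e2
  exact e2

theorem gstp_inv_zero (c : Cfg) (T : St) : Inv c 0 T := by
  intro G hG
  simp only [gstp_dig_zero, Nat.cast_zero, zero_mul, Finset.sum_const_zero, add_zero]
  exact mul_nonneg (by norm_num) (hG.1.E_nonneg _)

theorem gstp_inv_of (c : Cfg) {l : ℝ} (h0 : -1 / 2 ≤ l) (h1 : l ≤ 1) (S : St) (b : ℕ)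
    (hb : b % 2 ^ 110 ≤ 3 * 2 ^ 76) (hS : ∀ G, Gs G → Phi c l G b ≤ 2 ^ 76 * S.E (Gp l G)) :
    Inv c b (S.chanN _ h0 h1) := by
  intro G hG
  have hn : Nn e0 := by
    intro i
    fin_cases i <;> simp [e0]
  have e7 : 0 ≤ G (chv l e0) := hG.1.nn _ (hn.chv h0 h1)
  have e8 : (dig 110 b 0 : ℝ) ≤ 3 * 2 ^ 76 := by
    rw [gstp_dig0]
    exact_mod_cast hb
  have e9 := mul_le_mul_of_nonneg_right e8 e7
  have e6 := hS G hG
  rw [chanN_gp S h0 h1 hG]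
  unfold Phi at e6
  linarith

theorem gstp_fin_aux (c : Cfg) {l : ℝ} (h0 : -1 / 2 ≤ l) (h1 : l ≤ 1) (S : St) (m : ℕ)
    (w q : ℕ → ℕ) (q0 : ℕ) (hm : m < 2 ^ 14) (hw : ∀ i, w i < 2 ^ 40)
    (hq : ∀ i n, dig 110 (q i) n < 2 ^ 56) (hq0 : ∀ n, dig 110 q0 n < 2 ^ 56)
    (hP : ∀ G, Gs G → Phi c l G q0 ≤ 0)
    (hS : ∀ G, Gs G → ∑ i ∈ Finset.range m, (w i : ℝ) * Phi c l G (q i) ≤
      2 ^ 76 * S.E (Gp l G)) :
    Inv c (fin q0 (∑ i ∈ Finset.range m, w i * q i)) (S.chanN _ h0 h1) := by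
  obtain ⟨k, hk, hc | ⟨hc, hle⟩⟩ := gstp_fin_cases q0 (∑ i ∈ Finset.range m, w i * q i)
  · rw [hc]
    exact gstp_inv_zero c _
  · rw [hc]
    refine gstp_inv_of c h0 h1 S _ hle fun G hG => ?_
    rw [gstp_Phi_add c l G m w q k q0 hm hw hq hk hq0]
    have e5 : (k : ℝ) * Phi c l G q0 ≤ 0 :=
      mul_nonpos_of_nonneg_of_nonpos (Nat.cast_nonneg _) (hP G hG)
    have e6 := hS G hG
    linarith

theorem gstp_under : Under (2 ^ 64) 0 0 e0 := by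
  refine ⟨?_, ?_, ?_⟩
  · rw [Nat.cast_pow, Nat.cast_ofNat]
    simp [e0]
  · simp [e0]
  · simp [e0]

theorem gstp_gp0 (l : ℝ) (G : V → ℝ) : Gp l G e0 = 0 := by simp [Gp, e0]

/-- `fin` adds the frozen remainder -/
theorem fin_ok {c : Cfg} (h : c.ok = true) {rn rd : ℕ} (hrd : 0 < rd) (hr : 2 * rn ≤ rd)
    (h0 : -1 / 2 ≤ -((rn : ℝ) / rd)) (h1 : -((rn : ℝ) / rd) ≤ 1) (S : St) (m : ℕ) (w q : ℕ → ℕ)
    (hm : m < 2 ^ 14) (hw : ∀ i, w i < 2 ^ 40) (hq : ∀ i n, dig 110 (q i) n < 2 ^ 56)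
    (hS : ∀ G, Gs G → ∑ i ∈ Finset.range m, (w i : ℝ) * Phi c (-((rn : ℝ) / rd)) G (q i) ≤
      2 ^ 76 * S.E (Gp (-((rn : ℝ) / rd)) G)) :
    Inv c (fin (ent c rn rd (2 ^ 64) 0 0 1) (∑ i ∈ Finset.range m, w i * q i))
      (S.chanN _ h0 h1) :=
  gstp_fin_aux c h0 h1 S m w q _ hm hw hq (ent_dig c rn rd _ _ _ _)
    (fun G hG => (ent_ok h hrd hr _ 0 0 1 gstp_under hG).trans_eq (by
      rw [gstp_gp0, mul_zero, mul_zero])) hS

theorem start_ok {c : Cfg} (h : c.ok = true) {rn rd : ℕ} (hrd : 0 < rd) (hr : 2 * rn ≤ rd)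
    (h0 : -1 / 2 ≤ -((rn : ℝ) / rd)) (h1 : -((rn : ℝ) / rd) ≤ 1) (S : St) :
    Inv c (start c rn rd) (S.chanN _ h0 h1) :=
  fin_ok h hrd hr h0 h1 S 0 (fun _ => 0) (fun _ => 0) (by norm_num) (fun _ => by norm_num)
    (fun _ n => by rw [gstp_dig_zero]; norm_num) fun G hG => by
      rw [Finset.sum_range_zero]
      exact mul_nonneg (by norm_num) ((hG.gp h0 h1).1.E_nonneg S)

theorem trans_ok {c c' : Cfg} (h : c.ok = true) (h' : c'.ok = true) {rn rd : ℕ} (hrd : 0 < rd)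
    (hr : 2 * rn ≤ rd) (h0 : -1 / 2 ≤ -((rn : ℝ) / rd)) (h1 : -((rn : ℝ) / rd) ≤ 1)
    (ps : List ℕ) (hps : ∀ p ∈ ps, p < 2 ^ 40) {acc : ℕ} {T S : St} (hI : Inv c acc T)
    (hS : ∀ G, Gc G → hF T (rl ps) G ≤ S.E G) :
    Inv c' (trans c c' rn rd ps acc) (S.chanN _ h0 h1) := by
  have hβ := Cfg.β_pos h
  have hf : (0 : ℝ) ≤ (fN c acc : ℝ) / 2 ^ 38 := by positivity
  obtain ⟨m, w, q, hm, hw, hq, he, hv⟩ := scan_spec h (ent c' rn rd) acc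
    (hA_po (tW_po c acc) _ (gstp_rl_nonneg ps)) (hA_sy (tW_sy c acc) _)
    (hQ_po ((tW_po c acc).proj hβ) hf _ (gstp_rl_nonneg ps)) (arrA_dom h ps hps acc)
    (arrQ_dom h ps hps acc)
  unfold trans step
  rw [frcL_eq, frc_eq, frc_eq, he]
  refine fin_ok h' hrd hr h0 h1 S m w q hm hw (fun i n => ?_) fun G hG => ?_
  · rcases hq i with h2 | ⟨a0, a1, a2, κ, h2⟩
    · rw [h2, gstp_dig_zero]; norm_num
    · rw [h2]; exact ent_dig _ _ _ _ _ _ _ _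
  · have hH := hG.gp h0 h1
    refine (hv _ (Phi c' (-((rn : ℝ) / rd)) G) hH (Phi_zero _ _ _).le
      fun a0 a1 a2 κ v hu => ent_ok h' hrd hr a0 a1 a2 κ hu hG).trans ?_
    exact mul_le_mul_of_nonneg_left ((horner_low hβ (tW_po c acc) (tW_sy c acc) hf
      (tW_low h hI) _ (gstp_rl_nonneg ps) hH).trans (hS _ hH.1)) (by norm_num)

theorem gstp_iter (F : ℕ → ℕ) (n a : ℕ) : iter F n a = F^[n] a := by
  induction n generalizing a with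
  | zero => rfl
  | succ n ih =>
    rw [Function.iterate_succ_apply, ← ih]
    exact frc_eq (F a) (iter F n)

theorem phase_eq (c : Cfg) (rn rd : ℕ) (ps : List ℕ) (n acc : ℕ) :
    phase c rn rd ps n acc = (trans c c rn rd ps)^[n] acc := by
  unfold phase
  rw [frcT_eq, frcL_eq, frc_eq, frcL_eq, gstp_iter]
  congr 1
  funext a
  unfold trans
  rw [frcL_eq]

theorem final_ok {c : Cfg} (h : c.ok = true) (ws : List ℕ) (hws : ∀ p ∈ ws, p < 2 ^ 40) {acc : ℕ}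
    {T : St} (hI : Inv c acc T) : (final c ws acc : ℝ) ≤ 2 ^ 76 * hF T (rl ws) HH := by
  have hβ := Cfg.β_pos h
  have hf : (0 : ℝ) ≤ (fN c acc : ℝ) / 2 ^ 38 := by positivity
  obtain ⟨m, w, q, -, -, -, he, hv⟩ := scan_spec h hent acc
    (hA_po (tW_po c acc) _ (gstp_rl_nonneg ws)) (hA_sy (tW_sy c acc) _)
    (hQ_po ((tW_po c acc).proj hβ) hf _ (gstp_rl_nonneg ws)) (arrA_dom h ws hws acc)
    (arrQ_dom h ws hws acc)
  unfold final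
  rw [frcL_eq, frc_eq, frc_eq, he]
  have h2 := hv HH (fun n => (n : ℝ)) HH_gs (by simp)
    fun a0 a1 a2 κ v hu => hent_ok a0 a1 a2 κ hu
  push_cast
  exact h2.trans (mul_le_mul_of_nonneg_left (horner_low hβ (tW_po c acc) (tW_sy c acc) hf
    (tW_low h hI) _ (gstp_rl_nonneg ws) HH_gs) (by norm_num))

end Vale.Agent.P154.DE
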