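import Vale.Agent.P154.Neg

namespace Vale.Agent.P154

open Filter Topology

theorem ks_abs {p : ℕ → ℝ} (hp : ∀ k, 0 ≤ p k) {d : ℝ} (hd : HasSum (fun k : ℕ => p k * k) d)
    {l : ℝ} (hl : l ^ 2 ≤ 1) (hKS : 1 < d * l ^ 2) : ∃ z : ℝ, 0 < z ∧ z ≤ 1 / 2 ∧
      ∀ (u : ℕ → ℝ) (s : ℝ), HasSum (fun k => p k * u k) s → (∀ k, 0 ≤ u k) →
        (∀ k, l ^ 2 * z + (1 - 2 * (l ^ 2 * z)) * u k ≤ u (k + 1)) → z ≤ s := by
  have h1 := (hd.mul_right (l ^ 2)).tendsto_sum_nat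
  obtain ⟨K, hK⟩ := (h1.eventually (lt_mem_nhds hKS)).exists
  set M := ∑ k ∈ Finset.range K, p k * k * l ^ 2 with hM
  set Q := ∑ k ∈ Finset.range K, p k * k ^ 2 with hQ
  have hQ0 : 0 ≤ Q := Finset.sum_nonneg fun k _ => mul_nonneg (hp k) (sq_nonneg _)
  have hM1 : 0 < M - 1 := sub_pos.2 hK
  refine ⟨min (1 / 2) ((M - 1) / (Q + 1)), lt_min (by norm_num) (by positivity), min_le_left _ _,
    fun u s hs hu hstep => ?_⟩
  have z0 : 0 < min (1 / 2) ((M - 1) / (Q + 1)) := lt_min (by norm_num) (by positivity)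
  have z1 : min (1 / 2) ((M - 1) / (Q + 1)) ≤ 1 / 2 := min_le_left _ _
  have z2 : min (1 / 2) ((M - 1) / (Q + 1)) * (Q + 1) ≤ M - 1 :=
    (le_div_iff₀ (by positivity)).1 (min_le_right _ _)
  generalize min (1 / 2) ((M - 1) / (Q + 1)) = z at *
  have l0 := sq_nonneg l
  have t0 : 0 ≤ l ^ 2 * z := by positivity
  have t1 : l ^ 2 * z ≤ z := by nlinarith
  have hk : ∀ k : ℕ, k * (l ^ 2 * z) - k ^ 2 * (l ^ 2 * z) ^ 2 ≤ u k := by
    intro k
    induction k with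
    | zero => simpa using hu 0
    | succ k ih =>
      have a := hstep k
      generalize l ^ 2 * z = t at *
      have b := mul_le_mul_of_nonneg_left ih (show 0 ≤ 1 - 2 * t by linarith)
      have c : 0 ≤ (k : ℝ) ^ 2 * t ^ 3 := by positivity
      push_cast
      nlinarith [sq_nonneg t]
  have h2 : ∑ k ∈ Finset.range K, p k * u k ≤ s :=
    sum_le_hasSum _ (fun k _ => mul_nonneg (hp k) (hu k)) hs
  have h3 : M * z - Q * (l ^ 2 * z) ^ 2 ≤ ∑ k ∈ Finset.range K, p k * u k := by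
    rw [hM, hQ, Finset.sum_mul, Finset.sum_mul, ← Finset.sum_sub_distrib]
    refine Finset.sum_le_sum fun k _ => ?_
    have := mul_le_mul_of_nonneg_left (hk k) (hp k)
    linarith
  have h4 : (l ^ 2 * z) ^ 2 ≤ z ^ 2 := pow_le_pow_left₀ t0 t1 2
  have h5 := mul_le_mul_of_nonneg_left h4 hQ0
  have h6 := mul_le_mul_of_nonneg_left z2 z0.le
  nlinarith

theorem hom_ze_ge {v : V} (hv : ∀ i, 0 ≤ v i) {a b c : ℝ} (hw : a + b + c = 0) :
    (v 0 * a + v 1 * b + v 2 * c) / 3 - (v 0 + v 1 + v 2) / 3 * ((a ^ 2 + b ^ 2 + c ^ 2) / 6)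
      ≤ hom ze v := by
  rcases eq_or_ne (av v) 0 with h0 | h0
  · simp [hom, h0, eq_zero_of_av hv h0]
  have hD := av_nonneg hv
  have e : ∀ i, v i = av v * (v i / av v) := fun i => by field_simp
  have e0 : (v 0 + v 1 + v 2) / 3 = av v := rfl
  rw [e0, hom, ze, e 0, e 1, e 2]
  simp only [← e]
  have k0 := e 0; have k1 := e 1; have k2 := e 2
  generalize v 0 / av v = y0 at *
  generalize v 1 / av v = y1 at *
  generalize v 2 / av v = y2 at *
  have h := mul_nonneg hD (show 0 ≤ (y0 - 1 - a) ^ 2 + (y1 - 1 - b) ^ 2 + (y2 - 1 - c) ^ 2 by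
    positivity)
  have h' : av v * (a + b + c) = 0 := by rw [hw, mul_zero]
  rw [k0, k1, k2]
  nlinarith

noncomputable def Lw (t : ℝ) (x : V) (a b c : ℝ) : ℝ :=
  (x 0 * a * (t * (x 0 - 1) + (a - 1)) + x 1 * b * (t * (x 1 - 1) + (b - 1))
      + x 2 * c * (t * (x 2 - 1) + (c - 1))) / 3
    - (x 0 * a + x 1 * b + x 2 * c) / 3 * (((t * (x 0 - 1) + (a - 1)) ^ 2
      + (t * (x 1 - 1) + (b - 1)) ^ 2 + (t * (x 2 - 1) + (c - 1)) ^ 2) / 6)

theorem Lw_avg (t : ℝ) {x y : V} (hx : Dl x) (hy : Dl y) :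
    1 / 6 * (Lw t x (y 0) (y 1) (y 2) + Lw t x (y 1) (y 0) (y 2) + Lw t x (y 0) (y 2) (y 1)
      + Lw t x (y 2) (y 1) (y 0) + Lw t x (y 1) (y 2) (y 0) + Lw t x (y 2) (y 0) (y 1))
    = (2 * t - t ^ 2) * ze x + (1 - 2 * t * ze x) * ze y := by
  have e : x 2 = 3 - x 0 - x 1 := by linarith [hx.2]
  have e' : y 2 = 3 - y 0 - y 1 := by linarith [hy.2]
  unfold Lw ze
  rw [e, e']
  ring

theorem star_ze_ge (T U : St) (t : ℝ) :
    (2 * t - t ^ 2) * T.E ze + U.E ze - 2 * t * (T.E ze * U.E ze) ≤ (T.star U).E ze := by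
  have key : ∀ x, Dl x → U.E ze + (2 * t - t ^ 2 - 2 * t * U.E ze) * ze x ≤
      U.E (fun y => hom ze (x * y)) := by
    intro x hx
    have hb : Bd fun y : V => Lw t x (y 0) (y 1) (y 2) := Bd.of_cont (by unfold Lw; fun_prop)
    have h1 : U.E (fun y => Lw t x (y 0) (y 1) (y 2)) ≤ U.E (fun y => hom ze (x * y)) :=
      U.mono _ _ hb (bd_ze.homl hx) fun y hy => hom_ze_ge (mul_nn hx.1 hy.1) (by
        have a := hx.2
        have b := hy.2
        have c : t * (x 0 + x 1 + x 2) = t * 3 := by rw [a]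
        linarith)
    have h2 := U.sym6 (Lw t x) hb
    have h4 := U.congr ((Bd.const ((2 * t - t ^ 2) * ze x)).add
      (bd_ze.cmul (1 - 2 * t * ze x))) (fun y hy => (Lw_avg t hx hy).symm)
    rw [h2, ← h4, U.add _ _ (Bd.const _) (bd_ze.cmul _), U.const, U.cmul _ _ bd_ze] at h1
    linarith
  have h5 := T.mono _ _ ((Bd.const _).add (bd_ze.cmul _)) (U.bd_inner bd_ze) key
  rw [T.add _ _ (Bd.const _) (bd_ze.cmul _), T.const, T.cmul _ _ bd_ze] at h5
  change _ ≤ T.E _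
  linarith

theorem ks_step {a b s t : ℝ} (ht : 0 ≤ t) (hta : t ≤ a)
    (h : ∀ r : ℝ, 0 ≤ r → (2 * r - r ^ 2) * a + b - 2 * r * (a * b) ≤ s) :
    t + (1 - 2 * t) * b ≤ s := by
  rcases (ht.trans hta).eq_or_lt with ha | ha
  · have := h 0 le_rfl
    have e : t = 0 := by linarith
    rw [e]; linarith
  have h1 := h (t / a) (div_nonneg ht ha.le)
  have h2 : t / a ≤ 1 := (div_le_one ha).2 hta
  have h3 : t / a * a = t := by field_simp
  have h4 : 0 ≤ t / a := div_nonneg ht ha.le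
  generalize t / a = r at *
  subst h3
  nlinarith [mul_nonneg (mul_nonneg h4 ha.le) (sub_nonneg.2 h2)]

theorem ze_le_tv {x : V} (hx : Dl x) : 1 / 2 * ze x ≤ tv x := by
  have key : ∀ i, (x i - 1) ^ 2 ≤ 6 * |x i / 3 - 1 / 3| := fun i => by
    have a := hx.1 i
    have b := hx.le3 i
    rcases le_total (x i) 1 with h | h
    · rw [abs_of_nonpos (by linarith)]; nlinarith
    · rw [abs_of_nonneg (by linarith)]; nlinarith
  unfold tv ze
  rw [Fin.sum_univ_three]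
  linarith [key 0, key 1, key 2]

theorem init_ze : St.init.E ze = 1 := by
  change ∑ j, 1 / 3 * ze (St.vtx j) = 1
  simp [Fin.sum_univ_three, ze, St.vtx]
  norm_num

theorem ks3 {l : ℝ} (h0 : -1 / 2 ≤ l) (h1 : l ≤ 1) {p : ℕ → ℝ} (hp : ∀ k, 0 ≤ p k)
    (hs : HasSum p 1) {d : ℝ} (hd : HasSum (fun k : ℕ => p k * k) d) (hKS : 1 < d * l ^ 2) :
    ¬ Tendsto (adv 3 l p) atTop (𝓝 0) := by
  obtain ⟨z, z0, z1, hz⟩ := ks_abs hp hd (l := l) (by nlinarith) hKS
  have h2 : ∀ n, z ≤ (St.seqN l h0 h1 p hp hs n).E ze := by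
    intro n
    induction n with
    | zero => exact (z1.trans (by norm_num)).trans init_ze.ge
    | succ n ih =>
      refine hz _ _ (St.summable_mix hp hs (St.pow _) bd_ze).hasSum (fun k => E_ze_nonneg _)
        fun k => ks_step (by positivity) ?_ fun r _ => star_ze_ge _ _ r
      rw [chanN_ze]
      exact mul_le_mul_of_nonneg_left ih (sq_nonneg l)
  intro h
  have h3 : 1 / 2 * z ≤ 0 := ge_of_tendsto' h fun n => by
    rw [← advN h0 h1 hp hs n]
    have := (St.seqN l h0 h1 p hp hs n).mono _ _ (bd_ze.cmul (1 / 2)) bd_tv fun x hx => ze_le_tv hx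
    rw [St.cmul _ _ _ bd_ze] at this
    linarith [h2 n]
  linarith

end Vale.Agent.P154
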