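import Vale.Agent.P154.Dyn
import Vale.Agent.P154.Defs

namespace Vale.Agent.P154

open Filter Topology

theorem hasSum_of_eq {Ω : Type} {f g : Ω → ℝ} {a : ℝ} (h : HasSum f a) (e : ∀ x, f x = g x) :
    HasSum g a := (funext e : f = g) ▸ h

def Rep {Ω : Type} (L : Ω → V) (S : St) : Prop :=
  (∀ o i, 0 ≤ L o i) ∧ ∀ g, Bd g → HasSum (fun o => hom g (L o)) (S.E g)

theorem Rep.av {Ω : Type} {L : Ω → V} {S : St} (h : Rep L S) : HasSum (fun o => av (L o)) 1 := by
  have := h.2 _ (Bd.const 1)
  simpa only [hom_one, S.one] using this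

noncomputable def chv (l : ℝ) (v : V) : V := fun i => l * v i + (1 - l) * av v

theorem av_chv (l : ℝ) (v : V) : av (chv l v) = av v := by simp only [chv, av]; ring

theorem hom_chv (g : V → ℝ) (l : ℝ) (v : V) :
    hom g (chv l v) = hom (fun x => g (ch l x)) v := by
  rcases eq_or_ne (av v) 0 with h0 | h0
  · simp [hom, av_chv, h0]
  simp only [hom, av_chv]
  congr 2
  funext i
  simp only [chv, ch]
  field_simp
  ring

theorem Rep.chan {Ω : Type} {L : Ω → V} {S : St} (h : Rep L S) {l : ℝ} (h0 : 0 ≤ l)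
    (h1 : l ≤ 1) : Rep (fun o => chv l (L o)) (S.chan l h0 h1) := by
  refine ⟨fun o i => add_nonneg (mul_nonneg h0 (h.1 o i))
    (mul_nonneg (sub_nonneg.2 h1) (av_nonneg (h.1 o))), fun g hg => ?_⟩
  simp only [hom_chv]
  exact h.2 _ (hg.ch h0 h1)

theorem hom_hom (g : V → ℝ) (x : V) {w : V} (hw : ∀ i, 0 ≤ w i) :
    hom (fun y => hom g (x * y)) w = hom g (x * w) := by
  rcases eq_or_ne (av w) 0 with h0 | h0
  · have : x * w = 0 := by funext i; simp [eq_zero_of_av hw h0 i]
    rw [this, hom_zero, hom, h0, zero_mul]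
  rw [hom, ← hom_smul]
  congr 1
  funext i
  simp only [Pi.mul_apply]
  field_simp

theorem Rep.star {Ω Ω' : Type} {L : Ω → V} {M : Ω' → V} {S T : St} (h : Rep L S) (k : Rep M T) :
    Rep (fun p : Ω × Ω' => L p.1 * M p.2) (S.star T) := by
  refine ⟨fun o => mul_nn (h.1 _) (k.1 _), fun g hg => ?_⟩
  have hsum : Summable fun p : Ω × Ω' => hom g (L p.1 * M p.2) := by
    obtain ⟨C, hC⟩ := hg
    have hC0 : 0 ≤ C := (abs_nonneg _).trans (hC _ St.Dl_one)
    have s1 := Summable.mul_of_nonneg h.av.summable k.av.summable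
      (fun o => av_nonneg (h.1 o)) (fun o => av_nonneg (k.1 o))
    refine Summable.of_norm_bounded (s1.mul_left (C * 3)) fun p => ?_
    refine (hom_abs hC (mul_nn (h.1 _) (k.1 _))).trans ?_
    rw [mul_assoc]
    exact mul_le_mul_of_nonneg_left (av_mul_le (h.1 _) (k.1 _)) hC0
  have inner : ∀ o, HasSum (fun o' => hom g (L o * M o'))
      (hom (fun x => T.E (fun y => hom g (x * y))) (L o)) := by
    intro o
    rcases eq_or_ne (P154.av (L o)) 0 with h0 | h0
    · have : ∀ o', L o * M o' = 0 := fun o' => by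
        funext i; simp [eq_zero_of_av (h.1 o) h0 i]
      simp only [this, hom_zero]
      rw [hom, h0, zero_mul]
      exact hasSum_zero
    have hx := Dl_norm (h.1 o) h0
    have := (k.2 _ (hg.homl hx)).mul_left (P154.av (L o))
    refine hasSum_of_eq this fun o' => ?_
    rw [hom_hom g _ (k.1 o'), ← hom_smul]
    congr 1
    funext i
    simp only [Pi.mul_apply]
    field_simp
  have h1 := hsum.hasSum.prod_fiberwise inner
  have h2 := h.2 _ (T.bd_inner hg)
  have e : (S.star T).E g = ∑' p : Ω × Ω', hom g (L p.1 * M p.2) := h2.unique h1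
  rw [e]
  exact hsum.hasSum

noncomputable def Lk {Ω : Type} (M : Ω → V) (k : ℕ) (l : List Ω) : V :=
  if l.length = k then (l.map M).prod else 0

theorem rep_Lk {Ω : Type} {M : Ω → V} {T : St} (h : Rep M T) : ∀ k, Rep (Lk M k) (T.pow k)
  | 0 => by
      refine ⟨fun l i => ?_, fun g _ => ?_⟩
      · cases l <;> simp [Lk]
      · have e : hom g (Lk M 0 []) = (T.pow 0).E g := by
          have : Lk M 0 [] = fun _ => 1 := by funext i; simp [Lk]
          rw [this, hom_of_Dl g St.Dl_one]; rfl
        rw [← e]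
        refine hasSum_single _ fun l hl => ?_
        have : Lk M 0 l = 0 := by simp [Lk, hl]
        rw [this, hom_zero]
  | k + 1 => by
      have ih := h.star (rep_Lk h k)
      have e : ∀ p : Ω × List Ω, Lk M (k + 1) (p.1 :: p.2) = M p.1 * Lk M k p.2 := by
        intro p
        unfold Lk
        by_cases hl : p.2.length = k <;> simp [hl]
      have e0 : Lk M (k + 1) [] = 0 := by simp [Lk]
      refine ⟨fun l i => ?_, fun g hg => ?_⟩
      · cases l with
        | nil => rw [e0]; exact le_rfl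
        | cons a l => rw [e (a, l)]; exact ih.1 (a, l) i
      · have hi : Function.Injective fun p : Ω × List Ω => p.1 :: p.2 := by
          rintro ⟨a, l⟩ ⟨b, m⟩ hh
          simpa using hh
        refine (hi.hasSum_iff ?_).1 ?_
        · intro l hl
          cases l with
          | nil => rw [e0, hom_zero]
          | cons a l => exact absurd ⟨(a, l), rfl⟩ hl
        · simp only [Function.comp_def, e]
          exact ih.2 g hg

theorem rep_mix {Ω : Type} {M : Ω → V} {T : St} (h : Rep M T) {p : ℕ → ℝ} (hp : ∀ k, 0 ≤ p k)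
    (hs : HasSum p 1) :
    Rep (fun l : List Ω => fun i => p l.length * (l.map M).prod i) (St.mix p hp hs T.pow) := by
  have eL : ∀ l : List Ω, (l.map M).prod = Lk M l.length l := fun l => by simp [Lk]
  refine ⟨fun l i => mul_nonneg (hp _) (eL l ▸ (rep_Lk h _).1 l i), fun g hg => ?_⟩
  have hsum : Summable fun x : ℕ × List Ω => p x.1 * hom g (Lk M x.1 x.2) := by
    obtain ⟨C, hC⟩ := hg
    have s1 : Summable fun x : ℕ × List Ω => p x.1 * av (Lk M x.1 x.2) := by
      refine (summable_prod_of_nonneg fun x =>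
        mul_nonneg (hp _) (av_nonneg ((rep_Lk h _).1 _))).2 ⟨fun k => ?_, ?_⟩
      · exact ((rep_Lk h k).av.mul_left (p k)).summable
      · simp only [fun k => ((rep_Lk h k).av.mul_left (p k)).tsum_eq, mul_one]
        exact hs.summable
    refine Summable.of_norm_bounded (s1.mul_left C) fun x => ?_
    rw [Real.norm_eq_abs, abs_mul, abs_of_nonneg (hp _), mul_left_comm]
    exact mul_le_mul_of_nonneg_left (hom_abs hC ((rep_Lk h _).1 _)) (hp _)
  have h1 := hsum.hasSum.prod_fiberwise fun k => ((rep_Lk h k).2 g hg).mul_left (p k)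
  have h2 : HasSum (fun x : List Ω × ℕ => p x.2 * hom g (Lk M x.2 x.1))
      (∑' x : ℕ × List Ω, p x.1 * hom g (Lk M x.1 x.2)) :=
    (Equiv.prodComm (List Ω) ℕ).hasSum_iff.2 hsum.hasSum
  have h3 := h2.prod_fiberwise (g := fun l => p l.length * hom g (Lk M l.length l)) fun l => by
    refine hasSum_single (f := fun k => p k * hom g (Lk M k l)) l.length fun k hk => ?_
    have : Lk M k l = 0 := by simp [Lk, hk.symm]
    rw [this, hom_zero, mul_zero]
  have e : (St.mix p hp hs T.pow).E g = _ := h1.tsum_eq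
  rw [e]
  simp only [hom_smul, eL]
  exact h3

theorem rep_init : Rep (fun (o : Fin 3) (i : Fin 3) => if i = o then (1 : ℝ) else 0) St.init := by
  refine ⟨fun o i => by dsimp only; split_ifs <;> norm_num, fun g _ => ?_⟩
  have e : ∀ o : Fin 3, hom g (fun i => if i = o then (1 : ℝ) else 0) = 1 / 3 * g (St.vtx o) := by
    intro o
    rw [← hom_of_Dl g (St.Dl_vtx o), ← hom_smul]
    congr 1
    funext i
    unfold St.vtx
    split_ifs <;> norm_num
  simp only [e]
  exact hasSum_fintype _

theorem potts_sum (l : ℝ) (v : V) (i : Fin 3) : ∑ j, pottsP 3 l i j * v j = chv l v i := by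
  fin_cases i <;> simp [pottsP, chv, av, Fin.sum_univ_three] <;> ring

theorem rep_lik {l : ℝ} (h0 : 0 ≤ l) (h1 : l ≤ 1) {p : ℕ → ℝ} (hp : ∀ k, 0 ≤ p k)
    (hs : HasSum p 1) :
    ∀ n, Rep (fun (o : Obs 3 n) (i : Fin 3) => lik 3 l p n i o) (St.seq l h0 h1 p hp hs n)
  | 0 => rep_init
  | n + 1 => by
      have ih := rep_mix ((rep_lik h0 h1 hp hs n).chan h0 h1) hp hs
      have e : (fun (o : Obs 3 (n + 1)) (i : Fin 3) => lik 3 l p (n + 1) i o) =
          fun (o : List (Obs 3 n)) i => p o.length *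
            (o.map fun o' => chv l fun j => lik 3 l p n j o').prod i := by
        refine funext fun (o : List (Obs 3 n)) => funext fun i => ?_
        rw [Pi.list_prod_apply, List.map_map]
        simp only [lik, potts_sum]
        rfl
      rw [e]
      exact ih

theorem marg_eq (l : ℝ) (p : ℕ → ℝ) (n : ℕ) (o : Obs 3 n) :
    marg 3 l p n o = av fun i => lik 3 l p n i o := by
  simp only [marg, av, Fin.sum_univ_three]; push_cast; ring

theorem main {l : ℝ} (h0 : 0 ≤ l) (h1 : l ≤ 1) {p : ℕ → ℝ} (hp : ∀ k, 0 ≤ p k)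
    (hs : HasSum p 1) {d : ℝ} (hd : HasSum (fun k : ℕ => p k * k) d) (k0 : ℕ)
    (hk : 0 < p (k0 + 2)) (hKS : d * l ^ 2 ≤ 1) :
    (∀ n, HasSum (marg 3 l p n) 1) ∧ Tendsto (adv 3 l p) atTop (𝓝 0) := by
  refine ⟨fun n => ?_, ?_⟩
  · have := (rep_lik h0 h1 hp hs n).av
    simpa only [← marg_eq] using this
  refine (tv_tendsto (seq_tendsto h0 h1 hp hs hd k0 hk hKS)).congr fun n => ?_
  rw [← ((rep_lik h0 h1 hp hs n).2 tv bd_tv).tsum_eq]
  refine tsum_congr fun o => ?_
  simp only [hom, tv, post, marg_eq]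
  congr 2
  refine Finset.sum_congr rfl fun i _ => ?_
  congr 1
  push_cast
  ring

theorem reg_hs (d : ℕ) : HasSum (regOff d) 1 := hasSum_ite_eq d (1 : ℝ)

theorem reg_hd (d : ℕ) : HasSum (fun k : ℕ => regOff d k * k) (d : ℝ) := by
  have := hasSum_single (f := fun k : ℕ => regOff d k * k) d fun k hk => by simp [regOff, hk]
  simpa [regOff] using this

theorem exp_hs (d : ℝ) : HasSum (fun k : ℕ => d ^ k / (Nat.factorial k : ℝ)) (Real.exp d) := by
  rw [Real.exp_eq_exp_ℝ]
  exact NormedSpace.expSeries_div_hasSum_exp d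

theorem poi_hs (d : ℝ) : HasSum (poiOff d) 1 := by
  have := (exp_hs d).mul_left (Real.exp (-d))
  rw [← Real.exp_add, neg_add_cancel, Real.exp_zero] at this
  refine hasSum_of_eq this fun k => ?_
  simp only [poiOff]; ring

theorem poi_hd (d : ℝ) : HasSum (fun k : ℕ => poiOff d k * k) d := by
  have h1 := (poi_hs d).mul_left d
  rw [mul_one] at h1
  rw [← hasSum_nat_add_iff' 1]
  simp only [Finset.range_one, Finset.sum_singleton, Nat.cast_zero, mul_zero, sub_zero]
  refine hasSum_of_eq h1 fun k => ?_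
  simp only [poiOff, Nat.factorial_succ]
  push_cast
  field_simp
  ring

end Vale.Agent.P154
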