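import Vale.Agent.P154.KS3
import Vale.Agent.P154.Link4

namespace Vale.Agent.P154.Q4

open Filter Topology

theorem St.sym4 (S : St) (k : ℝ → ℝ → ℝ → ℝ → ℝ) (hk : Bd fun y => k (y 0) (y 1) (y 2) (y 3)) :
    S.E (fun y => k (y 0) (y 1) (y 2) (y 3)) =
      S.E (fun y => 1 / 4 * (k (y 0) (y 1) (y 2) (y 3) + k (y 1) (y 0) (y 3) (y 2)
        + k (y 2) (y 3) (y 0) (y 1) + k (y 3) (y 2) (y 1) (y 0))) := by
  have a1 : Bd fun y => k (y 1) (y 0) (y 2) (y 3) := hk.perm (Equiv.swap 0 1)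
  have b1 : Bd fun y => k (y 1) (y 0) (y 3) (y 2) := a1.perm (Equiv.swap 2 3)
  have a2 : Bd fun y => k (y 2) (y 1) (y 0) (y 3) := hk.perm (Equiv.swap 0 2)
  have b2 : Bd fun y => k (y 2) (y 3) (y 0) (y 1) := a2.perm (Equiv.swap 1 3)
  have a3 : Bd fun y => k (y 3) (y 1) (y 2) (y 0) := hk.perm (Equiv.swap 0 3)
  have b3 : Bd fun y => k (y 3) (y 2) (y 1) (y 0) := a3.perm (Equiv.swap 1 2)
  have d1 : S.E (fun y => k (y 1) (y 0) (y 2) (y 3)) = _ := S.sym (Equiv.swap 0 1) _ hk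
  have e1 : S.E (fun y => k (y 1) (y 0) (y 3) (y 2)) = _ := S.sym (Equiv.swap 2 3) _ a1
  have d2 : S.E (fun y => k (y 2) (y 1) (y 0) (y 3)) = _ := S.sym (Equiv.swap 0 2) _ hk
  have e2 : S.E (fun y => k (y 2) (y 3) (y 0) (y 1)) = _ := S.sym (Equiv.swap 1 3) _ a2
  have d3 : S.E (fun y => k (y 3) (y 1) (y 2) (y 0)) = _ := S.sym (Equiv.swap 0 3) _ hk
  have e3 : S.E (fun y => k (y 3) (y 2) (y 1) (y 0)) = _ := S.sym (Equiv.swap 1 2) _ a3
  rw [S.cmul _ _ (((hk.add b1).add b2).add b3), S.add _ _ ((hk.add b1).add b2) b3,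
    S.add _ _ (hk.add b1) b2, S.add _ _ hk b1, e3, e2, e1, d3, d2, d1]
  ring

theorem hom_fa_ge {v : V} (hv : ∀ i, 0 ≤ v i) {a b c d : ℝ} (hw : a + b + c + d = 0) :
    (v 0 * a + v 1 * b + v 2 * c + v 3 * d) / 2
      - (v 0 + v 1 + v 2 + v 3) / 4 * ((a ^ 2 + b ^ 2 + c ^ 2 + d ^ 2) / 4) ≤ hom fa v := by
  rcases eq_or_ne (av v) 0 with h0 | h0
  · simp [hom, h0, eq_zero_of_av hv h0]
  have hD := av_nonneg hv
  have e : ∀ i, v i = av v * (v i / av v) := fun i => by field_simp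
  have e0 : (v 0 + v 1 + v 2 + v 3) / 4 = av v := rfl
  rw [e0, hom, fa, Fin.sum_univ_four]
  have k0 := e 0; have k1 := e 1; have k2 := e 2; have k3 := e 3
  generalize v 0 / av v = y0 at *
  generalize v 1 / av v = y1 at *
  generalize v 2 / av v = y2 at *
  generalize v 3 / av v = y3 at *
  have h := mul_nonneg hD (show 0 ≤ (y0 - 1 - a) ^ 2 + (y1 - 1 - b) ^ 2 + (y2 - 1 - c) ^ 2
    + (y3 - 1 - d) ^ 2 by positivity)
  have h' : av v * (a + b + c + d) = 0 := by rw [hw, mul_zero]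
  rw [k0, k1, k2, k3]
  nlinarith

noncomputable def Lw (t : ℝ) (x : V) (a b c d : ℝ) : ℝ :=
  (x 0 * a * (t * (x 0 - 1) + (a - 1)) + x 1 * b * (t * (x 1 - 1) + (b - 1))
      + x 2 * c * (t * (x 2 - 1) + (c - 1)) + x 3 * d * (t * (x 3 - 1) + (d - 1))) / 2
    - (x 0 * a + x 1 * b + x 2 * c + x 3 * d) / 4 * (((t * (x 0 - 1) + (a - 1)) ^ 2
      + (t * (x 1 - 1) + (b - 1)) ^ 2 + (t * (x 2 - 1) + (c - 1)) ^ 2
      + (t * (x 3 - 1) + (d - 1)) ^ 2) / 4)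

theorem cs4 (a b c d e f g h : ℝ) : (a * e + b * f + c * g + d * h) ^ 2 ≤
    (a ^ 2 + b ^ 2 + c ^ 2 + d ^ 2) * (e ^ 2 + f ^ 2 + g ^ 2 + h ^ 2) := by
  nlinarith [sq_nonneg (a * f - b * e), sq_nonneg (a * g - c * e), sq_nonneg (a * h - d * e),
    sq_nonneg (b * g - c * f), sq_nonneg (b * h - d * f), sq_nonneg (c * h - d * g)]

theorem Lw_avg {t : ℝ} (ht : 0 ≤ t) {x y : V} (hx : Dl x) (hy : Dl y) :
    (2 * t - t ^ 2) * fa x + (1 - 2 * t * fa x) * fa y ≤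
    1 / 4 * (Lw t x (y 0) (y 1) (y 2) (y 3) + Lw t x (y 1) (y 0) (y 3) (y 2)
        + Lw t x (y 2) (y 3) (y 0) (y 1) + Lw t x (y 3) (y 2) (y 1) (y 0)) := by
  have e : x 3 = 4 - x 0 - x 1 - x 2 := by linarith [hx.2]
  have e' : y 3 = 4 - y 0 - y 1 - y 2 := by linarith [hy.2]
  have c0 := mul_le_mul_of_nonneg_left (cs4 (x 0 - 1) (x 1 - 1) (x 2 - 1) (x 3 - 1)
    (y 0 - 1) (y 1 - 1) (y 2 - 1) (y 3 - 1)) ht
  have c1 := mul_le_mul_of_nonneg_left (cs4 (x 0 - 1) (x 1 - 1) (x 2 - 1) (x 3 - 1)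
    (y 1 - 1) (y 0 - 1) (y 3 - 1) (y 2 - 1)) ht
  have c2 := mul_le_mul_of_nonneg_left (cs4 (x 0 - 1) (x 1 - 1) (x 2 - 1) (x 3 - 1)
    (y 2 - 1) (y 3 - 1) (y 0 - 1) (y 1 - 1)) ht
  have c3 := mul_le_mul_of_nonneg_left (cs4 (x 0 - 1) (x 1 - 1) (x 2 - 1) (x 3 - 1)
    (y 3 - 1) (y 2 - 1) (y 1 - 1) (y 0 - 1)) ht
  unfold Lw fa
  simp only [Fin.sum_univ_four]
  rw [e, e'] at *
  linarith

theorem star_fa_ge (T U : St) {t : ℝ} (ht : 0 ≤ t) :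
    (2 * t - t ^ 2) * T.E fa + U.E fa - 2 * t * (T.E fa * U.E fa) ≤ (T.star U).E fa := by
  have key : ∀ x, Dl x → U.E fa + (2 * t - t ^ 2 - 2 * t * U.E fa) * fa x ≤
      U.E (fun y => hom fa (x * y)) := by
    intro x hx
    have hc : Continuous fun y : V => 1 / 4 * (Lw t x (y 0) (y 1) (y 2) (y 3)
        + Lw t x (y 1) (y 0) (y 3) (y 2) + Lw t x (y 2) (y 3) (y 0) (y 1)
        + Lw t x (y 3) (y 2) (y 1) (y 0)) := by unfold Lw; fun_prop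
    have hb : Bd fun y : V => Lw t x (y 0) (y 1) (y 2) (y 3) :=
      Bd.of_cont (by unfold Lw; fun_prop)
    have h1 : U.E (fun y => Lw t x (y 0) (y 1) (y 2) (y 3)) ≤ U.E (fun y => hom fa (x * y)) :=
      U.mono _ _ hb (bd_fa.homl hx) fun y hy => hom_fa_ge (mul_nn hx.1 hy.1) (by
        have a := hx.2
        have b := hy.2
        have c : t * (x 0 + x 1 + x 2 + x 3) = t * 4 := by rw [a]
        linarith)
    have h2 := U.sym4 (Lw t x) hb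
    have h4 := U.mono _ _ ((Bd.const ((2 * t - t ^ 2) * fa x)).add
      (bd_fa.cmul (1 - 2 * t * fa x))) (Bd.of_cont hc) (fun y hy => Lw_avg ht hx hy)
    rw [← h2, U.add _ _ (Bd.const _) (bd_fa.cmul _), U.const, U.cmul _ _ bd_fa] at h4
    linarith
  have h5 := T.mono _ _ ((Bd.const _).add (bd_fa.cmul _)) (U.bd_inner bd_fa) key
  rw [T.add _ _ (Bd.const _) (bd_fa.cmul _), T.const, T.cmul _ _ bd_fa] at h5
  change _ ≤ T.E _
  linarith

theorem fa_le_tv {x : V} (hx : Dl x) : 1 / 6 * fa x ≤ tv x := by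
  have key : ∀ i, (x i - 1) ^ 2 ≤ 12 * |x i / 4 - 1 / 4| := fun i => by
    have a := hx.1 i
    have b := hx.le3 i
    rcases le_total (x i) 1 with h | h
    · rw [abs_of_nonpos (by linarith)]; nlinarith
    · rw [abs_of_nonneg (by linarith)]; nlinarith
  unfold tv fa
  rw [Fin.sum_univ_four, Fin.sum_univ_four]
  linarith [key 0, key 1, key 2, key 3]

theorem init_fa : St.init.E fa = 3 := by
  change ∑ j, 1 / 4 * fa (St.vtx j) = 3
  simp [Fin.sum_univ_four, fa, St.vtx]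
  norm_num

theorem adv4 {l : ℝ} (h0 : 0 ≤ l) (h1 : l ≤ 1) {p : ℕ → ℝ} (hp : ∀ k, 0 ≤ p k)
    (hs : HasSum p 1) (n : ℕ) : (St.seq l h0 h1 p hp hs n).E tv = adv 4 l p n := by
  rw [← ((rep_lik h0 h1 hp hs n).2 tv bd_tv).tsum_eq]
  refine tsum_congr fun o => ?_
  simp only [hom, tv, post, marg_eq]
  congr 2
  refine Finset.sum_congr rfl fun i _ => ?_
  congr 1
  push_cast
  ring

theorem marg4 {l : ℝ} (h0 : 0 ≤ l) (h1 : l ≤ 1) {p : ℕ → ℝ} (hp : ∀ k, 0 ≤ p k)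
    (hs : HasSum p 1) (n : ℕ) : HasSum (marg 4 l p n) 1 := by
  have := (rep_lik h0 h1 hp hs n).av
  simpa only [← marg_eq] using this

theorem ks4 {l : ℝ} (h0 : 0 ≤ l) (h1 : l ≤ 1) {p : ℕ → ℝ} (hp : ∀ k, 0 ≤ p k)
    (hs : HasSum p 1) {d : ℝ} (hd : HasSum (fun k : ℕ => p k * k) d) (hKS : 1 < d * l ^ 2) :
    ¬ Tendsto (adv 4 l p) atTop (𝓝 0) := by
  obtain ⟨z, z0, z1, hz⟩ := ks_abs hp hd (l := l) (by nlinarith) hKS
  have h2 : ∀ n, z ≤ (St.seq l h0 h1 p hp hs n).E fa := by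
    intro n
    induction n with
    | zero => exact (z1.trans (by norm_num)).trans init_fa.ge
    | succ n ih =>
      refine hz _ _ (St.summable_mix hp hs (St.pow _) bd_fa).hasSum (fun k => E_fa_nonneg _)
        fun k => ks_step (by positivity) ?_ fun r hr => star_fa_ge _ _ hr
      rw [chan_fa]
      exact mul_le_mul_of_nonneg_left ih (sq_nonneg l)
  intro h
  have h3 : 1 / 6 * z ≤ 0 := ge_of_tendsto' h fun n => by
    rw [← adv4 h0 h1 hp hs n]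
    have := (St.seq l h0 h1 p hp hs n).mono _ _ (bd_fa.cmul (1 / 6)) bd_tv fun x hx => fa_le_tv hx
    rw [St.cmul _ _ _ bd_fa] at this
    linarith [h2 n]
  linarith

end Vale.Agent.P154.Q4
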