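import Vale.Agent.P154.Orb4
import Vale.Agent.P154.EA
import Vale.Agent.P154.EB

namespace Vale.Agent.P154.Q4

theorem s0_val {x : V} (hx : Dl x) : pev (sym 0) x = 4 := by
  rw [pev_sym0, Fin.sum_univ_four, hx.2]

theorem x3_eq {x : V} (hx : Dl x) : x 3 = 4 - x 0 - x 1 - x 2 := by linarith [hx.2]

theorem s2_val {x : V} (hx : Dl x) : pev (sym 2) x = 16 * fa x := by
  simp only [pev_sym2, fa, Fin.sum_univ_four, x3_eq hx]; ring

theorem s3_val {x : V} (hx : Dl x) : pev (sym 3) x = 256 * fp x := by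
  have := pev_sym3 0 x
  simp only [zero_add] at this
  simp only [this, fp, Fin.sum_univ_four, x3_eq hx]; ring

theorem m3_val {x : V} (hx : Dl x) : pev m3 x = 256 * fm x := by
  simp only [m3, pev, mev, fm, Fin.sum_univ_four, x3_eq hx]; push_cast; ring

theorem val_v1 (S : St) : val S v1 = 4 ^ 8 := by
  rw [isVec_val v1_ok, ← S.const (4 ^ 8)]
  refine S.congr (bd_ps _ _) fun x hx => ?_
  simp only [symv, s0_val hx, pev, mev]; norm_num

theorem val_va (S : St) : val S va = 4 ^ 8 * S.E fa := by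
  rw [isVec_val va_ok, ← S.cmul _ _ bd_fa]
  refine S.congr (bd_ps _ _) fun x hx => ?_
  simp only [symv, s0_val hx, s2_val hx, pev, mev]; push_cast; ring

theorem val_vaa (S : St) : val S vaa = 4 ^ 8 * S.E fun x => fa x ^ 2 := by
  rw [isVec_val vaa_ok, ← S.cmul _ _ bd_faa]
  refine S.congr (bd_ps _ _) fun x hx => ?_
  simp only [symv, s0_val hx, s2_val hx, pev, mev]; push_cast; ring

theorem val_vpsi (S : St) : val S vpsi = 4 ^ 9 * S.E psi := by
  rw [isVec_val vpsi_ok, ← S.cmul _ _ bd_psi]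
  refine S.congr (bd_ps _ _) fun x hx => ?_
  simp only [symv, ppsi, pev_tmul, pev_pmul, s0_val hx, s2_val hx, s3_val hx, m3_val hx, pev, mev,
    psi]
  push_cast; ring

theorem fa_perm (x : V) (τ : Pm) : fa (x ∘ τ) = fa x := by
  simp only [fa, Function.comp, Equiv.sum_comp τ fun i => (x i - 1) ^ 2]

theorem psi_perm (x : V) (τ : Pm) : psi (x ∘ τ) = psi x := by
  simp only [psi, fa_perm, fm, fp, Function.comp, Equiv.sum_comp τ fun i => (x i - 1) ^ 3,
    Equiv.sum_comp τ fun i => (x i - 1) ^ 4]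

theorem orb_inv {F : V → ℝ} (h : ∀ (x : V) (τ : Pm), F (x ∘ τ) = F x) {z : V} (hz : Dl z) :
    (orb z hz).E F = F z := by
  simp only [orb, h]
  rw [Finset.sum_const, card_Pm, nsmul_eq_mul]; push_cast; ring

theorem val_vsm (S : St) (c : ℤ) (v : List ℤ) : val S (vsm c v) = c * val S v := dZ_vsm c v _

theorem key : Key := by
  have kA : (0 : ℝ) < kapA := by unfold kapA; positivity
  have kB : (0 : ℝ) < kapB := by unfold kapB; positivity
  have gA : (0 : ℝ) < gamA := by unfold gamA; positivity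
  refine ⟨gamA / kapA, div_pos gA kA, fun S T hS hT => ?_⟩
  have hS' : 0 ≤ val S vpsi := by rw [val_vpsi]; positivity
  have hT' : 0 ≤ val T vpsi := by rw [val_vpsi]; positivity
  constructor
  · have h := cert fsB_ok wsB_ok cI_B cII_B (F := fun x => -(kapB : ℝ) * 4 ^ 9 * psi x)
      (bd_psi.cmul _) (fun z hz => by
        rw [val_vsm, val_vpsi, orb_inv psi_perm]; push_cast; ring) S T hS' hT'
    rw [St.cmul _ _ _ bd_psi, dM_nil] at h
    by_contra hh
    have := mul_pos kB (neg_pos.2 (not_le.1 hh))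
    linarith
  · have h := cert fsA_ok wsA_ok cI_A cII_A (F := fun x => (kapA : ℝ) * 4 ^ 8 * fa x)
      (bd_fa.cmul _) (fun z hz => by
        rw [val_vsm, val_va, orb_inv fa_perm]; push_cast; ring) S T hS' hT'
    have e : ∀ (U : St) (v : List ℤ), dZ v (momK U K8) = val U v := fun _ _ => rfl
    rw [St.cmul _ _ _ bd_fa] at h
    simp only [tgA, dM_mad, dM_outer, e, val_vsm, val_v1, val_va, val_vaa] at h
    push_cast at h
    refine le_of_mul_le_mul_left ?_ kA
    have e2 : ∀ t : ℝ, (kapA : ℝ) * (gamA / kapA * t) = gamA * t := fun t => by field_simp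
    rw [mul_sub, e2]
    linarith

end Vale.Agent.P154.Q4
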