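import Vale.Agent.P154.Phi3
import Vale.Agent.P154.EH

namespace Vale.Agent.P154.Q3

theorem keyH (h : -1 / 2 ≤ -(1 / 2 : ℝ)) (h1 : -(1 / 2 : ℝ) ≤ 1) : KeyP (1 / 2) h h1 phi 3 := by
  have := (cert_key (C := certH) (by norm_num [certH]) (by norm_num [certH]) (by norm_num [certH])
    (by norm_num [certH]) (by norm_num [certH]) fsH_ok wsH_ok gsH_ok cI_H cII_H cIII_H).keyP
  convert this using 1 <;> norm_num [certH]

end Vale.Agent.P154.Q3
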