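import Vale.Agent.P154.PhiN
import Vale.Agent.P154.EJ

namespace Vale.Agent.P154.Q3

theorem keyJ (h : -1 / 2 ≤ -(1 / 2 : ℝ)) (h1 : -(1 / 2 : ℝ) ≤ 1) : KeyP (1 / 2) h h1 phi 6 := by
  have := (cert_key (C := certJ) (by norm_num [certJ]) (by norm_num [certJ]) (by norm_num [certJ])
    (by norm_num [certJ]) (by norm_num [certJ]) fsJ_ok wsJ_ok gsJ_ok cI_J cII_J cIII_J).keyP
  convert this using 1 <;> norm_num [certJ]

end Vale.Agent.P154.Q3
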