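import Vale.Agent.P154.PhiN
import Vale.Agent.P154.EK

namespace Vale.Agent.P154.Q3

theorem keyK (h : -1 / 2 ≤ -(2 / 9 : ℝ)) (h1 : -(2 / 9 : ℝ) ≤ 1) : KeyN (2 / 9) h h1 := by
  have := (cert_key (C := certK) (by norm_num [certK]) (by norm_num [certK]) (by norm_num [certK])
    (by norm_num [certK]) (by norm_num [certK]) fsK_ok wsK_ok gsK_ok cI_K cII_K cIII_K).keyN
  convert this using 1 <;> norm_num [certK]

end Vale.Agent.P154.Q3
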