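import Vale.Agent.P154.PhiN
import Vale.Agent.P154.EL

namespace Vale.Agent.P154.Q3

theorem keyL (h : -1 / 2 ≤ -(1 / 3 : ℝ)) (h1 : -(1 / 3 : ℝ) ≤ 1) : KeyP (1 / 3) h h1 phi 17 := by
  have := (cert_key (C := certL) (by norm_num [certL]) (by norm_num [certL]) (by norm_num [certL])
    (by norm_num [certL]) (by norm_num [certL]) fsL_ok wsL_ok gsL_ok cI_L cII_L cIII_L).keyP
  convert this using 1 <;> norm_num [certL]

end Vale.Agent.P154.Q3
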