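import Vale.Agent.P154.PhiN
import Vale.Agent.P154.EM

namespace Vale.Agent.P154.Q3

theorem keyM (h : -1 / 2 ≤ -(2 / 5 : ℝ)) (h1 : -(2 / 5 : ℝ) ≤ 1) : KeyP (2 / 5) h h1 phi 11 := by
  have := (cert_key (C := certM) (by norm_num [certM]) (by norm_num [certM]) (by norm_num [certM])
    (by norm_num [certM]) (by norm_num [certM]) fsM_ok wsM_ok gsM_ok cI_M cII_M cIII_M).keyP
  convert this using 1 <;> norm_num [certM]

end Vale.Agent.P154.Q3
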