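import Vale.Agent.P154.PhiN
import Vale.Agent.P154.EQ

namespace Vale.Agent.P154.Q3

theorem keyQ (h : -1 / 2 ≤ -(1 / 4 : ℝ)) (h1 : -(1 / 4 : ℝ) ≤ 1) : KeyP (1 / 4) h h1 phi 45 := by
  have := (cert_key (C := certQ) (by norm_num [certQ]) (by norm_num [certQ]) (by norm_num [certQ])
    (by norm_num [certQ]) (by norm_num [certQ]) fsQ_ok wsQ_ok gsQ_ok cI_Q cII_Q cIII_Q).keyP
  convert this using 1 <;> norm_num [certQ]

end Vale.Agent.P154.Q3
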