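import Vale.Agent.P154.PhiN
import Vale.Agent.P154.ET

namespace Vale.Agent.P154.Q3

theorem keyT (h : -1 / 2 ≤ -(3 / 10 : ℝ)) (h1 : -(3 / 10 : ℝ) ≤ 1) : KeyP (3 / 10) h h1 phi 22 := by
  have := (cert_key (C := certT) (by norm_num [certT]) (by norm_num [certT]) (by norm_num [certT])
    (by norm_num [certT]) (by norm_num [certT]) fsT_ok wsT_ok gsT_ok cI_T cII_T cIII_T).keyP
  convert this using 1 <;> norm_num [certT]

end Vale.Agent.P154.Q3
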