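import Vale.Agent.P154.Lin4
import Vale.Agent.P154.Fn4

namespace Vale.Agent.P154.Q4

abbrev Pm := Equiv.Perm (Fin 4)

theorem card_Pm : (Finset.univ : Finset Pm).card = 24 := by
  rw [Finset.card_univ, Fintype.card_perm]; rfl

noncomputable def orb (z : V) (hz : Dl z) : St where
  E g := (∑ τ : Pm, g (z ∘ τ)) / 24
  mono _ _ _ _ h := div_le_div_of_nonneg_right
    (Finset.sum_le_sum fun τ _ => h _ (hz.perm τ)) (by norm_num)
  add _ _ _ _ := by rw [Finset.sum_add_distrib]; ring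
  cmul _ _ _ := by rw [← Finset.mul_sum]; ring
  one := by rw [Finset.sum_const, card_Pm]; norm_num
  sym σ f _ := by
    congr 1
    exact Equiv.sum_comp (Equiv.mulRight σ) fun τ : Pm => f (z ∘ τ)

theorem St.sum (S : St) {ι : Type} (s : Finset ι) (f : ι → V → ℝ) (hf : ∀ i, Continuous (f i)) :
    S.E (fun x => ∑ i ∈ s, f i x) = ∑ i ∈ s, S.E (f i) := by
  classical
  induction s using Finset.induction_on with
  | empty => simpa using S.const 0
  | insert a s ha ih =>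
    simp only [Finset.sum_insert ha]
    rw [S.add _ _ (Bd.of_cont (hf a)) (Bd.of_cont (continuous_finsetSum _ fun i _ => hf i)), ih]

theorem cont_perm {f : V → ℝ} (hf : Continuous f) (τ : Pm) : Continuous fun x : V => f (x ∘ τ) :=
  hf.comp (continuous_pi fun i => continuous_apply (τ i))

theorem St.avg (S : St) (f : Pm → V → ℝ) (hf : ∀ τ, Continuous (f τ)) :
    S.E (fun x => ∑ τ : Pm, f τ (x ∘ τ)) = ∑ τ : Pm, S.E (f τ) := by
  rw [S.sum _ (fun τ x => f τ (x ∘ τ)) fun τ => cont_perm (hf τ) τ]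
  exact Finset.sum_congr rfl fun τ _ => S.sym τ _ (Bd.of_cont (hf τ))

theorem amgm3 {a b c g : ℝ} (ha : 0 ≤ a) (hb : 0 ≤ b) (hc : 0 ≤ c) (h : g ^ 3 = a * b * c) :
    3 * g ≤ a + b + c := by
  refine le_of_pow_le_pow_left₀ (n := 3) (by norm_num) (by positivity) ?_
  rw [mul_pow, h]
  nlinarith [mul_nonneg ha (sq_nonneg (b - c)), mul_nonneg hb (sq_nonneg (a - c)),
    mul_nonneg hc (sq_nonneg (a - b)), mul_nonneg ha (sq_nonneg (a - b)),
    mul_nonneg hb (sq_nonneg (a - b)), mul_nonneg ha (sq_nonneg (a - c)),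
    mul_nonneg hc (sq_nonneg (a - c)), mul_nonneg hb (sq_nonneg (b - c)),
    mul_nonneg hc (sq_nonneg (b - c))]

theorem holder {x y : V} (hx : Dl x) (hy : Dl y) :
    4 * av (x * y) ^ 3 ≤ ∑ i, (x i * y i) ^ 2 := by
  have hD := av_nonneg (mul_nn hx.1 hy.1)
  have e : x 0 * y 0 + x 1 * y 1 + x 2 * y 2 + x 3 * y 3 = 4 * av (x * y) := by
    simp only [av, Pi.mul_apply]; ring
  generalize av (x * y) = D at hD e
  have k : ∀ i, 3 * (x i * y i * D ^ 2) ≤ (x i * y i) ^ 2 + D ^ 3 * x i + D ^ 3 * y i := fun i => by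
    have := hx.1 i; have := hy.1 i
    exact amgm3 (by positivity) (by positivity) (by positivity) (by ring)
  have e1 : D ^ 3 * (x 0 + x 1 + x 2 + x 3) = D ^ 3 * 4 := by rw [hx.2]
  have e2 : D ^ 3 * (y 0 + y 1 + y 2 + y 3) = D ^ 3 * 4 := by rw [hy.2]
  have e3 : D ^ 2 * (x 0 * y 0 + x 1 * y 1 + x 2 * y 2 + x 3 * y 3) = D ^ 2 * (4 * D) := by rw [e]
  rw [Fin.sum_univ_four]
  linarith [k 0, k 1, k 2, k 3]

theorem geo {x y : V} (hx : Dl x) (hy : Dl y) (F : V → ℝ) :
    ∃ (D : ℝ) (z : V), Dl z ∧ 0 ≤ D ∧ D ≤ 4 ∧ 4 * D ≤ ∑ i, z i ^ 2 ∧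
      x * y = (fun i => D * z i) ∧ hom F (x * y) = D * F z := by
  have hv := mul_nn hx.1 hy.1
  rcases eq_or_ne (av (x * y)) 0 with h0 | h0
  · refine ⟨0, fun _ => 1, St.Dl_one, le_rfl, by norm_num, by simp, ?_, by simp [hom, h0]⟩
    funext i; rw [eq_zero_of_av hv h0 i, zero_mul]
  · have hD := lt_of_le_of_ne (av_nonneg hv) h0.symm
    refine ⟨av (x * y), _, Dl_norm hv h0, hD.le, ?_, ?_, ?_, rfl⟩
    · have := av_mul_le hx.1 hy.1
      rwa [hx.av, hy.av, mul_one, mul_one] at this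
    · have h := holder hx hy
      simp only [div_pow, ← Finset.sum_div, Pi.mul_apply]
      rw [le_div_iff₀ (by positivity)]
      linarith
    · funext i; field_simp

theorem mev_smul (g : Mo) (D : ℝ) (z : V) : mev g (fun i => D * z i) = D ^ dgm g * mev g z := by
  obtain ⟨a, b, c, d⟩ := g
  simp only [mev, dgm, mul_pow, pow_add]; ring

theorem mev_mul (g : Mo) (x y : V) : mev g (x * y) = mev g x * mev g y := by
  simp only [mev, Pi.mul_apply, mul_pow]; ring

theorem mP1_orb {z : V} (hz : Dl z) (D : ℝ) : ∀ (ks : List ℤ) (l : List (Mo × List ℤ)),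
    l.all okT = true → 24 * dM (mP1 ks l) (pw D) (momK (orb z hz) K8) =
      -4 ^ 8 * ∑ τ : Pm, pev (pP ks l) ((fun i => D * z i) ∘ τ)
  | [], _, _ => by simp [mP1, pP, dM_nil, pev]
  | _ :: _, [], _ => by simp [mP1, pP, dM_nil, pev]
  | k :: ks, (g, t) :: l, h => by
      simp only [List.all_cons, Bool.and_eq_true] at h
      have h1 : dZ t (momK (orb z hz) K8) = 4 ^ 8 * ((∑ τ : Pm, mev g (z ∘ τ)) / 24) :=
        okT_val h.1 (orb z hz)
      have h2 : ∀ τ : Pm, mev g ((fun i => D * z i) ∘ τ) = D ^ dgm g * mev g (z ∘ τ) :=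
        fun τ => mev_smul g D (z ∘ τ)
      simp only [mP1, pP, pev, dM_mad, dM_rep, dZ_vsm, mul_add, mP1_orb hz D ks l h.2, h1, h2,
        Finset.sum_add_distrib, ← Finset.mul_sum]
      push_cast; ring

noncomputable def rev (T : St) : Po → V → ℝ
  | [], _ => 0
  | t :: p, x => t.1 * T.E (mev t.2) * mev t.2 x + rev T p x

theorem rev_cont (T : St) : ∀ p : Po, Continuous (rev T p)
  | [] => continuous_const
  | t :: p => (continuous_const.mul (mev_cont t.2)).add (rev_cont T p)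

theorem pev_mul_cont (p : Po) (x : V) : Continuous fun y : V => pev p (x * y) :=
  (pev_cont p).comp (continuous_const.mul continuous_id)

theorem E_pev_mul (T : St) (x : V) : ∀ p : Po, T.E (fun y => pev p (x * y)) = rev T p x
  | [] => T.const 0
  | t :: p => by
      have b := Bd.of_cont (mev_cont t.2)
      simp only [pev, rev, mev_mul, ← mul_assoc]
      rw [T.add _ _ (b.cmul _) (Bd.of_cont (pev_mul_cont p x)), T.cmul _ _ b, E_pev_mul T x p]
      ring

theorem mP2_val (S T : St) : ∀ (ks : List ℤ) (l : List (Mo × List ℤ)), l.all okT = true →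
    dM (mP2 ks l) (momK S K8) (momK T K8) = 4 ^ 16 * S.E (rev T (pP ks l))
  | [], _, _ => by simp only [mP2, pP, dM_nil]; rw [show rev T [] = fun _ => 0 from rfl, S.const]; simp
  | _ :: _, [], _ => by
      simp only [mP2, pP, dM_nil]; rw [show rev T [] = fun _ => 0 from rfl, S.const]; simp
  | k :: ks, (g, t) :: l, h => by
      simp only [List.all_cons, Bool.and_eq_true] at h
      have h1 : dZ t (momK S K8) = _ := okT_val h.1 S
      have h2 : dZ t (momK T K8) = _ := okT_val h.1 T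
      have b := Bd.of_cont (mev_cont g)
      have e : rev T (pP (k :: ks) ((g, t) :: l)) =
        fun x => k * T.E (mev g) * mev g x + rev T (pP ks l) x := rfl
      rw [mP2, dM_mad, dM_outer, dZ_vsm, h1, h2, mP2_val S T ks l h.2, e,
        S.add _ _ (b.cmul _) (Bd.of_cont (rev_cont T _)), S.cmul _ _ b]
      ring

theorem okW_le {f : Wac} (h : okW f = true) {z : V} (hz : Dl z) {D : ℝ}
    (hD : 4 * D ≤ ∑ i, z i ^ 2) : D * val (orb z hz) f.v0 ≤ 4 * val (orb z hz) f.vQ := by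
  simp only [okW, Bool.and_eq_true] at h
  rw [isVec_val h.1, isVec_val h.2]
  simp only [orb, ← mul_div_assoc, Finset.mul_sum]
  refine div_le_div_of_nonneg_right (Finset.sum_le_sum fun τ _ => ?_) (by norm_num)
  have hw := hz.perm τ
  have h1 := mul_nonneg (base_nonneg f.g f.q hw.1) (symv_nonneg hw.1 f.hs)
  have h2 : pev (sym 1) (z ∘ τ) = ∑ i, z i ^ 2 := by rw [(sy_sym 1).2, pev_sym1]
  have h3 : pev (sym 0) (z ∘ τ) = 4 := by rw [pev_sym0, Fin.sum_univ_four, hw.2]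
  simp only [symv, h2, h3]
  nlinarith [mul_nonneg h1 (sub_nonneg.2 hD)]

theorem ws_le {z : V} (hz : Dl z) {D : ℝ} (hD : 4 * D ≤ ∑ i, z i ^ 2) :
    ∀ (ws : List Wac), ws.all okW = true → ∀ i : ℕ,
    D * dZ ((ws.map Wac.v0).getD i []) (momK (orb z hz) K8) ≤
      4 * dZ ((ws.map Wac.vQ).getD i []) (momK (orb z hz) K8)
  | [], _, _ => by simp [dZ_nil]
  | f :: fs, h, 0 => by
      simp only [List.all_cons, Bool.and_eq_true] at h
      exact okW_le h.1 hz hD
  | f :: fs, h, i + 1 => by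
      simp only [List.all_cons, Bool.and_eq_true] at h
      exact ws_le hz hD fs h.2 i

theorem cI_pt {k vF : List ℤ} {fs : List Fac} {ws : List Wac} {t1 t4} (hf : fs.all okF = true)
    (hw : ws.all okW = true) (h : cI k vF fs ws t1 t4 = true) {F : V → ℝ}
    (hF : ∀ z hz, val (orb z hz) vF = F z) {x y : V} (hx : Dl x) (hy : Dl y) :
    hom F (x * y) ≤ 4 ^ 8 / 24 * ∑ τ : Pm, pev (pP k TH) ((x ∘ τ) * (y ∘ τ)) := by
  obtain ⟨D, z, hz, h0, h4, hQ, e, e'⟩ := geo hx hy F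
  have h1 := dM_zero (momK (orb z hz) K8) _ (pw D) h
  have h2 := mP1_orb hz D k TH TH_ok
  have h3 := mT1_nonneg (fs_nonneg (orb z hz) fs hf) h0 h4 t1
  have h5 := mT4_nonneg (ws_le hz hQ ws hw) h0 h4 t4
  have h6 : dZ vF (momK (orb z hz) K8) = F z := hF z hz
  rw [dM_mad, dM_mad, dM_mad, dM_cons_pw, dM_cons_pw, dM_nil, dZ_nil, h6] at h1
  rw [← e] at h2
  have e2 : ∀ τ : Pm, (x ∘ τ) * (y ∘ τ) = (x * y) ∘ τ := fun τ => rfl
  simp only [e2, e']
  linarith

theorem cert {k vF : List ℤ} {fs : List Fac} {ws : List Wac} {t1 t4 t0} {M : List (List ℤ)}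
    (hf : fs.all okF = true) (hw : ws.all okW = true) (h : cI k vF fs ws t1 t4 = true)
    (h' : cII k M fs t0 = true) {F : V → ℝ} (hb : Bd F) (hF : ∀ z hz, val (orb z hz) vF = F z)
    (S T : St) (hS : 0 ≤ val S vpsi) (hT : 0 ≤ val T vpsi) :
    4 ^ 8 * (S.star T).E F ≤ -dM M (momK S K8) (momK T K8) := by
  have hv : ∀ U : St, 0 ≤ val U vpsi → ∀ i : ℕ,
      0 ≤ dZ ((vpsi :: fs.map Fac.v).getD i []) (momK U K8) := fun U hU i => by
    cases i with
    | zero => exact hU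
    | succ i => exact fs_nonneg U fs hf i
  have h1 := dM_zero (momK T K8) _ (momK S K8) h'
  have h2 := mT0_nonneg (hv S hS) (hv T hT) t0
  rw [dM_mad, dM_mad, mP2_val S T k TH TH_ok] at h1
  have c1 : Continuous fun x : V => ∑ τ : Pm, rev T (pP k TH) (x ∘ τ) :=
    continuous_finsetSum _ fun τ _ => cont_perm (rev_cont T _) τ
  have h3 : (S.star T).E F ≤ S.E fun x => 4 ^ 8 / 24 * ∑ τ : Pm, rev T (pP k TH) (x ∘ τ) := by
    refine S.mono _ _ (T.bd_inner hb) ((Bd.of_cont c1).cmul _) fun x hx => ?_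
    have c2 : Continuous fun y : V => ∑ τ : Pm, pev (pP k TH) ((x ∘ τ) * (y ∘ τ)) :=
      continuous_finsetSum _ fun τ _ => cont_perm (pev_mul_cont _ (x ∘ τ)) τ
    refine (T.mono _ _ (hb.homl hx) ((Bd.of_cont c2).cmul _)
      fun y hy => cI_pt hf hw h hF hx hy).trans (le_of_eq ?_)
    rw [T.cmul _ _ (Bd.of_cont c2),
      T.avg (fun τ y => pev (pP k TH) ((x ∘ τ) * y)) fun τ => pev_mul_cont _ _]
    simp only [E_pev_mul]
  rw [S.cmul _ _ (Bd.of_cont c1), S.avg (fun _ => rev T (pP k TH)) fun _ => rev_cont T _,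
    Finset.sum_const, card_Pm, nsmul_eq_mul] at h3
  push_cast at h3
  linarith

end Vale.Agent.P154.Q4
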