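import Vale.Agent.P154.Chk3
import Vale.Agent.P154.Orb4

namespace Vale.Agent.P154.Q3

open Q4 (dW dZ addP vadd vsm mad outer isZ lmul comb dM pw dZ_nil dZ_cons dM_nil dM_cons dZ_vadd
  dZ_vsm dM_mad dM_outer dM_zero dZ_cons_pw dM_cons_pw dZ_lmul dM_rep comb_nonneg amgm3)

theorem sg_nonneg {lo hi : List ℤ} {D : ℝ} (h0 : 0 ≤ D) (h1 : 0 ≤ dZ lo (pw D))
    (h2 : 0 ≤ dZ hi (pw D)) (w : ℕ) (q : List ℤ) : 0 ≤ dZ (sg lo hi w q) (pw D) := by
  rw [sg, dZ_lmul, dZ_lmul]
  refine mul_nonneg ?_ (mul_self_nonneg _)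
  match w with
  | 0 => simp [wL, dZ_cons_pw, dZ_nil]
  | 1 => exact h1
  | 2 => exact h2
  | 3 => rw [wL, dZ_lmul]; exact mul_nonneg h2 h1
  | n + 4 => simp [wL, dZ_cons_pw, dZ_nil, h0]

theorem comb_le {V0 VQ : List (List ℤ)} {b : ℕ → ℝ} {D : ℝ}
    (h : ∀ i, D * dZ (V0.getD i []) b ≤ 3 * dZ (VQ.getD i []) b) :
    ∀ l : List (ℕ × ℕ), D * dZ (comb V0 l) b ≤ 3 * dZ (comb VQ l) b
  | [] => by simp [comb, dZ_nil]
  | (e, i) :: l => by
      simp only [comb, dZ_vadd, dZ_vsm]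
      have h1 := mul_le_mul_of_nonneg_left (h i) (show (0 : ℝ) ≤ ((e : ℤ) : ℝ) by positivity)
      have h2 := comb_le h l
      linarith

theorem mT1_nonneg {lo hi : List ℤ} {VL : List (List ℤ)} {b : ℕ → ℝ}
    (h : ∀ i, 0 ≤ dZ (VL.getD i []) b) {D : ℝ} (h0 : 0 ≤ D) (h1 : 0 ≤ dZ lo (pw D))
    (h2 : 0 ≤ dZ hi (pw D)) : ∀ t, 0 ≤ dM (mT1 lo hi VL t) (pw D) b
  | [] => le_rfl
  | (w, q, l) :: r => by
      rw [mT1, dM_mad, dM_outer]
      exact add_nonneg (mul_nonneg (sg_nonneg h0 h1 h2 w q) (comb_nonneg h l))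
        (mT1_nonneg h h0 h1 h2 r)

theorem mT4_nonneg {lo hi : List ℤ} {V0 VQ : List (List ℤ)} {b : ℕ → ℝ} {D : ℝ}
    (h : ∀ i, D * dZ (V0.getD i []) b ≤ 3 * dZ (VQ.getD i []) b) (h0 : 0 ≤ D)
    (h1 : 0 ≤ dZ lo (pw D)) (h2 : 0 ≤ dZ hi (pw D)) : ∀ t, 0 ≤ dM (mT4 lo hi V0 VQ t) (pw D) b
  | [] => le_rfl
  | (w, q, l) :: r => by
      rw [mT4, dM_mad, dM_mad, dM_cons_pw, dM_outer, dM_outer, dZ_vsm, dZ_vsm, dZ_nil]
      have h3 := mul_nonneg (sg_nonneg h0 h1 h2 w q) (sub_nonneg.2 (comb_le h l))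
      have h4 := mT4_nonneg h h0 h1 h2 r
      push_cast
      nlinarith

theorem mT0_nonneg {VL GX : List (List ℤ)} {a b : ℕ → ℝ} (ha : ∀ i, 0 ≤ dZ (GX.getD i []) a)
    (hb : ∀ i, 0 ≤ dZ (VL.getD i []) b) : ∀ t, 0 ≤ dM (mT0 VL GX t) a b
  | [] => le_rfl
  | (i, l) :: r => by
      rw [mT0, dM_mad, dM_outer]
      exact add_nonneg (mul_nonneg (comb_nonneg ha l) (hb i)) (mT0_nonneg ha hb r)

theorem pev_base (g : Mo) (q : Po) (x : V) : pev (base g q) x = mev g x * pev q x ^ 2 := by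
  simp only [base, pev_pmul, pev_tmul, pev]; push_cast; ring

theorem base_nonneg (g : Mo) (q : Po) {x : V} (h : ∀ i, 0 ≤ x i) : 0 ≤ pev (base g q) x := by
  rw [pev_base]; exact mul_nonneg (mev_nonneg g h) (sq_nonneg _)

theorem bd_ps (p : Po) (hs : List ℕ) : Bd fun x => pev p x * symv hs x :=
  Bd.of_cont ((pev_cont p).mul (sy_symv hs).1)

theorem okF_nonneg {f : Fac} (h : okF f = true) (S : St) : 0 ≤ val S f.v := by
  rw [isVec_val h S]
  exact S.nonneg (bd_ps _ _) fun x hx => mul_nonneg (base_nonneg _ _ hx.1) (symv_nonneg hx.1 _)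

theorem fs_nonneg (S : St) : ∀ (fs : List Fac), fs.all okF = true → ∀ i : ℕ,
    0 ≤ dZ ((fs.map Fac.v).getD i []) (momK S KN)
  | [], _, _ => by simp [dZ_nil]
  | f :: fs, h, 0 => by
      simp only [List.all_cons, Bool.and_eq_true] at h
      exact okF_nonneg h.1 S
  | f :: fs, h, i + 1 => by
      simp only [List.all_cons, Bool.and_eq_true] at h
      exact fs_nonneg S fs h.2 i

theorem symv_rep {x : V} (hx : Dl x) : ∀ n : ℕ, symv (List.replicate n 0) x = 3 ^ n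
  | 0 => by simp [symv]
  | n + 1 => by
      rw [List.replicate_succ, symv, symv_rep hx n, pev_sym0, Fin.sum_univ_three, hx.2]; ring

theorem okT_val {g : Mo} {t : List ℤ} (h : okT (g, t) = true) (S : St) :
    val S t = 3 ^ 12 * S.E (mev g) := by
  simp only [okT, Bool.and_eq_true, Nat.ble_eq] at h
  rw [isVec_val h.2 S, ← S.cmul _ _ (Bd.of_cont (mev_cont g))]
  refine S.congr (bd_ps _ _) fun x hx => ?_
  have e : (3 : ℝ) ^ 12 = 3 ^ dgm g * 3 ^ (12 - dgm g) := by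
    rw [← pow_add, Nat.add_sub_cancel' h.1]
  rw [symv_rep hx, e]; simp only [pev]; push_cast; ring

theorem pev_ins (c : ℤ) (g : Mo) (x : V) : ∀ l : Po, pev (ins c g l) x = c * mev g x + pev l x
  | [] => rfl
  | (a, k) :: l => by
      simp only [ins]
      cases e : meq k g
      · simp only [cond_false, pev, pev_ins c g x l]; ring
      · simp only [cond_true, pev, meq_eq e]; push_cast; ring

theorem pev_cl (x : V) : ∀ p l : Po, pev (cl p l) x = pev p x + pev l x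
  | [], l => by simp [cl, pev]
  | (c, g) :: p, l => by simp only [cl, pev_cl x p, pev_ins, pev]; ring

theorem wt_nonneg {a b : ℤ} {y : V} (hy : Dl y) (h : ∀ i, (b : ℝ) * y i ≤ 3 * a) (w : ℕ) :
    0 ≤ pev (wt a b w) y := by
  have e : (a : ℝ) * (y 0 + y 1 + y 2) = a * 3 := by rw [hy.2]
  have h0 : 0 ≤ pev (om0 a b) y := by
    simp only [om0, pev, mev]; push_cast; linarith [h 0]
  have h1 : 0 ≤ pev (om1 a b) y := by
    simp only [om1, pev, mev]; push_cast; linarith [h 1]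
  have h2 : 0 ≤ pev (om2 a b) y := by
    simp only [om2, pev, mev]; push_cast; linarith [h 2]
  match w with
  | 0 => simp [wt, pev, mev]
  | 1 => exact h0
  | 2 => simp only [wt, pev_cl, pev_pmul, pev, add_zero]; positivity
  | n + 3 => simp only [wt, pev_cl, pev_pmul, pev, add_zero]; positivity

theorem gs_nonneg {a b : ℤ} (S : St) {l : ℝ} (h0 : -1 / 2 ≤ l) (h1 : l ≤ 1)
    (h : ∀ x, Dl x → ∀ i, (b : ℝ) * ch l x i ≤ 3 * a) : ∀ (gs : List Gac),
    gs.all (okG a b) = true → ∀ i : ℕ,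
      0 ≤ dZ ((gs.map Gac.v).getD i []) (momK (S.chanN l h0 h1) KN)
  | [], _, _ => by simp [dZ_nil]
  | f :: fs, k, 0 => by
      simp only [List.all_cons, Bool.and_eq_true] at k
      show 0 ≤ val _ f.v
      rw [isVec_val k.1]
      refine S.nonneg ((bd_ps _ _).chN h0 h1) fun x hx => ?_
      have hy := hx.chN h0 h1
      simp only [pev_pmul]
      exact mul_nonneg (mul_nonneg (wt_nonneg hy (h x hx) _) (mul_self_nonneg _))
        (symv_nonneg hy.1 _)
  | f :: fs, k, i + 1 => by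
      simp only [List.all_cons, Bool.and_eq_true] at k
      exact gs_nonneg S h0 h1 h fs k.2 i

noncomputable def fe : List ℤ → List (ℕ × ℕ × List ℤ) → ℝ → ℝ → ℝ
  | c :: cs, (i, j, _) :: l, A, M => c * (A ^ i * M ^ j) + fe cs l A M
  | _, _, _, _ => 0

noncomputable def FF (cs : List ℤ) (l : List (ℕ × ℕ × List ℤ)) (x : V) : ℝ :=
  fe cs l (2 * ze x) (2 * en x)

theorem FF_cont : ∀ (cs : List ℤ) (l : List (ℕ × ℕ × List ℤ)), Continuous (FF cs l)
  | [], _ => continuous_const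
  | _ :: _, [] => continuous_const
  | c :: cs, (i, j, _) :: l => (continuous_const.mul (((continuous_const.mul ze_cont).pow i).mul
      ((continuous_const.mul en_cont).pow j))).add (FF_cont cs l)

theorem x2_eq {x : V} (hx : Dl x) : x 2 = 3 - x 0 - x 1 := by linarith [hx.2]

theorem pev_mpw {x : V} (hx : Dl x) : ∀ n : ℕ, pev (mpw n) x = (27 * (2 * en x)) ^ n
  | 0 => by simp [mpw, pev, mev]
  | n + 1 => by
      have e : pev m3 x = 27 * (2 * en x) := by
        simp only [m3, pev, mev, en, x2_eq hx]; push_cast; ring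
      rw [mpw, pev_pmul, pev_mpw hx n, e]; ring

theorem symv_rep2 {x : V} (hx : Dl x) (hs : List ℕ) :
    ∀ n : ℕ, symv (List.replicate n 2 ++ hs) x = (9 * (2 * ze x)) ^ n * symv hs x
  | 0 => by simp
  | n + 1 => by
      have e : pev (sym 2) x = 9 * (2 * ze x) := by
        have := pev_sym2 0 x
        simp only [zero_add] at this
        simp only [this, ze, Fin.sum_univ_three, x2_eq hx]; ring
      rw [List.replicate_succ, List.cons_append, symv, symv_rep2 hx hs n, e]; ring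

theorem okJ_val {i j : ℕ} {v : List ℤ} (h : okJ (i, j, v) = true) (S : St) :
    val S v = 3 ^ 12 * S.E fun x => (2 * ze x) ^ i * (2 * en x) ^ j := by
  simp only [okJ, Bool.and_eq_true, Nat.ble_eq] at h
  have b : Bd fun x => (2 * ze x) ^ i * (2 * en x) ^ j :=
    Bd.of_cont (((continuous_const.mul ze_cont).pow i).mul ((continuous_const.mul en_cont).pow j))
  rw [isVec_val h.2 S, ← S.cmul _ _ b]
  refine S.congr (bd_ps _ _) fun x hx => ?_
  have e : (3 : ℝ) ^ 12 = 3 ^ (2 * i + 3 * j) * 3 ^ (12 - (2 * i + 3 * j)) := by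
    rw [← pow_add, Nat.add_sub_cancel' h.1]
  have e1 : (3 : ℝ) ^ (2 * i + 3 * j) = 9 ^ i * 27 ^ j := by
    rw [pow_add, pow_mul, pow_mul]; norm_num
  rw [symv_rep2 hx, symv_rep hx, pev_mpw hx, e, e1, mul_pow 27, mul_pow 9]
  show _ = _ * ((2 * ze x) ^ i * (2 * en x) ^ j)
  ring

theorem lin_val (S : St) : ∀ (cs : List ℤ) (l : List (ℕ × ℕ × List ℤ)), l.all okJ = true →
    dZ (lin cs l) (momK S KN) = 3 ^ 12 * S.E (FF cs l)
  | [], _, _ => by rw [show FF [] _ = fun _ => 0 from rfl, S.const]; simp [lin, dZ_nil]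
  | _ :: _, [], _ => by rw [show FF _ [] = fun _ => 0 from rfl, S.const]; simp [lin, dZ_nil]
  | c :: cs, (i, j, v) :: l, h => by
      simp only [List.all_cons, Bool.and_eq_true] at h
      have h1 : dZ v (momK S KN) = _ := okJ_val h.1 S
      have b : Bd fun x => (2 * ze x) ^ i * (2 * en x) ^ j :=
        Bd.of_cont (((continuous_const.mul ze_cont).pow i).mul
          ((continuous_const.mul en_cont).pow j))
      have e : FF (c :: cs) ((i, j, v) :: l) =
        fun x => c * ((2 * ze x) ^ i * (2 * en x) ^ j) + FF cs l x := rfl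
      rw [lin, dZ_vadd, dZ_vsm, h1, lin_val S cs l h.2, e,
        S.add _ _ (b.cmul _) (Bd.of_cont (FF_cont cs l)), S.cmul _ _ b]
      ring

theorem fe_okR {p q : ℤ} (hq : (q : ℝ) ≠ 0) (A M : ℝ) : ∀ (cs cs' : List ℤ)
    (l : List (ℕ × ℕ × List ℤ)), okR p q cs cs' l = true →
    fe cs' l ((-(p / q)) ^ 2 * A) ((-(p / q)) ^ 3 * M) = (p / q) ^ 2 * fe cs l A M
  | [], [], _, _ => by simp [fe]
  | [], _ :: _, _, h => by simp [okR] at h
  | _ :: _, [], _, h => by simp [okR] at h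
  | _ :: _, _ :: _, [], h => by simp [okR] at h
  | c :: cs, c' :: cs', (i, j, _) :: l, h => by
      simp only [okR, Bool.and_eq_true, beq_iff_eq] at h
      have h1 : (c' : ℝ) * (-p) ^ (2 * i + 3 * j) * q ^ 2 = c * p ^ 2 * q ^ (2 * i + 3 * j) := by
        exact_mod_cast h.1
      have h2 : (c' : ℝ) * (-(p / q)) ^ (2 * i + 3 * j) = (p / q) ^ 2 * c := by
        rw [← neg_div, div_pow, div_pow]
        field_simp
        linarith
      simp only [fe, fe_okR hq A M cs cs' l h.2, mul_add]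
      rw [← mul_assoc ((p / q : ℝ) ^ 2), ← h2, mul_pow, mul_pow, pow_add, pow_mul, pow_mul]
      ring

theorem ze_ch (l : ℝ) (x : V) : 2 * ze (ch l x) = l ^ 2 * (2 * ze x) := by
  simp only [ze, ch]; ring

theorem en_ch (l : ℝ) (x : V) : 2 * en (ch l x) = l ^ 3 * (2 * en x) := by
  simp only [en, ch]; ring

end Vale.Agent.P154.Q3
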