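import Vale.Agent.P154.Chk4

namespace Vale.Agent.P154.Q4

noncomputable def dM (M : List (List ℤ)) (a b : ℕ → ℝ) : ℝ := dW (fun r => dZ r b) M a

theorem dW_addP {α : Type} (φ : α → ℝ) (f : α → α → α) (h : ∀ x y, φ (f x y) = φ x + φ y) :
    ∀ (xs ys : List α) (w : ℕ → ℝ), dW φ (addP f xs ys) w = dW φ xs w + dW φ ys w
  | [], ys, w => by simp [addP, dW]
  | x :: xs, [], w => by simp [addP, dW]
  | x :: xs, y :: ys, w => by
      simp only [addP, dW, h, dW_addP φ f h xs ys]; ring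

theorem dZ_nil (w : ℕ → ℝ) : dZ [] w = 0 := rfl

theorem dZ_cons (a : ℤ) (v : List ℤ) (w : ℕ → ℝ) :
    dZ (a :: v) w = a * w 0 + dZ v fun n => w (n + 1) := rfl

theorem dM_nil (a b : ℕ → ℝ) : dM [] a b = 0 := rfl

theorem dM_cons (r : List ℤ) (M : List (List ℤ)) (a b : ℕ → ℝ) :
    dM (r :: M) a b = dZ r b * a 0 + dM M (fun n => a (n + 1)) b := rfl

theorem dZ_vadd (u v : List ℤ) (w : ℕ → ℝ) : dZ (vadd u v) w = dZ u w + dZ v w :=
  dW_addP _ _ (fun x y => by push_cast; ring) u v w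

theorem dZ_vsm (c : ℤ) : ∀ (v : List ℤ) (w : ℕ → ℝ), dZ (vsm c v) w = c * dZ v w
  | [], w => by simp [vsm, dZ_nil]
  | a :: v, w => by simp only [vsm, dZ_cons, dZ_vsm c v]; push_cast; ring

theorem dM_mad (M N : List (List ℤ)) (a b : ℕ → ℝ) : dM (mad M N) a b = dM M a b + dM N a b :=
  dW_addP _ _ (fun x y => dZ_vadd x y b) M N a

theorem dM_outer (w : List ℤ) (b : ℕ → ℝ) :
    ∀ (u : List ℤ) (a : ℕ → ℝ), dM (outer w u) a b = dZ u a * dZ w b
  | [], a => by simp [outer, dM_nil, dZ_nil]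
  | c :: u, a => by simp only [outer, dM_cons, dZ_cons, dZ_vsm, dM_outer w b u]; ring

theorem dZ_zero : ∀ (r : List ℤ) (w : ℕ → ℝ), (r.all fun a => a == 0) = true → dZ r w = 0
  | [], _, _ => rfl
  | a :: r, w, h => by
      simp only [List.all_cons, Bool.and_eq_true, beq_iff_eq] at h
      rw [dZ_cons, h.1, dZ_zero r _ h.2]; simp

theorem dM_zero (b : ℕ → ℝ) : ∀ (M : List (List ℤ)) (a : ℕ → ℝ), isZ M = true → dM M a b = 0
  | [], _, _ => rfl
  | r :: M, a, h => by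
      simp only [isZ, List.all_cons, Bool.and_eq_true] at h
      rw [dM_cons, dZ_zero r b h.1, dM_zero b M _ h.2]; simp

theorem dW_mul {α : Type} (φ : α → ℝ) (c : ℝ) :
    ∀ (M : List α) (w : ℕ → ℝ), dW φ M (fun n => c * w n) = c * dW φ M w
  | [], _ => by simp [dW]
  | r :: M, w => by simp only [dW, dW_mul φ c M fun n => w (n + 1)]; ring

noncomputable def pw (D : ℝ) (n : ℕ) : ℝ := D ^ n

theorem pw_succ (D : ℝ) : (fun n => pw D (n + 1)) = fun n => D * pw D n := by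
  funext n; simp only [pw]; ring

theorem dZ_cons_pw (a : ℤ) (v : List ℤ) (D : ℝ) : dZ (a :: v) (pw D) = a + D * dZ v (pw D) := by
  rw [dZ_cons, pw_succ, dZ, dW_mul]; simp [pw, dZ]

theorem dM_cons_pw (r : List ℤ) (M : List (List ℤ)) (D : ℝ) (b : ℕ → ℝ) :
    dM (r :: M) (pw D) b = dZ r b + D * dM M (pw D) b := by
  rw [dM_cons, pw_succ, dM, dW_mul]; simp [pw, dM]

theorem dZ_lmul (q : List ℤ) (D : ℝ) :
    ∀ p : List ℤ, dZ (lmul q p) (pw D) = dZ p (pw D) * dZ q (pw D)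
  | [] => by simp [lmul, dZ_nil]
  | c :: p => by
      simp only [lmul, dZ_vadd, dZ_vsm, dZ_cons_pw, dZ_lmul q D p]; push_cast; ring

theorem sig_nonneg (w : ℕ) (q : List ℤ) {D : ℝ} (h0 : 0 ≤ D) (h4 : D ≤ 4) :
    0 ≤ dZ (sig w q) (pw D) := by
  rw [sig, dZ_lmul, dZ_lmul]
  refine mul_nonneg ?_ (mul_self_nonneg _)
  match w with
  | 0 => simp [wD, dZ_cons_pw, dZ_nil]
  | 1 => simp [wD, dZ_cons_pw, dZ_nil, h0]
  | 2 => simp only [wD, dZ_cons_pw, dZ_nil]; push_cast; linarith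
  | n + 3 =>
    simp only [wD, dZ_cons_pw, dZ_nil]; push_cast
    nlinarith [mul_nonneg h0 (sub_nonneg.2 h4)]

theorem dM_rep (r : List ℤ) (D : ℝ) (b : ℕ → ℝ) :
    ∀ e : ℕ, dM (List.replicate e [] ++ [r]) (pw D) b = D ^ e * dZ r b
  | 0 => by simp [dM_cons_pw, dM_nil]
  | e + 1 => by
      rw [List.replicate_succ, List.cons_append, dM_cons_pw, dM_rep r D b e, dZ_nil]; ring

theorem comb_nonneg {VL : List (List ℤ)} {b : ℕ → ℝ} (h : ∀ i, 0 ≤ dZ (VL.getD i []) b) :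
    ∀ l : List (ℕ × ℕ), 0 ≤ dZ (comb VL l) b
  | [] => le_rfl
  | (e, i) :: l => by
      rw [comb, dZ_vadd, dZ_vsm]
      exact add_nonneg (mul_nonneg (by positivity) (h i)) (comb_nonneg h l)

theorem comb_le {V0 VQ : List (List ℤ)} {b : ℕ → ℝ} {D : ℝ}
    (h : ∀ i, D * dZ (V0.getD i []) b ≤ 4 * dZ (VQ.getD i []) b) :
    ∀ l : List (ℕ × ℕ), D * dZ (comb V0 l) b ≤ 4 * dZ (comb VQ l) b
  | [] => by simp [comb, dZ_nil]
  | (e, i) :: l => by
      simp only [comb, dZ_vadd, dZ_vsm]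
      have h1 := mul_le_mul_of_nonneg_left (h i) (show (0 : ℝ) ≤ ((e : ℤ) : ℝ) by positivity)
      have h2 := comb_le h l
      linarith

theorem mT1_nonneg {VL : List (List ℤ)} {b : ℕ → ℝ} (h : ∀ i, 0 ≤ dZ (VL.getD i []) b) {D : ℝ}
    (h0 : 0 ≤ D) (h4 : D ≤ 4) : ∀ t, 0 ≤ dM (mT1 VL t) (pw D) b
  | [] => le_rfl
  | (w, q, l) :: r => by
      rw [mT1, dM_mad, dM_outer]
      exact add_nonneg (mul_nonneg (sig_nonneg w q h0 h4) (comb_nonneg h l))
        (mT1_nonneg h h0 h4 r)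

theorem mT4_nonneg {V0 VQ : List (List ℤ)} {b : ℕ → ℝ} {D : ℝ}
    (h : ∀ i, D * dZ (V0.getD i []) b ≤ 4 * dZ (VQ.getD i []) b)
    (h0 : 0 ≤ D) (h4 : D ≤ 4) : ∀ t, 0 ≤ dM (mT4 V0 VQ t) (pw D) b
  | [] => le_rfl
  | (w, q, l) :: r => by
      rw [mT4, dM_mad, dM_mad, dM_cons_pw, dM_outer, dM_outer, dZ_vsm, dZ_vsm, dZ_nil]
      have h1 := mul_nonneg (sig_nonneg w q h0 h4) (sub_nonneg.2 (comb_le h l))
      have h2 := mT4_nonneg h h0 h4 r
      push_cast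
      nlinarith

theorem mT0_nonneg {VL : List (List ℤ)} {a b : ℕ → ℝ} (ha : ∀ i, 0 ≤ dZ (VL.getD i []) a)
    (hb : ∀ i, 0 ≤ dZ (VL.getD i []) b) : ∀ t, 0 ≤ dM (mT0 VL t) a b
  | [] => le_rfl
  | (i, l) :: r => by
      rw [mT0, dM_mad, dM_mad, dM_outer, dM_outer]
      exact add_nonneg (mul_nonneg (ha i) (comb_nonneg hb l))
        (add_nonneg (mul_nonneg (comb_nonneg ha l) (hb i)) (mT0_nonneg ha hb r))

theorem pev_base (g : Mo) (q : Po) (x : V) : pev (base g q) x = mev g x * pev q x ^ 2 := by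
  simp only [base, pev_pmul, pev_tmul, pev]; push_cast; ring

theorem base_nonneg (g : Mo) (q : Po) {x : V} (h : ∀ i, 0 ≤ x i) : 0 ≤ pev (base g q) x := by
  rw [pev_base]; exact mul_nonneg (mev_nonneg g h) (sq_nonneg _)

theorem bd_ps (p : Po) (hs : List ℕ) : Bd fun x => pev p x * symv hs x :=
  Bd.of_cont ((pev_cont p).mul (sy_symv hs).1)

theorem okF_nonneg {f : Fac} (h : okF f = true) (S : St) : 0 ≤ val S f.v := by
  rw [isVec_val h S]
  exact S.nonneg (bd_ps _ _) fun x hx => mul_nonneg (base_nonneg _ _ hx.1) (symv_nonneg hx.1 _)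

theorem fs_nonneg (S : St) : ∀ (fs : List Fac), fs.all okF = true → ∀ i : ℕ,
    0 ≤ dZ ((fs.map Fac.v).getD i []) (momK S K8)
  | [], _, _ => by simp [dZ_nil]
  | f :: fs, h, 0 => by
      simp only [List.all_cons, Bool.and_eq_true] at h
      exact okF_nonneg h.1 S
  | f :: fs, h, i + 1 => by
      simp only [List.all_cons, Bool.and_eq_true] at h
      exact fs_nonneg S fs h.2 i

theorem symv_rep {x : V} (hx : Dl x) : ∀ n : ℕ, symv (List.replicate n 0) x = 4 ^ n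
  | 0 => by simp [symv]
  | n + 1 => by
      rw [List.replicate_succ, symv, symv_rep hx n, pev_sym0, Fin.sum_univ_four, hx.2]; ring

theorem okT_val {g : Mo} {t : List ℤ} (h : okT (g, t) = true) (S : St) :
    val S t = 4 ^ 8 * S.E (mev g) := by
  simp only [okT, Bool.and_eq_true, Nat.ble_eq] at h
  rw [isVec_val h.2 S, ← S.cmul _ _ (Bd.of_cont (mev_cont g))]
  refine S.congr (bd_ps _ _) fun x hx => ?_
  have e : (4 : ℝ) ^ 8 = 4 ^ dgm g * 4 ^ (8 - dgm g) := by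
    rw [← pow_add, Nat.add_sub_cancel' h.1]
  rw [symv_rep hx, e]; simp only [pev]; push_cast; ring

end Vale.Agent.P154.Q4
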