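import Vale.Agent.P154.Link

namespace Vale.Agent.P154

open Filter Topology

theorem Dl.chN {l : ℝ} (h0 : -1 / 2 ≤ l) (h1 : l ≤ 1) {x : V} (hx : Dl x) : Dl (P154.ch l x) := by
  refine ⟨fun i => ?_, ?_⟩
  · have a := hx.1 i
    have b := hx.le3 i
    simp only [P154.ch]
    rcases le_total 0 l with h | h
    · nlinarith [mul_nonneg h a]
    · nlinarith [mul_nonneg (neg_nonneg.2 h) (sub_nonneg.2 b)]
  · have := hx.2
    simp only [P154.ch]
    have e : l * (x 0 + x 1 + x 2) = l * 3 := by rw [this]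
    linarith

theorem Bd.chN {l : ℝ} (h0 : -1 / 2 ≤ l) (h1 : l ≤ 1) {g : V → ℝ} (hg : Bd g) :
    Bd (fun x => g (P154.ch l x)) := by
  obtain ⟨C, hC⟩ := hg
  exact ⟨C, fun x hx => hC _ (hx.chN h0 h1)⟩

namespace St

theorem ext' {S T : St} (h : S.E = T.E) : S = T := by
  cases S; cases T; cases h; rfl

noncomputable def chanN (S : St) (l : ℝ) (h0 : -1 / 2 ≤ l) (h1 : l ≤ 1) : St where
  E g := S.E (fun x => g (ch l x))
  mono f g hf hg h := S.mono _ _ (hf.chN h0 h1) (hg.chN h0 h1) fun x hx => h _ (hx.chN h0 h1)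
  add f g hf hg := S.add _ _ (hf.chN h0 h1) (hg.chN h0 h1)
  cmul c f hf := S.cmul _ _ (hf.chN h0 h1)
  one := S.one
  sym τ f hf := S.sym τ (fun x => f (ch l x)) (hf.chN h0 h1)

noncomputable def seqN (l : ℝ) (h0 : -1 / 2 ≤ l) (h1 : l ≤ 1) (p : ℕ → ℝ) (hp : ∀ k, 0 ≤ p k)
    (hs : HasSum p 1) : ℕ → St
  | 0 => init
  | n + 1 => mix p hp hs (pow ((seqN l h0 h1 p hp hs n).chanN l h0 h1))

theorem star_triv (T : St) {g : V → ℝ} (hg : Bd g) : (T.star triv).E g = T.E g := by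
  refine (T.congr hg fun x hx => ?_).symm
  change g x = hom g (x * fun _ => 1)
  have : (x * fun _ => 1) = x := by funext i; simp
  rw [this, hom_of_Dl g hx]

end St

theorem Rep.chanN {Ω : Type} {L : Ω → V} {S : St} (h : Rep L S) {l : ℝ} (h0 : -1 / 2 ≤ l)
    (h1 : l ≤ 1) : Rep (fun o => chv l (L o)) (S.chanN l h0 h1) := by
  refine ⟨fun o i => ?_, fun g hg => ?_⟩
  · have a := h.1 o i
    have b := av_nonneg (h.1 o)
    have c : L o i ≤ 3 * P154.av (L o) := by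
      have a0 := h.1 o 0; have a1 := h.1 o 1; have a2 := h.1 o 2
      unfold P154.av
      fin_cases i <;> simp <;> linarith
    simp only [chv]
    rcases le_total 0 l with k | k
    · nlinarith [mul_nonneg k a, mul_nonneg (sub_nonneg.2 h1) b]
    · nlinarith [mul_nonneg (neg_nonneg.2 k) (sub_nonneg.2 c),
        mul_nonneg (sub_nonneg.2 h0) b]
  · simp only [hom_chv]
    exact h.2 _ (hg.chN h0 h1)

theorem rep_likN {l : ℝ} (h0 : -1 / 2 ≤ l) (h1 : l ≤ 1) {p : ℕ → ℝ} (hp : ∀ k, 0 ≤ p k)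
    (hs : HasSum p 1) :
    ∀ n, Rep (fun (o : Obs 3 n) (i : Fin 3) => lik 3 l p n i o) (St.seqN l h0 h1 p hp hs n)
  | 0 => rep_init
  | n + 1 => by
      have ih := rep_mix ((rep_likN h0 h1 hp hs n).chanN h0 h1) hp hs
      have e : (fun (o : Obs 3 (n + 1)) (i : Fin 3) => lik 3 l p (n + 1) i o) =
          fun (o : List (Obs 3 n)) i => p o.length *
            (o.map fun o' => chv l fun j => lik 3 l p n j o').prod i := by
        refine funext fun (o : List (Obs 3 n)) => funext fun i => ?_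
        rw [Pi.list_prod_apply, List.map_map]
        simp only [lik, potts_sum]
        rfl
      rw [e]
      exact ih

theorem margN {l : ℝ} (h0 : -1 / 2 ≤ l) (h1 : l ≤ 1) {p : ℕ → ℝ} (hp : ∀ k, 0 ≤ p k)
    (hs : HasSum p 1) (n : ℕ) : HasSum (marg 3 l p n) 1 := by
  have := (rep_likN h0 h1 hp hs n).av
  simpa only [← marg_eq] using this

theorem advN {l : ℝ} (h0 : -1 / 2 ≤ l) (h1 : l ≤ 1) {p : ℕ → ℝ} (hp : ∀ k, 0 ≤ p k)
    (hs : HasSum p 1) (n : ℕ) : (St.seqN l h0 h1 p hp hs n).E tv = adv 3 l p n := by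
  rw [← ((rep_likN h0 h1 hp hs n).2 tv bd_tv).tsum_eq]
  refine tsum_congr fun o => ?_
  simp only [hom, tv, post, marg_eq]
  congr 2
  refine Finset.sum_congr rfl fun i _ => ?_
  congr 1
  push_cast
  ring

theorem chanN_ze (S : St) {l : ℝ} (h0 : -1 / 2 ≤ l) (h1 : l ≤ 1) :
    (S.chanN l h0 h1).E ze = l ^ 2 * S.E ze := by
  rw [← S.cmul _ _ bd_ze]
  exact S.congr (bd_ze.chN h0 h1) fun x _ => by simp only [ze, ch]; ring

theorem tendsto_of_step2 {Z z : ℕ → ℝ} {c : ℝ} (hc : 0 < c) (hZ : ∀ n, 0 ≤ Z n)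
    (hz : ∀ n, 0 ≤ z n) (h : ∀ᶠ n in atTop, Z (n + 1) ≤ Z n - c * z n ^ 2) :
    Tendsto z atTop (𝓝 0) := by
  obtain ⟨N, hN⟩ := eventually_atTop.1 h
  refine (tendsto_add_atTop_iff_nat N).1 ?_
  have ha : Antitone fun n => Z (n + N) := antitone_nat_of_succ_le fun n => by
    have := hN (n + N) (by omega)
    have e : n + 1 + N = n + N + 1 := by ring
    rw [e]
    nlinarith [mul_nonneg hc.le (sq_nonneg (z (n + N)))]
  have hb : BddBelow (Set.range fun n => Z (n + N)) := ⟨0, by rintro _ ⟨n, rfl⟩; exact hZ _⟩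
  have ht := tendsto_atTop_ciInf ha hb
  have h2 := (tendsto_add_atTop_iff_nat 1).2 ht
  have h3 := ((ht.sub h2).div_const c).sqrt
  rw [sub_self, zero_div, Real.sqrt_zero] at h3
  refine squeeze_zero (fun n => hz _) (fun n => Real.le_sqrt_of_sq_le ?_) h3
  have := hN (n + N) (by omega)
  have e : n + 1 + N = n + N + 1 := by ring
  rw [le_div_iff₀ hc, e]
  linarith

theorem sum_pow_ze_le (T : St) (k : ℕ) : ∑ j ∈ Finset.range k, (T.pow j).E ze ≤ k := by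
  refine (Finset.sum_le_sum fun j _ => E_ze_le _).trans (le_of_eq ?_)
  simp

theorem summable_pow_ze (T : St) {p : ℕ → ℝ} (hp : ∀ k, 0 ≤ p k) {d : ℝ}
    (hd : HasSum (fun k : ℕ => p k * k) d) :
    Summable fun k => p k * ∑ j ∈ Finset.range k, (T.pow j).E ze :=
  Summable.of_nonneg_of_le
    (fun k => mul_nonneg (hp k) (Finset.sum_nonneg fun _ _ => E_ze_nonneg _))
    (fun k => mul_le_mul_of_nonneg_left (sum_pow_ze_le T k) (hp k)) hd.summable

/-- one step of the potential argument with a penalty sequence `w` of nonpositive mean -/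
theorem step_pen (T : St) {F : V → ℝ} (hF : Bd F) (F1 : F (fun _ => 1) = 0) {p : ℕ → ℝ}
    (hp : ∀ k, 0 ≤ p k) (hs : HasSum p 1) {d : ℝ} (hd : HasSum (fun k : ℕ => p k * k) d)
    (k0 : ℕ) {A b W : ℝ} (hb : 0 ≤ b) {w : ℕ → ℝ}
    (hw : HasSum (fun k => p k * ∑ j ∈ Finset.range k, w j) W)
    (h : ∀ j, (T.star (T.pow j)).E F ≤ (T.pow j).E F + A - b * (T.pow j).E ze + w j) :
    (St.mix p hp hs T.pow).E F ≤ d * A - p (k0 + 2) * (b * T.E ze) + W := by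
  have h1 : ∀ k : ℕ, (T.pow k).E F ≤ k * A - b * ∑ j ∈ Finset.range k, (T.pow j).E ze
      + ∑ j ∈ Finset.range k, w j := by
    intro k
    induction k with
    | zero => simpa using (show (T.pow 0).E F ≤ 0 from F1.le)
    | succ k ih =>
      have := h k
      change (T.star (T.pow k)).E F ≤ _
      rw [Finset.sum_range_succ, Finset.sum_range_succ]
      push_cast
      linarith
  have s1 := hd.mul_right A
  have s2 : HasSum (fun k : ℕ => if k = k0 + 2 then p (k0 + 2) * (b * T.E ze) else 0)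
      (p (k0 + 2) * (b * T.E ze)) := hasSum_ite_eq _ _
  refine hasSum_le (fun k => ?_) (St.summable_mix hp hs T.pow hF).hasSum ((s1.sub s2).add hw)
  have h2 := mul_le_mul_of_nonneg_left (h1 k) (hp k)
  split_ifs with hk
  · subst hk
    have h3 : T.E ze ≤ ∑ j ∈ Finset.range (k0 + 2), (T.pow j).E ze := by
      have e : (T.pow 1).E ze = T.E ze := T.star_triv bd_ze
      rw [← e]
      exact Finset.single_le_sum (f := fun j => (T.pow j).E ze) (fun j _ => E_ze_nonneg _)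
        (Finset.mem_range.2 (by omega))
    have h4 := mul_le_mul_of_nonneg_left (mul_le_mul_of_nonneg_left h3 hb) (hp (k0 + 2))
    linarith
  · have h3 : 0 ≤ ∑ j ∈ Finset.range k, (T.pow j).E ze :=
      Finset.sum_nonneg fun _ _ => E_ze_nonneg _
    have h4 := mul_nonneg (hp k) (mul_nonneg hb h3)
    linarith

/-- nonreconstruction from a potential `F` with penalties of nonpositive mean -/
theorem mainG {l : ℝ} (h0 : -1 / 2 ≤ l) (h1 : l ≤ 1) (hl : l ≠ 0) {p : ℕ → ℝ}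
    (hp : ∀ k, 0 ≤ p k) (hs : HasSum p 1) {d : ℝ} (hd : HasSum (fun k : ℕ => p k * k) d)
    (k0 : ℕ) (hk : 0 < p (k0 + 2)) (hKS : d * l ^ 2 ≤ 1) {F : V → ℝ} (hF : Bd F)
    (F1 : F (fun _ => 1) = 0) (F0 : ∀ x, Dl x → 0 ≤ F x) {c : ℝ} (hc : 0 < c)
    (h : ∀ᶠ n in atTop, ∃ (w : ℕ → ℝ) (W : ℝ), W ≤ 0 ∧
      HasSum (fun k => p k * ∑ j ∈ Finset.range k, w j) W ∧ ∀ j,
        (((St.seqN l h0 h1 p hp hs n).chanN l h0 h1).star
            (((St.seqN l h0 h1 p hp hs n).chanN l h0 h1).pow j)).E F ≤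
          (((St.seqN l h0 h1 p hp hs n).chanN l h0 h1).pow j).E F
            + l ^ 2 * (St.seqN l h0 h1 p hp hs n).E F
            - c * ((St.seqN l h0 h1 p hp hs n).E ze *
              (((St.seqN l h0 h1 p hp hs n).chanN l h0 h1).pow j).E ze) + w j) :
    (∀ n, HasSum (marg 3 l p n) 1) ∧ Tendsto (adv 3 l p) atTop (𝓝 0) := by
  refine ⟨margN h0 h1 hp hs, (tv_tendsto ?_).congr (advN h0 h1 hp hs)⟩
  refine tendsto_of_step2 (Z := fun n => (St.seqN l h0 h1 p hp hs n).E F)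
    (c := p (k0 + 2) * c * l ^ 2) (by positivity) (fun n => St.nonneg _ hF F0)
    (fun n => E_ze_nonneg _) (h.mono fun n ⟨w, W, hW, hw, hn⟩ => ?_)
  set S := St.seqN l h0 h1 p hp hs n
  have h2 := step_pen (S.chanN l h0 h1) hF F1 hp hs hd k0 (A := l ^ 2 * S.E F)
    (b := c * S.E ze) (mul_nonneg hc.le (E_ze_nonneg _)) hw fun j => by
      have := hn j
      linarith
  rw [chanN_ze] at h2
  have h3 := mul_le_mul_of_nonneg_right hKS (S.nonneg hF F0)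
  change (St.mix p hp hs (S.chanN l h0 h1).pow).E F ≤ _
  nlinarith

theorem chanN_split (S : St) {r l : ℝ} (hr : 0 < r) (h : -1 / 2 ≤ -r) (h' : -r ≤ 1)
    (h0 : -1 / 2 ≤ l) (h1 : l ≤ 1) (k0 : 0 ≤ -l / r) (k1 : -l / r ≤ 1) :
    S.chanN l h0 h1 = (S.chan (-l / r) k0 k1).chanN (-r) h h' := by
  refine St.ext' (funext fun g => ?_)
  change S.E (fun x => g (ch l x)) = S.E (fun x => g (ch (-r) (ch (-l / r) x)))
  congr 1
  funext x
  congr 1
  funext i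
  simp only [ch]
  field_simp
  ring

/-- the potential inequality at the parameter `-r` with penalty terms -/
def KeyC (r : ℝ) (h : -1 / 2 ≤ -r) (h1 : -r ≤ 1) (A0 B0 : ℝ) : Prop :=
  ∃ (F : V → ℝ) (c : ℝ), Continuous F ∧ 0 < c ∧ F (fun _ => 1) = 0 ∧ (∀ x, Dl x → 0 ≤ F x) ∧
    (∀ m x, 0 ≤ m → m ≤ 1 → Dl x → F (ch m x) ≤ m ^ 2 * F x) ∧
    ∀ S : St, S.E ze ≤ A0 → ∃ k : ℝ, 0 ≤ k ∧ ∀ U : St,
      ((S.chanN (-r) h h1).star U).E F ≤
        U.E F + r ^ 2 * S.E F - c * (S.E ze * U.E ze) + k * (U.E ze - B0)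

theorem mainC {r : ℝ} (hr : 0 < r) {h : -1 / 2 ≤ -r} {h' : -r ≤ 1} {A0 B0 : ℝ}
    (hK : KeyC r h h' A0 B0) {l : ℝ} (hl0 : -r ≤ l) (hl1 : l ≤ 0) (h0 : -1 / 2 ≤ l) (h1 : l ≤ 1)
    {p : ℕ → ℝ} (hp : ∀ k, 0 ≤ p k) (hs : HasSum p 1) {d : ℝ}
    (hd : HasSum (fun k : ℕ => p k * k) d) (k0 : ℕ) (hk : 0 < p (k0 + 2))
    (hKS : d * l ^ 2 ≤ 1)
    (hev : ∀ᶠ n in atTop, (St.seqN l h0 h1 p hp hs n).E ze ≤ A0 ∧
      ∑' k, p k * ∑ j ∈ Finset.range k,
        (((St.seqN l h0 h1 p hp hs n).chanN l h0 h1).pow j).E ze ≤ d * B0) :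
    (∀ n, HasSum (marg 3 l p n) 1) ∧ Tendsto (adv 3 l p) atTop (𝓝 0) := by
  rcases hl1.eq_or_lt with rfl | hl
  · exact main le_rfl h1 hp hs hd k0 hk hKS
  obtain ⟨F, c, hF, hc, F1, F0, Fm, hK⟩ := hK
  have bF := Bd.of_cont hF
  have m0 : 0 < -l / r := div_pos (neg_pos.2 hl) hr
  have m1 : -l / r ≤ 1 := (div_le_one hr).2 (by linarith)
  refine mainG h0 h1 hl.ne hp hs hd k0 hk hKS bF F1 F0 (c := c * (-l / r) ^ 2) (by positivity)
    (hev.mono fun n ⟨hA, hB⟩ => ?_)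
  set S := St.seqN l h0 h1 p hp hs n
  set T := S.chanN l h0 h1
  have e := chan_ze S m0.le m1
  have hm : (-l / r) ^ 2 ≤ 1 := pow_le_one₀ m0.le m1
  obtain ⟨k, hk0, hU⟩ := hK (S.chan (-l / r) m0.le m1) (by
    rw [e]; nlinarith [E_ze_nonneg S])
  rw [← chanN_split S hr h h' h0 h1 m0.le m1, e] at hU
  have hFm : (S.chan (-l / r) m0.le m1).E F ≤ (-l / r) ^ 2 * S.E F := by
    rw [← S.cmul _ _ bF]
    exact S.mono _ _ (bF.ch m0.le m1) (bF.cmul _) fun x hx => Fm _ x m0.le m1 hx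
  have hFr : r ^ 2 * (S.chan (-l / r) m0.le m1).E F ≤ l ^ 2 * S.E F := by
    refine (mul_le_mul_of_nonneg_left hFm (sq_nonneg r)).trans_eq ?_
    field_simp
  refine ⟨fun j => k * ((T.pow j).E ze - B0), _, ?_,
    hasSum_of_eq (((summable_pow_ze T hp hd).hasSum.sub (hd.mul_right B0)).mul_left k)
      fun j => ?_, fun j => ?_⟩
  · exact mul_nonpos_of_nonneg_of_nonpos hk0 (sub_nonpos.2 hB)
  · rw [← Finset.mul_sum, Finset.sum_sub_distrib]
    simp only [Finset.sum_const, Finset.card_range, nsmul_eq_mul]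
    ring
  · have := hU (T.pow j)
    linarith

/-- the potential inequality at the parameter `-r` -/
def KeyN (r : ℝ) (h : -1 / 2 ≤ -r) (h1 : -r ≤ 1) : Prop :=
  ∃ (F : V → ℝ) (c : ℝ), Continuous F ∧ 0 < c ∧ F (fun _ => 1) = 0 ∧ (∀ x, Dl x → 0 ≤ F x) ∧
    (∀ m x, 0 ≤ m → m ≤ 1 → Dl x → F (ch m x) ≤ m ^ 2 * F x) ∧
    ∀ S U : St, ((S.chanN (-r) h h1).star U).E F ≤
      U.E F + r ^ 2 * S.E F - c * (S.E ze * U.E ze)

theorem KeyN.keyC {r : ℝ} {h : -1 / 2 ≤ -r} {h1 : -r ≤ 1} (hK : KeyN r h h1) (A0 B0 : ℝ) :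
    KeyC r h h1 A0 B0 := by
  obtain ⟨F, c, hF, hc, F1, F0, Fm, hK⟩ := hK
  exact ⟨F, c, hF, hc, F1, F0, Fm, fun S _ => ⟨0, le_rfl, fun U => by simpa using hK S U⟩⟩

theorem mainN {r : ℝ} (hr : 0 < r) {h : -1 / 2 ≤ -r} {h' : -r ≤ 1} (hK : KeyN r h h')
    {l : ℝ} (hl0 : -r ≤ l) (hl1 : l ≤ 0) {p : ℕ → ℝ} (hp : ∀ k, 0 ≤ p k) (hs : HasSum p 1)
    {d : ℝ} (hd : HasSum (fun k : ℕ => p k * k) d) (k0 : ℕ) (hk : 0 < p (k0 + 2))
    (hKS : d * l ^ 2 ≤ 1) :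
    (∀ n, HasSum (marg 3 l p n) 1) ∧ Tendsto (adv 3 l p) atTop (𝓝 0) := by
  refine mainC hr (hK.keyC 1 1) hl0 hl1 (h.trans hl0) (hl1.trans zero_le_one) hp hs hd k0 hk hKS
    (Eventually.of_forall fun n => ⟨E_ze_le _, ?_⟩)
  rw [mul_one]
  exact hasSum_le (fun k => mul_le_mul_of_nonneg_left (sum_pow_ze_le _ k) (hp k))
    (summable_pow_ze _ hp hd).hasSum hd

end Vale.Agent.P154
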