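import Vale.Agent.P154.Lin3

namespace Vale.Agent.P154.Q3

open Q4 (dW dZ addP vadd vsm mad outer isZ lmul comb dM pw dZ_nil dZ_cons dM_nil dM_cons dZ_vadd
  dZ_vsm dM_mad dM_outer dM_zero dZ_cons_pw dM_cons_pw dZ_lmul dM_rep comb_nonneg amgm3)

abbrev Pm := Equiv.Perm (Fin 3)

theorem card_Pm : (Finset.univ : Finset Pm).card = 6 := by
  rw [Finset.card_univ, Fintype.card_perm]; rfl

noncomputable def orb (z : V) (hz : Dl z) : St where
  E g := (∑ τ : Pm, g (z ∘ τ)) / 6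
  mono _ _ _ _ h := div_le_div_of_nonneg_right
    (Finset.sum_le_sum fun τ _ => h _ (hz.perm τ)) (by norm_num)
  add _ _ _ _ := by rw [Finset.sum_add_distrib]; ring
  cmul _ _ _ := by rw [← Finset.mul_sum]; ring
  one := by rw [Finset.sum_const, card_Pm]; norm_num
  sym σ f _ := by
    congr 1
    exact Equiv.sum_comp (Equiv.mulRight σ) fun τ : Pm => f (z ∘ τ)

theorem St_sum (S : St) {ι : Type} (s : Finset ι) (f : ι → V → ℝ) (hf : ∀ i, Continuous (f i)) :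
    S.E (fun x => ∑ i ∈ s, f i x) = ∑ i ∈ s, S.E (f i) := by
  classical
  induction s using Finset.induction_on with
  | empty => simpa using S.const 0
  | insert a s ha ih =>
    simp only [Finset.sum_insert ha]
    rw [S.add _ _ (Bd.of_cont (hf a)) (Bd.of_cont (continuous_finsetSum _ fun i _ => hf i)), ih]

theorem cont_perm {f : V → ℝ} (hf : Continuous f) (τ : Pm) : Continuous fun x : V => f (x ∘ τ) :=
  hf.comp (continuous_pi fun i => continuous_apply (τ i))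

theorem St_avg (S : St) (f : Pm → V → ℝ) (hf : ∀ τ, Continuous (f τ)) :
    S.E (fun x => ∑ τ : Pm, f τ (x ∘ τ)) = ∑ τ : Pm, S.E (f τ) := by
  rw [St_sum S _ (fun τ x => f τ (x ∘ τ)) fun τ => cont_perm (hf τ) τ]
  exact Finset.sum_congr rfl fun τ _ => S.sym τ _ (Bd.of_cont (hf τ))

theorem holder {x y : V} (hx : Dl x) (hy : Dl y) :
    3 * av (x * y) ^ 3 ≤ ∑ i, (x i * y i) ^ 2 := by
  have hD := av_nonneg (mul_nn hx.1 hy.1)
  have e : x 0 * y 0 + x 1 * y 1 + x 2 * y 2 = 3 * av (x * y) := by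
    simp only [av, Pi.mul_apply]; ring
  generalize av (x * y) = D at hD e
  have k : ∀ i, 3 * (x i * y i * D ^ 2) ≤ (x i * y i) ^ 2 + D ^ 3 * x i + D ^ 3 * y i := fun i => by
    have := hx.1 i; have := hy.1 i
    exact amgm3 (by positivity) (by positivity) (by positivity) (by ring)
  have e1 : D ^ 3 * (x 0 + x 1 + x 2) = D ^ 3 * 3 := by rw [hx.2]
  have e2 : D ^ 3 * (y 0 + y 1 + y 2) = D ^ 3 * 3 := by rw [hy.2]
  have e3 : D ^ 2 * (x 0 * y 0 + x 1 * y 1 + x 2 * y 2) = D ^ 2 * (3 * D) := by rw [e]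
  rw [Fin.sum_univ_three]
  linarith [k 0, k 1, k 2]

theorem geo {x y : V} (hx : Dl x) (hy : Dl y) (F : V → ℝ) :
    ∃ z : V, Dl z ∧ 3 * av (x * y) ≤ ∑ i, z i ^ 2 ∧
      x * y = (fun i => av (x * y) * z i) ∧ hom F (x * y) = av (x * y) * F z := by
  have hv := mul_nn hx.1 hy.1
  rcases eq_or_ne (av (x * y)) 0 with h0 | h0
  · refine ⟨fun _ => 1, St.Dl_one, by simp [h0], ?_, by simp [hom, h0]⟩
    funext i; rw [eq_zero_of_av hv h0 i, h0, zero_mul]
  · have hD := lt_of_le_of_ne (av_nonneg hv) h0.symm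
    refine ⟨_, Dl_norm hv h0, ?_, ?_, rfl⟩
    · have h := holder hx hy
      simp only [div_pow, ← Finset.sum_div, Pi.mul_apply]
      rw [le_div_iff₀ (by positivity)]
      linarith
    · funext i; field_simp

theorem mev_smul (g : Mo) (D : ℝ) (z : V) : mev g (fun i => D * z i) = D ^ dgm g * mev g z := by
  obtain ⟨a, b, c⟩ := g
  simp only [mev, dgm, mul_pow, pow_add]; ring

theorem mev_mul (g : Mo) (x y : V) : mev g (x * y) = mev g x * mev g y := by
  simp only [mev, Pi.mul_apply, mul_pow]; ring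

theorem mP1_orb {z : V} (hz : Dl z) (D : ℝ) : ∀ (ks : List ℤ) (l : List (Mo × List ℤ)),
    l.all okT = true → 6 * dM (mP1 ks l) (pw D) (momK (orb z hz) KN) =
      -3 ^ 12 * ∑ τ : Pm, pev (pP ks l) ((fun i => D * z i) ∘ τ)
  | [], _, _ => by simp [mP1, pP, dM_nil, pev]
  | _ :: _, [], _ => by simp [mP1, pP, dM_nil, pev]
  | k :: ks, (g, t) :: l, h => by
      simp only [List.all_cons, Bool.and_eq_true] at h
      have h1 : dZ t (momK (orb z hz) KN) = 3 ^ 12 * ((∑ τ : Pm, mev g (z ∘ τ)) / 6) :=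
        okT_val h.1 (orb z hz)
      have h2 : ∀ τ : Pm, mev g ((fun i => D * z i) ∘ τ) = D ^ dgm g * mev g (z ∘ τ) :=
        fun τ => mev_smul g D (z ∘ τ)
      simp only [mP1, pP, pev, dM_mad, dM_rep, dZ_vsm, mul_add, mP1_orb hz D ks l h.2, h1, h2,
        Finset.sum_add_distrib, ← Finset.mul_sum]
      push_cast; ring

noncomputable def rev (T : St) : Po → V → ℝ
  | [], _ => 0
  | t :: p, x => t.1 * T.E (mev t.2) * mev t.2 x + rev T p x

theorem rev_cont (T : St) : ∀ p : Po, Continuous (rev T p)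
  | [] => continuous_const
  | t :: p => (continuous_const.mul (mev_cont t.2)).add (rev_cont T p)

theorem pev_mul_cont (p : Po) (x : V) : Continuous fun y : V => pev p (x * y) :=
  (pev_cont p).comp (continuous_const.mul continuous_id)

theorem E_pev_mul (T : St) (x : V) : ∀ p : Po, T.E (fun y => pev p (x * y)) = rev T p x
  | [] => T.const 0
  | t :: p => by
      have b := Bd.of_cont (mev_cont t.2)
      simp only [pev, rev, mev_mul, ← mul_assoc]
      rw [T.add _ _ (b.cmul _) (Bd.of_cont (pev_mul_cont p x)), T.cmul _ _ b, E_pev_mul T x p]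
      ring

theorem mP2_val (S T : St) : ∀ (ks : List ℤ) (l : List (Mo × List ℤ)), l.all okT = true →
    dM (mP2 ks l) (momK S KN) (momK T KN) = 3 ^ 24 * S.E (rev T (pP ks l))
  | [], _, _ => by simp only [mP2, pP, dM_nil]; rw [show rev T [] = fun _ => 0 from rfl, S.const]; simp
  | _ :: _, [], _ => by
      simp only [mP2, pP, dM_nil]; rw [show rev T [] = fun _ => 0 from rfl, S.const]; simp
  | k :: ks, (g, t) :: l, h => by
      simp only [List.all_cons, Bool.and_eq_true] at h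
      have h1 : dZ t (momK S KN) = _ := okT_val h.1 S
      have h2 : dZ t (momK T KN) = _ := okT_val h.1 T
      have b := Bd.of_cont (mev_cont g)
      have e : rev T (pP (k :: ks) ((g, t) :: l)) =
        fun x => k * T.E (mev g) * mev g x + rev T (pP ks l) x := rfl
      rw [mP2, dM_mad, dM_outer, dZ_vsm, h1, h2, mP2_val S T ks l h.2, e,
        S.add _ _ (b.cmul _) (Bd.of_cont (rev_cont T _)), S.cmul _ _ b]
      ring

theorem okW_le {f : Wac} (h : okW f = true) {z : V} (hz : Dl z) {D : ℝ}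
    (hD : 3 * D ≤ ∑ i, z i ^ 2) : D * val (orb z hz) f.v0 ≤ 3 * val (orb z hz) f.vQ := by
  simp only [okW, Bool.and_eq_true] at h
  rw [isVec_val h.1, isVec_val h.2]
  simp only [orb, ← mul_div_assoc, Finset.mul_sum]
  refine div_le_div_of_nonneg_right (Finset.sum_le_sum fun τ _ => ?_) (by norm_num)
  have hw := hz.perm τ
  have h1 := mul_nonneg (base_nonneg f.g f.q hw.1) (symv_nonneg hw.1 f.hs)
  have h2 : pev (sym 1) (z ∘ τ) = ∑ i, z i ^ 2 := by rw [(sy_sym 1).2, pev_sym1]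
  have h3 : pev (sym 0) (z ∘ τ) = 3 := by rw [pev_sym0, Fin.sum_univ_three, hw.2]
  simp only [symv, h2, h3]
  nlinarith [mul_nonneg h1 (sub_nonneg.2 hD)]

theorem ws_le {z : V} (hz : Dl z) {D : ℝ} (hD : 3 * D ≤ ∑ i, z i ^ 2) :
    ∀ (ws : List Wac), ws.all okW = true → ∀ i : ℕ,
    D * dZ ((ws.map Wac.v0).getD i []) (momK (orb z hz) KN) ≤
      3 * dZ ((ws.map Wac.vQ).getD i []) (momK (orb z hz) KN)
  | [], _, _ => by simp [dZ_nil]
  | f :: fs, h, 0 => by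
      simp only [List.all_cons, Bool.and_eq_true] at h
      exact okW_le h.1 hz hD
  | f :: fs, h, i + 1 => by
      simp only [List.all_cons, Bool.and_eq_true] at h
      exact ws_le hz hD fs h.2 i

theorem FF_perm (cs : List ℤ) (l : List (ℕ × ℕ × List ℤ)) (x : V) (τ : Pm) :
    FF cs l (x ∘ τ) = FF cs l x := by
  have e2 := Equiv.sum_comp τ fun i => (x i - 1) ^ 2
  have e3 := Equiv.sum_comp τ fun i => (x i - 1) ^ 3
  simp only [Fin.sum_univ_three] at e2 e3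
  simp only [FF, ze, en, Function.comp, e2, e3]

theorem orb_FF (cs : List ℤ) (l : List (ℕ × ℕ × List ℤ)) {z : V} (hz : Dl z) :
    (orb z hz).E (FF cs l) = FF cs l z := by
  simp only [orb, FF_perm]
  rw [Finset.sum_const, card_Pm, nsmul_eq_mul]; push_cast; ring

theorem mC_val {z : V} (hz : Dl z) (m : ℝ) : ∀ (cs : List ℤ) (l : List (ℕ × ℕ × List ℤ)),
    l.all okJ = true → dM (mC cs l) (pw m) (momK (orb z hz) KN) = 3 ^ 12 * FF cs l (ch m z)
  | [], _, _ => by simp [mC, dM_nil, FF, fe]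
  | _ :: _, [], _ => by simp [mC, dM_nil, FF, fe]
  | c :: cs, (i, j, v) :: l, h => by
      simp only [List.all_cons, Bool.and_eq_true] at h
      have h1 := lin_val (orb z hz) [c] [(i, j, v)] (by simp [h.1])
      rw [orb_FF] at h1
      simp only [lin, dZ_vadd, dZ_nil, add_zero, FF, fe] at h1
      rw [mC, dM_mad, dM_rep, h1, mC_val hz m cs l h.2]
      simp only [FF, fe, ze_ch, en_ch]
      rw [mul_pow (m ^ 2), mul_pow (m ^ 3), pow_add, pow_mul, pow_mul]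
      ring

variable {C : Cert}

theorem cI_pt (hf : C.fs.all okF = true) (hw : C.ws.all okW = true) (h : cI C = true) {x y : V}
    (hx : Dl x) (hy : Dl y) (hl : ∀ i, (C.q : ℝ) - 2 * C.p ≤ C.q * x i)
    (hh : ∀ i, (C.q : ℝ) * x i ≤ C.p + C.q) :
    hom (FF C.cs TJ) (x * y) ≤ 1 / 6 * ∑ τ : Pm, pev (pP C.k TH) ((x ∘ τ) * (y ∘ τ)) := by
  obtain ⟨z, hz, hQ, e, e'⟩ := geo hx hy (FF C.cs TJ)
  have h0 := av_nonneg (mul_nn hx.1 hy.1)
  have eD : 3 * av (x * y) = x 0 * y 0 + x 1 * y 1 + x 2 * y 2 := by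
    simp only [av, Pi.mul_apply]; ring
  have y3 := hy.2
  have k1 : 0 ≤ dZ C.lo (pw (av (x * y))) := by
    simp only [Cert.lo, dZ_cons_pw, dZ_nil]; push_cast
    have := fun i => mul_le_mul_of_nonneg_right (hl i) (hy.1 i)
    have e1 : ((C.q : ℝ) - 2 * C.p) * (y 0 + y 1 + y 2) = (C.q - 2 * C.p) * 3 := by rw [y3]
    have e2 : (C.q : ℝ) * (3 * av (x * y)) = C.q * (x 0 * y 0 + x 1 * y 1 + x 2 * y 2) := by
      rw [eD]
    linarith [this 0, this 1, this 2]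
  have k2 : 0 ≤ dZ C.hi (pw (av (x * y))) := by
    simp only [Cert.hi, dZ_cons_pw, dZ_nil]; push_cast
    have := fun i => mul_le_mul_of_nonneg_right (hh i) (hy.1 i)
    have e1 : ((C.p : ℝ) + C.q) * (y 0 + y 1 + y 2) = (C.p + C.q) * 3 := by rw [y3]
    have e2 : (C.q : ℝ) * (3 * av (x * y)) = C.q * (x 0 * y 0 + x 1 * y 1 + x 2 * y 2) := by
      rw [eD]
    linarith [this 0, this 1, this 2]
  have h1 := dM_zero (momK (orb z hz) KN) _ (pw (av (x * y))) h
  have h2 := mP1_orb hz (av (x * y)) C.k TH TH_ok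
  have h3 := mT1_nonneg (fs_nonneg (orb z hz) C.fs hf) h0 k1 k2 C.t1
  have h5 := mT4_nonneg (ws_le hz hQ C.ws hw) h0 k1 k2 C.t4
  rw [dM_mad, dM_mad, dM_mad, dM_cons_pw, dM_cons_pw, dM_nil, dZ_nil, lin_val _ _ _ TJ_ok,
    orb_FF] at h1
  rw [← e] at h2
  have e2 : ∀ τ : Pm, (x ∘ τ) * (y ∘ τ) = (x * y) ∘ τ := fun τ => rfl
  simp only [e2, e']
  linarith

theorem FF_m1 : FF [-1] TJ = fun _ => -1 := by funext x; simp [FF, fe, TJ]

theorem FF_a (c : ℤ) : FF [0, c] TJ = fun x => 2 * c * ze x := by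
  funext x; simp [FF, fe, TJ]; ring

theorem cert_star (hq : (0 : ℝ) < C.q) (h0 : -1 / 2 ≤ -((C.p : ℝ) / C.q))
    (h1 : -((C.p : ℝ) / C.q) ≤ 1) (hf : C.fs.all okF = true) (hw : C.ws.all okW = true)
    (hg : C.gs.all (okG (C.p + C.q) (3 * C.q)) = true) (h : cI C = true) (h' : cII C = true)
    (hR : okR C.p C.q C.cs C.cs' TJ = true) (S : St) : ∃ k : ℝ, 0 ≤ k ∧ ∀ U : St,
      ((S.chanN _ h0 h1).star U).E (FF C.cs TJ) ≤ U.E (FF C.cs TJ) +
        ((C.p : ℝ) / C.q) ^ 2 * S.E (FF C.cs TJ) -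
        4 * C.gam * ((C.p : ℝ) / C.q) ^ 2 * (S.E ze * U.E ze) - k * U.E (FF C.cb TJ) := by
  have hp : (0 : ℝ) ≤ C.p := by positivity
  have c1 : ∀ x, Dl x → ∀ i, (C.q : ℝ) * ch (-((C.p : ℝ) / C.q)) x i = C.q - C.p * (x i - 1) :=
    fun x _ i => by simp only [ch]; field_simp; ring
  have hh : ∀ x, Dl x → ∀ i, (C.q : ℝ) * ch (-((C.p : ℝ) / C.q)) x i ≤ C.p + C.q :=
    fun x hx i => by rw [c1 x hx]; nlinarith [mul_nonneg hp (hx.1 i)]
  have hl : ∀ x, Dl x → ∀ i, (C.q : ℝ) - 2 * C.p ≤ C.q * ch (-((C.p : ℝ) / C.q)) x i :=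
    fun x hx i => by rw [c1 x hx]; nlinarith [mul_nonneg hp (sub_nonneg.2 (hx.le3 i))]
  have hG := gs_nonneg S h0 h1 (a := C.p + C.q) (b := 3 * C.q) (fun x hx i => by
    push_cast; linarith [hh x hx i]) C.gs hg
  refine ⟨dZ (comb (C.gs.map Gac.v) C.tb) (momK (S.chanN _ h0 h1) KN) / 3 ^ 12,
    div_nonneg (comb_nonneg hG _) (by norm_num), fun U => ?_⟩
  set T := S.chanN _ h0 h1
  have e1 := dM_zero (momK U KN) _ (momK T KN) h'
  have e2 := mT0_nonneg hG (fs_nonneg U C.fs hf) C.t0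
  have e3 : T.E (FF C.cs' TJ) = ((C.p : ℝ) / C.q) ^ 2 * S.E (FF C.cs TJ) := by
    rw [← S.cmul _ _ (Bd.of_cont (FF_cont _ _))]
    refine S.congr ((Bd.of_cont (FF_cont _ _)).chN h0 h1) fun x _ => ?_
    simp only [FF, ze_ch, en_ch]
    have := fe_okR (p := C.p) (q := C.q) (by exact_mod_cast hq.ne') (2 * ze x) (2 * en x) _ _ _ hR
    simpa only [Int.cast_natCast] using this
  have e4 : T.E ze = (-((C.p : ℝ) / C.q)) ^ 2 * S.E ze := chanN_ze S h0 h1
  simp only [dM_mad, dM_outer, mP2_val T U C.k TH TH_ok, lin_val _ _ _ TJ_ok, FF_m1, FF_a,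
    St.const, St.cmul _ _ _ bd_ze, e3, e4] at e1
  have hb := Bd.of_cont (FF_cont C.cs TJ)
  have k1 : Continuous fun x : V => ∑ τ : Pm, rev U (pP C.k TH) (x ∘ τ) :=
    continuous_finsetSum _ fun τ _ => cont_perm (rev_cont U _) τ
  have h3 : (T.star U).E (FF C.cs TJ) ≤
      T.E fun x => 1 / 6 * ∑ τ : Pm, rev U (pP C.k TH) (x ∘ τ) := by
    refine S.mono _ _ ((U.bd_inner hb).chN h0 h1) (((Bd.of_cont k1).cmul _).chN h0 h1)
      fun x' hx' => ?_
    have hx := hx'.chN h0 h1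
    have a1 := hl x' hx'
    have a2 := hh x' hx'
    generalize ch (-((C.p : ℝ) / C.q)) x' = x at hx a1 a2
    have c2 : Continuous fun y : V => ∑ τ : Pm, pev (pP C.k TH) ((x ∘ τ) * (y ∘ τ)) :=
      continuous_finsetSum _ fun τ _ => cont_perm (pev_mul_cont _ (x ∘ τ)) τ
    refine (U.mono _ _ (hb.homl hx) ((Bd.of_cont c2).cmul _)
      fun y hy => cI_pt hf hw h hx hy a1 a2).trans (le_of_eq ?_)
    rw [U.cmul _ _ (Bd.of_cont c2),
      St_avg U (fun τ y => pev (pP C.k TH) ((x ∘ τ) * y)) fun τ => pev_mul_cont _ _]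
    simp only [E_pev_mul]
  rw [T.cmul _ _ (Bd.of_cont k1), St_avg T (fun _ => rev U (pP C.k TH)) fun _ => rev_cont U _,
    Finset.sum_const, card_Pm, nsmul_eq_mul] at h3
  push_cast at h3 e1
  linarith

/-- the potential inequality at the parameter `-r` with a penalty -/
def KeyQ (r : ℝ) (h : -1 / 2 ≤ -r) (h1 : -r ≤ 1) (ψ : V → ℝ) : Prop :=
  ∃ (F : V → ℝ) (c : ℝ), Continuous F ∧ 0 < c ∧ F (fun _ => 1) = 0 ∧ (∀ x, Dl x → 0 ≤ F x) ∧
    (∀ m x, 0 ≤ m → m ≤ 1 → Dl x → F (ch m x) ≤ m ^ 2 * F x) ∧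
    ∀ S : St, ∃ k : ℝ, 0 ≤ k ∧ ∀ U : St, ((S.chanN (-r) h h1).star U).E F ≤
        U.E F + r ^ 2 * S.E F - c * (S.E ze * U.E ze) - k * U.E ψ

theorem cert_key (hp : (0 : ℝ) < C.p) (hq : (0 : ℝ) < C.q) (hc : (0 : ℝ) < C.gam)
    (h0 : -1 / 2 ≤ -((C.p : ℝ) / C.q))
    (h1 : -((C.p : ℝ) / C.q) ≤ 1) (hf : C.fs.all okF = true) (hw : C.ws.all okW = true)
    (hg : C.gs.all (okG (C.p + C.q) (3 * C.q)) = true) (h : cI C = true) (h' : cII C = true)
    (h'' : cIII C = true) : KeyQ ((C.p : ℝ) / C.q) h0 h1 (FF C.cb TJ) := by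
  simp only [cIII, Bool.and_eq_true] at h''
  obtain ⟨hR, hA, hB⟩ := h''
  have F0 : ∀ x, Dl x → 0 ≤ FF C.cs TJ x := fun x hx => by
    have e := dM_zero (momK (orb x hx) KN) _ (pw 1) hB
    have e2 := comb_nonneg (fs_nonneg (orb x hx) C.fs hf) C.t9
    rw [dM_cons_pw, dM_nil, dZ_vadd, dZ_vsm, lin_val _ _ _ TJ_ok, orb_FF] at e
    push_cast at e
    linarith
  have Fm : ∀ m x, 0 ≤ m → m ≤ 1 → Dl x → FF C.cs TJ (ch m x) ≤ m ^ 2 * FF C.cs TJ x :=
    fun m x m0 m1 hx => by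
      have e := dM_zero (momK (orb x hx) KN) _ (pw m) hA
      have e2 := mT1_nonneg (lo := [0, 1]) (hi := [1, -1]) (fs_nonneg (orb x hx) C.fs hf) m0
        (by simp [dZ_cons_pw, dZ_nil, m0]) (by simp [dZ_cons_pw, dZ_nil, m1]) C.t8
      rw [dM_mad, dM_mad, mC_val hx m _ _ TJ_ok, dM_cons_pw, dM_cons_pw, dM_cons_pw, dM_nil,
        dZ_nil, dZ_vsm, lin_val _ _ _ TJ_ok, orb_FF] at e
      push_cast at e
      linarith
  refine ⟨FF C.cs TJ, 4 * C.gam * ((C.p : ℝ) / C.q) ^ 2, FF_cont _ _, by positivity, ?_, F0, Fm,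
    cert_star hq h0 h1 hf hw hg h h' hR⟩
  have e : ch 0 (fun _ => 1) = fun _ => 1 := by funext i; simp [ch]
  have := Fm 0 _ le_rfl zero_le_one St.Dl_one
  rw [e] at this
  exact le_antisymm (by simpa using this) (F0 _ St.Dl_one)

end Vale.Agent.P154.Q3
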