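import Vale.Agent.P154.KS4

namespace Vale.Agent.P154

open Filter Topology

theorem summable_pow_phi (T : St) {φ : V → ℝ} (hφ : Bd φ) {p : ℕ → ℝ} (hp : ∀ k, 0 ≤ p k) {d : ℝ}
    (hd : HasSum (fun k : ℕ => p k * k) d) :
    Summable fun k => p k * ∑ j ∈ Finset.range k, (T.pow j).E φ := by
  obtain ⟨C, hC⟩ := hφ
  refine Summable.of_norm_bounded (hd.summable.mul_right C) fun k => ?_
  rw [Real.norm_eq_abs, abs_mul, abs_of_nonneg (hp k), mul_assoc]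
  refine mul_le_mul_of_nonneg_left ((Finset.abs_sum_le_sum_abs _ _).trans
    ((Finset.sum_le_sum fun j _ => (T.pow j).abs_le hC).trans (le_of_eq ?_))) (hp k)
  simp

/-- the potential inequality at the parameter `-r` with a penalty on the functional `φ` -/
def KeyP (r : ℝ) (h : -1 / 2 ≤ -r) (h1 : -r ≤ 1) (φ : V → ℝ) (B : ℝ) : Prop :=
  ∃ (F : V → ℝ) (c : ℝ), Continuous F ∧ 0 < c ∧ F (fun _ => 1) = 0 ∧ (∀ x, Dl x → 0 ≤ F x) ∧
    (∀ m x, 0 ≤ m → m ≤ 1 → Dl x → F (ch m x) ≤ m ^ 2 * F x) ∧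
    ∀ S : St, ∃ k : ℝ, 0 ≤ k ∧ ∀ U : St,
      ((S.chanN (-r) h h1).star U).E F ≤
        U.E F + r ^ 2 * S.E F - c * (S.E ze * U.E ze) + k * (U.E φ - B)

theorem mainP {r : ℝ} (hr : 0 < r) {h : -1 / 2 ≤ -r} {h' : -r ≤ 1} {φ : V → ℝ} (hφ : Bd φ) {B : ℝ}
    (hK : KeyP r h h' φ B) {l : ℝ} (hl0 : -r ≤ l) (hl1 : l ≤ 0) (h0 : -1 / 2 ≤ l) (h1 : l ≤ 1)
    {p : ℕ → ℝ} (hp : ∀ k, 0 ≤ p k) (hs : HasSum p 1) {d : ℝ}
    (hd : HasSum (fun k : ℕ => p k * k) d) (k0 : ℕ) (hk : 0 < p (k0 + 2))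
    (hKS : d * l ^ 2 ≤ 1)
    (hev : ∀ᶠ n in atTop, ∑' k, p k * ∑ j ∈ Finset.range k,
        (((St.seqN l h0 h1 p hp hs n).chanN l h0 h1).pow j).E φ ≤ d * B) :
    (∀ n, HasSum (marg 3 l p n) 1) ∧ Tendsto (adv 3 l p) atTop (𝓝 0) := by
  rcases hl1.eq_or_lt with rfl | hl
  · exact main le_rfl h1 hp hs hd k0 hk hKS
  obtain ⟨F, c, hF, hc, F1, F0, Fm, hK⟩ := hK
  have bF := Bd.of_cont hF
  have m0 : 0 < -l / r := div_pos (neg_pos.2 hl) hr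
  have m1 : -l / r ≤ 1 := (div_le_one hr).2 (by linarith)
  refine mainG h0 h1 hl.ne hp hs hd k0 hk hKS bF F1 F0 (c := c * (-l / r) ^ 2) (by positivity)
    (hev.mono fun n hB => ?_)
  set S := St.seqN l h0 h1 p hp hs n
  set T := S.chanN l h0 h1
  have e := chan_ze S m0.le m1
  obtain ⟨k, hk0, hU⟩ := hK (S.chan (-l / r) m0.le m1)
  rw [← chanN_split S hr h h' h0 h1 m0.le m1, e] at hU
  have hFm : (S.chan (-l / r) m0.le m1).E F ≤ (-l / r) ^ 2 * S.E F := by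
    rw [← S.cmul _ _ bF]
    exact S.mono _ _ (bF.ch m0.le m1) (bF.cmul _) fun x hx => Fm _ x m0.le m1 hx
  have hFr : r ^ 2 * (S.chan (-l / r) m0.le m1).E F ≤ l ^ 2 * S.E F := by
    refine (mul_le_mul_of_nonneg_left hFm (sq_nonneg r)).trans_eq ?_
    field_simp
  refine ⟨fun j => k * ((T.pow j).E φ - B), _, ?_,
    hasSum_of_eq (((summable_pow_phi T hφ hp hd).hasSum.sub (hd.mul_right B)).mul_left k)
      fun j => ?_, fun j => ?_⟩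
  · exact mul_nonpos_of_nonneg_of_nonpos hk0 (sub_nonpos.2 hB)
  · rw [← Finset.mul_sum, Finset.sum_sub_distrib]
    simp only [Finset.sum_const, Finset.card_range, nsmul_eq_mul]
    ring
  · have := hU (T.pow j)
    linarith

theorem ks3c {l : ℝ} (h0 : -1 / 2 ≤ l) (h1 : l ≤ 1) {p : ℕ → ℝ} (hp : ∀ k, 0 ≤ p k)
    (hs : HasSum p 1) {d : ℝ} (hd : HasSum (fun k : ℕ => p k * k) d) (hKS : 1 < d * l ^ 2) :
    ∃ c : ℝ, 0 < c ∧ ∀ n, c ≤ adv 3 l p n := by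
  obtain ⟨z, z0, z1, hz⟩ := ks_abs hp hd (l := l) (by nlinarith) hKS
  have h2 : ∀ n, z ≤ (St.seqN l h0 h1 p hp hs n).E ze := by
    intro n
    induction n with
    | zero => exact (z1.trans (by norm_num)).trans init_ze.ge
    | succ n ih =>
      refine hz _ _ (St.summable_mix hp hs (St.pow _) bd_ze).hasSum (fun k => E_ze_nonneg _)
        fun k => ks_step (by positivity) ?_ fun r _ => star_ze_ge _ _ r
      rw [chanN_ze]
      exact mul_le_mul_of_nonneg_left ih (sq_nonneg l)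
  refine ⟨1 / 2 * z, by positivity, fun n => ?_⟩
  rw [← advN h0 h1 hp hs n]
  have := (St.seqN l h0 h1 p hp hs n).mono _ _ (bd_ze.cmul (1 / 2)) bd_tv fun x hx => ze_le_tv hx
  rw [St.cmul _ _ _ bd_ze] at this
  linarith [h2 n]

theorem Q4.ks4c {l : ℝ} (h0 : 0 ≤ l) (h1 : l ≤ 1) {p : ℕ → ℝ} (hp : ∀ k, 0 ≤ p k)
    (hs : HasSum p 1) {d : ℝ} (hd : HasSum (fun k : ℕ => p k * k) d) (hKS : 1 < d * l ^ 2) :
    ∃ c : ℝ, 0 < c ∧ ∀ n, c ≤ adv 4 l p n := by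
  obtain ⟨z, z0, z1, hz⟩ := ks_abs hp hd (l := l) (by nlinarith) hKS
  have h2 : ∀ n, z ≤ (Q4.St.seq l h0 h1 p hp hs n).E Q4.fa := by
    intro n
    induction n with
    | zero => exact (z1.trans (by norm_num)).trans Q4.init_fa.ge
    | succ n ih =>
      refine hz _ _ (Q4.St.summable_mix hp hs (Q4.St.pow _) Q4.bd_fa).hasSum
        (fun k => Q4.E_fa_nonneg _)
        fun k => ks_step (by positivity) ?_ fun r hr => Q4.star_fa_ge _ _ hr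
      rw [Q4.chan_fa]
      exact mul_le_mul_of_nonneg_left ih (sq_nonneg l)
  refine ⟨1 / 6 * z, by positivity, fun n => ?_⟩
  rw [← Q4.adv4 h0 h1 hp hs n]
  have := (Q4.St.seq l h0 h1 p hp hs n).mono _ _ (Q4.bd_fa.cmul (1 / 6)) Q4.bd_tv
    fun x hx => Q4.fa_le_tv hx
  rw [Q4.St.cmul _ _ _ Q4.bd_fa] at this
  linarith [h2 n]

theorem iff_of {a : ℕ → ℝ} {t : ℝ} (h1 : t ≤ 1 → Tendsto a atTop (𝓝 0))
    (h2 : 1 < t → ∃ c : ℝ, 0 < c ∧ ∀ n, c ≤ a n) :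
    (Tendsto a atTop (𝓝 0) ↔ t ≤ 1) ∧ ((∃ c : ℝ, 0 < c ∧ ∀ n, c ≤ a n) ↔ 1 < t) := by
  have key : Tendsto a atTop (𝓝 0) → ¬ ∃ c : ℝ, 0 < c ∧ ∀ n, c ≤ a n :=
    fun h ⟨c, hc, hn⟩ => absurd (ge_of_tendsto' h hn) (not_le.2 hc)
  exact ⟨⟨fun h => not_lt.1 fun ht => key h (h2 ht), h1⟩,
    ⟨fun h => not_le.1 fun ht => key (h1 ht) h, h2⟩⟩

end Vale.Agent.P154
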