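import Vale.Agent.P154.Orb3
import Vale.Agent.P154.Pen

namespace Vale.Agent.P154.Q3

/-- the convex penalty functional -/
noncomputable def phi (x : V) : ℝ := (∑ i, (2 - x i) ^ 10) / 3 - 1

theorem phi_cont : Continuous phi := by unfold phi; fun_prop

theorem bd_phi : Bd phi := Bd.of_cont phi_cont

theorem FF_phi (b : ℤ) {x : V} (hx : Dl x) :
    FF [b, -720, 1920, -5040, 10080, -3360, -7560, 10080, -2880, -2430, 160, 1620, -180, -81] TJ x
      = 16 * (b / 16 - phi x) := by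
  simp only [FF, fe, TJ, ze, en, phi, Fin.sum_univ_three, x2_eq hx]
  push_cast
  ring

theorem KeyQ.keyP {r : ℝ} {h : -1 / 2 ≤ -r} {h1 : -r ≤ 1} {b : ℤ}
    (hK : KeyQ r h h1 (FF [b, -720, 1920, -5040, 10080, -3360, -7560, 10080, -2880, -2430, 160,
      1620, -180, -81] TJ)) : KeyP r h h1 phi (b / 16) := by
  obtain ⟨F, c, hF, hc, F1, F0, Fm, hK⟩ := hK
  refine ⟨F, c, hF, hc, F1, F0, Fm, fun S => ?_⟩
  obtain ⟨k, hk, hU⟩ := hK S
  refine ⟨16 * k, by positivity, fun U => ?_⟩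
  have e := U.congr (Bd.of_cont (FF_cont _ TJ)) (g := fun x => b + -16 * phi x)
    fun x hx => (FF_phi b hx).trans (by ring)
  rw [U.add _ _ (Bd.const _) (bd_phi.cmul _), U.const, U.cmul _ _ bd_phi] at e
  have := hU U
  rw [e] at this
  linarith

end Vale.Agent.P154.Q3
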