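import Vale.Agent.P154.Phi3

namespace Vale.Agent.P154.Q3

theorem KeyQ.keyN {r : ℝ} {h : -1 / 2 ≤ -r} {h1 : -r ≤ 1}
    (hK : KeyQ r h h1 (FF [1, 0, 0, 0, 0, 0, 0, 0, 0, 0, 0, 0, 0, 0] TJ)) : KeyN r h h1 := by
  obtain ⟨F, c, hF, hc, F1, F0, Fm, hK⟩ := hK
  refine ⟨F, c, hF, hc, F1, F0, Fm, fun S U => ?_⟩
  obtain ⟨k, hk, hU⟩ := hK S
  have e : FF [1, 0, 0, 0, 0, 0, 0, 0, 0, 0, 0, 0, 0, 0] TJ = fun _ => 1 := by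
    funext x; simp [FF, fe, TJ]
  have := hU U
  rw [e, U.one] at this
  linarith

end Vale.Agent.P154.Q3
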