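import Vale.Agent.P154.Chi
import Vale.Agent.P154.Cert

namespace Vale.Agent.P154

theorem sorted_nonneg (f : ℝ → ℝ → ℝ → ℝ) (k : ℕ)
    (hh : ∀ t b c, f t (t * b) (t * (b * c)) = t ^ k * f 1 b (b * c))
    (s1 : ∀ a b c, f a b c = f b a c) (s2 : ∀ a b c, f a b c = f a c b)
    (hbox : ∀ b c, 0 ≤ b → b ≤ 1 → 0 ≤ c → c ≤ 1 → 0 ≤ f 1 b (b * c))
    (a b c : ℝ) (ha : 0 ≤ a) (hb : 0 ≤ b) (hc : 0 ≤ c) : 0 ≤ f a b c := by
  have key : ∀ a b c : ℝ, 0 ≤ c → c ≤ b → b ≤ a → 0 ≤ f a b c := by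
    intro a b c hc hcb hba
    have hb : 0 ≤ b := hc.trans hcb
    have ha : 0 ≤ a := hb.trans hba
    have e1 : b = a * (b / a) := by
      rcases ha.eq_or_lt with rfl | h
      · linarith
      · field_simp
    have e2 : c = b * (c / b) := by
      rcases hb.eq_or_lt with rfl | h
      · linarith
      · field_simp
    have e3 : c = a * (b / a * (c / b)) := by rw [← mul_assoc, ← e1, ← e2]
    have h := hh a (b / a) (c / b)
    rw [← e3, ← e1] at h
    rw [h]
    exact mul_nonneg (pow_nonneg ha _) (hbox _ _ (div_nonneg hb ha) (div_le_one_of_le₀ hba ha)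
      (div_nonneg hc hb) (div_le_one_of_le₀ hcb hb))
  rcases le_total a b with h1 | h1 <;> rcases le_total b c with h2 | h2 <;>
    rcases le_total a c with h3 | h3
  · rw [s1, s2, s1]; exact key _ _ _ ha h1 h2
  · rw [s1, s2, s1]; exact key _ _ _ ha h1 h2
  · rw [s1, s2]; exact key _ _ _ ha h3 h2
  · rw [s1]; exact key _ _ _ hc h3 h1
  · rw [s2, s1]; exact key _ _ _ hb h1 h3
  · rw [s2]; exact key _ _ _ hb h2 h3
  · exact key _ _ _ hc h2 h1
  · exact key _ _ _ hc h2 h1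

theorem cloP_nonneg {a b c : ℝ} (ha : 0 ≤ a) (hb : 0 ≤ b) (hc : 0 ≤ c) : 0 ≤ cloP a b c :=
  sorted_nonneg cloP 21 (fun t b c => by unfold cloP psiP avP; ring)
    (fun a b c => by unfold cloP psiP avP; ring) (fun a b c => by unfold cloP psiP avP; ring)
    clo_box a b c ha hb hc

theorem avP_s1 (a b c : ℝ) : avP a b c = avP b a c := by unfold avP; ring
theorem avP_s2 (a b c : ℝ) : avP a b c = avP a c b := by unfold avP; ring
theorem psiP_s1 (a b c : ℝ) : psiP a b c = psiP b a c := by unfold psiP avP; ring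
theorem psiP_s2 (a b c : ℝ) : psiP a b c = psiP a c b := by unfold psiP avP; ring
theorem zeP_s1 (a b c : ℝ) : zeP a b c = zeP b a c := by unfold zeP avP; ring
theorem zeP_s2 (a b c : ℝ) : zeP a b c = zeP a c b := by unfold zeP avP; ring
theorem enP_s1 (a b c : ℝ) : enP a b c = enP b a c := by unfold enP avP; ring
theorem enP_s2 (a b c : ℝ) : enP a b c = enP a c b := by unfold enP avP; ring
theorem avP_h (t b c : ℝ) : avP t (t * b) (t * c) = t ^ 6 * avP 1 b c := by unfold avP; ring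
theorem psiP_h (t b c : ℝ) : psiP t (t * b) (t * c) = t ^ 6 * psiP 1 b c := by
  unfold psiP avP; ring
theorem zeP_h (t b c : ℝ) : zeP t (t * b) (t * c) = t ^ 12 * zeP 1 b c := by
  unfold zeP avP; ring
theorem enP_h (t b c : ℝ) : enP t (t * b) (t * c) = t ^ 18 * enP 1 b c := by
  unfold enP avP; ring

theorem faP_nonneg {a b c : ℝ} (ha : 0 ≤ a) (hb : 0 ≤ b) (hc : 0 ≤ c) : 0 ≤ faP a b c :=
  sorted_nonneg faP 30
    (fun t b c => by unfold faP; rw [avP_h, psiP_h, zeP_h, enP_h]; ring)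
    (fun a b c => by unfold faP; rw [avP_s1 a, psiP_s1 a, zeP_s1 a, enP_s1 a])
    (fun a b c => by unfold faP; rw [avP_s2 a, psiP_s2 a, zeP_s2 a, enP_s2 a])
    fa_box a b c ha hb hc

theorem fbP_nonneg {a b c : ℝ} (ha : 0 ≤ a) (hb : 0 ≤ b) (hc : 0 ≤ c) : 0 ≤ fbP a b c :=
  sorted_nonneg fbP 30
    (fun t b c => by unfold fbP; rw [avP_h, psiP_h, zeP_h, enP_h]; ring)
    (fun a b c => by unfold fbP; rw [avP_s1 a, psiP_s1 a, zeP_s1 a, enP_s1 a])
    (fun a b c => by unfold fbP; rw [avP_s2 a, psiP_s2 a, zeP_s2 a, enP_s2 a])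
    fb_box a b c ha hb hc

noncomputable def rt (t : ℝ) : ℝ := t ^ (1 / 6 : ℝ)

theorem rt_nonneg {t : ℝ} (h : 0 ≤ t) : 0 ≤ rt t := Real.rpow_nonneg h _

theorem rt_pow {t : ℝ} (h : 0 ≤ t) : rt t ^ 6 = t := by
  unfold rt
  rw [← Real.rpow_natCast, ← Real.rpow_mul h]; norm_num

theorem rt_mul {s t : ℝ} (hs : 0 ≤ s) (ht : 0 ≤ t) : rt (s * t) = rt s * rt t :=
  Real.mul_rpow hs ht

theorem rt_div {s t : ℝ} (hs : 0 ≤ s) (ht : 0 ≤ t) : rt (s / t) = rt s / rt t :=
  Real.div_rpow hs ht _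

theorem rt_one : rt 1 = 1 := Real.one_rpow _

theorem rt_zero : rt 0 = 0 := Real.zero_rpow (by norm_num)

@[fun_prop] theorem rt_cont : Continuous rt := Real.continuous_rpow_const (by norm_num)

noncomputable def fa (a b c : ℝ) : ℝ := a * b * c * (a ^ 3 + b ^ 3 + c ^ 3) / 3
noncomputable def fb (a b c : ℝ) : ℝ := (a ^ 3 * b ^ 3 + b ^ 3 * c ^ 3 + a ^ 3 * c ^ 3) / 3

noncomputable def Fa (x : V) : ℝ := fa (rt (x 0)) (rt (x 1)) (rt (x 2))
noncomputable def Fb (x : V) : ℝ := fb (rt (x 0)) (rt (x 1)) (rt (x 2))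
noncomputable def psi (x : V) : ℝ := Fa x - 101 / 100 * Fb x + 1 / 100

theorem Fa_cont : Continuous Fa := by unfold Fa fa; fun_prop
theorem Fb_cont : Continuous Fb := by unfold Fb fb; fun_prop
theorem psi_cont : Continuous psi :=
  (Fa_cont.sub (continuous_const.mul Fb_cont)).add continuous_const
theorem bd_Fa : Bd Fa := Bd.of_cont Fa_cont
theorem bd_Fb : Bd Fb := Bd.of_cont Fb_cont
theorem bd_psi : Bd psi := Bd.of_cont psi_cont

theorem avP_rt {x : V} (h : Dl x) : avP (rt (x 0)) (rt (x 1)) (rt (x 2)) = 1 := by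
  unfold avP; rw [rt_pow (h.1 0), rt_pow (h.1 1), rt_pow (h.1 2), h.2]; norm_num

theorem psiP_rt {x : V} (h : Dl x) : psiP (rt (x 0)) (rt (x 1)) (rt (x 2)) = psi x := by
  unfold psiP psi Fa Fb fa fb; rw [avP_rt h]; ring

theorem zeP_rt {x : V} (h : Dl x) : zeP (rt (x 0)) (rt (x 1)) (rt (x 2)) = ze x := by
  unfold zeP ze; rw [avP_rt h, rt_pow (h.1 0), rt_pow (h.1 1), rt_pow (h.1 2)]
  have e : x 2 = 3 - x 0 - x 1 := by linarith [h.2]
  rw [e]; ring

theorem enP_rt {x : V} (h : Dl x) : enP (rt (x 0)) (rt (x 1)) (rt (x 2)) = en x := by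
  unfold enP en; rw [avP_rt h, rt_pow (h.1 0), rt_pow (h.1 1), rt_pow (h.1 2)]
  have e : x 2 = 3 - x 0 - x 1 := by linarith [h.2]
  rw [e]; ring

theorem facet_a {x : V} (h : Dl x) : 23 / 4 * psi x ≤ 7 / 20 * ze x -
    (3 / 20 * (ze x - ze x ^ 2) + (ze x ^ 2 - en x) + 3 / 10 * (ze x ^ 2 - ze x * en x)) := by
  have := faP_nonneg (rt_nonneg (h.1 0)) (rt_nonneg (h.1 1)) (rt_nonneg (h.1 2))
  unfold faP at this
  rw [avP_rt h, psiP_rt h, zeP_rt h, enP_rt h] at this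
  linarith

theorem facet_b {x : V} (h : Dl x) : psi x ≤ 11 / 50 * ze x - (ze x ^ 2 - ze x * en x) := by
  have := fbP_nonneg (rt_nonneg (h.1 0)) (rt_nonneg (h.1 1)) (rt_nonneg (h.1 2))
  unfold fbP at this
  rw [avP_rt h, psiP_rt h, zeP_rt h, enP_rt h] at this
  linarith

theorem Fa_nonneg {x : V} (h : Dl x) : 0 ≤ Fa x := by
  have a0 := rt_nonneg (h.1 0); have a1 := rt_nonneg (h.1 1); have a2 := rt_nonneg (h.1 2)
  unfold Fa fa; positivity

theorem Fb_nonneg {x : V} (h : Dl x) : 0 ≤ Fb x := by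
  have a0 := rt_nonneg (h.1 0); have a1 := rt_nonneg (h.1 1); have a2 := rt_nonneg (h.1 2)
  unfold Fb fb; positivity

theorem Fb_le_one {x : V} (h : Dl x) : Fb x ≤ 1 := by
  have e := avP_rt h
  unfold Fb fb; unfold avP at e
  generalize rt (x 0) = a at e; generalize rt (x 1) = b at e; generalize rt (x 2) = c at e
  nlinarith [sq_nonneg (a ^ 3 - b ^ 3), sq_nonneg (b ^ 3 - c ^ 3), sq_nonneg (a ^ 3 - c ^ 3)]

theorem Fa_le_one {x : V} (h : Dl x) : Fa x ≤ 1 := by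
  have e := avP_rt h
  have a0 := rt_nonneg (h.1 0); have a1 := rt_nonneg (h.1 1); have a2 := rt_nonneg (h.1 2)
  unfold Fa fa; unfold avP at e
  generalize rt (x 0) = a at e a0; generalize rt (x 1) = b at e a1; generalize rt (x 2) = c at e a2
  have h1 : a * b * c ≤ (a ^ 3 + b ^ 3 + c ^ 3) / 3 := by
    nlinarith [mul_nonneg (add_nonneg (add_nonneg a0 a1) a2)
      (add_nonneg (add_nonneg (sq_nonneg (a - b)) (sq_nonneg (b - c))) (sq_nonneg (a - c)))]
  have h2 : 0 ≤ a ^ 3 + b ^ 3 + c ^ 3 := by positivity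
  have h3 : (a ^ 3 + b ^ 3 + c ^ 3) ^ 2 ≤ 9 := by
    nlinarith [sq_nonneg (a ^ 3 - b ^ 3), sq_nonneg (b ^ 3 - c ^ 3), sq_nonneg (a ^ 3 - c ^ 3)]
  nlinarith [mul_le_mul_of_nonneg_right h1 h2]

theorem hom_rt (f : ℝ → ℝ → ℝ → ℝ) (hf : ∀ t a b c, f (t * a) (t * b) (t * c) = t ^ 6 * f a b c)
    {v : V} (hv : ∀ i, 0 ≤ v i) :
    hom (fun x => f (rt (x 0)) (rt (x 1)) (rt (x 2))) v = f (rt (v 0)) (rt (v 1)) (rt (v 2)) := by
  rcases eq_or_ne (av v) 0 with h0 | h0
  · have := hf 0 0 0 0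
    have h3 : f 0 0 0 = 0 := by simpa using this
    rw [eq_zero_of_av hv h0 0, eq_zero_of_av hv h0 1, eq_zero_of_av hv h0 2, rt_zero, h3, hom, h0,
      zero_mul]
  have hD := av_nonneg hv
  have e : ∀ i, rt (av v) * rt (v i / av v) = rt (v i) := by
    intro i
    rw [← rt_mul hD (div_nonneg (hv i) hD)]
    congr 1; field_simp
  simp only [hom]
  rw [← e 0, ← e 1, ← e 2, hf, rt_pow hD]

theorem star_mul (S T : St) (f : ℝ → ℝ → ℝ → ℝ)
    (hf : ∀ t a b c, f (t * a) (t * b) (t * c) = t ^ 6 * f a b c)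
    (hc : Continuous fun p : ℝ × ℝ × ℝ => f p.1 p.2.1 p.2.2)
    (hm : ∀ a b c d e g, 1 / 6 * (f (a * d) (b * e) (c * g) + f (a * e) (b * d) (c * g)
      + f (a * d) (b * g) (c * e) + f (a * g) (b * e) (c * d) + f (a * e) (b * g) (c * d)
      + f (a * g) (b * d) (c * e)) = f a b c * f d e g) :
    (S.star T).E (fun x => f (rt (x 0)) (rt (x 1)) (rt (x 2))) =
      S.E (fun x => f (rt (x 0)) (rt (x 1)) (rt (x 2))) *
        T.E (fun x => f (rt (x 0)) (rt (x 1)) (rt (x 2))) := by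
  have hb : Bd fun x => f (rt (x 0)) (rt (x 1)) (rt (x 2)) :=
    Bd.of_cont (hc.comp (f := fun x : V => (rt (x 0), rt (x 1), rt (x 2))) (by fun_prop))
  rw [mul_comm, ← S.cmul _ _ hb]
  refine S.congr (T.bd_inner hb) fun x hx => ?_
  have hb2 : Bd fun y : V => f (rt (x 0) * rt (y 0)) (rt (x 1) * rt (y 1)) (rt (x 2) * rt (y 2)) :=
    Bd.of_cont (hc.comp (f := fun y : V =>
      (rt (x 0) * rt (y 0), rt (x 1) * rt (y 1), rt (x 2) * rt (y 2))) (by fun_prop))
  have h1 : T.E (fun y => hom (fun x => f (rt (x 0)) (rt (x 1)) (rt (x 2))) (x * y)) =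
      T.E (fun y => f (rt (x 0) * rt (y 0)) (rt (x 1) * rt (y 1)) (rt (x 2) * rt (y 2))) := by
    refine T.congr (hb.homl hx) fun y hy => ?_
    rw [hom_rt f hf (mul_nn hx.1 hy.1)]
    simp only [Pi.mul_apply]
    rw [rt_mul (hx.1 0) (hy.1 0), rt_mul (hx.1 1) (hy.1 1), rt_mul (hx.1 2) (hy.1 2)]
  rw [h1, T.sym6 (fun a b c => f (rt (x 0) * rt a) (rt (x 1) * rt b) (rt (x 2) * rt c)) hb2]
  simp only [hm]
  rw [T.cmul _ _ hb, mul_comm]

theorem star_Fa (S T : St) : (S.star T).E Fa = S.E Fa * T.E Fa :=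
  star_mul S T fa (fun t a b c => by unfold fa; ring) (by unfold fa; fun_prop)
    (fun a b c d e g => by unfold fa; ring)

theorem star_Fb (S T : St) : (S.star T).E Fb = S.E Fb * T.E Fb :=
  star_mul S T fb (fun t a b c => by unfold fb; ring) (by unfold fb; fun_prop)
    (fun a b c d e g => by unfold fb; ring)

theorem E_psi (S : St) : S.E psi = S.E Fa - 101 / 100 * S.E Fb + 1 / 100 := by
  have h : S.E psi = S.E (fun x => Fa x + (-(101 / 100)) * Fb x + 1 / 100) :=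
    S.congr bd_psi fun x _ => by unfold psi; ring
  rw [h, S.add _ _ (bd_Fa.add (bd_Fb.cmul _)) (Bd.const _), S.add _ _ bd_Fa (bd_Fb.cmul _),
    S.cmul _ _ bd_Fb, S.const]
  ring

theorem star_psi (S T : St) (hS : 0 ≤ S.E psi) (hT : 0 ≤ T.E psi) : 0 ≤ (S.star T).E psi := by
  rw [E_psi] at hS hT ⊢
  rw [star_Fa, star_Fb]
  have a1 := T.nonneg bd_Fa fun x hx => Fa_nonneg hx
  have a2 := T.le_const bd_Fa fun x hx => Fa_le_one hx
  have b1 := S.nonneg bd_Fb fun x hx => Fb_nonneg hx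
  have b2 := S.le_const bd_Fb fun x hx => Fb_le_one hx
  nlinarith [mul_nonneg a1 hS, mul_nonneg b1 hT, mul_nonneg (sub_nonneg.2 a2) (sub_nonneg.2 b2)]

theorem rt_deriv (u r : ℝ) (h : 0 < 1 + r * u) :
    HasDerivAt (fun r => rt (1 + r * u)) (u / (6 * rt (1 + r * u) ^ 5)) r := by
  have h1 : HasDerivAt (fun r => 1 + r * u) u r := by
    simpa using ((hasDerivAt_id r).mul_const u).const_add 1
  have h2 := h1.rpow_const (p := (1 / 6 : ℝ)) (Or.inl h.ne')
  have h3 : 0 < rt (1 + r * u) := Real.rpow_pos_of_pos h _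
  have h4 : (1 + r * u) ^ ((1 / 6 : ℝ) - 1) = 1 / rt (1 + r * u) ^ 5 := by
    rw [Real.rpow_sub_one h.ne']
    have := rt_pow h.le
    change rt (1 + r * u) / (1 + r * u) = _
    generalize rt (1 + r * u) = y at this h3
    rw [← this]; field_simp
  rw [h4] at h2
  have e : u / (6 * rt (1 + r * u) ^ 5) = u * (1 / 6) * (1 / rt (1 + r * u) ^ 5) := by
    field_simp
  rw [e]
  exact h2

theorem psi_ch {l : ℝ} (h0 : 0 ≤ l) (h1 : l ≤ 1) {x : V} (hx : Dl x) :
    l ^ 4 * psi x ≤ psi (ch l x) := by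
  rcases h0.eq_or_lt with rfl | h0
  · simp [psi, Fa, Fb, fa, fb, ch, rt_one]; norm_num
  have hcont : Continuous fun r => psi (ch r x) := psi_cont.comp (by unfold ch; fun_prop)
  have key : AntitoneOn (fun r => psi (ch r x) / r ^ 4) (Set.Icc l 1) := by
    have hd : ∀ r ∈ Set.Ioo l 1, ∃ D, D ≤ 0 ∧ HasDerivAt (fun r => psi (ch r x) / r ^ 4) D r := by
      intro r hr
      have r0 : 0 < r := h0.trans hr.1
      have hp : ∀ i, 0 < 1 + r * (x i - 1) := fun i => by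
        nlinarith [mul_nonneg r0.le (hx.1 i), hr.2]
      have d0 := rt_deriv _ r (hp 0)
      have d1 := rt_deriv _ r (hp 1)
      have d2 := rt_deriv _ r (hp 2)
      have dA := ((((d0.mul d1).mul d2).mul (((d0.pow 3).add (d1.pow 3)).add (d2.pow 3))).div_const 3)
      have dB := (((((d0.pow 3).mul (d1.pow 3)).add ((d1.pow 3).mul (d2.pow 3))).add
        ((d0.pow 3).mul (d2.pow 3))).div_const 3)
      have dP := ((dA.sub (dB.const_mul (101 / 100))).add_const (1 / 100)).div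
        (hasDerivAt_pow 4 r) (pow_ne_zero 4 r0.ne')
      refine ⟨_, ?_, dP⟩
      have hD := hx.ch r0.le hr.2.le
      have eav := avP_rt hD
      have p0 : 0 < rt (1 + r * (x 0 - 1)) := Real.rpow_pos_of_pos (hp 0) _
      have p1 : 0 < rt (1 + r * (x 1 - 1)) := Real.rpow_pos_of_pos (hp 1) _
      have p2 : 0 < rt (1 + r * (x 2 - 1)) := Real.rpow_pos_of_pos (hp 2) _
      have hc := cloP_nonneg p0.le p1.le p2.le
      have e0 := rt_pow (hp 0).le
      have e1 := rt_pow (hp 1).le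
      have e2 := rt_pow (hp 2).le
      simp only [ch] at eav
      simp only [Pi.mul_apply, Pi.add_apply, Pi.pow_apply, Pi.sub_apply]
      unfold cloP psiP at hc
      rw [eav] at hc
      generalize rt (1 + r * (x 0 - 1)) = a at *
      generalize rt (1 + r * (x 1 - 1)) = b at *
      generalize rt (1 + r * (x 2 - 1)) = c at *
      have f0 : x 0 - 1 = (a ^ 6 - 1) / r := by rw [e0]; field_simp; ring
      have f1 : x 1 - 1 = (b ^ 6 - 1) / r := by rw [e1]; field_simp; ring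
      have f2 : x 2 - 1 = (c ^ 6 - 1) / r := by rw [e2]; field_simp; ring
      rw [f0, f1, f2]
      refine div_nonpos_of_nonpos_of_nonneg ?_ (by positivity)
      have hq := div_nonneg (mul_nonneg (pow_nonneg r0.le 3) hc)
        (pow_nonneg (mul_nonneg (mul_nonneg p0.le p1.le) p2.le) 5)
      refine neg_nonneg.1 (hq.trans_eq ?_)
      push_cast
      field_simp
      ring
    refine antitoneOn_of_deriv_nonpos (convex_Icc _ _) ?_ ?_ ?_
    · exact hcont.continuousOn.div (by fun_prop) fun r hr => pow_ne_zero 4 (h0.trans_le hr.1).ne'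
    · rw [interior_Icc]
      intro r hr
      obtain ⟨D, _, hD⟩ := hd r hr
      exact hD.differentiableAt.differentiableWithinAt
    · rw [interior_Icc]
      intro r hr
      obtain ⟨D, h, hD⟩ := hd r hr
      rwa [hD.deriv]
  have h2 := key ⟨le_rfl, h1⟩ ⟨h1, le_rfl⟩ h1
  have e : ch 1 x = x := by funext i; simp [ch]
  simp only [e, one_pow, div_one] at h2
  rw [le_div_iff₀ (by positivity)] at h2
  linarith

end Vale.Agent.P154
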