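import Vale.Agent.P154.RP02d

namespace Vale.Agent.P154.DE.RP02

open Vale.Agent.P154 Vale.Agent.P154.DE

theorem e7 : Nat.beq (phase2 c2 4951 10000 251 (poiL 41609 10000 16) 16 x6) x7 = true := by
  decide +kernel

end Vale.Agent.P154.DE.RP02
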