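import Vale.Agent.P154.RP03d

namespace Vale.Agent.P154.DE.RP03

open Vale.Agent.P154 Vale.Agent.P154.DE

theorem e2 : Nat.beq (phase2 c1 1961 4000 251 (poiL 42436 10000 16) 22 (trans2 c0 c1 1961 4000 251 (poiL 42436 10000 16) x1)) x2 = true := by
  decide +kernel

end Vale.Agent.P154.DE.RP03
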