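import Vale.Agent.P154.RP05d

namespace Vale.Agent.P154.DE.RP05

open Vale.Agent.P154 Vale.Agent.P154.DE

theorem e7 : Nat.beq (phase2 c2 4807 10000 250 (poiL 44316 10000 17) 16 x6) x7 = true := by
  decide +kernel

end Vale.Agent.P154.DE.RP05
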