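import Vale.Agent.P154.RP06d

namespace Vale.Agent.P154.DE.RP06

open Vale.Agent.P154 Vale.Agent.P154.DE

theorem e5 : Nat.beq (phase2 c2 9501 20000 250 (poiL 45376 10000 17) 16 x4) x5 = true := by
  decide +kernel

end Vale.Agent.P154.DE.RP06
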