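import Vale.Agent.P154.RP08d

namespace Vale.Agent.P154.DE.RP08

open Vale.Agent.P154 Vale.Agent.P154.DE

theorem e1 : Nat.beq (phase2 c0 9279 20000 249 (poiL 47764 10000 17) 17 (start2 c0 9279 20000 249)) x1 = true := by
  decide +kernel

end Vale.Agent.P154.DE.RP08
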