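import Vale.Agent.P154.RP09e1
import Vale.Agent.P154.RP09e2
import Vale.Agent.P154.RP09e3
import Vale.Agent.P154.RP09e4
import Vale.Agent.P154.RP09e5
import Vale.Agent.P154.RP09e6
import Vale.Agent.P154.RP09ef

namespace Vale.Agent.P154.DE.RP09

open Vale.Agent.P154 Vale.Agent.P154.DE

theorem r1 : Reach2 286 625 249 49099 10000 18 c0 x1 := by
  have h : Reach2 286 625 249 49099 10000 18 c0 (phase2 c0 286 625 249 (poiL 49099 10000 18) 16 (start2 c0 286 625 249)) := ((reach2_start (by decide +kernel)).phase 16)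
  rwa [Nat.eq_of_beq_eq_true e1] at h

theorem r2 : Reach2 286 625 249 49099 10000 18 c1 x2 := by
  have h : Reach2 286 625 249 49099 10000 18 c1 (phase2 c1 286 625 249 (poiL 49099 10000 18) 22 (trans2 c0 c1 286 625 249 (poiL 49099 10000 18) x1)) := ((r1.trans (c' := c1) (by decide +kernel)).phase 22)
  rwa [Nat.eq_of_beq_eq_true e2] at h

theorem r3 : Reach2 286 625 249 49099 10000 18 c1 x3 := by
  have h : Reach2 286 625 249 49099 10000 18 c1 (phase2 c1 286 625 249 (poiL 49099 10000 18) 13 x2) := (r2.phase 13)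
  rwa [Nat.eq_of_beq_eq_true e3] at h

theorem r4 : Reach2 286 625 249 49099 10000 18 c2 x4 := by
  have h : Reach2 286 625 249 49099 10000 18 c2 (phase2 c2 286 625 249 (poiL 49099 10000 18) 16 (trans2 c1 c2 286 625 249 (poiL 49099 10000 18) x3)) := ((r3.trans (c' := c2) (by decide +kernel)).phase 16)
  rwa [Nat.eq_of_beq_eq_true e4] at h

theorem r5 : Reach2 286 625 249 49099 10000 18 c2 x5 := by
  have h : Reach2 286 625 249 49099 10000 18 c2 (phase2 c2 286 625 249 (poiL 49099 10000 18) 16 x4) := (r4.phase 16)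
  rwa [Nat.eq_of_beq_eq_true e5] at h

theorem r6 : Reach2 286 625 249 49099 10000 18 c2 x6 := by
  have h : Reach2 286 625 249 49099 10000 18 c2 (phase2 c2 286 625 249 (poiL 49099 10000 18) 16 x5) := (r5.phase 16)
  rwa [Nat.eq_of_beq_eq_true e6] at h

theorem ok {r B : ℝ} {h : -1 / 2 ≤ -r} {h' : -r ≤ 1} (hK : KeyP r h h' phi B) (hr : 0 < r)
    (hB : 6 ≤ B) (hc : 1 / 2 ≤ r ∨ 1 ≤ ((47764 : ℕ) : ℝ) / (10000 : ℕ) * r ^ 2) :
    PoiOK (((47764 : ℕ) : ℝ) / (10000 : ℕ)) (((49099 : ℕ) : ℝ) / (10000 : ℕ)) := by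
  have hR : Reach2 286 625 249 49099 10000 18 c2 (phase2 c2 286 625 249 (poiL 49099 10000 18) 7 x6) := (r6.phase 7)
  exact poiCell hR ef hK hr (by simpa using hB) (by norm_num) hc

end Vale.Agent.P154.DE.RP09
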