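import Vale.Agent.P154.RP10d

namespace Vale.Agent.P154.DE.RP10

open Vale.Agent.P154 Vale.Agent.P154.DE

theorem e6 : Nat.beq (phase2 c2 4513 10000 249 (poiL 50479 10000 18) 16 x5) x6 = true := by
  decide +kernel

end Vale.Agent.P154.DE.RP10
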