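import Vale.Agent.P154.RP12d

namespace Vale.Agent.P154.DE.RP12

open Vale.Agent.P154 Vale.Agent.P154.DE

theorem e3 : Nat.beq (phase2 c1 1749 4000 247 (poiL 54211 10000 19) 11 x2) x3 = true := by
  decide +kernel

end Vale.Agent.P154.DE.RP12
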