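import Vale.Agent.P154.RP13d

namespace Vale.Agent.P154.DE.RP13

open Vale.Agent.P154 Vale.Agent.P154.DE

theorem e6 : Nat.beq (phase2 c2 859 2000 247 (poiL 56185 10000 19) 16 x5) x6 = true := by
  decide +kernel

end Vale.Agent.P154.DE.RP13
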