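import Vale.Agent.P154.RP17d

namespace Vale.Agent.P154.DE.RP17

open Vale.Agent.P154 Vale.Agent.P154.DE

theorem e3 : Nat.beq (phase2 c2 2 5 243 (poiL 65844 10000 21) 16 (trans2 c1 c2 2 5 243 (poiL 65844 10000 21) x2)) x3 = true := by
  decide +kernel

end Vale.Agent.P154.DE.RP17
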