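import Vale.Agent.P154.RP18d

namespace Vale.Agent.P154.DE.RP18

open Vale.Agent.P154 Vale.Agent.P154.DE

theorem ef : finChk c2 (poiL 69353 10000 21) (DE.trans c2 c2 1559 4000 (poiL 69353 10000 21) (phase2 c2 1559 4000 243 (poiL 69353 10000 21) 1 x5)) 69353 65844 10000 11 1 = true := by
  decide +kernel

end Vale.Agent.P154.DE.RP18
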