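import Vale.Agent.P154.RP19d

namespace Vale.Agent.P154.DE.RP19

open Vale.Agent.P154 Vale.Agent.P154.DE

theorem e4 : Nat.beq (phase2 c2 1519 4000 243 (poiL 73054 10000 22) 16 x3) x4 = true := by
  decide +kernel

end Vale.Agent.P154.DE.RP19
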