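import Vale.Agent.P154.RP20d

namespace Vale.Agent.P154.DE.RP20

open Vale.Agent.P154 Vale.Agent.P154.DE

theorem ef : finChk c2 (poiL 77593 10000 23) (DE.trans c2 c2 37 100 (poiL 77593 10000 23) (phase2 c2 37 100 241 (poiL 77593 10000 23) 8 x4)) 77593 73054 10000 11 1 = true := by
  decide +kernel

end Vale.Agent.P154.DE.RP20
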