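import Vale.Agent.P154.RP21d

namespace Vale.Agent.P154.DE.RP21

open Vale.Agent.P154 Vale.Agent.P154.DE

theorem e2 : Nat.beq (phase2 c1 359 1000 241 (poiL 82421 10000 24) 13 (trans2 c0 c1 359 1000 241 (poiL 82421 10000 24) x1)) x2 = true := by
  decide +kernel

end Vale.Agent.P154.DE.RP21
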