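import Vale.Agent.P154.RP21d

namespace Vale.Agent.P154.DE.RP21

open Vale.Agent.P154 Vale.Agent.P154.DE

theorem ef : finChk c2 (poiL 82421 10000 24) (DE.trans c2 c2 359 1000 (poiL 82421 10000 24) (phase2 c2 359 1000 241 (poiL 82421 10000 24) 2 x4)) 82421 77593 10000 11 1 = true := by
  decide +kernel

end Vale.Agent.P154.DE.RP21
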