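import Vale.Agent.P154.RP22d

namespace Vale.Agent.P154.DE.RP22

open Vale.Agent.P154 Vale.Agent.P154.DE

theorem e2 : Nat.beq (phase2 c1 6967 20000 239 (poiL 88270 10000 25) 13 (trans2 c0 c1 6967 20000 239 (poiL 88270 10000 25) x1)) x2 = true := by
  decide +kernel

end Vale.Agent.P154.DE.RP22
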