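import Vale.Agent.P154.RP22e1
import Vale.Agent.P154.RP22e2
import Vale.Agent.P154.RP22e3
import Vale.Agent.P154.RP22e4
import Vale.Agent.P154.RP22ef

namespace Vale.Agent.P154.DE.RP22

open Vale.Agent.P154 Vale.Agent.P154.DE

theorem r1 : Reach2 6967 20000 239 88270 10000 25 c0 x1 := by
  have h : Reach2 6967 20000 239 88270 10000 25 c0 (phase2 c0 6967 20000 239 (poiL 88270 10000 25) 9 (start2 c0 6967 20000 239)) := ((reach2_start (by decide +kernel)).phase 9)
  rwa [Nat.eq_of_beq_eq_true e1] at h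

theorem r2 : Reach2 6967 20000 239 88270 10000 25 c1 x2 := by
  have h : Reach2 6967 20000 239 88270 10000 25 c1 (phase2 c1 6967 20000 239 (poiL 88270 10000 25) 13 (trans2 c0 c1 6967 20000 239 (poiL 88270 10000 25) x1)) := ((r1.trans (c' := c1) (by decide +kernel)).phase 13)
  rwa [Nat.eq_of_beq_eq_true e2] at h

theorem r3 : Reach2 6967 20000 239 88270 10000 25 c2 x3 := by
  have h : Reach2 6967 20000 239 88270 10000 25 c2 (phase2 c2 6967 20000 239 (poiL 88270 10000 25) 16 (trans2 c1 c2 6967 20000 239 (poiL 88270 10000 25) x2)) := ((r2.trans (c' := c2) (by decide +kernel)).phase 16)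
  rwa [Nat.eq_of_beq_eq_true e3] at h

theorem r4 : Reach2 6967 20000 239 88270 10000 25 c2 x4 := by
  have h : Reach2 6967 20000 239 88270 10000 25 c2 (phase2 c2 6967 20000 239 (poiL 88270 10000 25) 16 x3) := (r3.phase 16)
  rwa [Nat.eq_of_beq_eq_true e4] at h

theorem ok {r B : ℝ} {h : -1 / 2 ≤ -r} {h' : -r ≤ 1} (hK : KeyP r h h' phi B) (hr : 0 < r)
    (hB : 11 ≤ B) (hc : 1 / 2 ≤ r ∨ 1 ≤ ((82421 : ℕ) : ℝ) / (10000 : ℕ) * r ^ 2) :
    PoiOK (((82421 : ℕ) : ℝ) / (10000 : ℕ)) (((88270 : ℕ) : ℝ) / (10000 : ℕ)) := by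
  have hR : Reach2 6967 20000 239 88270 10000 25 c2 (phase2 c2 6967 20000 239 (poiL 88270 10000 25) 6 x4) := (r4.phase 6)
  exact poiCell hR ef hK hr (by simpa using hB) (by norm_num) hc

end Vale.Agent.P154.DE.RP22
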