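import Vale.Agent.P154.RP23d

namespace Vale.Agent.P154.DE.RP23

open Vale.Agent.P154 Vale.Agent.P154.DE

theorem e1 : Nat.beq (phase2 c0 1683 5000 252 (poiL 90000 10000 25) 8 (start2 c0 1683 5000 252)) x1 = true := by
  decide +kernel

end Vale.Agent.P154.DE.RP23
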