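import Vale.Agent.P154.RP26d

namespace Vale.Agent.P154.DE.RP26

open Vale.Agent.P154 Vale.Agent.P154.DE

theorem e2 : Nat.beq (phase2 c1 1219 4000 234 (poiL 117798 10000 29) 16 (trans2 c0 c1 1219 4000 234 (poiL 117798 10000 29) x1)) x2 = true := by
  decide +kernel

end Vale.Agent.P154.DE.RP26
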