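import Vale.Agent.P154.RP26d

namespace Vale.Agent.P154.DE.RP26

open Vale.Agent.P154 Vale.Agent.P154.DE

theorem ef : finChk c1 (poiL 117798 10000 29) (DE.trans c1 c1 1219 4000 (poiL 117798 10000 29) (phase2 c1 1219 4000 234 (poiL 117798 10000 29) 7 x2)) 117798 107678 10000 17 1 = true := by
  decide +kernel

end Vale.Agent.P154.DE.RP26
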