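import Vale.Agent.P154.RP27d

namespace Vale.Agent.P154.DE.RP27

open Vale.Agent.P154 Vale.Agent.P154.DE

theorem e2 : Nat.beq (phase2 c1 1457 5000 232 (poiL 129949 10000 31) 16 (trans2 c0 c1 1457 5000 232 (poiL 129949 10000 31) x1)) x2 = true := by
  decide +kernel

end Vale.Agent.P154.DE.RP27
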