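import Vale.Agent.P154.RP27d

namespace Vale.Agent.P154.DE.RP27

open Vale.Agent.P154 Vale.Agent.P154.DE

theorem ef : finChk c1 (poiL 129949 10000 31) (DE.trans c1 c1 1457 5000 (poiL 129949 10000 31) (phase2 c1 1457 5000 232 (poiL 129949 10000 31) 7 x2)) 129949 117798 10000 17 1 = true := by
  decide +kernel

end Vale.Agent.P154.DE.RP27
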