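import Vale.Agent.P154.RP28d

namespace Vale.Agent.P154.DE.RP28

open Vale.Agent.P154 Vale.Agent.P154.DE

theorem e1 : Nat.beq (phase2 c0 5549 20000 232 (poiL 143345 10000 33) 14 (start2 c0 5549 20000 232)) x1 = true := by
  decide +kernel

end Vale.Agent.P154.DE.RP28
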