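import Vale.Agent.P154.RP30d

namespace Vale.Agent.P154.DE.RP30

open Vale.Agent.P154 Vale.Agent.P154.DE

theorem ef : finChk c1 (poiL 175977 10000 38) (DE.trans c1 c1 5019 20000 (poiL 175977 10000 38) (phase2 c1 5019 20000 231 (poiL 175977 10000 38) 5 x2)) 175977 158828 10000 17 1 = true := by
  decide +kernel

end Vale.Agent.P154.DE.RP30
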