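import Vale.Agent.P154.RP31d

namespace Vale.Agent.P154.DE.RP31

open Vale.Agent.P154 Vale.Agent.P154.DE

theorem ef : finChk c1 (poiL 194992 10000 41) (DE.trans c1 c1 149 625 (poiL 194992 10000 41) (phase2 c1 149 625 231 (poiL 194992 10000 41) 3 x2)) 194992 175977 10000 17 1 = true := by
  decide +kernel

end Vale.Agent.P154.DE.RP31
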