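import Vale.Agent.P154.RP32d

namespace Vale.Agent.P154.DE.RP32

open Vale.Agent.P154 Vale.Agent.P154.DE

theorem ef : finChk c1 (poiL 202500 10000 42) (DE.trans c1 c1 453 2000 (poiL 202500 10000 42) (phase2 c1 453 2000 247 (poiL 202500 10000 42) 9 (trans2 c0 c1 453 2000 247 (poiL 202500 10000 42) x1))) 202500 194992 10000 17 1 = true := by
  decide +kernel

end Vale.Agent.P154.DE.RP32
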