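import Vale.Agent.P154.RP32e1
import Vale.Agent.P154.RP32ef

namespace Vale.Agent.P154.DE.RP32

open Vale.Agent.P154 Vale.Agent.P154.DE

theorem r1 : Reach2 453 2000 247 202500 10000 42 c0 x1 := by
  have h : Reach2 453 2000 247 202500 10000 42 c0 (phase2 c0 453 2000 247 (poiL 202500 10000 42) 11 (start2 c0 453 2000 247)) := ((reach2_start (by decide +kernel)).phase 11)
  rwa [Nat.eq_of_beq_eq_true e1] at h

theorem ok {r B : ℝ} {h : -1 / 2 ≤ -r} {h' : -r ≤ 1} (hK : KeyP r h h' phi B) (hr : 0 < r)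
    (hB : 17 ≤ B) (c2 : 1 / 2 ≤ r ∨ 1 ≤ ((194992 : ℕ) : ℝ) / (10000 : ℕ) * r ^ 2) :
    PoiOK (((194992 : ℕ) : ℝ) / (10000 : ℕ)) (((202500 : ℕ) : ℝ) / (10000 : ℕ)) := by
  have hR : Reach2 453 2000 247 202500 10000 42 c1 (phase2 c1 453 2000 247 (poiL 202500 10000 42) 9 (trans2 c0 c1 453 2000 247 (poiL 202500 10000 42) x1)) := ((r1.trans (c' := c1) (by decide +kernel)).phase 9)
  exact poiCell hR ef hK hr (by simpa using hB) (by norm_num) c2

end Vale.Agent.P154.DE.RP32
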