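import Vale.Agent.P154.GFin

namespace Vale.Agent.P154.DE.RP32

open Vale.Agent.P154 Vale.Agent.P154.DE

def c0 : Cfg := ⟨28, 27, 7, 9, 12, 64, 42, 1⟩
def c1 : Cfg := ⟨53, 52, 14, 15, 22, 84, 58, 1⟩

def x1 : ℕ := 15588953056039667522204399191400613697898335289751965794927359024160038301895470741701032614082115221634273506449455437525926536718609126049687324767133323864430191055100409748956688961872518954997326225892521682293019497960309919263030034829785904961597249256079367417520091335015043608887666169320419657181665478176419533537688108985657850393588585498676006468537687028850076745262060099358972375482010487491455126256168595304030891677446434907090351200922802054379318544348433742655790505333117301955947258974545761653985827899686891440328388011062323324777379028794305276002849652042639071012919700647731063939779077862145606950209707699296056383599902245626115571131528198770996849185525322204397791656758766550628749533989129554743934494228307997866551063421025565030003038511582846184359644588981093244945784194609688922140437704160540732437136935676015864920560144707290422606459385824697888430714719624652945082323080397462983326221861093818138255286584532667038502589538078754835561748273223538197669640462536836334463506369625099651775457932798748202479187572944219597561176350578751853507132321782925508173568993956238752843852736527637903747045672716423974009584004775450685182917517659427332350713021889999333350773216449185203558394139650211278661006945230781908935236004527026391085403968174109566509976731136866333967546532728742631143177403113632706378595300092027501057554536347530434538992596582807134795976190525295649014184913151505591489920917076452815162536958879815663338904097716199523811537750658687858044460785786146721496162794064546955967073828742194793800120756170130697777972484622853690807838608400145680107406944025476612919736907555368759024778691082741973936631791264086646677851045175496553836980416610083286959445815846163616437645392657302231620705348182132376848686666143496371528285547556534926373069331855905823225288399996390557856575753382177129661708301733022001854283008063337911355331860714955837369782110338401456181201457974806054696049974392940089650528741410443319569936438391430526857220266982337493931207134247385512569067215819323923416677999065504561984044438961278139341280495131418456938051794866119788267996518731794220321735118682054800199050712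

end Vale.Agent.P154.DE.RP32
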