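import Vale.Agent.P154.RP32d

namespace Vale.Agent.P154.DE.RP32

open Vale.Agent.P154 Vale.Agent.P154.DE

theorem e1 : Nat.beq (phase2 c0 453 2000 247 (poiL 202500 10000 42) 11 (start2 c0 453 2000 247)) x1 = true := by
  decide +kernel

end Vale.Agent.P154.DE.RP32
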