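import Vale.Agent.P154.RR04e1
import Vale.Agent.P154.RR04e2
import Vale.Agent.P154.RR04e3
import Vale.Agent.P154.RR04e4
import Vale.Agent.P154.RR04e5
import Vale.Agent.P154.RR04e6
import Vale.Agent.P154.RR04ef

namespace Vale.Agent.P154.DE.RR04

open Vale.Agent.P154 Vale.Agent.P154.DE

theorem r1 : Reach 1 2 (List.replicate 4 0 ++ [2 ^ 38]) c0 x1 := by
  have h : Reach 1 2 (List.replicate 4 0 ++ [2 ^ 38]) c0 (phase c0 1 2 (List.replicate 4 0 ++ [2 ^ 38]) 45 (start c0 1 2)) := ((reach_start (by decide +kernel)).phase 45)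
  rwa [Nat.eq_of_beq_eq_true e1] at h

theorem r2 : Reach 1 2 (List.replicate 4 0 ++ [2 ^ 38]) c0 x2 := by
  have h : Reach 1 2 (List.replicate 4 0 ++ [2 ^ 38]) c0 (phase c0 1 2 (List.replicate 4 0 ++ [2 ^ 38]) 44 x1) := (r1.phase 44)
  rwa [Nat.eq_of_beq_eq_true e2] at h

theorem r3 : Reach 1 2 (List.replicate 4 0 ++ [2 ^ 38]) c1 x3 := by
  have h : Reach 1 2 (List.replicate 4 0 ++ [2 ^ 38]) c1 (phase c1 1 2 (List.replicate 4 0 ++ [2 ^ 38]) 35 (DE.trans c0 c1 1 2 (List.replicate 4 0 ++ [2 ^ 38]) x2)) := ((r2.trans (c' := c1) (by decide +kernel)).phase 35)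
  rwa [Nat.eq_of_beq_eq_true e3] at h

theorem r4 : Reach 1 2 (List.replicate 4 0 ++ [2 ^ 38]) c1 x4 := by
  have h : Reach 1 2 (List.replicate 4 0 ++ [2 ^ 38]) c1 (phase c1 1 2 (List.replicate 4 0 ++ [2 ^ 38]) 7 x3) := (r3.phase 7)
  rwa [Nat.eq_of_beq_eq_true e4] at h

theorem r5 : Reach 1 2 (List.replicate 4 0 ++ [2 ^ 38]) c2 x5 := by
  have h : Reach 1 2 (List.replicate 4 0 ++ [2 ^ 38]) c2 (phase c2 1 2 (List.replicate 4 0 ++ [2 ^ 38]) 25 (DE.trans c1 c2 1 2 (List.replicate 4 0 ++ [2 ^ 38]) x4)) := ((r4.trans (c' := c2) (by decide +kernel)).phase 25)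
  rwa [Nat.eq_of_beq_eq_true e5] at h

theorem r6 : Reach 1 2 (List.replicate 4 0 ++ [2 ^ 38]) c2 x6 := by
  have h : Reach 1 2 (List.replicate 4 0 ++ [2 ^ 38]) c2 (phase c2 1 2 (List.replicate 4 0 ++ [2 ^ 38]) 25 x5) := (r5.phase 25)
  rwa [Nat.eq_of_beq_eq_true e6] at h

theorem ok {r B : ℝ} {h : -1 / 2 ≤ -r} {h' : -r ≤ 1} (hK : KeyP r h h' phi B) (hr : 0 < r)
    (hB : 6 ≤ B) (hc : 1 / 2 ≤ r ∨ 1 ≤ ((4 : ℕ) : ℝ) * r ^ 2) : RegOK 4 4 := by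
  have hR : Reach 1 2 (List.replicate 4 0 ++ [2 ^ 38]) c2 (phase c2 1 2 (List.replicate 4 0 ++ [2 ^ 38]) 5 x6) := (r6.phase 5)
  exact regCell hR ef hK hr (by simpa using hB) (by norm_num) hc

end Vale.Agent.P154.DE.RR04
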