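import Vale.Agent.P154.RR04d

namespace Vale.Agent.P154.DE.RR04

open Vale.Agent.P154 Vale.Agent.P154.DE

theorem e1 : Nat.beq (phase c0 1 2 (List.replicate 4 0 ++ [2 ^ 38]) 45 (start c0 1 2)) x1 = true := by
  decide +kernel

end Vale.Agent.P154.DE.RR04
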