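import Vale.Agent.P154.RR05d

namespace Vale.Agent.P154.DE.RR05

open Vale.Agent.P154 Vale.Agent.P154.DE

theorem e3 : Nat.beq (phase c2 1789 4000 (List.replicate 5 0 ++ [2 ^ 38]) 25 (DE.trans c1 c2 1789 4000 (List.replicate 5 0 ++ [2 ^ 38]) x2)) x3 = true := by
  decide +kernel

end Vale.Agent.P154.DE.RR05
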