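import Vale.Agent.P154.RR05d

namespace Vale.Agent.P154.DE.RR05

open Vale.Agent.P154 Vale.Agent.P154.DE

theorem ef : finChk c2 (List.replicate 5 0 ++ [2 ^ 38]) (phase c2 1789 4000 (List.replicate 5 0 ++ [2 ^ 38]) 6 x3) 5 5 1 6 1 = true := by
  decide +kernel

end Vale.Agent.P154.DE.RR05
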