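import Vale.Agent.P154.RR06e1
import Vale.Agent.P154.RR06e2
import Vale.Agent.P154.RR06ef

namespace Vale.Agent.P154.DE.RR06

open Vale.Agent.P154 Vale.Agent.P154.DE

theorem r1 : Reach 1633 4000 (List.replicate 6 0 ++ [2 ^ 38]) c0 x1 := by
  have h : Reach 1633 4000 (List.replicate 6 0 ++ [2 ^ 38]) c0 (phase c0 1633 4000 (List.replicate 6 0 ++ [2 ^ 38]) 16 (start c0 1633 4000)) := ((reach_start (by decide +kernel)).phase 16)
  rwa [Nat.eq_of_beq_eq_true e1] at h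

theorem r2 : Reach 1633 4000 (List.replicate 6 0 ++ [2 ^ 38]) c1 x2 := by
  have h : Reach 1633 4000 (List.replicate 6 0 ++ [2 ^ 38]) c1 (phase c1 1633 4000 (List.replicate 6 0 ++ [2 ^ 38]) 22 (DE.trans c0 c1 1633 4000 (List.replicate 6 0 ++ [2 ^ 38]) x1)) := ((r1.trans (c' := c1) (by decide +kernel)).phase 22)
  rwa [Nat.eq_of_beq_eq_true e2] at h

theorem ok {r B : ℝ} {h : -1 / 2 ≤ -r} {h' : -r ≤ 1} (hK : KeyP r h h' phi B) (hr : 0 < r)
    (hB : 6 ≤ B) (hc : 1 / 2 ≤ r ∨ 1 ≤ ((6 : ℕ) : ℝ) * r ^ 2) : RegOK 6 6 := by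
  have hR : Reach 1633 4000 (List.replicate 6 0 ++ [2 ^ 38]) c2 (phase c2 1633 4000 (List.replicate 6 0 ++ [2 ^ 38]) 24 (DE.trans c1 c2 1633 4000 (List.replicate 6 0 ++ [2 ^ 38]) x2)) := ((r2.trans (c' := c2) (by decide +kernel)).phase 24)
  exact regCell hR ef hK hr (by simpa using hB) (by norm_num) hc

end Vale.Agent.P154.DE.RR06
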