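import Vale.Agent.P154.RR06d

namespace Vale.Agent.P154.DE.RR06

open Vale.Agent.P154 Vale.Agent.P154.DE

theorem e1 : Nat.beq (phase c0 1633 4000 (List.replicate 6 0 ++ [2 ^ 38]) 16 (start c0 1633 4000)) x1 = true := by
  decide +kernel

end Vale.Agent.P154.DE.RR06
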