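import Vale.Agent.P154.GFin

namespace Vale.Agent.P154.DE.RR07

open Vale.Agent.P154 Vale.Agent.P154.DE

def c0 : Cfg := ⟨16, 15, 9, 6, 11, 36, 24, 1⟩
def c1 : Cfg := ⟨27, 26, 9, 9, 13, 42, 29, 1⟩

def x1 : ℕ := 11328418853461508688554560537024700021119722153741366303164941174081359191026679863973555825687251275408043836087773014250548195590791985368704378833164442476140654032514934303818942930398513349528087832307156236573288895766928553080516209835399936933707845098917392428418421734875598780194783708447678126627323345742030546350063448194110020275676539357445976255274645766847979405762054759151231966978752854057201814174060110678168192617526478879778851763084365855053335310113597355361253740544660015800951048638082120798856275545714902351924086465541022595068826849524500778001763980322595789493074787311371049382865586051767088716197004191158936997217517620720035794578211768646436651342188782386262948125074253498592672650486692933587459546740758523298059122054242922822276069581633298120649367163976265102908985803639103275529742906279495061226652593593216866433901305251194363298869396789660340443566743778434628033963409561546457558457595391928681743716154243020054689428256028534254073225435739662693036631438928174973950583027860615158187010406339783188805699873685605579974106175392424567820870516078282895560568741373755991770357428310278973734157917352653579908387305406917178607074465350292428685542024742559327077024577422569659295811485297427235594946525667008840978659335960931657908576663550360336851472511747422431331442649783987066137729978193354571192413917663115844133306819329385415492468179434144690414817145239164853388650694279127924079337068051455666629509697982038160645017445577113352745734486870557246253607166999370512069700258196254236267252536806618477195361547666318542199231222451827971534091862793899935128744237513124760442671500579037564146113882913957693155389238750815600602587241379344341287268411049605898446524598930027627862990329428443298127680677102037898638091445089842182967465683474191720573253032564857999425579049334270208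

end Vale.Agent.P154.DE.RR07
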