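import Vale.Agent.P154.GFin

namespace Vale.Agent.P154.DE.RR08

open Vale.Agent.P154 Vale.Agent.P154.DE

def c0 : Cfg := ⟨16, 15, 8, 6, 10, 36, 24, 1⟩
def c1 : Cfg := ⟨30, 29, 10, 9, 15, 47, 32, 1⟩

def x1 : ℕ := 702648182915694474958978472872961517573696650689343996667050252733429699564826734994081514537400839506293020241755902422128703012212630554991215224614989517385926255473703595049645244157637188428133487143069186862675064018017401097948489151568828520440729815842979719739592848274752160566091010068905047903449701761347094157274333780785005196277844831113436105448724102516973110371074058327276592038352497243649045996330692134307285788699001262941729580519474200268631659893868620641118282243958590766763069979547645103386918611698470528207851100468901035438672910882607671452053399187422034554667116719830065755942683151447194761867810647847450871574065649226888981426033505376966981862414024963612762393377411836172694567005278205926119270331248660195019555062745603921796601709467909506417627591133524851265406881662936950321819389469406141594700065362675470898613284832570380293231748103123914587448067336842590916675892415128832930366952781993586025444982082646302885918768825725701761456260688439809554089740342120267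3240329585062266413498150958019671293447772325464388574033132281091553708056173849096924664803619170098855201544704241167397242466460636194780727790531077856502528835178248100436778573837612087651627153269724633989675256656248026297517124788134028966578739674741404178581403530289103866477012894259165029425090964755891677475719230655169751844798732817554943326812903147875327239682043933109667590468667735754630576149000107129029479118852832643938888409923950939647715010937827575025178357831980467011845104665624850939904606372959035136168627308958079435177519452001983088535462977487761678270757917948995374789726256911469037206889097822024007379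

theorem e1 : Nat.beq (phase c0 221 625 (List.replicate 8 0 ++ [2 ^ 38]) 23 (start c0 221 625)) x1 = true := by
  decide +kernel

theorem r1 : Reach 221 625 (List.replicate 8 0 ++ [2 ^ 38]) c0 x1 := by
  have h : Reach 221 625 (List.replicate 8 0 ++ [2 ^ 38]) c0 (phase c0 221 625 (List.replicate 8 0 ++ [2 ^ 38]) 23 (start c0 221 625)) := ((reach_start (by decide +kernel)).phase 23)
  rwa [Nat.eq_of_beq_eq_true e1] at h

theorem ef : finChk c1 (List.replicate 8 0 ++ [2 ^ 38]) (phase c1 221 625 (List.replicate 8 0 ++ [2 ^ 38]) 17 (DE.trans c0 c1 221 625 (List.replicate 8 0 ++ [2 ^ 38]) x1)) 8 8 1 11 1 = true := by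
  decide +kernel

theorem ok {r B : ℝ} {h : -1 / 2 ≤ -r} {h' : -r ≤ 1} (hK : KeyP r h h' phi B) (hr : 0 < r)
    (hB : 11 ≤ B) (c2 : 1 / 2 ≤ r ∨ 1 ≤ ((8 : ℕ) : ℝ) * r ^ 2) : RegOK 8 8 := by
  have hR : Reach 221 625 (List.replicate 8 0 ++ [2 ^ 38]) c1 (phase c1 221 625 (List.replicate 8 0 ++ [2 ^ 38]) 17 (DE.trans c0 c1 221 625 (List.replicate 8 0 ++ [2 ^ 38]) x1)) := ((r1.trans (c' := c1) (by decide +kernel)).phase 17)
  exact regCell hR ef hK hr (by simpa using hB) (by norm_num) c2

end Vale.Agent.P154.DE.RR08
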