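import Vale.Agent.P154.GFin

namespace Vale.Agent.P154.DE.RR09

open Vale.Agent.P154 Vale.Agent.P154.DE

def c0 : Cfg := ⟨16, 15, 7, 6, 10, 36, 24, 1⟩
def c1 : Cfg := ⟨24, 23, 8, 8, 12, 38, 26, 1⟩

def x1 : ℕ := 41122028912512642854544190620596399880884254256772886771721233931785104643688033554124295548448019408638347602223472057264636799092265889834550398565686200818363853290413430748595701758927652603424767767044332503494343554289999980430750738393973482983745953520841508197722332195307701524695322167022287455728733583464189955371828063742112215951758536295915462758806936742506368202035938049263213934554407854608457463432645736989303407241473741002960926672808611303126654512530678601444562498760614288975609409047537543373904244928924398772479335827574727108549419349412194461365588750666598840361843114458013244499962526139882151731836274584797600047946612996911309397733671708146422762802278212371535959556502355282781713421023230681340995520249069915658156883158143518634639296288388687962924850335192368933954767750181194500456509599337655294686455802013639037088723900821851099987970421297556447749885302683994427129690211421755873408839264969112344079194720792053018355638002416440503868504897759663552505944086871376112795303620300601712875331626649912448658210428084980929540876718413041285724193971942274523096969142201928958203794166039031553582908056097657928902737826621331368976695584549267981533237432449316790635720587155047563910230013169619481051239786629527855743154918651395690351298338470341893909295684802037439423821211741469896568385031632090847400200924062438205026606771867967889427724479050682562344489810047265444419051894646684552138788450206542534095940957073368667353181511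

theorem e1 : Nat.beq (phase c0 6667 20000 (List.replicate 9 0 ++ [2 ^ 38]) 13 (start c0 6667 20000)) x1 = true := by
  decide +kernel

theorem r1 : Reach 6667 20000 (List.replicate 9 0 ++ [2 ^ 38]) c0 x1 := by
  have h : Reach 6667 20000 (List.replicate 9 0 ++ [2 ^ 38]) c0 (phase c0 6667 20000 (List.replicate 9 0 ++ [2 ^ 38]) 13 (start c0 6667 20000)) := ((reach_start (by decide +kernel)).phase 13)
  rwa [Nat.eq_of_beq_eq_true e1] at h

theorem ef : finChk c1 (List.replicate 9 0 ++ [2 ^ 38]) (phase c1 6667 20000 (List.replicate 9 0 ++ [2 ^ 38]) 13 (DE.trans c0 c1 6667 20000 (List.replicate 9 0 ++ [2 ^ 38]) x1)) 9 9 1 17 1 = true := by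
  decide +kernel

theorem ok {r B : ℝ} {h : -1 / 2 ≤ -r} {h' : -r ≤ 1} (hK : KeyP r h h' phi B) (hr : 0 < r)
    (hB : 17 ≤ B) (c2 : 1 / 2 ≤ r ∨ 1 ≤ ((9 : ℕ) : ℝ) * r ^ 2) : RegOK 9 9 := by
  have hR : Reach 6667 20000 (List.replicate 9 0 ++ [2 ^ 38]) c1 (phase c1 6667 20000 (List.replicate 9 0 ++ [2 ^ 38]) 13 (DE.trans c0 c1 6667 20000 (List.replicate 9 0 ++ [2 ^ 38]) x1)) := ((r1.trans (c' := c1) (by decide +kernel)).phase 13)
  exact regCell hR ef hK hr (by simpa using hB) (by norm_num) c2

end Vale.Agent.P154.DE.RR09
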