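import Vale.Agent.P154.GFin

namespace Vale.Agent.P154.DE.RR10

open Vale.Agent.P154 Vale.Agent.P154.DE

def c0 : Cfg := ⟨16, 15, 7, 6, 10, 36, 24, 1⟩
def c1 : Cfg := ⟨26, 25, 8, 8, 12, 41, 28, 1⟩

def x1 : ℕ := 29268353916798039363241508364545323126956899133826083232970277143906958318501705452626684710949965849714112157254614135967282326191701086349423655730706919123413585737168840828048593225962218927785666814450078347786297638053093561864378480477182687211191718976142997912326493369599983727808469350657603344644446652531979069836985613177292884156909451637329599681203313328284509524329083927589916012801529109375427718379642709282821747693742506444503522900246603610575656792166176328569394521150478504940567390760683547036348928087596729281402200413466981425075043536336662803667517526028680730668185798440317102886982513695582830322250285457524350698143858861578488229518387326677682358375245564143277237755287763983422861863392242624879619361683113852974141146692911457946284749730912493299520950798991451340927915584972317451826617583463266985142205627097106952033548547287882261992985660241269299947970452291200097017778180892010441175297678405106535951016589735853867600992241668469372916772063674739818947219287830152200555404440645421368727821395264867443554255040495028457006922702213055309232948521417251481106794104088451329805167146414301046416453133669212396231485242269313329620727930972622321121607295455145260999096127862355936063833281005236651516080506089882108363281690721774411941649497199054609786849239232463928829010044377305790887942245322441174798686177956006870021244571212453277596570907875398041501498674416159780272089782219369378308258715248829070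

end Vale.Agent.P154.DE.RR10
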