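import Vale.Agent.P154.RR10d

namespace Vale.Agent.P154.DE.RR10

open Vale.Agent.P154 Vale.Agent.P154.DE

theorem e1 : Nat.beq (phase c0 253 800 (List.replicate 10 0 ++ [2 ^ 38]) 13 (start c0 253 800)) x1 = true := by
  decide +kernel

end Vale.Agent.P154.DE.RR10
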