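import Vale.Agent.P154.RR11d

namespace Vale.Agent.P154.DE.RR11

open Vale.Agent.P154 Vale.Agent.P154.DE

theorem ef : finChk c1 (List.replicate 11 0 ++ [2 ^ 38]) (phase c1 6031 20000 (List.replicate 11 0 ++ [2 ^ 38]) 10 (DE.trans c0 c1 6031 20000 (List.replicate 11 0 ++ [2 ^ 38]) x1)) 11 11 1 17 1 = true := by
  decide +kernel

end Vale.Agent.P154.DE.RR11
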