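import Vale.Agent.P154.GFin

namespace Vale.Agent.P154.DE.RR11

open Vale.Agent.P154 Vale.Agent.P154.DE

def c0 : Cfg := ⟨16, 15, 6, 6, 9, 36, 24, 1⟩
def c1 : Cfg := ⟨28, 27, 9, 9, 13, 44, 30, 1⟩

def x1 : ℕ := 6015598112306778123665837650506194690159439810315913737403318904972480062781750024468306213079540709410206507758646790986562133274103122093507119888779868282956089195023140353642428253362024845362093685615957275743053389083708843158074091111768512449235975075580838482694606743565275929033872372075771527249970295801356756100296926214806133187570602775841069945579605377213978893084487132330940614308000450118386492544761793034756740858279265038624668877691836358831520936749760889203260541623618391430386821501032586692626670375381527897593599165028240698627091173769993934954643418010383138257045205651795700447239426413320861157601335126904779720480561242139071886747257391532519019636636548356011561521571049308332743293766041118431911130467678135238158123890994745232200705760235748765589006141832895404006592476533463269998902559695795142389425643021078083277063820113073667804502268234362043975730848745681562566559390860337077899980455500894177218775537467900847177219686243150229781390256196592412392477683249855643084519210181658047330795488830035926866795234099490558685709712757268777004481529144444748466295324206166281989318439832590316892344536611365042329846673030781499602012628099292370849939354590969129440398149817376616888210873559904274426576556008564120115660002989848396606656192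

end Vale.Agent.P154.DE.RR11
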