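import Vale.Agent.P154.GFin

namespace Vale.Agent.P154.DE.RR12

open Vale.Agent.P154 Vale.Agent.P154.DE

def c0 : Cfg := ⟨16, 15, 6, 6, 9, 36, 24, 1⟩
def c1 : Cfg := ⟨29, 28, 9, 9, 14, 46, 31, 1⟩

def x1 : ℕ := 172288055593676351048316976381924615198113319161566079273366563133981806667938089526246705962725809144367225560178057087952709744385291799196422080019027956923047829444760941348959690736352693809196502857092822000042282516518657613623064407291117630353216067893578569789539730258085594733771551507768509938886807060345771962674408143119817704718156427895298567657673533837576120668271055670698338609276261278599643237547719858634610184920122329904996219936608927537065483570271652652412737215215631666337721274770038500713621004434503104731855028576011645669485705292500947148126671967074056448950880775720583924791153247090257471034827567300831196112338017769475731793518064407492540989506766001054488131170360646616629643350519133963139000513434888505395490216015102205234259593206707412390674844289186128037616023872700337478305283716278920566185616529897733619861248542421221847978971603879924483441556350463762004821200783701908680550130140599617853179580422171232285008349158576517179371680179243747088867696519905458036475489747906562090705340949828337778711629216615777401950853521247139287375116456766768362820030606110426534821019013099131960077812818423050622237146940014104622078596374140963982255096797134464053779223499567170234006116254538627855302770894780975810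

theorem e1 : Nat.beq (phase c0 2887 10000 (List.replicate 12 0 ++ [2 ^ 38]) 13 (start c0 2887 10000)) x1 = true := by
  decide +kernel

theorem r1 : Reach 2887 10000 (List.replicate 12 0 ++ [2 ^ 38]) c0 x1 := by
  have h : Reach 2887 10000 (List.replicate 12 0 ++ [2 ^ 38]) c0 (phase c0 2887 10000 (List.replicate 12 0 ++ [2 ^ 38]) 13 (start c0 2887 10000)) := ((reach_start (by decide +kernel)).phase 13)
  rwa [Nat.eq_of_beq_eq_true e1] at h

theorem ef : finChk c1 (List.replicate 12 0 ++ [2 ^ 38]) (phase c1 2887 10000 (List.replicate 12 0 ++ [2 ^ 38]) 9 (DE.trans c0 c1 2887 10000 (List.replicate 12 0 ++ [2 ^ 38]) x1)) 12 12 1 17 1 = true := by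
  decide +kernel

theorem ok {r B : ℝ} {h : -1 / 2 ≤ -r} {h' : -r ≤ 1} (hK : KeyP r h h' phi B) (hr : 0 < r)
    (hB : 17 ≤ B) (c2 : 1 / 2 ≤ r ∨ 1 ≤ ((12 : ℕ) : ℝ) * r ^ 2) : RegOK 12 12 := by
  have hR : Reach 2887 10000 (List.replicate 12 0 ++ [2 ^ 38]) c1 (phase c1 2887 10000 (List.replicate 12 0 ++ [2 ^ 38]) 9 (DE.trans c0 c1 2887 10000 (List.replicate 12 0 ++ [2 ^ 38]) x1)) := ((r1.trans (c' := c1) (by decide +kernel)).phase 9)
  exact regCell hR ef hK hr (by simpa using hB) (by norm_num) c2

end Vale.Agent.P154.DE.RR12
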