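import Vale.Agent.P154.GFin

namespace Vale.Agent.P154.DE.RR13

open Vale.Agent.P154 Vale.Agent.P154.DE

def c0 : Cfg := ⟨16, 15, 5, 6, 8, 36, 24, 1⟩
def c1 : Cfg := ⟨31, 30, 10, 10, 15, 49, 34, 1⟩

def x1 : ℕ := 1828140278678979921900521936208650399804683301986740710559878700921893220992293146425256245055227211440744078304780400733769452467379590334347639972743574627324095565466931368862022090388857243834874578370486570520358806708261517023945370532435227309820678749641301342559621241361142423934920962825921295357418977049080354987342511836266327093686964142804447387781195562057254923190812191579071945477485180986429502550512385151305813585521344008640730649526941092036931733732455729009629645525155623270416059488516920560710482158807851156474696290500569993599948858473835174232134441997422644758755232989491838926564490903272912214350246122074173856089835034511742174240511899409779130536292351056354544048316501187951310934338361412970710835812397561441626433749534049562744237922263967449766591443194188896221256937373100028104203049904974218642228098247823828735427625935516789927631372494326666804933441600859223572847607391373635306686119524249303657547338730671114865981908700516631655736674202057229302571388624072768505501556294518875824188559599781351893268849138583987160863726167635601451052879332518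

theorem e1 : Nat.beq (phase c0 1387 5000 (List.replicate 13 0 ++ [2 ^ 38]) 13 (start c0 1387 5000)) x1 = true := by
  decide +kernel

theorem r1 : Reach 1387 5000 (List.replicate 13 0 ++ [2 ^ 38]) c0 x1 := by
  have h : Reach 1387 5000 (List.replicate 13 0 ++ [2 ^ 38]) c0 (phase c0 1387 5000 (List.replicate 13 0 ++ [2 ^ 38]) 13 (start c0 1387 5000)) := ((reach_start (by decide +kernel)).phase 13)
  rwa [Nat.eq_of_beq_eq_true e1] at h

theorem ef : finChk c1 (List.replicate 13 0 ++ [2 ^ 38]) (phase c1 1387 5000 (List.replicate 13 0 ++ [2 ^ 38]) 9 (DE.trans c0 c1 1387 5000 (List.replicate 13 0 ++ [2 ^ 38]) x1)) 13 13 1 17 1 = true := by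
  decide +kernel

theorem ok {r B : ℝ} {h : -1 / 2 ≤ -r} {h' : -r ≤ 1} (hK : KeyP r h h' phi B) (hr : 0 < r)
    (hB : 17 ≤ B) (c2 : 1 / 2 ≤ r ∨ 1 ≤ ((13 : ℕ) : ℝ) * r ^ 2) : RegOK 13 13 := by
  have hR : Reach 1387 5000 (List.replicate 13 0 ++ [2 ^ 38]) c1 (phase c1 1387 5000 (List.replicate 13 0 ++ [2 ^ 38]) 9 (DE.trans c0 c1 1387 5000 (List.replicate 13 0 ++ [2 ^ 38]) x1)) := ((r1.trans (c' := c1) (by decide +kernel)).phase 9)
  exact regCell hR ef hK hr (by simpa using hB) (by norm_num) c2

end Vale.Agent.P154.DE.RR13
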