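import Vale.Agent.P154.GFin

namespace Vale.Agent.P154.DE.RR14

open Vale.Agent.P154 Vale.Agent.P154.DE

def c0 : Cfg := ⟨17, 16, 6, 6, 9, 38, 25, 1⟩
def c1 : Cfg := ⟨32, 31, 10, 10, 15, 50, 35, 1⟩

def x1 : ℕ := 28954981420014055831685704482551954734268910942067976170089741356056119845296800897932928652992273279287972602592535023593628185335318010597118995112532851946815329161011121661453106074278571269898882425840463496108270052291490049343278456606370036400471512452115765982703232041242032295339918553872242611296919416836204316823793753236240277392970574719636589723693602800014436297374202920132076540935401462855992474598418098069881149930555670003856739317244050210435223918551135319745161822282579698222860490243516945295332733012611970267018230102545401654705067090071800965561138636474094334501518878631138422078979175079971708053291481663611559378525038679526009205155736843192920458879721586368846498895532655201492705646992203273257943070136568583874743483742067305126254847131725897870593492921966581079045480766771781069008485773963998638809468009453519552775283578030020808635880922730878248455757260657610721039459122335566812235289563042658223187863484195202475603914730395433391010942594392215440687836852068547891562343488145092202657307558497814234558206984781208838906178696370813534387296228030728089875436148695637410132861043380549465441337658107694813503891544334099058165034057673997406409777023850477099015241169939265652587772842615596753204113413369436939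

theorem e1 : Nat.beq (phase c0 2673 10000 (List.replicate 14 0 ++ [2 ^ 38]) 12 (start c0 2673 10000)) x1 = true := by
  decide +kernel

theorem r1 : Reach 2673 10000 (List.replicate 14 0 ++ [2 ^ 38]) c0 x1 := by
  have h : Reach 2673 10000 (List.replicate 14 0 ++ [2 ^ 38]) c0 (phase c0 2673 10000 (List.replicate 14 0 ++ [2 ^ 38]) 12 (start c0 2673 10000)) := ((reach_start (by decide +kernel)).phase 12)
  rwa [Nat.eq_of_beq_eq_true e1] at h

theorem ef : finChk c1 (List.replicate 14 0 ++ [2 ^ 38]) (phase c1 2673 10000 (List.replicate 14 0 ++ [2 ^ 38]) 8 (DE.trans c0 c1 2673 10000 (List.replicate 14 0 ++ [2 ^ 38]) x1)) 14 14 1 17 1 = true := by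
  decide +kernel

theorem ok {r B : ℝ} {h : -1 / 2 ≤ -r} {h' : -r ≤ 1} (hK : KeyP r h h' phi B) (hr : 0 < r)
    (hB : 17 ≤ B) (c2 : 1 / 2 ≤ r ∨ 1 ≤ ((14 : ℕ) : ℝ) * r ^ 2) : RegOK 14 14 := by
  have hR : Reach 2673 10000 (List.replicate 14 0 ++ [2 ^ 38]) c1 (phase c1 2673 10000 (List.replicate 14 0 ++ [2 ^ 38]) 8 (DE.trans c0 c1 2673 10000 (List.replicate 14 0 ++ [2 ^ 38]) x1)) := ((r1.trans (c' := c1) (by decide +kernel)).phase 8)
  exact regCell hR ef hK hr (by simpa using hB) (by norm_num) c2

end Vale.Agent.P154.DE.RR14
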