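import Vale.Agent.P154.GFin

namespace Vale.Agent.P154.DE.RR15

open Vale.Agent.P154 Vale.Agent.P154.DE

def c0 : Cfg := ⟨18, 17, 6, 7, 9, 41, 27, 1⟩
def c1 : Cfg := ⟨33, 32, 10, 10, 15, 52, 36, 1⟩

def x1 : ℕ := 268888847191548515372060640579660409224531119841118061810317966097066912247907271049736391327013751691799562105378286637473065009678091449404013072449308767069604808118343777424949062596575929757402276525979593266158419184028594175213850574681119066895504758014977822970611903106442972756873021168560237874299712316396429636216384567886125969777905248220785733667087256315241490992112865245969147746153814856313885697723698655869634045652744020270317128843440645045336594316734130495070710917603331222932183075860396022040059344994985074299665845077319921393667911689690809105176424191446120289434003057200259358805889661081633050749632461085788229986642066757755113156126731679377408749243990572491088589269804577696334743820427650283046967475547636378613076441412047916519460737347806542599325586292169811706684684481213187856783497744307276653010626246914128046006140137064467287264736409445535116703221330297440108001853635494964042572759602588107751319819460103222283215316325265960440077793886312200193440986124530634152608401826726286300865530307971265528148905247530360608490291816722877516222331328367899063090299284182743404918014445823582751205165528811760426956875227026978433485537055870519911431221422473225863023268581956071211274217590201581497570858408860231706750081755748877355900292598179423902644052059467529516185331180507437370218399397820614177020238436173149758893449056362050865102137135668362649800929374750063987320754785046906870246080570086484123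

theorem e1 : Nat.beq (phase c0 1291 5000 (List.replicate 15 0 ++ [2 ^ 38]) 12 (start c0 1291 5000)) x1 = true := by
  decide +kernel

theorem r1 : Reach 1291 5000 (List.replicate 15 0 ++ [2 ^ 38]) c0 x1 := by
  have h : Reach 1291 5000 (List.replicate 15 0 ++ [2 ^ 38]) c0 (phase c0 1291 5000 (List.replicate 15 0 ++ [2 ^ 38]) 12 (start c0 1291 5000)) := ((reach_start (by decide +kernel)).phase 12)
  rwa [Nat.eq_of_beq_eq_true e1] at h

theorem ef : finChk c1 (List.replicate 15 0 ++ [2 ^ 38]) (phase c1 1291 5000 (List.replicate 15 0 ++ [2 ^ 38]) 8 (DE.trans c0 c1 1291 5000 (List.replicate 15 0 ++ [2 ^ 38]) x1)) 15 15 1 17 1 = true := by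
  decide +kernel

theorem ok {r B : ℝ} {h : -1 / 2 ≤ -r} {h' : -r ≤ 1} (hK : KeyP r h h' phi B) (hr : 0 < r)
    (hB : 17 ≤ B) (c2 : 1 / 2 ≤ r ∨ 1 ≤ ((15 : ℕ) : ℝ) * r ^ 2) : RegOK 15 15 := by
  have hR : Reach 1291 5000 (List.replicate 15 0 ++ [2 ^ 38]) c1 (phase c1 1291 5000 (List.replicate 15 0 ++ [2 ^ 38]) 8 (DE.trans c0 c1 1291 5000 (List.replicate 15 0 ++ [2 ^ 38]) x1)) := ((r1.trans (c' := c1) (by decide +kernel)).phase 8)
  exact regCell hR ef hK hr (by simpa using hB) (by norm_num) c2

end Vale.Agent.P154.DE.RR15
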