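import Vale.Agent.P154.GFin

namespace Vale.Agent.P154.DE.RR16

open Vale.Agent.P154 Vale.Agent.P154.DE

def c0 : Cfg := ⟨18, 17, 5, 7, 9, 41, 27, 1⟩
def c1 : Cfg := ⟨35, 34, 11, 10, 16, 55, 38, 1⟩

def x1 : ℕ := 2386045230051706265354467957714550212332506413232237294758136640944605244547043093302589482229377697691596928685261652376464277647359334430678417512963599635372593350372156267174895434957625052236544346242509369511544043737365517294844809804183724300879737008750219031612061998649769815450781759404120502721636864040253012452290456939351898199917459987717768862600237539267109321207475645310465599284937543228680292285338297147101623153079786527775011243747827857950435752923922421048360999893760441031945640697329384707560438639895869794205810557509879651066902359388676746263078939544475637473063418800573777355610655501168278571345897001014196002966502225181860818381107140243977066603951445137967685442619282733707739243347358417900023249217757844114873841745071698556610836764447856833752485311268606153551529461955489377793886938052754675008037255382084347300862773491115490529642743843270459827058237137660460909675188743598795621198505234805664023384621009781180761653742343157422867094998979799915176243620232354907158788415332023343317423143488792300830534616180534520856135198943850086572052400550919490366847018932344992709504461942736422749154090066574684944036352346528741220903629642183175471724199504402188208010675263327174029940120024141662823001950273164445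

theorem e1 : Nat.beq (phase c0 1 4 (List.replicate 16 0 ++ [2 ^ 38]) 12 (start c0 1 4)) x1 = true := by
  decide +kernel

theorem r1 : Reach 1 4 (List.replicate 16 0 ++ [2 ^ 38]) c0 x1 := by
  have h : Reach 1 4 (List.replicate 16 0 ++ [2 ^ 38]) c0 (phase c0 1 4 (List.replicate 16 0 ++ [2 ^ 38]) 12 (start c0 1 4)) := ((reach_start (by decide +kernel)).phase 12)
  rwa [Nat.eq_of_beq_eq_true e1] at h

theorem ef : finChk c1 (List.replicate 16 0 ++ [2 ^ 38]) (phase c1 1 4 (List.replicate 16 0 ++ [2 ^ 38]) 8 (DE.trans c0 c1 1 4 (List.replicate 16 0 ++ [2 ^ 38]) x1)) 16 16 1 17 1 = true := by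
  decide +kernel

theorem ok {r B : ℝ} {h : -1 / 2 ≤ -r} {h' : -r ≤ 1} (hK : KeyP r h h' phi B) (hr : 0 < r)
    (hB : 17 ≤ B) (c2 : 1 / 2 ≤ r ∨ 1 ≤ ((16 : ℕ) : ℝ) * r ^ 2) : RegOK 16 16 := by
  have hR : Reach 1 4 (List.replicate 16 0 ++ [2 ^ 38]) c1 (phase c1 1 4 (List.replicate 16 0 ++ [2 ^ 38]) 8 (DE.trans c0 c1 1 4 (List.replicate 16 0 ++ [2 ^ 38]) x1)) := ((r1.trans (c' := c1) (by decide +kernel)).phase 8)
  exact regCell hR ef hK hr (by simpa using hB) (by norm_num) c2

end Vale.Agent.P154.DE.RR16
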