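import Vale.Agent.P154.GFin

namespace Vale.Agent.P154.DE.RR17

open Vale.Agent.P154 Vale.Agent.P154.DE

def c0 : Cfg := ⟨19, 18, 5, 7, 9, 43, 28, 1⟩
def c1 : Cfg := ⟨36, 35, 10, 11, 16, 57, 39, 1⟩

def x1 : ℕ := 11444960836382967918864281446542043225230325842892630339448405982290856528830888064325056723000086324309825041059586952787245970918596379616521951290945696344197214639561485570933505717751527875150890509172336890534767511831576873265719019090498210907219063054588911915101411462379203075876638916438324577569661664445067557267783272885071803254125488877527336938865468755133522730754562391626418900158963584931152644772185547150517806478329278263599204738624060848660198472698953701976318735170533996653709999077701978088099561095756445640815920501102130112131254742048861546938917272024277924441102319280723054960027167166713719007156929158947979210542107784226563557215169352380718901997441734654360800635959152929897474970054919306964473479906004457114947319002622674698377753674244183862079745435028472836832096915937511107419178370182491595792266172299083908910209315374194495370886604428826872166164696377671511754681916716994528592457603638964275578248004619869056184969066511811855389470909340735471884247684856176406681189630695075042188597929599843737698469132404234577936885616865492126597259345843846419733487534233401030032598282005353963407188711878238543388858832862886088711598179699032160965340823896907619487248804306957311522806722968384117534509819982769566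

theorem e1 : Nat.beq (phase c0 4851 20000 (List.replicate 17 0 ++ [2 ^ 38]) 12 (start c0 4851 20000)) x1 = true := by
  decide +kernel

theorem r1 : Reach 4851 20000 (List.replicate 17 0 ++ [2 ^ 38]) c0 x1 := by
  have h : Reach 4851 20000 (List.replicate 17 0 ++ [2 ^ 38]) c0 (phase c0 4851 20000 (List.replicate 17 0 ++ [2 ^ 38]) 12 (start c0 4851 20000)) := ((reach_start (by decide +kernel)).phase 12)
  rwa [Nat.eq_of_beq_eq_true e1] at h

theorem ef : finChk c1 (List.replicate 17 0 ++ [2 ^ 38]) (phase c1 4851 20000 (List.replicate 17 0 ++ [2 ^ 38]) 8 (DE.trans c0 c1 4851 20000 (List.replicate 17 0 ++ [2 ^ 38]) x1)) 17 17 1 17 1 = true := by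
  decide +kernel

theorem ok {r B : ℝ} {h : -1 / 2 ≤ -r} {h' : -r ≤ 1} (hK : KeyP r h h' phi B) (hr : 0 < r)
    (hB : 17 ≤ B) (c2 : 1 / 2 ≤ r ∨ 1 ≤ ((17 : ℕ) : ℝ) * r ^ 2) : RegOK 17 17 := by
  have hR : Reach 4851 20000 (List.replicate 17 0 ++ [2 ^ 38]) c1 (phase c1 4851 20000 (List.replicate 17 0 ++ [2 ^ 38]) 8 (DE.trans c0 c1 4851 20000 (List.replicate 17 0 ++ [2 ^ 38]) x1)) := ((r1.trans (c' := c1) (by decide +kernel)).phase 8)
  exact regCell hR ef hK hr (by simpa using hB) (by norm_num) c2

end Vale.Agent.P154.DE.RR17
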