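import Vale.Agent.P154.GFin

namespace Vale.Agent.P154.DE.RR18

open Vale.Agent.P154 Vale.Agent.P154.DE

def c0 : Cfg := ⟨20, 19, 6, 7, 10, 45, 30, 1⟩
def c1 : Cfg := ⟨37, 36, 10, 11, 16, 58, 40, 1⟩

def x1 : ℕ := 256274277979624385064017670130535191674555953912015166806416731149050524173357758122636738216578084863699958524766181759354347556383476221351657915111568370942848444910586217677896431266729825753307878175231090066186577929493199849234721239174748132390778620813864737534388521545488565073650969468840008935201714854282501082890851949648035415556178466835723684453552763659748203563918863606620540646021229476474679607028087145945071255787343735783045675801034032077482761251032060338428073089053780018409389575995883768826133054146227891811554945995899276649170899393429375237834258310655300847781353464105581942384605104359087192301640577981789916362500493113451813237559400020759938950395535992030166878273156531059917508928554882254096435798457847258509072677278036872216986969371120681226845698571013584199377359638092372529785709909969255744814315241539218923025945344551760251707021343896516058197590692709846877693505032279197065095594318735001123321466634501675920018694537556174815074886724115820870120100184275014648579167202869741561712012973187547324220930856104591221641719672159619417732705243280581823247508604644683502702087128635146899586076203590374232255747449448056252054381633199442382745586763856279051635973615412268349151447526549024657982870245752887491012956346312353730489813291482816648222770283467608894404054655902261430178524939554999723860919482656423978095494735340873604784311023637064918186825464859076510617961582614397304883935928847311203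

theorem e1 : Nat.beq (phase c0 943 4000 (List.replicate 18 0 ++ [2 ^ 38]) 11 (start c0 943 4000)) x1 = true := by
  decide +kernel

theorem r1 : Reach 943 4000 (List.replicate 18 0 ++ [2 ^ 38]) c0 x1 := by
  have h : Reach 943 4000 (List.replicate 18 0 ++ [2 ^ 38]) c0 (phase c0 943 4000 (List.replicate 18 0 ++ [2 ^ 38]) 11 (start c0 943 4000)) := ((reach_start (by decide +kernel)).phase 11)
  rwa [Nat.eq_of_beq_eq_true e1] at h

theorem ef : finChk c1 (List.replicate 18 0 ++ [2 ^ 38]) (phase c1 943 4000 (List.replicate 18 0 ++ [2 ^ 38]) 7 (DE.trans c0 c1 943 4000 (List.replicate 18 0 ++ [2 ^ 38]) x1)) 18 18 1 17 1 = true := by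
  decide +kernel

theorem ok {r B : ℝ} {h : -1 / 2 ≤ -r} {h' : -r ≤ 1} (hK : KeyP r h h' phi B) (hr : 0 < r)
    (hB : 17 ≤ B) (c2 : 1 / 2 ≤ r ∨ 1 ≤ ((18 : ℕ) : ℝ) * r ^ 2) : RegOK 18 18 := by
  have hR : Reach 943 4000 (List.replicate 18 0 ++ [2 ^ 38]) c1 (phase c1 943 4000 (List.replicate 18 0 ++ [2 ^ 38]) 7 (DE.trans c0 c1 943 4000 (List.replicate 18 0 ++ [2 ^ 38]) x1)) := ((r1.trans (c' := c1) (by decide +kernel)).phase 7)
  exact regCell hR ef hK hr (by simpa using hB) (by norm_num) c2

end Vale.Agent.P154.DE.RR18
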