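import Vale.Agent.P154.GFin

namespace Vale.Agent.P154.DE.RR19

open Vale.Agent.P154 Vale.Agent.P154.DE

def c0 : Cfg := ⟨20, 19, 5, 7, 9, 45, 30, 1⟩
def c1 : Cfg := ⟨38, 37, 10, 11, 16, 60, 41, 1⟩

def x1 : ℕ := 2498373329241516302777664891343217398324988799973575725616328168035485432026343059176685175359300047133995481223581729676102372414460327323932329334801261375718200666411364203889256313415749912851663923061056158319561521232755424526715627017474695333074475144282739699963007914724531424198584793773226287373917887374499999725177411423141902527924048625938817092754117541736627485596487585371893736355411647809938662267872845942935051188322373120563706783856005409081069186191194890239085210352686597438296085340093118371444026571718707803212627150682938212998303365105876873808251870832908968165132603110443696660398655537339656454351918997309299680539328966271905028773620728597598577894330310114001624799525308399837215682689115251651071880350404037436401541810296219140630995835291361695705793598392688952317333559581282226070765162515830679435384158846999558823406845873821439252640194057581110880929312569735686702726811601721190865535847006984264365144598785326430210618556495678271897217356701146679658313879859947946257057027413342656018562066624653932522183178444407348985324143504268566591559188408856720447865297057651922219934665642974034632427358729106100047755012447475231603190673514811561558620452350123054117906314740229727323277602621436790096789850029011730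

theorem e1 : Nat.beq (phase c0 4589 20000 (List.replicate 19 0 ++ [2 ^ 38]) 12 (start c0 4589 20000)) x1 = true := by
  decide +kernel

theorem r1 : Reach 4589 20000 (List.replicate 19 0 ++ [2 ^ 38]) c0 x1 := by
  have h : Reach 4589 20000 (List.replicate 19 0 ++ [2 ^ 38]) c0 (phase c0 4589 20000 (List.replicate 19 0 ++ [2 ^ 38]) 12 (start c0 4589 20000)) := ((reach_start (by decide +kernel)).phase 12)
  rwa [Nat.eq_of_beq_eq_true e1] at h

theorem ef : finChk c1 (List.replicate 19 0 ++ [2 ^ 38]) (phase c1 4589 20000 (List.replicate 19 0 ++ [2 ^ 38]) 8 (DE.trans c0 c1 4589 20000 (List.replicate 19 0 ++ [2 ^ 38]) x1)) 19 19 1 17 1 = true := by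
  decide +kernel

theorem ok {r B : ℝ} {h : -1 / 2 ≤ -r} {h' : -r ≤ 1} (hK : KeyP r h h' phi B) (hr : 0 < r)
    (hB : 17 ≤ B) (c2 : 1 / 2 ≤ r ∨ 1 ≤ ((19 : ℕ) : ℝ) * r ^ 2) : RegOK 19 19 := by
  have hR : Reach 4589 20000 (List.replicate 19 0 ++ [2 ^ 38]) c1 (phase c1 4589 20000 (List.replicate 19 0 ++ [2 ^ 38]) 8 (DE.trans c0 c1 4589 20000 (List.replicate 19 0 ++ [2 ^ 38]) x1)) := ((r1.trans (c' := c1) (by decide +kernel)).phase 8)
  exact regCell hR ef hK hr (by simpa using hB) (by norm_num) c2

end Vale.Agent.P154.DE.RR19
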