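import Vale.Agent.P154.RR20e1
import Vale.Agent.P154.RR20ef

namespace Vale.Agent.P154.DE.RR20

open Vale.Agent.P154 Vale.Agent.P154.DE

theorem r1 : Reach 4473 20000 (List.replicate 20 0 ++ [2 ^ 38]) c0 x1 := by
  have h : Reach 4473 20000 (List.replicate 20 0 ++ [2 ^ 38]) c0 (phase c0 4473 20000 (List.replicate 20 0 ++ [2 ^ 38]) 12 (start c0 4473 20000)) := ((reach_start (by decide +kernel)).phase 12)
  rwa [Nat.eq_of_beq_eq_true e1] at h

theorem ok {r B : ℝ} {h : -1 / 2 ≤ -r} {h' : -r ≤ 1} (hK : KeyP r h h' phi B) (hr : 0 < r)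
    (hB : 17 ≤ B) (hc : 1 / 2 ≤ r ∨ 1 ≤ ((20 : ℕ) : ℝ) * r ^ 2) : RegOK 20 20 := by
  have hR : Reach 4473 20000 (List.replicate 20 0 ++ [2 ^ 38]) c1 (phase c1 4473 20000 (List.replicate 20 0 ++ [2 ^ 38]) 6 (DE.trans c0 c1 4473 20000 (List.replicate 20 0 ++ [2 ^ 38]) x1)) := ((r1.trans (c' := c1) (by decide +kernel)).phase 6)
  exact regCell hR ef hK hr (by simpa using hB) (by norm_num) hc

end Vale.Agent.P154.DE.RR20
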