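import Vale.Agent.P154.GFin

namespace Vale.Agent.P154.DE.RR20

open Vale.Agent.P154 Vale.Agent.P154.DE

def c0 : Cfg := ⟨21, 20, 5, 7, 9, 48, 31, 1⟩
def c1 : Cfg := ⟨39, 38, 10, 11, 16, 62, 42, 1⟩

def x1 : ℕ := 13310985983558189587427283312582757778509543865130270239694414895867506533386587760712279201184025654570639379503361710511430640494513598566030264588439914514408043553269796939469645118843423945481606378152029916896592944249267441747683283528045093038804965302371390175164735392261649424586066309681956228820953003850974494254699588377993313114525589653312631852378860402900887721028135074319543470237169991762173902475273948279888104102224049366471494129506455539050589931780442445546993534530714655203263959928833336548921437802705312760123040437706132604582919607224555319317616170182177589180347400202260367188330495105790030070112333920887788934957685065398431372011879816912869644638337601410303330430055658178424087016560584035759787535770289781266814972392252060075888146994552650745499131606163725450114113080643361407646527817225094001597800605990178463736366897153616437803047809004834883026028292437977967603992367942169725931545848072893743376359454779491689607169897205262941852612900795206532368115312866751558228495220587896143717135980919100324934083952208048880906341689010100010599615029623856832026353651337683929820718172575664875309005196897172592157289154497245677146812848164849002655009245068076454918946963733283930367828623726396000738804915821799976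

end Vale.Agent.P154.DE.RR20
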