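import Vale.Agent.P154.Neg
import Vale.Agent.P154.Lin4

namespace Vale.Agent.P154.Q3

open Q4 (dW dZ)

abbrev Mo := ℕ × ℕ × ℕ
abbrev Po := List (ℤ × Mo)

noncomputable def mev (g : Mo) (x : V) : ℝ :=
  x 0 ^ g.1 * x 1 ^ g.2.1 * x 2 ^ g.2.2

noncomputable def pev : Po → V → ℝ
  | [], _ => 0
  | t :: p, x => t.1 * mev t.2 x + pev p x

theorem mev_cont (g : Mo) : Continuous (mev g) := by unfold mev; fun_prop

theorem pev_cont : ∀ p : Po, Continuous (pev p)
  | [] => continuous_const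
  | t :: p => (continuous_const.mul (mev_cont t.2)).add (pev_cont p)

theorem mev_nonneg (g : Mo) {x : V} (h : ∀ i, 0 ≤ x i) : 0 ≤ mev g x := by
  have a0 := h 0; have a1 := h 1; have a2 := h 2
  unfold mev; positivity

def madd : Mo → Mo → Mo
  | (a, b, c), (e, f, g) => (a + e, b + f, c + g)

theorem mev_madd (g h : Mo) (x : V) : mev (madd g h) x = mev g x * mev h x := by
  simp only [mev, madd, pow_add]; ring

def tmul (c : ℤ) (g : Mo) : Po → Po → Po
  | [], r => r
  | (d, h) :: q, r => (c * d, madd g h) :: tmul c g q r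

def pmul : Po → Po → Po
  | [], _ => []
  | (c, g) :: p, q => tmul c g q (pmul p q)

theorem pev_tmul (c : ℤ) (g : Mo) (r : Po) (x : V) :
    ∀ q : Po, pev (tmul c g q r) x = c * mev g x * pev q x + pev r x
  | [] => by simp [tmul, pev]
  | (d, h) :: q => by
      simp only [tmul, pev, pev_tmul c g r x q, mev_madd]; push_cast; ring

theorem pev_pmul (q : Po) (x : V) : ∀ p : Po, pev (pmul p q) x = pev p x * pev q x
  | [] => by simp [pmul, pev]
  | (c, g) :: p => by simp only [pmul, pev, pev_tmul, pev_pmul q x p]; ring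

def Sy (H : V → ℝ) : Prop := Continuous H ∧ ∀ (τ : Equiv.Perm (Fin 3)) (x : V), H (x ∘ τ) = H x

theorem Sy.one : Sy fun _ => 1 := ⟨continuous_const, fun _ _ => rfl⟩

theorem Sy.mul {H G : V → ℝ} (h : Sy H) (k : Sy G) : Sy fun x => H x * G x :=
  ⟨h.1.mul k.1, fun τ x => by simp only [h.2, k.2]⟩

noncomputable def EM (S : St) (H : V → ℝ) (g : Mo) : ℝ := S.E fun x => mev g x * H x
noncomputable def EH (S : St) (H : V → ℝ) (p : Po) : ℝ := S.E fun x => pev p x * H x

theorem EM_perm (S : St) {H : V → ℝ} (h : Sy H) (τ : Equiv.Perm (Fin 3)) {g g' : Mo}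
    (e : ∀ x : V, mev g (x ∘ τ) = mev g' x) : EM S H g' = EM S H g := by
  unfold EM
  rw [← S.sym τ (fun x => mev g x * H x) (Bd.of_cont ((mev_cont g).mul h.1))]
  simp only [e, h.2]

def c01 : Mo → Mo | (a, b, c) => bif Nat.ble b a then (a, b, c) else (b, a, c)
def c12 : Mo → Mo | (a, b, c) => bif Nat.ble c b then (a, b, c) else (a, c, b)
def srt (g : Mo) : Mo := c01 (c12 (c01 g))

theorem EM_srt (S : St) {H : V → ℝ} (h : Sy H) (g : Mo) : EM S H (srt g) = EM S H g := by
  have h01 : ∀ g, EM S H (c01 g) = EM S H g := by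
    rintro ⟨a, b, c⟩
    simp only [c01]; cases Nat.ble b a
    · refine EM_perm S h (Equiv.swap 0 1) fun x => ?_
      show x 1 ^ a * x 0 ^ b * x 2 ^ c = x 0 ^ b * x 1 ^ a * x 2 ^ c; ring
    · rfl
  have h12 : ∀ g, EM S H (c12 g) = EM S H g := by
    rintro ⟨a, b, c⟩
    simp only [c12]; cases Nat.ble c b
    · refine EM_perm S h (Equiv.swap 1 2) fun x => ?_
      show x 0 ^ a * x 2 ^ b * x 1 ^ c = x 0 ^ a * x 1 ^ c * x 2 ^ b; ring
    · rfl
  rw [srt, h01, h12, h01]

theorem EH_nil (S : St) (H : V → ℝ) : EH S H [] = 0 := by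
  simp only [EH, pev, zero_mul]; exact S.const 0

theorem EH_cons (S : St) {H : V → ℝ} (h : Sy H) (c : ℤ) (g : Mo) (p : Po) :
    EH S H ((c, g) :: p) = c * EM S H g + EH S H p := by
  have b1 : Bd fun x => mev g x * H x := Bd.of_cont ((mev_cont g).mul h.1)
  have b2 : Bd fun x => pev p x * H x := Bd.of_cont ((pev_cont p).mul h.1)
  unfold EH EM
  rw [← S.cmul _ _ b1, ← S.add _ _ (b1.cmul _) b2]
  congr 1; funext x; simp only [pev]; ring

def meq : Mo → Mo → Bool
  | (a, b, c), (e, f, g) => Nat.beq a e && (Nat.beq b f && Nat.beq c g)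

theorem meq_eq {g h : Mo} (e : meq g h = true) : g = h := by
  obtain ⟨a, b, c⟩ := g; obtain ⟨e', f, g'⟩ := h
  simp only [meq, Bool.and_eq_true, Nat.beq_eq] at e
  obtain ⟨rfl, rfl, rfl⟩ := e; rfl

def ins (c : ℤ) (g : Mo) : Po → Po
  | [] => [(c, g)]
  | (a, k) :: l => bif meq k g then (a + c, k) :: l else (a, k) :: ins c g l

theorem EH_ins (S : St) {H : V → ℝ} (h : Sy H) (c : ℤ) (g : Mo) :
    ∀ l : Po, EH S H (ins c g l) = c * EM S H g + EH S H l
  | [] => EH_cons S h c g []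
  | (a, k) :: l => by
      simp only [ins]
      cases e : meq k g
      · simp only [cond_false, EH_cons S h, EH_ins S h c g l]; ring
      · simp only [cond_true, EH_cons S h, meq_eq e]; push_cast; ring

def col : Po → Po → Po
  | [], l => l
  | (c, g) :: p, l => col p (ins c (srt g) l)

theorem EH_col (S : St) {H : V → ℝ} (h : Sy H) :
    ∀ p l : Po, EH S H (col p l) = EH S H p + EH S H l
  | [], l => by simp [col, EH_nil]
  | (c, g) :: p, l => by
      simp only [col, EH_col S h p, EH_ins S h, EH_cons S h, EM_srt S h]; ring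

def zer (K : List Mo) : Po := K.map fun k => (0, k)

theorem EH_zer (S : St) {H : V → ℝ} (h : Sy H) : ∀ K : List Mo, EH S H (zer K) = 0
  | [] => EH_nil S H
  | k :: K => by
      have := EH_zer S h K
      simp only [zer, List.map_cons, EH_cons S h] at this ⊢
      rw [this]; simp

/-- the symmetric multipliers: `Σ x`, `Σ x²`, `3 Σ x² - (Σ x)²` -/
def sym : ℕ → Po
  | 0 => [(1, 1, 0, 0), (1, 0, 1, 0), (1, 0, 0, 1)]
  | 1 => [(1, 2, 0, 0), (1, 0, 2, 0), (1, 0, 0, 2)]
  | _ => [(2, 2, 0, 0), (2, 0, 2, 0), (2, 0, 0, 2), (-2, 1, 1, 0), (-2, 1, 0, 1), (-2, 0, 1, 1)]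

theorem pev_sym0 (x : V) : pev (sym 0) x = ∑ i, x i := by
  simp [sym, pev, mev, Fin.sum_univ_three]; ring
theorem pev_sym1 (x : V) : pev (sym 1) x = ∑ i, x i ^ 2 := by
  simp [sym, pev, mev, Fin.sum_univ_three]; ring
theorem pev_sym2 (n : ℕ) (x : V) : pev (sym (n + 2)) x = 3 * ∑ i, x i ^ 2 - (∑ i, x i) ^ 2 := by
  simp [sym, pev, mev, Fin.sum_univ_three]; ring

theorem sy_sym (n : ℕ) : Sy (pev (sym n)) := by
  refine ⟨pev_cont _, fun τ x => ?_⟩
  have e1 := Equiv.sum_comp τ x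
  have e2 := Equiv.sum_comp τ fun i => x i ^ 2
  match n with
  | 0 => simp only [pev_sym0, Function.comp, e1]
  | 1 => simp only [pev_sym1, Function.comp, e2]
  | n + 2 => simp only [pev_sym2, Function.comp, e1, e2]

theorem sym_nonneg (n : ℕ) {x : V} (h : ∀ i, 0 ≤ x i) : 0 ≤ pev (sym n) x := by
  match n with
  | 0 => rw [pev_sym0]; exact Finset.sum_nonneg fun i _ => h i
  | 1 => rw [pev_sym1]; positivity
  | n + 2 =>
    rw [pev_sym2]; simp only [Fin.sum_univ_three]
    nlinarith [sq_nonneg (x 0 - x 1), sq_nonneg (x 0 - x 2), sq_nonneg (x 1 - x 2)]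

def steps : List ℕ → Po → Po
  | [], p => p
  | h :: hs, p => steps hs (col (pmul p (sym h)) [])

noncomputable def symv : List ℕ → V → ℝ
  | [], _ => 1
  | h :: hs, x => pev (sym h) x * symv hs x

theorem sy_symv : ∀ hs : List ℕ, Sy (symv hs)
  | [] => Sy.one
  | h :: hs => (sy_sym h).mul (sy_symv hs)

theorem symv_nonneg {x : V} (h : ∀ i, 0 ≤ x i) : ∀ hs : List ℕ, 0 ≤ symv hs x
  | [] => zero_le_one
  | k :: hs => mul_nonneg (sym_nonneg k h) (symv_nonneg h hs)

theorem EH_steps (S : St) : ∀ (hs : List ℕ) (p : Po),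
    EH S (fun _ => 1) (steps hs p) = EH S (symv hs) p
  | [], _ => rfl
  | h :: hs, p => by
      rw [steps, EH_steps S hs, EH_col S (sy_symv hs), EH_nil, add_zero]
      simp only [EH, pev_pmul, symv, mul_assoc]

def KN : List Mo := [(12, 0, 0), (11, 1, 0), (10, 2, 0), (10, 1, 1), (9, 3, 0), (9, 2, 1),
  (8, 4, 0), (8, 3, 1), (8, 2, 2), (7, 5, 0), (7, 4, 1), (7, 3, 2), (6, 6, 0), (6, 5, 1),
  (6, 4, 2), (6, 3, 3), (5, 5, 2), (5, 4, 3), (4, 4, 4)]

noncomputable def momK (S : St) (K : List Mo) (n : ℕ) : ℝ :=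
  EM S (fun _ => 1) (K.getD n (0, 0, 0))

noncomputable def val (S : St) (v : List ℤ) : ℝ := dZ v (momK S KN)

theorem EH_dZ (S : St) : ∀ l : Po, EH S (fun _ => 1) l = dZ (l.map Prod.fst) (momK S (l.map Prod.snd))
  | [] => EH_nil S _
  | (c, g) :: l => by
      rw [EH_cons S Sy.one, EH_dZ S l]; rfl

/-- `v` is the vector of the symmetrisation of `p * ∏ hs` -/
def isVec (p : Po) (hs : List ℕ) (v : List ℤ) : Bool :=
  decide (col (steps hs (col p [])) (zer KN) = v.zip KN) && decide (v.length = 19)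

theorem isVec_val {p : Po} {hs : List ℕ} {v : List ℤ} (h : isVec p hs v = true) (S : St) :
    val S v = S.E fun x => pev p x * symv hs x := by
  simp only [isVec, Bool.and_eq_true, decide_eq_true_eq] at h
  have h1 := EH_dZ S (v.zip KN)
  rw [List.map_fst_zip (by rw [h.2]; rfl), List.map_snd_zip (by rw [h.2]; rfl), ← h.1,
    EH_col S Sy.one, EH_zer S Sy.one, add_zero, EH_steps, EH_col S (sy_symv hs), EH_nil,
    add_zero] at h1
  exact h1.symm

end Vale.Agent.P154.Q3
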