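import Mathlib

namespace Vale.Agent.P154

abbrev V := Fin 3 → ℝ

def Dl (x : V) : Prop := (∀ i, 0 ≤ x i) ∧ x 0 + x 1 + x 2 = 3

noncomputable def av (v : V) : ℝ := (v 0 + v 1 + v 2) / 3

noncomputable def hom (g : V → ℝ) (v : V) : ℝ := av v * g (fun i => v i / av v)

def Bd (g : V → ℝ) : Prop := ∃ C : ℝ, ∀ x, Dl x → |g x| ≤ C

theorem Dl.le3 {x : V} (h : Dl x) (i : Fin 3) : x i ≤ 3 := by
  have h0 := h.1 0; have h1 := h.1 1; have h2 := h.1 2; have h3 := h.2
  fin_cases i <;> simp <;> linarith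

theorem Dl.av {x : V} (h : Dl x) : av x = 1 := by unfold P154.av; rw [h.2]; norm_num

theorem Dl.perm {x : V} (h : Dl x) (τ : Equiv.Perm (Fin 3)) : Dl (x ∘ τ) := by
  refine ⟨fun i => h.1 _, ?_⟩
  have := Equiv.sum_comp τ x
  simp only [Fin.sum_univ_three] at this
  simp only [Function.comp]; rw [this, h.2]

theorem av_nonneg {v : V} (h : ∀ i, 0 ≤ v i) : 0 ≤ av v := by
  have h0 := h 0; have h1 := h 1; have h2 := h 2; unfold av; positivity

theorem av_perm (v : V) (τ : Equiv.Perm (Fin 3)) : av (v ∘ τ) = av v := by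
  have := Equiv.sum_comp τ v
  simp only [Fin.sum_univ_three] at this
  simp only [av, Function.comp]; rw [this]

theorem eq_zero_of_av {v : V} (h : ∀ i, 0 ≤ v i) (h0 : av v = 0) (i : Fin 3) : v i = 0 := by
  have h1 := h 0; have h2 := h 1; have h3 := h 2
  unfold av at h0
  fin_cases i <;> simp <;> linarith

theorem Dl_norm {v : V} (h : ∀ i, 0 ≤ v i) (h0 : av v ≠ 0) : Dl (fun i => v i / av v) := by
  refine ⟨fun i => div_nonneg (h i) (av_nonneg h), ?_⟩
  have : v 0 + v 1 + v 2 = 3 * av v := by unfold av; ring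
  rw [← add_div, ← add_div, this]; field_simp

theorem hom_of_Dl (g : V → ℝ) {x : V} (h : Dl x) : hom g x = g x := by
  simp [hom, h.av]

theorem hom_zero (g : V → ℝ) : hom g 0 = 0 := by simp [hom, av]

theorem hom_smul (g : V → ℝ) (c : ℝ) (v : V) : hom g (fun i => c * v i) = c * hom g v := by
  rcases eq_or_ne c 0 with rfl | hc
  · simp [hom, av]
  have e : av (fun i => c * v i) = c * av v := by unfold av; ring
  simp only [hom, e, mul_div_mul_left _ _ hc]; ring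

theorem hom_mono {f g : V → ℝ} (h : ∀ x, Dl x → f x ≤ g x) {v : V} (hv : ∀ i, 0 ≤ v i) :
    hom f v ≤ hom g v := by
  rcases eq_or_ne (av v) 0 with h0 | h0
  · simp [hom, h0]
  · exact mul_le_mul_of_nonneg_left (h _ (Dl_norm hv h0)) (av_nonneg hv)

theorem hom_abs {g : V → ℝ} {C : ℝ} (h : ∀ x, Dl x → |g x| ≤ C) {v : V} (hv : ∀ i, 0 ≤ v i) :
    |hom g v| ≤ C * av v := by
  rcases eq_or_ne (av v) 0 with h0 | h0
  · simp [hom, h0]
  · rw [hom, abs_mul, abs_of_nonneg (av_nonneg hv), mul_comm]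
    exact mul_le_mul_of_nonneg_right (h _ (Dl_norm hv h0)) (av_nonneg hv)

theorem hom_add (f g : V → ℝ) (v : V) : hom (fun x => f x + g x) v = hom f v + hom g v := by
  simp only [hom]; ring

theorem hom_cmul (c : ℝ) (g : V → ℝ) (v : V) : hom (fun x => c * g x) v = c * hom g v := by
  simp only [hom]; ring

theorem hom_one (v : V) : hom (fun _ => 1) v = av v := by simp [hom]

theorem hom_perm (g : V → ℝ) (τ : Equiv.Perm (Fin 3)) (v : V) :
    hom (fun x => g (x ∘ τ)) v = hom g (v ∘ τ) := by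
  simp only [hom, av_perm]; rfl

theorem av_mul_le {x y : V} (hx : ∀ i, 0 ≤ x i) (hy : ∀ i, 0 ≤ y i) :
    av (x * y) ≤ 3 * (av x * av y) := by
  have a0 := hx 0; have a1 := hx 1; have a2 := hx 2
  have b0 := hy 0; have b1 := hy 1; have b2 := hy 2
  simp only [av, Pi.mul_apply]
  nlinarith [mul_nonneg a0 b1, mul_nonneg a0 b2, mul_nonneg a1 b0, mul_nonneg a1 b2,
    mul_nonneg a2 b0, mul_nonneg a2 b1]

theorem mul_nn {x y : V} (hx : ∀ i, 0 ≤ x i) (hy : ∀ i, 0 ≤ y i) : ∀ i, 0 ≤ (x * y) i :=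
  fun i => mul_nonneg (hx i) (hy i)

namespace Bd

theorem const (c : ℝ) : Bd (fun _ => c) := ⟨|c|, fun _ _ => le_rfl⟩

theorem add {f g : V → ℝ} (hf : Bd f) (hg : Bd g) : Bd (fun x => f x + g x) := by
  obtain ⟨C, hC⟩ := hf; obtain ⟨D, hD⟩ := hg
  exact ⟨C + D, fun x hx => (abs_add_le _ _).trans (add_le_add (hC x hx) (hD x hx))⟩

theorem mul {f g : V → ℝ} (hf : Bd f) (hg : Bd g) : Bd (fun x => f x * g x) := by
  obtain ⟨C, hC⟩ := hf; obtain ⟨D, hD⟩ := hg
  refine ⟨C * D, fun x hx => ?_⟩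
  rw [abs_mul]
  exact mul_le_mul (hC x hx) (hD x hx) (abs_nonneg _) ((abs_nonneg _).trans (hC x hx))

theorem cmul (c : ℝ) {g : V → ℝ} (hg : Bd g) : Bd (fun x => c * g x) := (const c).mul hg

theorem perm {g : V → ℝ} (hg : Bd g) (τ : Equiv.Perm (Fin 3)) : Bd (fun x => g (x ∘ τ)) := by
  obtain ⟨C, hC⟩ := hg
  exact ⟨C, fun x hx => hC _ (hx.perm τ)⟩

theorem of_cont {g : V → ℝ} (hg : Continuous g) : Bd g := by
  have hc : IsCompact (Set.Icc (fun _ => 0 : V) (fun _ => 3)) := isCompact_Icc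
  obtain ⟨C, hC⟩ := hc.exists_bound_of_continuousOn hg.continuousOn
  exact ⟨C, fun x hx => hC x ⟨fun i => hx.1 i, fun i => hx.le3 i⟩⟩

theorem homr {g : V → ℝ} {C : ℝ} (h : ∀ x, Dl x → |g x| ≤ C) {x y : V} (hx : Dl x) (hy : Dl y) :
    |hom g (x * y)| ≤ 3 * C := by
  have hC : 0 ≤ C := (abs_nonneg _).trans (h x hx)
  refine (hom_abs h (mul_nn hx.1 hy.1)).trans ?_
  have := av_mul_le hx.1 hy.1
  rw [hx.av, hy.av] at this
  nlinarith

theorem homl {g : V → ℝ} (hg : Bd g) {x : V} (hx : Dl x) : Bd (fun y => hom g (x * y)) := by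
  obtain ⟨C, hC⟩ := hg
  exact ⟨3 * C, fun y hy => homr hC hx hy⟩

end Bd

structure St where
  E : (V → ℝ) → ℝ
  mono : ∀ f g, Bd f → Bd g → (∀ x, Dl x → f x ≤ g x) → E f ≤ E g
  add : ∀ f g, Bd f → Bd g → E (fun x => f x + g x) = E f + E g
  cmul : ∀ (c : ℝ) f, Bd f → E (fun x => c * f x) = c * E f
  one : E (fun _ => 1) = 1
  sym : ∀ (τ : Equiv.Perm (Fin 3)) f, Bd f → E (fun x => f (x ∘ τ)) = E f

namespace St

variable (S T : St)

theorem congr {f g : V → ℝ} (hf : Bd f) (h : ∀ x, Dl x → f x = g x) : S.E f = S.E g := by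
  have hg : Bd g := by
    obtain ⟨C, hC⟩ := hf
    exact ⟨C, fun x hx => h x hx ▸ hC x hx⟩
  exact le_antisymm (S.mono f g hf hg fun x hx => (h x hx).le)
    (S.mono g f hg hf fun x hx => (h x hx).ge)

theorem const (c : ℝ) : S.E (fun _ => c) = c := by
  have := S.cmul c (fun _ => 1) (Bd.const 1)
  simpa [S.one] using this

theorem nonneg {f : V → ℝ} (hf : Bd f) (h : ∀ x, Dl x → 0 ≤ f x) : 0 ≤ S.E f := by
  have := S.mono (fun _ => 0) f (Bd.const 0) hf h
  rwa [S.const] at this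

theorem le_const {f : V → ℝ} (hf : Bd f) {C : ℝ} (h : ∀ x, Dl x → f x ≤ C) : S.E f ≤ C := by
  have := S.mono f (fun _ => C) hf (Bd.const C) h
  rwa [S.const] at this

theorem abs_le {f : V → ℝ} {C : ℝ} (h : ∀ x, Dl x → |f x| ≤ C) : |S.E f| ≤ C := by
  have hf : Bd f := ⟨C, h⟩
  refine _root_.abs_le.2 ⟨?_, S.le_const hf fun x hx => (_root_.abs_le.1 (h x hx)).2⟩
  have := S.mono (fun _ => -C) f (Bd.const _) hf fun x hx => (_root_.abs_le.1 (h x hx)).1
  rwa [S.const] at this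

theorem sym6 (k : ℝ → ℝ → ℝ → ℝ) (hk : Bd fun y => k (y 0) (y 1) (y 2)) :
    S.E (fun y => k (y 0) (y 1) (y 2)) =
      S.E (fun y => 1 / 6 * (k (y 0) (y 1) (y 2) + k (y 1) (y 0) (y 2) + k (y 0) (y 2) (y 1)
        + k (y 2) (y 1) (y 0) + k (y 1) (y 2) (y 0) + k (y 2) (y 0) (y 1))) := by
  have b1 : Bd fun y => k (y 1) (y 0) (y 2) := hk.perm (Equiv.swap 0 1)
  have b2 : Bd fun y => k (y 0) (y 2) (y 1) := hk.perm (Equiv.swap 1 2)
  have b3 : Bd fun y => k (y 2) (y 1) (y 0) := hk.perm (Equiv.swap 0 2)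
  have b4 : Bd fun y => k (y 1) (y 2) (y 0) := b3.perm (Equiv.swap 1 2)
  have b5 : Bd fun y => k (y 2) (y 0) (y 1) := b1.perm (Equiv.swap 1 2)
  have e1 : S.E (fun y => k (y 1) (y 0) (y 2)) = _ := S.sym (Equiv.swap 0 1) _ hk
  have e2 : S.E (fun y => k (y 0) (y 2) (y 1)) = _ := S.sym (Equiv.swap 1 2) _ hk
  have e3 : S.E (fun y => k (y 2) (y 1) (y 0)) = _ := S.sym (Equiv.swap 0 2) _ hk
  have e4 : S.E (fun y => k (y 1) (y 2) (y 0)) = _ := S.sym (Equiv.swap 1 2) _ b3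
  have e5 : S.E (fun y => k (y 2) (y 0) (y 1)) = _ := S.sym (Equiv.swap 1 2) _ b1
  rw [S.cmul _ _ (((((hk.add b1).add b2).add b3).add b4).add b5),
    S.add _ _ ((((hk.add b1).add b2).add b3).add b4) b5,
    S.add _ _ (((hk.add b1).add b2).add b3) b4, S.add _ _ ((hk.add b1).add b2) b3,
    S.add _ _ (hk.add b1) b2, S.add _ _ hk b1, e5, e4, e3, e2, e1]
  ring

theorem av_mul {x : V} (hx : Dl x) : S.E (fun y => av (x * y)) = 1 := by
  have hb : Bd fun y : V => (x 0 * y 0 + x 1 * y 1 + x 2 * y 2) / 3 := Bd.of_cont (by fun_prop)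
  have := S.sym6 (fun a b c => (x 0 * a + x 1 * b + x 2 * c) / 3) hb
  simp only [av, Pi.mul_apply]
  rw [this]
  refine Eq.trans (S.congr (g := fun _ => 1) (Bd.of_cont (by fun_prop)) fun y hy => ?_) S.one
  have e : (x 0 + x 1 + x 2) * (y 0 + y 1 + y 2) = 9 := by rw [hx.2, hy.2]; norm_num
  linarith

theorem bd_inner {g : V → ℝ} (hg : Bd g) : Bd (fun x => T.E (fun y => hom g (x * y))) := by
  obtain ⟨C, hC⟩ := hg
  exact ⟨3 * C, fun x hx => T.abs_le fun y hy => Bd.homr hC hx hy⟩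

noncomputable def star : St where
  E g := S.E (fun x => T.E (fun y => hom g (x * y)))
  mono f g hf hg h := S.mono _ _ (T.bd_inner hf) (T.bd_inner hg) fun x hx =>
    T.mono _ _ (hf.homl hx) (hg.homl hx) fun y hy => hom_mono h (mul_nn hx.1 hy.1)
  add f g hf hg := by
    rw [← S.add _ _ (T.bd_inner hf) (T.bd_inner hg)]
    refine S.congr (T.bd_inner (hf.add hg)) fun x hx => ?_
    simp only [hom_add]
    exact T.add _ _ (hf.homl hx) (hg.homl hx)
  cmul c f hf := by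
    rw [← S.cmul _ _ (T.bd_inner hf)]
    refine S.congr (T.bd_inner (hf.cmul c)) fun x hx => ?_
    simp only [hom_cmul]
    exact T.cmul _ _ (hf.homl hx)
  one := by
    refine Eq.trans (S.congr (g := fun _ => 1) (T.bd_inner (Bd.const 1)) fun x hx => ?_) S.one
    simp only [hom_one]
    exact T.av_mul hx
  sym τ f hf := by
    rw [← S.sym τ _ (T.bd_inner hf)]
    refine S.congr (T.bd_inner (hf.perm τ)) fun x hx => ?_
    simp only [hom_perm]
    exact T.sym τ (fun y => hom f ((x ∘ τ) * y)) (hf.homl (hx.perm τ))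

end St

noncomputable def ch (l : ℝ) (x : V) : V := fun i => 1 + l * (x i - 1)

theorem Dl.ch {l : ℝ} (h0 : 0 ≤ l) (h1 : l ≤ 1) {x : V} (hx : Dl x) : Dl (ch l x) := by
  refine ⟨fun i => ?_, ?_⟩
  · have := mul_nonneg h0 (hx.1 i)
    simp only [P154.ch]; nlinarith
  · have := hx.2
    simp only [P154.ch]
    have e : l * (x 0 + x 1 + x 2) = l * 3 := by rw [this]
    linarith

theorem Bd.ch {l : ℝ} (h0 : 0 ≤ l) (h1 : l ≤ 1) {g : V → ℝ} (hg : Bd g) :
    Bd (fun x => g (ch l x)) := by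
  obtain ⟨C, hC⟩ := hg
  exact ⟨C, fun x hx => hC _ (hx.ch h0 h1)⟩

namespace St

noncomputable def chan (S : St) (l : ℝ) (h0 : 0 ≤ l) (h1 : l ≤ 1) : St where
  E g := S.E (fun x => g (ch l x))
  mono f g hf hg h := S.mono _ _ (hf.ch h0 h1) (hg.ch h0 h1) fun x hx => h _ (hx.ch h0 h1)
  add f g hf hg := S.add _ _ (hf.ch h0 h1) (hg.ch h0 h1)
  cmul c f hf := S.cmul _ _ (hf.ch h0 h1)
  one := S.one
  sym τ f hf := S.sym τ (fun x => f (ch l x)) (hf.ch h0 h1)

theorem Dl_one : Dl (fun _ => 1) := ⟨fun _ => zero_le_one, by norm_num⟩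

noncomputable def triv : St where
  E g := g (fun _ => 1)
  mono _ _ _ _ h := h _ Dl_one
  add _ _ _ _ := rfl
  cmul _ _ _ := rfl
  one := rfl
  sym _ _ _ := rfl

noncomputable def vtx (j : Fin 3) : V := fun i => if i = j then 3 else 0

theorem Dl_vtx (j : Fin 3) : Dl (vtx j) := by
  refine ⟨fun i => ?_, ?_⟩
  · unfold vtx; split_ifs <;> norm_num
  · fin_cases j <;> simp [vtx]

noncomputable def init : St where
  E g := ∑ j, 1 / 3 * g (vtx j)
  mono _ _ _ _ h := Finset.sum_le_sum fun j _ =>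
    mul_le_mul_of_nonneg_left (h _ (Dl_vtx j)) (by norm_num)
  add _ _ _ _ := by simp only [mul_add, Finset.sum_add_distrib]
  cmul _ _ _ := by simp only [Finset.mul_sum]; exact Finset.sum_congr rfl fun _ _ => by ring
  one := by simp
  sym τ f _ := by
    rw [← Equiv.sum_comp τ]
    refine Finset.sum_congr rfl fun j _ => ?_
    have e : vtx (τ j) ∘ τ = vtx j := by
      funext i
      simp [vtx]
    simp only [e]

theorem summable_mix {p : ℕ → ℝ} (hp : ∀ k, 0 ≤ p k) (hs : HasSum p 1) (S : ℕ → St)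
    {g : V → ℝ} (hg : Bd g) : Summable fun k => p k * (S k).E g := by
  obtain ⟨C, hC⟩ := hg
  refine Summable.of_norm_bounded (hs.summable.mul_right C) fun k => ?_
  rw [Real.norm_eq_abs, abs_mul, abs_of_nonneg (hp k)]
  exact mul_le_mul_of_nonneg_left ((S k).abs_le hC) (hp k)

noncomputable def mix (p : ℕ → ℝ) (hp : ∀ k, 0 ≤ p k) (hs : HasSum p 1) (S : ℕ → St) : St where
  E g := ∑' k, p k * (S k).E g
  mono f g hf hg h := (summable_mix hp hs S hf).tsum_le_tsum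
    (fun k => mul_le_mul_of_nonneg_left ((S k).mono f g hf hg h) (hp k)) (summable_mix hp hs S hg)
  add f g hf hg := by
    rw [← (summable_mix hp hs S hf).tsum_add (summable_mix hp hs S hg)]
    exact tsum_congr fun k => by rw [(S k).add f g hf hg]; ring
  cmul c f hf := by
    rw [← tsum_mul_left]
    exact tsum_congr fun k => by rw [(S k).cmul c f hf]; ring
  one := by simp only [St.one, mul_one]; exact hs.tsum_eq
  sym τ f hf := tsum_congr fun k => by rw [(S k).sym τ f hf]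

noncomputable def pow (T : St) : ℕ → St
  | 0 => triv
  | k + 1 => T.star (pow T k)

noncomputable def seq (l : ℝ) (h0 : 0 ≤ l) (h1 : l ≤ 1) (p : ℕ → ℝ) (hp : ∀ k, 0 ≤ p k)
    (hs : HasSum p 1) : ℕ → St
  | 0 => init
  | n + 1 => mix p hp hs (pow ((seq l h0 h1 p hp hs n).chan l h0 h1))

end St

end Vale.Agent.P154
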